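import Mathlib

/-!
# Bullett-Macdonald relations and the Milnor primitives

`s : ℕ → R` is a family in a ring of characteristic two which satisfies the Bullett-Macdonald
coefficient relations, `h 0` is a degree operator and `h (i+1) = [s (2^i), h i]`.
Then `s a * h i = h i * s a + h (i+1) * s (a - 2^i)` for all `a`, `i`, the `h i` commute and have
square zero (`i ≥ 1`).
-/

namespace Vale.Agent.P263.EX.BM

open Finset Polynomial

variable {R : Type*} [Ring R]

/-- the polynomial weight of the pair `(a, b)` -/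
noncomputable def wt (R : Type*) [Ring R] (a b : ℕ) : R[X] :=
  (1 + X) ^ a * X ^ (2 * b) + X ^ a * (1 + X) ^ a

/-- Bullett-Macdonald relations, written by total degree. -/
def Rel (s : ℕ → R) : Prop :=
  ∀ n : ℕ, ∑ a ∈ range (n + 1), C (s a * s (n - a)) * wt R a (n - a) = 0

/-- shifted family: `s (a - K)`, zero for `a < K` -/
def sh (s : ℕ → R) (K a : ℕ) : R := if K ≤ a then s (a - K) else 0

theorem sh_add (s : ℕ → R) (K a : ℕ) : sh s K (a + K) = s a := by
  simp [sh]

theorem sh_lt (s : ℕ → R) {K a : ℕ} (h : a < K) : sh s K a = 0 := by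
  simp [sh, Nat.not_le.mpr h]

theorem sh_self (s : ℕ → R) (K : ℕ) : sh s K K = s 0 := by
  simp [sh]

theorem comm_one_add_X_pow (p : R[X]) (a : ℕ) : (1 + X) ^ a * p = p * (1 + X) ^ a := by
  have h : Commute ((1 : R[X]) + X) p := (Commute.one_left p).add_left (commute_X p)
  exact (h.pow_left a).eq

theorem comm_X_pow (p : R[X]) (a : ℕ) : X ^ a * p = p * X ^ a :=
  ((commute_X p).pow_left a).eq

theorem comm_wt (p : R[X]) (a b : ℕ) : wt R a b * p = p * wt R a b := by
  have h1 : ∀ k, Commute ((1 + X) ^ k) p := fun k => comm_one_add_X_pow p k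
  have h2 : ∀ k, Commute (X ^ k) p := fun k => comm_X_pow p k
  exact (((h1 a).mul_left (h2 (2 * b))).add_left ((h2 a).mul_left (h1 a))).eq

/-- The coefficient of `t^j` in `t^a (1+t)^a`. -/
def cc (a j : ℕ) : ℕ := if a ≤ j then a.choose (j - a) else 0

theorem cc_self (j : ℕ) : cc j j = 1 := by simp [cc]

theorem cc_lt {a j : ℕ} (h : j < a) : cc a j = 0 := by simp [cc, Nat.not_le.mpr h]

theorem coeff_second (a j : ℕ) (r : R) :
    (C r * (X ^ a * (1 + X) ^ a)).coeff j = r * (cc a j : R) := by
  rw [coeff_C_mul, coeff_X_pow_mul']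
  congr 1
  unfold cc
  split_ifs
  · rw [coeff_one_add_X_pow]
  · simp

theorem coeff_first (a b j : ℕ) (r : R) :
    (C r * ((1 + X) ^ a * X ^ (2 * b))).coeff j =
      r * ((if 2 * b ≤ j then a.choose (j - 2 * b) else 0 : ℕ) : R) := by
  rw [coeff_C_mul, coeff_mul_X_pow']
  congr 1
  split_ifs
  · rw [coeff_one_add_X_pow]
  · simp

theorem coeff_wt (a b j : ℕ) (r : R) :
    (C r * wt R a b).coeff j =
      r * ((if 2 * b ≤ j then a.choose (j - 2 * b) else 0 : ℕ) : R) + r * (cc a j : R) := by
  rw [wt, mul_add (C r), coeff_add, coeff_first, coeff_second]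

/-- coefficient form of the relations -/
theorem Rel.coeff {s : ℕ → R} (hs : Rel s) (n j : ℕ) :
    ∑ a ∈ range (n + 1), s a * s (n - a) *
      (((if 2 * (n - a) ≤ j then a.choose (j - 2 * (n - a)) else 0 : ℕ) : R) + (cc a j : R)) = 0 := by
  have h := congrArg (fun p => Polynomial.coeff p j) (hs n)
  simp only [finsetSum_coeff, coeff_zero] at h
  rw [← h]
  refine sum_congr rfl fun a _ => ?_
  rw [wt, mul_add (C (s a * s (n - a))), coeff_add, coeff_first, coeff_second, mul_add]

/-- the coefficient form implies the relations -/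
theorem rel_of_coeff {s : ℕ → R} (hs : ∀ n j, ∑ a ∈ range (n + 1), s a * s (n - a) *
      (((if 2 * (n - a) ≤ j then a.choose (j - 2 * (n - a)) else 0 : ℕ) : R) + (cc a j : R)) = 0) :
    Rel s := by
  intro n
  ext j
  rw [finsetSum_coeff, coeff_zero, ← hs n j]
  refine sum_congr rfl fun a _ => ?_
  rw [coeff_wt, mul_add]

theorem add_self_zero {A : Type*} [Ring A] [Algebra (ZMod 2) A] (x : A) : x + x = 0 := by
  have h : (2 : ZMod 2) = 0 := by decide
  calc x + x = (2 : ZMod 2) • x := by rw [two_smul]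
    _ = 0 := by rw [h, zero_smul]

theorem eq_of_add_zero {A : Type*} [Ring A] [Algebra (ZMod 2) A] {x y : A} (h : x + y = 0) :
    x = y := by
  have h1 : x + y + y = y := by rw [h, zero_add]
  rwa [add_assoc, add_self_zero, add_zero] at h1

variable [Algebra (ZMod 2) R]

/-- `s 1 * s (n-1) = n s n` -/
theorem one_mul_s {s : ℕ → R} (h0 : s 0 = 1) (hs : Rel s) (n : ℕ) :
    s 1 * s n = ((n + 1 : ℕ) : R) * s (n + 1) := by
  have h := hs.coeff (n + 1) 1
  rw [sum_range_succ] at h
  have h1 : ∀ a ∈ range (n + 1), s a * s (n + 1 - a) *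
      (((if 2 * (n + 1 - a) ≤ 1 then a.choose (1 - 2 * (n + 1 - a)) else 0 : ℕ) : R) +
        (cc a 1 : R)) = s a * s (n + 1 - a) * (cc a 1 : R) := by
    intro a ha
    have : ¬ 2 * (n + 1 - a) ≤ 1 := by
      have := mem_range.mp ha; omega
    rw [if_neg this]; simp
  rw [sum_congr rfl h1] at h
  have h2 : ∑ a ∈ range (n + 1), s a * s (n + 1 - a) * (cc a 1 : R) +
      s (n + 1) * s 0 * (cc (n + 1) 1 : R) = s 1 * s n := by
    have := (sum_range_succ (fun a => s a * s (n + 1 - a) * (cc a 1 : R)) (n + 1)).symm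
    simp only [Nat.sub_self] at this
    rw [this, sum_eq_single 1]
    · simp [cc]
    · intro a _ ha
      rcases Nat.lt_or_ge 1 a with h' | h'
      · rw [cc_lt h']; simp
      · have : a = 0 := by omega
        subst this
        simp [cc]
    · intro hn
      exact absurd (mem_range.mpr (by omega)) hn
  have h3 : s (n + 1) * s (n + 1 - (n + 1)) *
      (((if 2 * (n + 1 - (n + 1)) ≤ 1 then (n + 1).choose (1 - 2 * (n + 1 - (n + 1))) else 0 : ℕ) : R)
        + (cc (n + 1) 1 : R)) =
      s (n + 1) * s 0 * (cc (n + 1) 1 : R) + s (n + 1) * ((n + 1 : ℕ) : R) := by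
    simp only [Nat.sub_self, mul_zero, Nat.zero_le, if_true, Nat.sub_zero, Nat.choose_one_right]
    rw [mul_add, h0, mul_one, add_comm]
  rw [h3, ← add_assoc, h2] at h
  have h4 : s 1 * s n = s (n + 1) * ((n + 1 : ℕ) : R) := by
    have := congrArg (fun x => x + s (n + 1) * ((n + 1 : ℕ) : R)) h
    simp only [add_assoc, add_self_zero, add_zero, zero_add] at this
    exact this
  rw [h4, (Nat.cast_commute (n + 1) (s (n + 1))).eq]

/-- the Milnor primitives built from a degree operator -/
structure Prim (s : ℕ → R) (h : ℕ → R) : Prop where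
  zero : ∀ a : ℕ, s a * h 0 = h 0 * s a + (a : R) * s a
  succ : ∀ i : ℕ, h (i + 1) = s (2 ^ i) * h i + h i * s (2 ^ i)

/-- the commutation relation at level `i` -/
def Com (s : ℕ → R) (h : ℕ → R) (i : ℕ) : Prop :=
  ∀ a : ℕ, s a * h i = h i * s a + h (i + 1) * sh s (2 ^ i) a

theorem Prim.one {s h : ℕ → R} (hp : Prim s h) : h 1 = s 1 := by
  rw [hp.succ 0, pow_zero, hp.zero 1, Nat.cast_one, one_mul, add_comm (h 0 * s 1), add_assoc,
    add_self_zero, add_zero]

theorem com_zero {s h : ℕ → R} (h0 : s 0 = 1) (hs : Rel s) (hp : Prim s h) : Com s h 0 := by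
  intro a
  rw [hp.zero a, hp.one]
  congr 1
  rcases a with _ | a
  · simp [sh]
  · rw [pow_zero, sh_add, one_mul_s h0 hs]

theorem one_add_X_pow_two_pow (i : ℕ) : ((1 : R[X]) + X) ^ (2 ^ i) = 1 + X ^ (2 ^ i) := by
  induction i with
  | zero => simp
  | succ i ih =>
    rw [pow_succ, pow_mul, ih, pow_mul, sq, mul_add, add_mul, add_mul, one_mul, mul_one, one_mul,
      sq, ← add_assoc, add_assoc (1 : R[X])]
    have : X ^ 2 ^ i + X ^ 2 ^ i = (0 : R[X]) := add_self_zero _
    rw [this, add_zero]

theorem wt_shift_left (i a b : ℕ) :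
    wt R (a + 2 ^ i) b = (1 + X ^ (2 ^ i)) * ((1 + X) ^ a * X ^ (2 * b)) +
      (1 + X ^ (2 ^ i)) * (X ^ (2 ^ i) * (X ^ a * (1 + X) ^ a)) := by
  have e := one_add_X_pow_two_pow (R := R) i
  unfold wt
  congr 1
  · rw [pow_add, e, ← mul_assoc, ← e, comm_one_add_X_pow ((1 + X) ^ a) (2 ^ i)]
  · rw [pow_add, pow_add, ← e, mul_assoc (X ^ a) (X ^ 2 ^ i), ← mul_assoc (X ^ 2 ^ i) ((1 + X) ^ a),
      comm_X_pow ((1 + X) ^ a) (2 ^ i), ← mul_assoc (X ^ a), ← mul_assoc (X ^ a)]
    rw [comm_X_pow (X ^ a * (1 + X) ^ a) (2 ^ i), comm_one_add_X_pow _ (2 ^ i)]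

omit [Algebra (ZMod 2) R] in
theorem C_mul_wt_mul (r x : R) (a b : ℕ) : C r * wt R a b * C x = C (r * x) * wt R a b := by
  rw [mul_assoc, comm_wt, ← mul_assoc, ← C_mul]

omit [Algebra (ZMod 2) R] in
theorem comm_fac (K : ℕ) (p : R[X]) : (1 + X ^ K) * p = p * (1 + X ^ K) := by
  rw [add_mul, mul_add, one_mul, mul_one, comm_X_pow]

theorem fac_sq (K : ℕ) : ((1 : R[X]) + X ^ K) * (1 + X ^ K) = 1 + X ^ (2 * K) := by
  have : X ^ K + X ^ K = (0 : R[X]) := add_self_zero _
  rw [mul_add, add_mul, add_mul, one_mul, mul_one, one_mul, ← pow_add, ← two_mul, ← add_assoc,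
    add_assoc (1 : R[X]), this, add_zero]

omit [Algebra (ZMod 2) R] in
theorem pull_fac (K : ℕ) (r q : R[X]) : r * ((1 + X ^ K) * q) = (1 + X ^ K) * (r * q) := by
  rw [← mul_assoc, ← comm_fac, mul_assoc]

omit [Algebra (ZMod 2) R] in
theorem pull_X (K : ℕ) (r q : R[X]) : r * (X ^ K * q) = X ^ K * (r * q) := by
  rw [← mul_assoc, ← comm_X_pow, mul_assoc]

/-- key identity `(*)` -/
theorem key {s h : ℕ → R} (hs : Rel s) {i : ℕ} (hc : Com s h i) (N : ℕ) :
    (1 + X ^ (2 * 2 ^ i)) * ∑ a ∈ range (N + 1),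
        C (h (i + 1) * (s a * s (N - a))) * (X ^ a * (1 + X) ^ a) =
      ∑ a ∈ range (N + 1), C (s a * h (i + 1) * s (N - a)) * wt R a (N - a + 2 ^ i) := by
  set K := 2 ^ i with hK
  set H := h (i + 1) with hH
  have e0 := hs (N + K)
  have e1 : ∑ a ∈ range (N + K + 1), C (s a * s (N + K - a) * h i) * wt R a (N + K - a) = 0 := by
    have := congrArg (fun p => p * C (h i)) e0
    simp only [zero_mul] at this
    rw [sum_mul] at this
    rw [← this]
    exact sum_congr rfl fun a _ => (C_mul_wt_mul _ _ _ _).symm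
  have e2 : ∀ a ∈ range (N + K + 1), C (s a * s (N + K - a) * h i) * wt R a (N + K - a) =
      C (h i) * (C (s a * s (N + K - a)) * wt R a (N + K - a)) +
      (C (H * (sh s K a * s (N + K - a))) * wt R a (N + K - a) +
      C (s a * H * sh s K (N + K - a)) * wt R a (N + K - a)) := by
    intro a _
    have e3 : s a * s (N + K - a) * h i = h i * (s a * s (N + K - a)) +
        (H * (sh s K a * s (N + K - a)) + s a * H * sh s K (N + K - a)) := by
      rw [mul_assoc, hc (N + K - a), mul_add, ← mul_assoc, hc a, add_mul]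
      simp only [mul_assoc, add_assoc, ← hH, ← hK]
    rw [e3, C_add, C_add, add_mul, add_mul, C_mul, mul_assoc]
  rw [sum_congr rfl e2, sum_add_distrib, sum_add_distrib, ← mul_sum, e0, mul_zero, zero_add] at e1
  -- first shifted sum
  have f1 : ∑ a ∈ range (N + K + 1), C (H * (sh s K a * s (N + K - a))) * wt R a (N + K - a) =
      ∑ a ∈ range (N + 1), C (H * (s a * s (N - a))) * wt R (a + K) (N - a) := by
    rw [show N + K + 1 = K + (N + 1) by ring, sum_range_add]
    rw [sum_eq_zero, zero_add]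
    · refine sum_congr rfl fun a _ => ?_
      rw [add_comm K a, sh_add, show N + K - (a + K) = N - a by omega]
    · intro a ha
      rw [sh_lt s (mem_range.mp ha)]
      simp
  have f2 : ∑ a ∈ range (N + K + 1), C (s a * H * sh s K (N + K - a)) * wt R a (N + K - a) =
      ∑ a ∈ range (N + 1), C (s a * H * s (N - a)) * wt R a (N - a + K) := by
    rw [show N + K + 1 = (N + 1) + K by ring, sum_range_add, add_eq_left.mpr]
    · refine sum_congr rfl fun a ha => ?_
      have := mem_range.mp ha
      rw [Nat.sub_add_comm (by omega : a ≤ N), sh_add]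
    · refine sum_eq_zero fun a ha => ?_
      have h1 := mem_range.mp ha
      have h3 : 0 < K := by positivity
      have h2 : N + K - (N + 1 + a) < K := by omega
      rw [sh_lt s h2]
      simp
  rw [f1, f2] at e1
  -- rewrite the first sum with the relation in degree `N`
  have g1 : ∑ a ∈ range (N + 1), C (H * (s a * s (N - a))) * wt R (a + K) (N - a) =
      (1 + X ^ (2 * K)) * ∑ a ∈ range (N + 1), C (H * (s a * s (N - a))) * (X ^ a * (1 + X) ^ a) := by
    have hN := hs N
    have hN' : ∑ a ∈ range (N + 1), C (s a * s (N - a)) * ((1 + X) ^ a * X ^ (2 * (N - a))) =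
        ∑ a ∈ range (N + 1), C (s a * s (N - a)) * (X ^ a * (1 + X) ^ a) := by
      simp only [wt, mul_add, sum_add_distrib] at hN
      exact eq_of_add_zero hN
    have hN2 : ∑ a ∈ range (N + 1), C (H * (s a * s (N - a))) * ((1 + X) ^ a * X ^ (2 * (N - a))) =
        ∑ a ∈ range (N + 1), C (H * (s a * s (N - a))) * (X ^ a * (1 + X) ^ a) := by
      have := congrArg (fun p => C H * p) hN'
      simp only [mul_sum] at this
      rw [← sub_eq_zero, ← sum_sub_distrib] at this ⊢
      rw [← this]
      refine sum_congr rfl fun a _ => ?_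
      rw [C_mul, mul_assoc, mul_assoc]
    have g2 : ∀ a ∈ range (N + 1), C (H * (s a * s (N - a))) * wt R (a + K) (N - a) =
        (1 + X ^ K) * (C (H * (s a * s (N - a))) * ((1 + X) ^ a * X ^ (2 * (N - a)))) +
        (1 + X ^ K) * (X ^ K * (C (H * (s a * s (N - a))) * (X ^ a * (1 + X) ^ a))) := by
      intro a _
      rw [hK, wt_shift_left, ← hK, mul_add, pull_fac, pull_fac, pull_X]
    rw [sum_congr rfl g2, sum_add_distrib, ← mul_sum, ← mul_sum, ← mul_sum, hN2, ← mul_add]
    set S := ∑ a ∈ range (N + 1), C (H * (s a * s (N - a))) * (X ^ a * (1 + X) ^ a)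
    rw [show S + X ^ K * S = (1 + X ^ K) * S by rw [add_mul, one_mul], ← mul_assoc, fac_sq]
  rw [g1] at e1
  exact eq_of_add_zero e1

/-- coefficient `t^j`, `j < 2K`, of the key identity -/
theorem key_coeff_lt {s h : ℕ → R} (hs : Rel s) {i : ℕ} (hc : Com s h i) (N j : ℕ)
    (hj : j < 2 * 2 ^ i) :
    ∑ a ∈ range (N + 1), h (i + 1) * (s a * s (N - a)) * (cc a j : R) =
      ∑ a ∈ range (N + 1), s a * h (i + 1) * s (N - a) * (cc a j : R) := by
  have e := congrArg (fun p => Polynomial.coeff p j) (key hs hc N)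
  simp only [add_mul, one_mul, coeff_add, finsetSum_coeff, coeff_wt, coeff_second] at e
  rw [coeff_X_pow_mul', if_neg (by omega), add_zero] at e
  rw [e]
  refine sum_congr rfl fun a _ => ?_
  rw [if_neg (by omega)]
  simp

/-- coefficient `t^{2K}` of the key identity -/
theorem key_coeff_eq {s h : ℕ → R} (h0 : s 0 = 1) (hs : Rel s) {i : ℕ} (hc : Com s h i) (N : ℕ) :
    ∑ a ∈ range (N + 1), h (i + 1) * (s a * s (N - a)) * (cc a (2 * 2 ^ i) : R) +
        h (i + 1) * s N =
      s N * h (i + 1) +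
      ∑ a ∈ range (N + 1), s a * h (i + 1) * s (N - a) * (cc a (2 * 2 ^ i) : R) := by
  have e := congrArg (fun p => Polynomial.coeff p (2 * 2 ^ i)) (key hs hc N)
  simp only [add_mul, one_mul, coeff_add, finsetSum_coeff, coeff_wt, coeff_second] at e
  rw [coeff_X_pow_mul', if_pos le_rfl, Nat.sub_self] at e
  simp only [finsetSum_coeff, coeff_second] at e
  have e1 : ∑ a ∈ range (N + 1), h (i + 1) * (s a * s (N - a)) * (cc a 0 : R) =
      h (i + 1) * s N := by
    rw [sum_eq_single 0]
    · simp [cc, h0]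
    · intro a _ ha
      rw [cc_lt (Nat.pos_of_ne_zero ha)]; simp
    · intro hn
      exact absurd (mem_range.mpr (by omega)) hn
  rw [e1] at e
  rw [e, sum_add_distrib]
  congr 1
  rw [sum_eq_single N]
  · rw [if_pos (by omega)]
    simp [h0]
  · intro a ha hne
    have := mem_range.mp ha
    rw [if_neg (by omega)]
    simp
  · intro hn
    exact absurd (mem_range.mpr (by omega)) hn

/-- `s a` commutes with `h (i+1)` for `a < 2^(i+1)` -/
theorem comm_of_lt {s h : ℕ → R} (h0 : s 0 = 1) (hs : Rel s) {i : ℕ} (hc : Com s h i) :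
    ∀ j, j < 2 * 2 ^ i → s j * h (i + 1) = h (i + 1) * s j := by
  intro j
  induction j using Nat.strong_induction_on with
  | _ j ih =>
    intro hj
    have e := key_coeff_lt hs hc j j hj
    rw [sum_range_succ, sum_range_succ, Nat.sub_self, h0, cc_self] at e
    simp only [Nat.cast_one, mul_one] at e
    have e1 : ∑ a ∈ range j, h (i + 1) * (s a * s (j - a)) * (cc a j : R) =
        ∑ a ∈ range j, s a * h (i + 1) * s (j - a) * (cc a j : R) := by
      refine sum_congr rfl fun a ha => ?_
      have ha' := mem_range.mp ha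
      rw [ih a ha' (by omega), mul_assoc (h (i + 1)) (s a)]
    rw [e1] at e
    exact (add_left_cancel e).symm

/-- **Commutation of the squares with the Milnor primitives.** -/
theorem com {s h : ℕ → R} (h0 : s 0 = 1) (hs : Rel s) (hp : Prim s h) (i : ℕ) : Com s h i := by
  induction i with
  | zero => exact com_zero h0 hs hp
  | succ i ih =>
    intro N
    have e := key_coeff_eq h0 hs ih N
    set K := 2 * 2 ^ i with hK
    have hK2 : 2 ^ (i + 1) = K := by rw [pow_succ, hK, mul_comm]
    -- the difference of the two sums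
    have e1 : ∑ a ∈ range (N + 1), h (i + 1) * (s a * s (N - a)) * (cc a K : R) +
        ∑ a ∈ range (N + 1), s a * h (i + 1) * s (N - a) * (cc a K : R) =
        h (i + 2) * sh s K N := by
      rw [← sum_add_distrib]
      have t : ∀ a ∈ range (N + 1), h (i + 1) * (s a * s (N - a)) * (cc a K : R) +
          s a * h (i + 1) * s (N - a) * (cc a K : R) =
          if a = K then h (i + 2) * s (N - a) else 0 := by
        intro a _
        rcases lt_trichotomy a K with hl | he | hg
        · rw [if_neg hl.ne, comm_of_lt h0 hs ih a hl, mul_assoc (h (i + 1)) (s a)]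
          exact add_self_zero _
        · rw [if_pos he, he, cc_self, Nat.cast_one, mul_one, mul_one, ← mul_assoc, ← add_mul,
            hp.succ (i + 1), hK2, add_comm]
        · rw [if_neg hg.ne', cc_lt hg]; simp
      rw [sum_congr rfl t, sum_ite_eq']
      unfold sh
      by_cases hKN : K ≤ N
      · rw [if_pos (mem_range.mpr (by omega)), if_pos hKN]
      · rw [if_neg (fun hm => hKN (by have := mem_range.mp hm; omega)), if_neg hKN, mul_zero]
    have e2 : s N * h (i + 1) = h (i + 1) * s N + h (i + 2) * sh s K N := by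
      rw [← e1]
      set A := ∑ a ∈ range (N + 1), h (i + 1) * (s a * s (N - a)) * (cc a K : R)
      set B := ∑ a ∈ range (N + 1), s a * h (i + 1) * s (N - a) * (cc a K : R)
      have : s N * h (i + 1) = (A + h (i + 1) * s N) + B := by
        rw [e, add_assoc, add_self_zero, add_zero]
      rw [this]; abel
    rw [hK2]
    exact e2

/-- `s a` commutes with `h i` for `a < 2^i`. -/
theorem comm_small {s h : ℕ → R} (h0 : s 0 = 1) (hs : Rel s) (hp : Prim s h) {i a : ℕ}
    (ha : a < 2 ^ i) : s a * h i = h i * s a := by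
  rw [com h0 hs hp i a, sh_lt s ha, mul_zero, add_zero]

theorem h_one_sq {s h : ℕ → R} (h0 : s 0 = 1) (hs : Rel s) (hp : Prim s h) : h 1 * h 1 = 0 := by
  rw [hp.one, one_mul_s h0 hs, show ((1 + 1 : ℕ) : R) = 0 by
    rw [Nat.cast_add, Nat.cast_one]; exact add_self_zero _, zero_mul]

omit [Algebra (ZMod 2) R] in
/-- `h i` commutes with `h (i+1)` if `h i` has square zero. -/
theorem comm_next {s h : ℕ → R} (hp : Prim s h) {i : ℕ} (hi : h i * h i = 0) :
    h i * h (i + 1) = h (i + 1) * h i := by
  rw [hp.succ i, mul_add, add_mul, ← mul_assoc, ← mul_assoc, hi, zero_mul, add_zero, mul_assoc (s _),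
    hi, mul_zero, zero_add]

/-- The Milnor primitives have square zero. -/
theorem sq_zero {s h : ℕ → R} (h0 : s 0 = 1) (hs : Rel s) (hp : Prim s h) (i : ℕ) :
    h (i + 1) * h (i + 1) = 0 := by
  induction i with
  | zero => exact h_one_sq h0 hs hp
  | succ i ih =>
    have hc := com h0 hs hp (i + 1)
    have hn := comm_next hp ih
    -- multiply the commutation relation for `a = 2^(i+2)` by `h (i+1)` on the right
    have a1 := hc (2 ^ (i + 1) + 2 ^ (i + 1))
    have a2 := hc (2 ^ (i + 1))
    rw [sh_add] at a1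
    rw [sh_self, h0, mul_one] at a2
    have a3 : s (2 ^ (i + 1) + 2 ^ (i + 1)) * h (i + 1) * h (i + 1) = 0 := by
      rw [mul_assoc, ih, mul_zero]
    rw [a1, add_mul, mul_assoc, mul_assoc, a1, a2, mul_add, mul_add, ← mul_assoc, ih, zero_mul,
      zero_add, ← mul_assoc, ← mul_assoc, hn, ← add_assoc, add_self_zero, zero_add] at a3
    exact a3

/-- The Milnor primitives commute. -/
theorem comm_prim {s h : ℕ → R} (h0 : s 0 = 1) (hs : Rel s) (hp : Prim s h) :
    ∀ j i, i < j → h (i + 1) * h (j + 1) = h (j + 1) * h (i + 1) := by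
  intro j
  induction j with
  | zero => intro i hi; exact absurd hi (Nat.not_lt_zero i)
  | succ j ih =>
    intro i hij
    rcases Nat.lt_or_ge i j with hlt | hge
    · -- `h (j+2) = [s_a, h (j+1)]`, `a = 2^(j+1)`
      have hpow : 2 ^ (i + 1) < 2 ^ (j + 1) := Nat.pow_lt_pow_right (by norm_num) (by omega)
      set a := 2 ^ (j + 1) with ha
      have c1 := com h0 hs hp (i + 1) a
      have hsh : sh s (2 ^ (i + 1)) a = s (a - 2 ^ (i + 1)) := by
        unfold sh; rw [if_pos hpow.le]
      rw [hsh] at c1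
      set b := a - 2 ^ (i + 1) with hb
      have c2 : s b * h (j + 1) = h (j + 1) * s b :=
        comm_small h0 hs hp (by rw [← ha]; have : 0 < 2 ^ (i + 1) := by positivity
                                omega)
      have c3 : h (i + 1) * h (j + 1) = h (j + 1) * h (i + 1) := ih i hlt
      have c4 : h (i + 2) * h (j + 1) = h (j + 1) * h (i + 2) := by
        rcases Nat.lt_or_ge (i + 1) j with h1 | h1
        · exact ih (i + 1) h1
        · have : j = i + 1 := by omega
          subst this; rfl
      -- s_a h_{i+1} = h_{i+1} s_a + h_{i+2} s_b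
      have c5 : h (i + 1) * s a = s a * h (i + 1) + h (i + 2) * s b := by
        rw [c1, add_assoc, add_self_zero, add_zero]
      rw [hp.succ (j + 1), ← ha, mul_add, add_mul, ← mul_assoc, c5, add_mul, mul_assoc (s a), c3,
        mul_assoc (h (i + 2)), c2, ← mul_assoc (h (i + 2)), c4, ← mul_assoc (h (i + 1)), c3,
        mul_assoc (h (j + 1)) (h (i + 1)), c5, mul_add]
      simp only [mul_assoc]
      have := add_self_zero (h (j + 1) * (h (i + 2) * s b))
      rw [add_assoc, add_comm (h (j + 1) * (h (i + 2) * s b)), add_assoc, this, add_zero]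
    · have : i = j := by omega
      rw [this]
      exact comm_next hp (sq_zero h0 hs hp j)

end Vale.Agent.P263.EX.BM
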