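import Vale.Agent.P263.EX.DSDefs

/-! P263, block DS, part 1: formulas for `P` on generators, homogeneity, instability. -/

namespace Vale.Agent.P263.EX.DS

open Polynomial Vale.Agent.P263.LZ

lemma two (n : ℕ) : (2 : (D n)) = 0 := CharTwo.two_eq_zero
lemma two' (n : ℕ) : (2 : (D n)[X]) = 0 := CharTwo.two_eq_zero

lemma A_zero (n : ℕ) : A n 0 = C (q n 0) := by
  unfold A
  rw [Finset.sum_range_succ, Finset.sum_range_zero, zero_add]
  rw [Nat.sub_self, pow_zero, mul_one]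

lemma A_succ (n j : ℕ) : A n (j + 1) = C (q n (j + 1)) + X ^ (2 ^ j) * A n j := by
  have h : A n (j + 1) = ∑ l ∈ Finset.range (j + 1), C (q n l) * X ^ (2 ^ (j + 1) - 2 ^ l) +
      C (q n (j + 1)) * X ^ (2 ^ (j + 1) - 2 ^ (j + 1)) := Finset.sum_range_succ _ _
  have h' : ∑ l ∈ Finset.range (j + 1), C (q n l) * X ^ (2 ^ (j + 1) - 2 ^ l) =
      X ^ (2 ^ j) * A n j := by
    unfold A
    rw [Finset.mul_sum]
    refine Finset.sum_congr rfl fun l hl => ?_
    have hl' : 2 ^ l ≤ 2 ^ j := Nat.pow_le_pow_right (by norm_num) (by simp at hl; omega)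
    have : 2 ^ (j + 1) - 2 ^ l = 2 ^ j + (2 ^ j - 2 ^ l) := by rw [pow_succ]; omega
    rw [this, pow_add]; ring
  rw [h, h', Nat.sub_self, pow_zero, mul_one]
  exact add_comm _ _

lemma B_self (n : ℕ) : B n n = 0 := by simp [B]

lemma B_step {n j : ℕ} (h : j < n) :
    B n j = B n (j + 1) + C (q n (j + 1)) * X ^ (2 ^ n - 2 ^ (j + 1)) := by
  have h1 : Finset.Ioc j n = insert (j + 1) (Finset.Ioc (j + 1) n) := by
    ext a; simp only [Finset.mem_insert, Finset.mem_Ioc]; omega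
  rw [B, h1, Finset.sum_insert (by simp), add_comm, B]

lemma F_eq {n j : ℕ} (h : j ≤ n) : F n = B n j + X ^ (2 ^ n - 2 ^ j) * A n j := by
  induction j with
  | zero =>
    have h1 : Finset.range (n + 1) = insert 0 (Finset.Ioc 0 n) := by
      ext a; simp only [Finset.mem_insert, Finset.mem_Ioc, Finset.mem_range]; omega
    rw [F, h1, Finset.sum_insert (by simp), A_zero, B]; ring
  | succ j ih =>
    rw [ih (by omega), B_step (by omega), A_succ]
    have h2 : 2 ^ (j + 1) ≤ 2 ^ n := Nat.pow_le_pow_right (by norm_num) h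
    have h3 : 2 ^ n - 2 ^ j = (2 ^ n - 2 ^ (j + 1)) + 2 ^ j := by rw [pow_succ] at *; omega
    rw [h3, pow_add]; ring

lemma gen_eq {n : ℕ} (j : Fin n) : (gen j : D n) = q n j := by rw [q_lt j.2]

lemma P_gen (n : ℕ) (j : Fin n) :
    P n (gen j) = C (q n j ^ 2) * X ^ (2 ^ n - 2 ^ (j : ℕ)) + A n j * B n j := by
  rw [P, lift_gen]

lemma P_q {n j : ℕ} (h : j ≤ n) :
    P n (q n j) = C (q n j ^ 2) * X ^ (2 ^ n - 2 ^ j) + A n j * B n j := by
  rcases h.lt_or_eq with h | rfl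
  · have := P_gen n ⟨j, h⟩
    rwa [gen_eq] at this
  · simp [B_self]

lemma P_q0 (n : ℕ) : P n (q n 0) = C (q n 0) * F n := by
  rw [P_q (Nat.zero_le n), F_eq (Nat.zero_le n), A_zero]
  simp only [map_pow]; ring

/-! ### homogeneity -/

lemma PHom.X1 (n k : ℕ) : PHom n (-1) (-(k : ℤ)) (X ^ k : (D n)[X]) :=
  ((PHom.X n (-1)).pow k).congr (by ring)

lemma PHom_term (n i k : ℕ) : PHom n (-1) (2 ^ n - 2 ^ i - (k : ℤ)) (C (q n i) * X ^ k) :=
  ((PHom.C (Hom.q n i)).mul (PHom.X1 n k)).congr (by ring)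

lemma PHom_A {n j : ℕ} : PHom n (-1) (2 ^ n - 2 ^ j) (A n j) := by
  refine PHom.sum _ _ fun l hl => ?_
  have hl' : 2 ^ l ≤ 2 ^ j := Nat.pow_le_pow_right (by norm_num) (by simp at hl; omega)
  refine (PHom_term n l _).congr ?_
  push_cast [hl']; ring

lemma PHom_B {n j : ℕ} : PHom n (-1) 0 (B n j) := by
  refine PHom.sum _ _ fun l hl => ?_
  have hl' : 2 ^ l ≤ 2 ^ n := Nat.pow_le_pow_right (by norm_num) (by simp at hl; omega)
  refine (PHom_term n l _).congr ?_
  push_cast [hl']; ring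

lemma PHom_F (n : ℕ) : PHom n (-1) 0 (F n) := by
  refine PHom.sum _ _ fun l hl => ?_
  have hl' : 2 ^ l ≤ 2 ^ n := Nat.pow_le_pow_right (by norm_num) (by simp at hl; omega)
  refine (PHom_term n l _).congr ?_
  push_cast [hl']; ring

lemma PHom_P {n : ℕ} {k : ℤ} {x : D n} (hx : Hom n k x) : PHom n (-1) k (P n x) := by
  refine hom_map (PHom n (-1)) (PHom.zero n _) (fun _ _ _ => PHom.add) (PHom.one n _)
    (fun _ _ _ _ => PHom.mul) (P n : D n →+* (D n)[X]) ?_ x k hx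
  intro j
  show PHom n (-1) _ (P n (gen j))
  rw [P_gen]
  have h2 : 2 ^ (j : ℕ) ≤ 2 ^ n := Nat.pow_le_pow_right (by norm_num) j.2.le
  refine PHom.add ?_ ?_
  · refine ((PHom.C ((Hom.q n j).pow 2)).mul (PHom.X1 n _)).congr ?_
    simp only [w]; push_cast [h2]; ring
  · refine (PHom_A.mul PHom_B).congr ?_
    simp only [w]; ring

lemma s_hom {n : ℕ} {k : ℤ} {x : D n} (hx : Hom n k x) (m a : ℕ) : Hom n (k + a) (s n m a x) := by
  have h : PHom n (-1) k (F n ^ m * P n x) :=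
    (((PHom_F n).pow m).mul (PHom_P hx)).congr (by ring)
  rw [s_apply]
  exact (h a).congr (by ring)

/-! ### instability -/

/-- `p` has degree at most `k` and its coefficient of degree `k` is `x^2`; and `x = 0` if `k < 0`. -/
def Inst (n : ℕ) (k : ℤ) (y : D n × (D n)[X]) : Prop :=
  (∀ a : ℕ, k < a → y.2.coeff a = 0) ∧ (∀ a : ℕ, (a : ℤ) = k → y.2.coeff a = y.1 ^ 2) ∧ (k < 0 → y.1 = 0)

lemma Inst.zero (n : ℕ) (k : ℤ) : Inst n k 0 := ⟨by simp, by simp, by simp⟩

lemma Inst.one (n : ℕ) : Inst n 0 1 := by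
  refine ⟨fun a ha => ?_, fun a ha => ?_, fun h => absurd h (lt_irrefl _)⟩
  · have : a ≠ 0 := by omega
    simp [coeff_one, this]
  · have : a = 0 := by omega
    simp [this]

lemma Inst.add {n : ℕ} {k : ℤ} {y y' : D n × (D n)[X]} (h : Inst n k y) (h' : Inst n k y') :
    Inst n k (y + y') := by
  refine ⟨fun a ha => ?_, fun a ha => ?_, fun hk => ?_⟩
  · simp [h.1 a ha, h'.1 a ha]
  · simp only [Prod.snd_add, coeff_add, Prod.fst_add, h.2.1 a ha, h'.2.1 a ha]
    have := two n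
    linear_combination (-(y.1 * y'.1)) * this
  · simp [h.2.2 hk, h'.2.2 hk]

lemma Inst.eq_zero {n : ℕ} {k : ℤ} {y : D n × (D n)[X]} (h : Inst n k y) (hk : k < 0) : y.2 = 0 := by
  ext a : 1; rw [h.1 a (by omega), coeff_zero]

lemma Inst.mul {n : ℕ} {k l : ℤ} {y y' : D n × (D n)[X]} (h : Inst n k y) (h' : Inst n l y') :
    Inst n (k + l) (y * y') := by
  rcases lt_or_ge k 0 with hk | hk
  · have h1 := h.eq_zero hk
    have h2 := h.2.2 hk
    have : y * y' = 0 := by ext1 <;> simp [h1, h2]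
    rw [this]; exact Inst.zero _ _
  rcases lt_or_ge l 0 with hl | hl
  · have h1 := h'.eq_zero hl
    have h2 := h'.2.2 hl
    have : y * y' = 0 := by ext1 <;> simp [h1, h2]
    rw [this]; exact Inst.zero _ _
  obtain ⟨k, rfl⟩ := Int.eq_ofNat_of_zero_le hk
  obtain ⟨l, rfl⟩ := Int.eq_ofNat_of_zero_le hl
  refine ⟨fun a ha => ?_, fun a ha => ?_, fun h => by omega⟩
  · rw [Prod.snd_mul, coeff_mul]
    refine Finset.sum_eq_zero fun p hp => ?_
    have hp' : p.1 + p.2 = a := by simpa using hp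
    rcases lt_or_ge k p.1 with h3 | h3
    · rw [h.1 p.1 (by exact_mod_cast h3), zero_mul]
    · rw [h'.1 p.2 (by omega), mul_zero]
  · have ha' : a = k + l := by omega
    rw [Prod.snd_mul, coeff_mul, Finset.sum_eq_single (k, l)]
    · simp only [h.2.1 k rfl, h'.2.1 l rfl, Prod.fst_mul]; ring
    · intro p hp hne
      have hp' : p.1 + p.2 = a := by simpa using hp
      rcases lt_or_ge k p.1 with h3 | h3
      · rw [h.1 p.1 (by exact_mod_cast h3), zero_mul]
      · rcases h3.lt_or_eq with h4 | h4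
        · rw [h'.1 p.2 (by omega), mul_zero]
        · exact absurd (Prod.ext h4 (by simp; omega)) hne
    · intro hnm
      exact absurd (by simp [ha']) hnm

lemma Inst.pow {n : ℕ} {k : ℤ} {y : D n × (D n)[X]} (h : Inst n k y) (m : ℕ) :
    Inst n (m * k) (y ^ m) := by
  induction m with
  | zero => simpa using Inst.one n
  | succ m ih =>
    have := ih.mul h
    rw [pow_succ]; convert this using 1; push_cast; ring


lemma coeff_F (n a : ℕ) :
    (F n).coeff a = ∑ l ∈ Finset.range (n + 1), if a = 2 ^ n - 2 ^ l then q n l else 0 := by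
  rw [F, finsetSum_coeff]
  refine Finset.sum_congr rfl fun l _ => ?_
  rw [coeff_C_mul_X_pow]

lemma pow_inj' {n l : ℕ} (h : 2 ^ n - 2 ^ l = 2 ^ n - 1) (hl : l ≤ n) : l = 0 := by
  have h1 : 2 ^ l ≤ 2 ^ n := Nat.pow_le_pow_right (by norm_num) hl
  have h2 : 1 ≤ 2 ^ l := Nat.one_le_two_pow
  have h3 : 2 ^ l = 2 ^ 0 := by rw [pow_zero]; omega
  exact Nat.pow_right_injective (le_refl 2) h3

lemma natDegree_A (n j : ℕ) : (A n j).natDegree ≤ 2 ^ j - 1 := by
  refine natDegree_sum_le_of_forall_le _ _ fun l hl => ?_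
  refine (natDegree_C_mul_X_pow_le _ _).trans ?_
  have h2 : 1 ≤ 2 ^ l := Nat.one_le_two_pow
  omega

lemma natDegree_B {n j : ℕ} : (B n j).natDegree ≤ 2 ^ n - 2 ^ (j + 1) := by
  refine natDegree_sum_le_of_forall_le _ _ fun l hl => ?_
  refine (natDegree_C_mul_X_pow_le _ _).trans ?_
  have h2 : 2 ^ (j + 1) ≤ 2 ^ l := Nat.pow_le_pow_right (by norm_num) (by simp at hl; omega)
  omega

lemma natDegree_F (n : ℕ) : (F n).natDegree ≤ 2 ^ n - 1 := by
  refine natDegree_sum_le_of_forall_le _ _ fun l hl => ?_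
  refine (natDegree_C_mul_X_pow_le _ _).trans ?_
  have h2 : 1 ≤ 2 ^ l := Nat.one_le_two_pow
  omega

lemma coeff_AB {n j a : ℕ} (hj : j < n) (ha : 2 ^ n - 2 ^ j ≤ a) : (A n j * B n j).coeff a = 0 := by
  refine coeff_eq_zero_of_natDegree_lt (lt_of_le_of_lt (natDegree_mul_le.trans
    (add_le_add (natDegree_A n j) natDegree_B)) (lt_of_lt_of_le ?_ ha))
  have h1 : 2 ^ (j + 1) ≤ 2 ^ n := Nat.pow_le_pow_right (by norm_num) hj
  have h2 : 1 ≤ 2 ^ j := Nat.one_le_two_pow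
  rw [pow_succ] at h1 ⊢
  omega

lemma w_cast (n : ℕ) (j : Fin n) : w n j = ((2 ^ n - 2 ^ (j : ℕ) : ℕ) : ℤ) := by
  have h2 : 2 ^ (j : ℕ) ≤ 2 ^ n := Nat.pow_le_pow_right (by norm_num) j.2.le
  simp only [w]; push_cast [h2]; ring

lemma Inst_gen (n : ℕ) (j : Fin n) : Inst n (w n j) (gen j, P n (gen j)) := by
  rw [w_cast]
  refine ⟨fun a ha => ?_, fun a ha => ?_, fun h => by omega⟩
  · show (P n (gen j)).coeff a = 0
    have ha' : 2 ^ n - 2 ^ (j : ℕ) < a := by exact_mod_cast ha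
    rw [P_gen, coeff_add, coeff_AB j.2 ha'.le, coeff_C_mul_X_pow, if_neg (by omega), add_zero]
  · show (P n (gen j)).coeff a = (gen j) ^ 2
    have ha' : a = 2 ^ n - 2 ^ (j : ℕ) := by exact_mod_cast ha
    rw [P_gen, coeff_add, coeff_AB j.2 ha'.ge, coeff_C_mul_X_pow, if_pos ha', add_zero, gen_eq]

lemma Inst_P {n : ℕ} {k : ℤ} {x : D n} (hx : Hom n k x) : Inst n k (x, P n x) := by
  refine hom_map (Inst n) (Inst.zero n) (fun _ _ _ => Inst.add) (Inst.one n)
    (fun _ _ _ _ => Inst.mul) ((RingHom.id (D n)).prod (P n : D n →+* (D n)[X])) ?_ x k hx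
  intro j
  exact Inst_gen n j

lemma coeff_F_top (n : ℕ) : (F n).coeff (2 ^ n - 1) = q n 0 := by
  rw [coeff_F, Finset.sum_eq_single 0]
  · rw [pow_zero, if_pos rfl]
  · intro l hl hl0
    rw [if_neg]
    intro h
    exact hl0 (pow_inj' h.symm (by simp at hl; omega))
  · intro h; exact absurd (by simp) h

lemma coeff_F_zero (n : ℕ) : (F n).coeff 0 = 1 := by
  rw [coeff_F, Finset.sum_eq_single n]
  · rw [Nat.sub_self, if_pos rfl, q_self]
  · intro l hl hl0
    rw [if_neg]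
    intro h
    have h2 : 2 ^ l < 2 ^ n := Nat.pow_lt_pow_right (by norm_num) (by simp at hl; omega)
    omega
  · intro h; exact absurd (by simp) h

/-- Instability: `Sq^a` vanishes above the degree (at level `m` the degree of `x` is
`k + m (2^n - 1)`). -/
lemma s_eq_zero {n : ℕ} {k : ℤ} {x : D n} (hx : Hom n k x) {m a : ℕ}
    (ha : k + m * (2 ^ n - 1) < a) : s n m a x = 0 := by
  rcases lt_or_ge k 0 with hk | hk
  · rw [hx.eq_zero_of_neg hk, map_zero]
  obtain ⟨k, rfl⟩ := Int.eq_ofNat_of_zero_le hk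
  have h1 : (1 : ℕ) ≤ 2 ^ n := Nat.one_le_two_pow
  have h0 : ((2 : ℤ) ^ n - 1) = ((2 ^ n - 1 : ℕ) : ℤ) := by push_cast [h1]; ring
  rw [h0] at ha
  have hP : (P n x).natDegree ≤ k := by
    refine natDegree_le_iff_coeff_eq_zero.mpr fun b hb => ?_
    exact (Inst_P hx).1 b (by exact_mod_cast hb)
  have hF : (F n ^ m).natDegree ≤ m * (2 ^ n - 1) :=
    natDegree_pow_le.trans (Nat.mul_le_mul_left _ (natDegree_F n))
  rw [s_apply]
  refine coeff_eq_zero_of_natDegree_lt (lt_of_le_of_lt (natDegree_mul_le.trans (add_le_add hF hP)) ?_)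
  have : ((m * (2 ^ n - 1) + k : ℕ) : ℤ) < a := by push_cast at ha ⊢; linarith
  exact_mod_cast this

/-- The top square. -/
lemma s_top {n : ℕ} {k : ℤ} {x : D n} (hx : Hom n k x) {m a : ℕ}
    (ha : (a : ℤ) = k + m * (2 ^ n - 1)) : s n m a x = q n 0 ^ m * x ^ 2 := by
  rcases lt_or_ge k 0 with hk | hk
  · rw [hx.eq_zero_of_neg hk, map_zero]; simp
  obtain ⟨k, rfl⟩ := Int.eq_ofNat_of_zero_le hk
  have h1 : (1 : ℕ) ≤ 2 ^ n := Nat.one_le_two_pow
  have h0 : ((2 : ℤ) ^ n - 1) = ((2 ^ n - 1 : ℕ) : ℤ) := by push_cast [h1]; ring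
  rw [h0] at ha
  have hP : (P n x).natDegree ≤ k := by
    refine natDegree_le_iff_coeff_eq_zero.mpr fun b hb => ?_
    exact (Inst_P hx).1 b (by exact_mod_cast hb)
  have hF : (F n ^ m).natDegree ≤ m * (2 ^ n - 1) :=
    natDegree_pow_le.trans (Nat.mul_le_mul_left _ (natDegree_F n))
  have ha' : a = m * (2 ^ n - 1) + k := by
    have : (a : ℤ) = ((m * (2 ^ n - 1) + k : ℕ) : ℤ) := by rw [ha]; push_cast; ring
    exact_mod_cast this
  rw [s_apply, ha', coeff_mul_add_eq_of_natDegree_le hF hP,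
    coeff_pow_of_natDegree_le (natDegree_F n), coeff_F_top, (Inst_P hx).2.1 k rfl]

lemma coeff_A_zero (n j : ℕ) : (A n j).coeff 0 = q n j := by
  rw [A, finsetSum_coeff, Finset.sum_eq_single j]
  · rw [Nat.sub_self, coeff_C_mul_X_pow, if_pos rfl]
  · intro l hl hl0
    have h2 : 2 ^ l < 2 ^ j := Nat.pow_lt_pow_right (by norm_num) (by simp at hl; omega)
    rw [coeff_C_mul_X_pow, if_neg (by omega)]
  · intro h; exact absurd (by simp) h

lemma coeff_B_zero {n j : ℕ} (h : j < n) : (B n j).coeff 0 = 1 := by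
  rw [B, finsetSum_coeff, Finset.sum_eq_single n]
  · rw [Nat.sub_self, coeff_C_mul_X_pow, if_pos rfl, q_self]
  · intro l hl hl0
    have h2 : 2 ^ l < 2 ^ n := Nat.pow_lt_pow_right (by norm_num) (by simp at hl; omega)
    rw [coeff_C_mul_X_pow, if_neg (by omega)]
  · intro h'; exact absurd (by simp [h]) h'

lemma P_coeff_zero {n : ℕ} (x : D n) : (P n x).coeff 0 = x := by
  refine D_induction (P := fun x => (P n x).coeff 0 = x) ?_ ?_ ?_ ?_ x
  · simp
  · simp
  · intro x y hx hy; rw [map_add, coeff_add, hx, hy]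
  · intro x j hx
    have h2 : 2 ^ (j : ℕ) < 2 ^ n := Nat.pow_lt_pow_right (by norm_num) j.2
    rw [map_mul, mul_coeff_zero, hx, P_gen, coeff_add, coeff_C_mul_X_pow, if_neg (by omega),
      mul_coeff_zero, coeff_A_zero, coeff_B_zero j.2, gen_eq, mul_one, zero_add]

/-- `Sq^0` is the identity. -/
lemma s_zero (n m : ℕ) (x : D n) : s n m 0 x = x := by
  rw [s_apply, mul_coeff_zero, P_coeff_zero, coeff_zero_eq_eval_zero, eval_pow,
    ← coeff_zero_eq_eval_zero, coeff_F_zero, one_pow, one_mul]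

/-- `q_0^m x` at level `0` is `x` at level `m`. -/
lemma s_q0_pow (n m j a : ℕ) (x : D n) :
    s n m a (q n 0 ^ j * x) = q n 0 ^ j * s n (m + j) a x := by
  rw [s_apply, s_apply, map_mul, map_pow, P_q0, mul_pow, ← C_pow, pow_add]
  rw [show F n ^ m * (C (q n 0 ^ j) * F n ^ j * P n x) = C (q n 0 ^ j) * (F n ^ m * F n ^ j * P n x) by
    ring, coeff_C_mul]

lemma s_q0 (n m a : ℕ) (x : D n) : s n m a (q n 0 * x) = q n 0 * s n (m + 1) a x := by
  simpa using s_q0_pow n m 1 a x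

end Vale.Agent.P263.EX.DS
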