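import Vale.Agent.P263.LZ.Basic

/-!
Monomials of the Dickson algebra `D n`, the all-odd part, and the map `z : D (n+1) → D n`,
`q_i ↦ q_{i-1} + q_i` (block T1 of note 9962).
-/

namespace Vale.Agent.P263.EX

open Vale.Agent.P263.LZ

/-- the monomial with exponent vector `e` -/
noncomputable def mo {n : ℕ} (e : Fin n →₀ ℕ) : D n :=
  (MvPolynomial.monomial e (1 : ZMod 2) : MvPolynomial (Fin n) (ZMod 2))

lemma mo_zero (n : ℕ) : mo (0 : Fin n →₀ ℕ) = 1 := rfl

lemma mo_mul {n : ℕ} (e f : Fin n →₀ ℕ) : mo e * mo f = mo (e + f) := by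
  have := MvPolynomial.monomial_mul (R := ZMod 2) (s := e) (s' := f) (a := 1) (b := 1)
  rw [one_mul] at this
  exact this

lemma mo_pow {n : ℕ} (e : Fin n →₀ ℕ) (k : ℕ) : mo e ^ k = mo (k • e) := by
  induction k with
  | zero => rw [pow_zero, zero_smul, mo_zero]
  | succ k ih => rw [pow_succ, ih, mo_mul, succ_nsmul]

lemma mo_prod {n : ℕ} {ι : Type*} (s : Finset ι) (f : ι → (Fin n →₀ ℕ)) :
    ∏ i ∈ s, mo (f i) = mo (∑ i ∈ s, f i) := by
  classical
  induction s using Finset.induction_on with
  | empty => simp [mo_zero]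
  | insert a t ha ih => rw [Finset.prod_insert ha, Finset.sum_insert ha, ih, mo_mul]

lemma gen_eq_mo {n : ℕ} (i : Fin n) : gen i = mo (Finsupp.single i 1) := rfl

lemma mo_eq_prod {n : ℕ} (e : Fin n →₀ ℕ) : mo e = ∏ i, gen i ^ e i := by
  simp only [gen_eq_mo, mo_pow, mo_prod]
  congr 1
  ext j
  rw [Finsupp.finsetSum_apply]
  simp [Finsupp.single_apply]

/-- `F` is the sum of its monomials. -/
lemma eq_sum_mo {n : ℕ} (F : D n) : F = ∑ e ∈ supp F, mo e := by
  conv_lhs => rw [D_as_sum F]
  exact Finset.sum_congr rfl (fun e _ => (mo_eq_prod e).symm)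

lemma mo_induction {n : ℕ} {P : D n → Prop} (h0 : P 0) (hadd : ∀ x y, P x → P y → P (x + y))
    (hmo : ∀ e, P (mo e)) (F : D n) : P F := by
  classical
  rw [eq_sum_mo F]
  induction supp F using Finset.induction_on with
  | empty => simpa using h0
  | insert a t ha ih => rw [Finset.sum_insert ha]; exact hadd _ _ (hmo a) ih

lemma add_self {n : ℕ} (x : D n) : x + x = 0 := CharTwo.add_self_eq_zero x

lemma add_sq' {n : ℕ} (x y : D n) : (x + y) ^ 2 = x ^ 2 + y ^ 2 := CharTwo.add_sq x y

/-! ### additive maps defined on monomials -/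

/-- the additive map with prescribed values on the monomials -/
noncomputable def ofMo {n : ℕ} {B : Type*} [AddCommGroup B] [Module (ZMod 2) B]
    (g : (Fin n →₀ ℕ) → B) : D n →+ B :=
  ((MvPolynomial.basisMonomials (Fin n) (ZMod 2)).constr (ZMod 2) g).toAddMonoidHom

lemma ofMo_mo {n : ℕ} {B : Type*} [AddCommGroup B] [Module (ZMod 2) B]
    (g : (Fin n →₀ ℕ) → B) (e : Fin n →₀ ℕ) : ofMo g (mo e) = g e := by
  have h := (MvPolynomial.basisMonomials (Fin n) (ZMod 2)).constr_basis (ZMod 2) g e
  rw [MvPolynomial.coe_basisMonomials] at h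
  exact h

lemma addHom_ext {n : ℕ} {B : Type*} [AddCommMonoid B] {f g : D n →+ B}
    (h : ∀ e, f (mo e) = g (mo e)) : f = g := by
  ext F
  refine mo_induction (P := fun F => f F = g F) ?_ ?_ h F
  · rw [map_zero, map_zero]
  · intro x y hx hy; rw [map_add, map_add, hx, hy]

/-! ### the all-odd part -/

open Classical in
/-- the all-odd part -/
noncomputable def oddPart {n : ℕ} : D n →+ D n :=
  haveI : Module (ZMod 2) (D n) := Algebra.toModule
  ofMo (fun e => if ∀ i, Odd (e i) then mo e else 0)

lemma oddPart_mo_of {n : ℕ} {e : Fin n →₀ ℕ} (h : ∀ i, Odd (e i)) : oddPart (mo e) = mo e := by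
  unfold oddPart; rw [ofMo_mo, if_pos h]

lemma oddPart_mo_not {n : ℕ} {e : Fin n →₀ ℕ} (h : ¬ ∀ i, Odd (e i)) : oddPart (mo e) = 0 := by
  unfold oddPart; rw [ofMo_mo, if_neg h]

lemma oddPart_mul_mo {n : ℕ} (F : D n) (e f : Fin n →₀ ℕ) (hef : e = f + f) :
    oddPart (mo e * F) = mo e * oddPart F := by
  refine mo_induction (P := fun F => oddPart (mo e * F) = mo e * oddPart F) ?_ ?_ ?_ F
  · simp
  · intro x y hx hy; rw [mul_add, map_add, hx, hy, map_add, mul_add]
  · intro g
    rw [mo_mul]
    have key : (∀ i, Odd ((e + g) i)) ↔ ∀ i, Odd (g i) := by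
      refine forall_congr' (fun i => ?_)
      subst hef
      simp only [Finsupp.add_apply]
      constructor
      · rintro ⟨k, hk⟩; exact ⟨k - f i, by omega⟩
      · rintro ⟨k, hk⟩; exact ⟨k + f i, by omega⟩
    by_cases h : ∀ i, Odd (g i)
    · rw [oddPart_mo_of h, oddPart_mo_of (key.mpr h), mo_mul]
    · rw [oddPart_mo_not h, oddPart_mo_not (fun hh => h (key.mp hh)), mul_zero]

lemma oddPart_sq_mul {n : ℕ} (X Y : D n) : oddPart (X ^ 2 * Y) = X ^ 2 * oddPart Y := by
  refine mo_induction (P := fun X => oddPart (X ^ 2 * Y) = X ^ 2 * oddPart Y) ?_ ?_ ?_ X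
  · simp
  · intro x y hx hy; rw [add_sq', add_mul, map_add, hx, hy, add_mul]
  · intro e
    rw [mo_pow, two_nsmul]
    exact oddPart_mul_mo Y _ e rfl

/-- the product `q_0 q_1 ⋯ q_{n-1}` -/
noncomputable def piD (n : ℕ) : D n := ∏ i : Fin n, gen i

lemma piD_eq_mo (n : ℕ) : piD n = mo (∑ i : Fin n, Finsupp.single i 1) := by
  simp only [piD, gen_eq_mo, mo_prod]

/-! ### exponent vectors of the `q_i` -/

/-- exponent vector of `q_i`, `i ≤ n` -/
noncomputable def ev (n i : ℕ) : Fin n →₀ ℕ :=
  if h : i < n then Finsupp.single ⟨i, h⟩ 1 else 0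

lemma q_eq_mo {n i : ℕ} (h : i ≤ n) : q n i = mo (ev n i) := by
  unfold ev
  split_ifs with h1
  · rw [q_lt h1]; rfl
  · have : i = n := by omega
    subst this; rw [q_self, mo_zero]

lemma ev_apply {n i : ℕ} (j : Fin n) : ev n i j = if i = (j : ℕ) then 1 else 0 := by
  unfold ev
  split_ifs with h1 h2 h2
  · subst h2; simp
  · rw [Finsupp.single_apply, if_neg]
    intro h; apply h2; rw [← h]
  · exact absurd (h2 ▸ j.2) h1
  · rfl

/-! ### the map z -/

/-- `z : D (n+1) → D n`, `q_i ↦ q_{i-1} + q_i`. -/
noncomputable def zmap (n : ℕ) : D (n+1) →ₐ[ZMod 2] D n :=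
  lift (fun i : Fin (n+1) => qm n i + q n i)

lemma zmap_gen (n : ℕ) (i : Fin (n+1)) : zmap n (gen i) = qm n i + q n i := lift_gen _ _

lemma zmap_q (n i : ℕ) : zmap n (q (n+1) i) = qm n i + q n i := by
  rcases lt_trichotomy i (n+1) with h | h | h
  · rw [q_lt h, zmap_gen]
  · subst h
    rw [q_self, map_one, qm_succ, q_self, q_gt (Nat.lt_succ_self n), add_zero]
  · rw [q_gt h, map_zero]
    obtain ⟨j, rfl⟩ : ∃ j, i = j + 1 := ⟨i - 1, by omega⟩
    rw [qm_succ, q_gt (by omega : n < j), q_gt (by omega : n < j+1), add_zero]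

lemma zmap_mo (n : ℕ) (e : Fin (n+1) →₀ ℕ) :
    zmap n (mo e) = ∏ i : Fin (n+1), (qm n i + q n i) ^ e i := by
  rw [mo_eq_prod, map_prod]
  exact Finset.prod_congr rfl (fun i _ => by rw [map_pow, zmap_gen])

/-- The all-odd part of `∏_{i ∈ A} (q_{i-1} + q_i)`, `A ⊆ {1..n}`. -/
lemma oddPart_prod_ne (n : ℕ) (A : Finset ℕ) (hA : A ⊆ Finset.Icc 1 n) (hne : A ≠ Finset.Icc 1 n) :
    oddPart (∏ i ∈ A, (q n (i-1) + q n i)) = 0 := by
  classical
  rw [Finset.prod_add, map_sum]
  refine Finset.sum_eq_zero (fun s hs => ?_)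
  rw [Finset.mem_powerset] at hs
  have e1 : ∏ i ∈ s, q n (i-1) = mo (∑ i ∈ s, ev n (i-1)) := by
    rw [← mo_prod]
    refine Finset.prod_congr rfl (fun i hi => q_eq_mo ?_)
    have := Finset.mem_Icc.mp (hA (hs hi)); omega
  have e2 : ∏ i ∈ A \ s, q n i = mo (∑ i ∈ A \ s, ev n i) := by
    rw [← mo_prod]
    refine Finset.prod_congr rfl (fun i hi => q_eq_mo ?_)
    have := Finset.mem_Icc.mp (hA (Finset.sdiff_subset hi)); omega
  rw [e1, e2, mo_mul]
  refine oddPart_mo_not (fun hodd => hne ?_)
  have key : ∀ j : ℕ, j < n → j + 1 ∈ s := by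
    intro j
    induction j with
    | zero =>
      intro hj
      by_contra hns
      have h1 := hodd ⟨0, hj⟩
      rw [Finsupp.add_apply, Finsupp.finsetSum_apply, Finsupp.finsetSum_apply,
        Finset.sum_eq_zero, Finset.sum_eq_zero] at h1
      · exact absurd h1 (by decide)
      · intro i hi
        rw [ev_apply, if_neg]
        have := Finset.mem_Icc.mp (hA (Finset.sdiff_subset hi))
        simp only; omega
      · intro i hi
        rw [ev_apply, if_neg]
        have := Finset.mem_Icc.mp (hA (hs hi))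
        simp only
        intro hi0
        have : i = 1 := by omega
        exact hns (by rw [← this] at *; simpa [this] using hi)
    | succ j ih =>
      intro hj
      have ihj := ih (by omega)
      by_contra hns
      have h1 := hodd ⟨j+1, hj⟩
      rw [Finsupp.add_apply, Finsupp.finsetSum_apply, Finsupp.finsetSum_apply,
        Finset.sum_eq_zero, Finset.sum_eq_zero] at h1
      · exact absurd h1 (by decide)
      · intro i hi
        rw [ev_apply, if_neg]
        simp only
        intro hi0
        subst hi0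
        exact (Finset.mem_sdiff.mp hi).2 ihj
      · intro i hi
        rw [ev_apply, if_neg]
        simp only
        intro hi0
        have : i = j + 1 + 1 := by omega
        subst this
        exact hns hi
  refine Finset.Subset.antisymm hA (fun i hi => hs ?_)
  have := Finset.mem_Icc.mp hi
  have h2 := key (i - 1) (by omega)
  rwa [show i - 1 + 1 = i by omega] at h2

lemma oddPart_prod_full (n : ℕ) :
    oddPart (∏ i ∈ Finset.Icc 1 n, (q n (i-1) + q n i)) = piD n := by
  classical
  rw [Finset.prod_add, map_sum, Finset.sum_eq_single (Finset.Icc 1 n)]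
  · rw [Finset.sdiff_self, Finset.prod_empty, mul_one]
    have e1 : ∏ i ∈ Finset.Icc 1 n, q n (i-1) = piD n := by
      rw [piD_eq_mo]
      have : ∏ i ∈ Finset.Icc 1 n, q n (i-1) = mo (∑ i ∈ Finset.Icc 1 n, ev n (i-1)) := by
        rw [← mo_prod]
        refine Finset.prod_congr rfl (fun i hi => q_eq_mo ?_)
        have := Finset.mem_Icc.mp hi; omega
      rw [this]
      congr 1
      ext j
      rw [Finsupp.finsetSum_apply, Finsupp.finsetSum_apply, Finset.sum_eq_single (j.1+1)]
      · rw [ev_apply, if_pos (by simp), Finset.sum_eq_single j]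
        · simp
        · intro b _ hb; rw [Finsupp.single_apply, if_neg hb]
        · intro h; exact absurd (Finset.mem_univ _) h
      · intro b hb hbj
        rw [ev_apply, if_neg]
        have := Finset.mem_Icc.mp hb; omega
      · intro h
        exact absurd (Finset.mem_Icc.mpr ⟨by omega, by have := j.2; omega⟩) h
    rw [e1, piD_eq_mo]
    refine oddPart_mo_of (fun i => ?_)
    rw [Finsupp.finsetSum_apply, Finset.sum_eq_single i]
    · simp
    · intro b _ hb; rw [Finsupp.single_apply, if_neg hb]
    · intro h; exact absurd (Finset.mem_univ _) h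
  · intro s hs hne
    rw [Finset.mem_powerset] at hs
    have e1 : ∏ i ∈ s, q n (i-1) = mo (∑ i ∈ s, ev n (i-1)) := by
      rw [← mo_prod]
      refine Finset.prod_congr rfl (fun i hi => q_eq_mo ?_)
      have := Finset.mem_Icc.mp (hs hi); omega
    have e2 : ∏ i ∈ Finset.Icc 1 n \ s, q n i = mo (∑ i ∈ Finset.Icc 1 n \ s, ev n i) := by
      rw [← mo_prod]
      refine Finset.prod_congr rfl (fun i hi => q_eq_mo ?_)
      have := Finset.mem_Icc.mp (Finset.sdiff_subset hi); omega
    rw [e1, e2, mo_mul]
    refine oddPart_mo_not (fun hodd => hne ?_)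
    have key : ∀ j : ℕ, j < n → j + 1 ∈ s := by
      intro j
      induction j with
      | zero =>
        intro hj
        by_contra hns
        have h1 := hodd ⟨0, hj⟩
        rw [Finsupp.add_apply, Finsupp.finsetSum_apply, Finsupp.finsetSum_apply,
          Finset.sum_eq_zero, Finset.sum_eq_zero] at h1
        · exact absurd h1 (by decide)
        · intro i hi
          rw [ev_apply, if_neg]
          have := Finset.mem_Icc.mp (Finset.sdiff_subset hi)
          simp only; omega
        · intro i hi
          rw [ev_apply, if_neg]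
          have := Finset.mem_Icc.mp (hs hi)
          simp only
          intro hi0
          have : i = 1 := by omega
          exact hns (by simpa [this] using hi)
      | succ j ih =>
        intro hj
        have ihj := ih (by omega)
        by_contra hns
        have h1 := hodd ⟨j+1, hj⟩
        rw [Finsupp.add_apply, Finsupp.finsetSum_apply, Finsupp.finsetSum_apply,
          Finset.sum_eq_zero, Finset.sum_eq_zero] at h1
        · exact absurd h1 (by decide)
        · intro i hi
          rw [ev_apply, if_neg]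
          simp only
          intro hi0
          subst hi0
          exact (Finset.mem_sdiff.mp hi).2 ihj
        · intro i hi
          rw [ev_apply, if_neg]
          simp only
          intro hi0
          have : i = j + 1 + 1 := by omega
          subst this
          exact hns hi
    refine Finset.Subset.antisymm hs (fun i hi => ?_)
    have := Finset.mem_Icc.mp hi
    have h2 := key (i - 1) (by omega)
    rwa [show i - 1 + 1 = i by omega] at h2
  · intro h; exact absurd (Finset.mem_powerset.mpr (Finset.Subset.refl _)) h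

end Vale.Agent.P263.EX
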