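import Vale.Agent.P263.EX.CODefs
import Vale.Agent.P263.EX.DS1
import Vale.Agent.P263.EX.Mono

/-!
P263, block CO (helper639): cocycles of level `m` and degree `N` on `D n`.

The extension `E = D n × ZMod 2` carries the squares `SE c a`, which satisfy the Bullett-Macdonald
relations, and the Milnor primitives `HE c i`.  Reading off the second component of the relations of
`EX/BM.lean` one gets K1, K2, K3 for `th` and `ka`.
-/

namespace Vale.Agent.P263.EX

open Polynomial Vale.Agent.P263.LZ Vale.Agent.P263.EX.DS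

/-- the facts of block DS which are used here (level `m`) -/
structure DSFacts (n m : ℕ) : Prop where
  bm : ∀ (M : ℕ) (x : D n),
    ∑ a ∈ Finset.range (M + 1), C (s n m a (s n m (M - a) x)) * BM.wt (D n) a (M - a) = 0
  del0 : ∀ (k : ℤ) (x : D n), Hom n k x → del n m 0 x = ((k + m : ℤ) : D n) * x
  sdel : ∀ i, i ≤ n → ∀ x : D n,
    s n m (2 ^ i) (del n m i x) = del n m i (s n m (2 ^ i) x) + del n m (i + 1) x

section basic

variable {n : ℕ}

lemma Hom.mo (e : Fin n →₀ ℕ) : Hom n (∑ i, (e i : ℤ) * w n i) (mo e) := by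
  refine MvPolynomial.isWeightedHomogeneous_monomial (w n) e (1 : ZMod 2) ?_
  rw [Finsupp.weight_apply, Finsupp.sum_fintype _ _ (fun i => by simp)]
  simp

/-- induction over homogeneous elements -/
lemma hom_ind {P : D n → Prop} (h0 : P 0) (hadd : ∀ x y, P x → P y → P (x + y))
    (hh : ∀ k x, Hom n k x → P x) (x : D n) : P x :=
  mo_induction h0 hadd (fun e => hh _ _ (Hom.mo e)) x

lemma add_add_cancel_self (x y : D n) : x + y + y = x := by
  rw [add_assoc, add_self, add_zero]

lemma intCast_mul_eq_smul (z : ℤ) (x : D n) : (z : D n) * x = ((z : ZMod 2)) • x := by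
  rw [Algebra.smul_def, map_intCast]

end basic

namespace DSFacts

variable {n m : ℕ} (f : DSFacts n m)

include f

/-- coefficient form of the Bullett-Macdonald relations -/
lemma bm_coeff (M j : ℕ) (x : D n) :
    ∑ a ∈ Finset.range (M + 1), s n m a (s n m (M - a) x) *
      (((if 2 * (M - a) ≤ j then a.choose (j - 2 * (M - a)) else 0 : ℕ) : D n) +
        (BM.cc a j : D n)) = 0 := by
  have h := congrArg (fun p => Polynomial.coeff p j) (f.bm M x)
  simp only [finsetSum_coeff, coeff_zero] at h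
  rw [← h]
  refine Finset.sum_congr rfl fun a _ => ?_
  rw [BM.coeff_wt, mul_add]

lemma del_hom {i : ℕ} (hi : i ≤ n + 1) {k : ℤ} {x : D n} (hx : Hom n k x) :
    Hom n (k + 2 ^ i - 1) (del n m i x) := by
  induction i generalizing k x with
  | zero =>
    rw [f.del0 k x hx]
    have h1 : Hom n 0 ((k + m : ℤ) : D n) := by
      rcases Int.even_or_odd (k + m) with h | h
      · rw [show ((k + m : ℤ) : D n) = 0 from (CharP.intCast_eq_zero_iff (D n) 2 _).mpr
          (by obtain ⟨r, hr⟩ := h; exact ⟨r, by push_cast; omega⟩)]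
        exact Hom.zero _ _
      · rw [show ((k + m : ℤ) : D n) = 1 by
          obtain ⟨r, hr⟩ := h
          rw [hr]; push_cast
          rw [CharTwo.two_eq_zero]; ring]
        exact Hom.one _
    exact (h1.mul hx).congr (by ring)
  | succ i ih =>
    have e : del n m (i + 1) x =
        s n m (2 ^ i) (del n m i x) + del n m i (s n m (2 ^ i) x) := by
      rw [f.sdel i (by omega) x, add_comm (del n m i _), add_add_cancel_self]
    rw [e]
    refine Hom.add ?_ ?_
    · exact (s_hom (ih (by omega) hx) m (2 ^ i)).congr (by push_cast; ring)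
    · exact (ih (by omega) (s_hom hx m (2 ^ i))).congr (by push_cast; ring)

/-- `s a` and the degree operator -/
lemma s_del0 (a : ℕ) (x : D n) :
    s n m a (del n m 0 x) = del n m 0 (s n m a x) + (a : D n) * s n m a x := by
  refine hom_ind (P := fun x => s n m a (del n m 0 x) =
    del n m 0 (s n m a x) + (a : D n) * s n m a x) ?_ ?_ ?_ x
  · simp
  · intro x y hx hy
    simp only [map_add, hx, hy]; ring
  · intro k x hx
    rw [f.del0 k x hx, f.del0 _ _ (s_hom hx m a), intCast_mul_eq_smul, map_smul,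
      ← intCast_mul_eq_smul]
    push_cast
    have h2 : (2 : D n) = 0 := CharTwo.two_eq_zero
    linear_combination (-(a : D n) * s n m a x) * h2

lemma del_one (x : D n) : del n m 1 x = s n m 1 x := by
  have h := f.sdel 0 (Nat.zero_le n) x
  rw [pow_zero, f.s_del0 1 x, Nat.cast_one, one_mul, zero_add] at h
  exact (add_left_cancel h).symm

lemma del_succ {i : ℕ} (hi : i ≤ n) (x : D n) :
    del n m (i + 1) x = s n m (2 ^ i) (del n m i x) + del n m i (s n m (2 ^ i) x) := by
  rw [f.sdel i hi x, add_comm (del n m i _), add_add_cancel_self]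

end DSFacts

namespace Coc

variable {n m N : ℕ} (c : Coc n m N)

/-- the squares on the extension -/
noncomputable def SE (a : ℕ) : Module.End (ZMod 2) (D n × ZMod 2) :=
  LinearMap.prod ((s n m a).comp (LinearMap.fst (ZMod 2) (D n) (ZMod 2)))
    ((c.th a).comp (LinearMap.fst (ZMod 2) (D n) (ZMod 2)) +
      (if a = 0 then LinearMap.snd (ZMod 2) (D n) (ZMod 2) else 0))

lemma SE_apply (a : ℕ) (p : D n × ZMod 2) :
    c.SE a p = (s n m a p.1, c.th a p.1 + if a = 0 then p.2 else 0) := by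
  unfold SE
  split_ifs <;> rfl

/-- the Milnor primitives on the extension -/
noncomputable def HE : ℕ → Module.End (ZMod 2) (D n × ZMod 2)
  | 0 => LinearMap.prod ((del n m 0).comp (LinearMap.fst (ZMod 2) (D n) (ZMod 2)))
      ((N : ZMod 2) • LinearMap.snd (ZMod 2) (D n) (ZMod 2))
  | (i+1) => c.SE (2 ^ i) * HE i + HE i * c.SE (2 ^ i)

lemma HE_zero_apply (p : D n × ZMod 2) : c.HE 0 p = (del n m 0 p.1, (N : ZMod 2) * p.2) := rfl

lemma HE_succ (i : ℕ) : c.HE (i + 1) = c.SE (2 ^ i) * c.HE i + c.HE i * c.SE (2 ^ i) := rfl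

lemma SE_zero : c.SE 0 = 1 := by
  refine LinearMap.ext fun p => ?_
  rw [SE_apply, s_zero, c.th_zero, if_pos rfl, Module.End.one_apply, LinearMap.zero_apply, zero_add]

/-- `th` and the degree operator -/
lemma th_del0 (f : DSFacts n m) (hn : 1 ≤ n) (a : ℕ) (x : D n) :
    c.th a (del n m 0 x) = ((N : ZMod 2) + a) * c.th a x := by
  refine hom_ind (P := fun x => c.th a (del n m 0 x) = ((N : ZMod 2) + a) * c.th a x) ?_ ?_ ?_ x
  · simp
  · intro x y hx hy
    rw [map_add, map_add, hx, hy, map_add, mul_add]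
  · intro k x hx
    rw [f.del0 k x hx, intCast_mul_eq_smul, map_smul, smul_eq_mul]
    by_cases h : k + m * (2 ^ n - 1) + a = N
    · congr 1
      have h2 : (2 : ZMod 2) = 0 := by decide
      have h3 : ((k + m * (2 ^ n - 1) + a : ℤ) : ZMod 2) = ((N : ℤ) : ZMod 2) := by rw [h]
      push_cast at h3 ⊢
      obtain ⟨n', rfl⟩ : ∃ n', n = n' + 1 := ⟨n - 1, by omega⟩
      rw [← h3, pow_succ]
      linear_combination (m - (m : ZMod 2) * 2 ^ n' - a) * h2
    · rw [c.supp a k x hx h, mul_zero, mul_zero]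

/-- the squares on the extension satisfy the Bullett-Macdonald relations -/
lemma rel (f : DSFacts n m) : BM.Rel c.SE := by
  refine BM.rel_of_coeff fun M j => ?_
  refine LinearMap.ext fun p => ?_
  obtain ⟨x, e⟩ := p
  set k : ℕ → ℕ := fun a =>
    (if 2 * (M - a) ≤ j then a.choose (j - 2 * (M - a)) else 0) + BM.cc a j with hk
  have h1 : ∀ a, (c.SE a * c.SE (M - a) * (((if 2 * (M - a) ≤ j then
      a.choose (j - 2 * (M - a)) else 0 : ℕ) : Module.End (ZMod 2) (D n × ZMod 2)) +
      (BM.cc a j : Module.End (ZMod 2) (D n × ZMod 2)))) (x, e) =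
      (s n m a (s n m (M - a) x) * ((if 2 * (M - a) ≤ j then
        a.choose (j - 2 * (M - a)) else 0 : ℕ) : D n) +
        s n m a (s n m (M - a) x) * (BM.cc a j : D n),
      c.th a (s n m (M - a) x) * (k a : ZMod 2) +
        (if a = 0 then (c.th (M - a) x + if M - a = 0 then e else 0) * (k a : ZMod 2) else 0)) := by
    intro a
    rw [← Nat.cast_add, ← nsmul_eq_mul', LinearMap.smul_apply, Module.End.mul_apply, SE_apply,
      SE_apply]
    refine Prod.ext ?_ ?_
    · show k a • s n m a (s n m (M - a) x) = _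
      rw [nsmul_eq_mul', ← mul_add, ← Nat.cast_add]
    · show k a • (c.th a (s n m (M - a) x) +
        if a = 0 then (c.th (M - a) x + if M - a = 0 then e else 0) else 0) = _
      rw [nsmul_eq_mul', add_mul]
      congr 1
      split_ifs <;> simp
  rw [LinearMap.sum_apply, Finset.sum_congr rfl (fun a _ => h1 a)]
  refine Prod.ext ?_ ?_
  · rw [Prod.fst_sum]
    simp only [← mul_add]
    exact f.bm_coeff M j x
  · rw [Prod.snd_sum]
    simp only [Finset.sum_add_distrib]
    rw [Finset.sum_ite_eq' (Finset.range (M + 1)) 0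
      (fun a => (c.th (M - a) x + if M - a = 0 then e else 0) * (k a : ZMod 2)),
      if_pos (Finset.mem_range.mpr (Nat.succ_pos M)), Nat.sub_zero]
    have h := congrArg (fun p => Polynomial.coeff p j) (c.bm M x)
    simp only [coeff_add, finsetSum_coeff, coeff_zero, BM.coeff_wt] at h
    have e1 : ∑ a ∈ Finset.range (M + 1), c.th a (s n m (M - a) x) * (k a : ZMod 2) =
        ∑ a ∈ Finset.range (M + 1), (c.th a (s n m (M - a) x) * ((if 2 * (M - a) ≤ j then
          a.choose (j - 2 * (M - a)) else 0 : ℕ) : ZMod 2) +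
          c.th a (s n m (M - a) x) * (BM.cc a j : ZMod 2)) := by
      refine Finset.sum_congr rfl fun a _ => ?_
      rw [hk]; push_cast; ring
    rw [e1]
    have e2 : (c.th M x + if M = 0 then e else 0) * (k 0 : ZMod 2) =
        c.th M x * ((if 2 * M ≤ j then Nat.choose 0 (j - 2 * M) else 0 : ℕ) : ZMod 2) +
          c.th M x * (BM.cc 0 j : ZMod 2) := by
      rw [hk]
      simp only [Nat.sub_zero]
      split_ifs with hM h2
      · subst hM
        have : (2 : ZMod 2) = 0 := by decide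
        have h3 : BM.cc 0 j = Nat.choose 0 (j - 2 * 0) := by simp [BM.cc]
        rw [h3]; push_cast
        linear_combination (e * (Nat.choose 0 (j - 2 * 0) : ZMod 2)) * this
      · exact absurd (by omega) h2
      · push_cast; ring
      · push_cast; ring
    rw [e2]
    exact h

lemma prim (f : DSFacts n m) (hn : 1 ≤ n) : BM.Prim c.SE c.HE where
  zero a := by
    refine LinearMap.ext fun p => ?_
    rw [LinearMap.add_apply, Module.End.mul_apply, Module.End.mul_apply, Module.End.mul_apply,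
      HE_zero_apply, SE_apply, SE_apply, HE_zero_apply, Module.End.natCast_apply]
    refine Prod.ext ?_ ?_
    · show s n m a (del n m 0 p.1) = del n m 0 (s n m a p.1) + a • s n m a p.1
      rw [f.s_del0, nsmul_eq_mul]
    · show c.th a (del n m 0 p.1) + (if a = 0 then (N : ZMod 2) * p.2 else 0) =
        (N : ZMod 2) * (c.th a p.1 + if a = 0 then p.2 else 0) +
          a • (c.th a p.1 + if a = 0 then p.2 else 0)
      rw [c.th_del0 f hn, nsmul_eq_mul]
      split_ifs with h
      · subst h; push_cast; ring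
      · ring
  succ i := rfl

lemma HE_apply (f : DSFacts n m) (hn : 1 ≤ n) {i : ℕ} (hi : i ≤ n) (p : D n × ZMod 2) :
    c.HE (i + 1) p = (del n m (i + 1) p.1, c.ka (i + 1) p.1) := by
  induction i generalizing p with
  | zero =>
    rw [(c.prim f hn).one, SE_apply, if_neg (by norm_num), add_zero, f.del_one]
    rfl
  | succ i ih =>
    rw [HE_succ, LinearMap.add_apply, Module.End.mul_apply, Module.End.mul_apply,
      ih (by omega), ih (by omega), SE_apply, SE_apply, if_neg (by positivity),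
      if_neg (by positivity)]
    refine Prod.ext ?_ ?_
    · show s n m (2 ^ (i + 1)) (del n m (i + 1) p.1) + del n m (i + 1) (s n m (2 ^ (i + 1)) p.1) = _
      exact (f.del_succ hi p.1).symm
    · show c.th (2 ^ (i + 1)) (del n m (i + 1) p.1) + 0 + c.ka (i + 1) (s n m (2 ^ (i + 1)) p.1) = _
      rw [add_zero]
      rfl

/-! ### K1, K2, K3 -/

lemma ka_one : c.ka 1 = c.th 1 := rfl

lemma ka_succ_succ (i : ℕ) (x : D n) : c.ka (i + 2) x =
    c.th (2 ^ (i + 1)) (del n m (i + 1) x) + c.ka (i + 1) (s n m (2 ^ (i + 1)) x) := rfl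

lemma ka_supp (f : DSFacts n m) {i : ℕ} (hi1 : 1 ≤ i) (hi : i ≤ n + 2) (k : ℤ) (x : D n)
    (hx : Hom n k x) (h : k + m * (2 ^ n - 1) + 2 ^ i - 1 ≠ N) : c.ka i x = 0 := by
  induction i generalizing k x with
  | zero => omega
  | succ i ih =>
    rcases i with _ | i
    · rw [show (0 + 1 : ℕ) = 1 from rfl, ka_one]
      refine c.supp 1 k x hx (fun h' => h ?_)
      rw [← h']; push_cast; ring
    · rw [ka_succ_succ, ih (by omega) (by omega) _ _ (s_hom hx m _), add_zero]
      · refine c.supp _ _ _ (f.del_hom (by omega) hx) (fun h' => h ?_)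
        rw [← h']; push_cast; ring
      · intro h'; apply h; rw [← h']; push_cast; ring

/-- K1, general form -/
lemma K1' (f : DSFacts n m) (hn : 1 ≤ n) {a : ℕ} (ha : 1 ≤ a) (x : D n) :
    (a : ZMod 2) * c.th a x = c.ka 1 (s n m (a - 1) x) := by
  have h := congrArg (fun g : Module.End (ZMod 2) (D n × ZMod 2) => (g (x, 0)).2)
    (BM.com c.SE_zero (c.rel f) (c.prim f hn) 0 a)
  simp only [LinearMap.add_apply, Module.End.mul_apply] at h
  rw [pow_zero, BM.sh, if_pos ha, HE_zero_apply, SE_apply, SE_apply, HE_zero_apply, Prod.snd_add,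
    c.HE_apply f hn (Nat.zero_le n), SE_apply] at h
  simp only [mul_zero, zero_add, ite_self, add_zero] at h
  rw [c.th_del0 f hn, add_mul] at h
  exact add_left_cancel h

lemma K1 (f : DSFacts n m) (hn : 1 ≤ n) {a : ℕ} (ha : Odd a) (x : D n) :
    c.th a x = c.ka 1 (s n m (a - 1) x) := by
  rw [← c.K1' f hn ha.pos x]
  obtain ⟨r, rfl⟩ := ha
  push_cast
  have : (2 : ZMod 2) = 0 := by decide
  rw [this]; ring

lemma K1_odd (f : DSFacts n m) (hn : 1 ≤ n) {b : ℕ} (hb : Odd b) (x : D n) :
    c.ka 1 (s n m b x) = 0 := by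
  have h := c.K1' f hn (a := b + 1) (by omega) x
  rw [Nat.add_sub_cancel] at h
  rw [← h]
  obtain ⟨r, rfl⟩ := hb
  push_cast
  have : (2 : ZMod 2) = 0 := by decide
  rw [this]
  linear_combination (c.th (2 * r + 1 + 1) x) * this

lemma K2 (f : DSFacts n m) {i : ℕ} (hi1 : 1 ≤ i) (hi : i ≤ n) {a : ℕ} (ha : 1 ≤ a) (x : D n) :
    c.th a (del n m i x) = c.ka i (s n m a x) +
      (if 2 ^ i ≤ a then c.ka (i + 1) (s n m (a - 2 ^ i) x) else 0) := by
  obtain ⟨i, rfl⟩ : ∃ i', i = i' + 1 := ⟨i - 1, by omega⟩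
  have hn : 1 ≤ n := by omega
  have h := congrArg (fun g : Module.End (ZMod 2) (D n × ZMod 2) => (g (x, 0)).2)
    (BM.com c.SE_zero (c.rel f) (c.prim f hn) (i + 1) a)
  simp only [LinearMap.add_apply, Module.End.mul_apply] at h
  rw [c.HE_apply f hn (by omega), SE_apply, SE_apply, Prod.snd_add, c.HE_apply f hn (by omega),
    if_neg (by omega)] at h
  simp only [add_zero] at h
  rw [h]
  congr 1
  unfold BM.sh
  split_ifs with h2
  · rw [c.HE_apply f hn (by omega), SE_apply]
  · simp

lemma K3 (f : DSFacts n m) {i j : ℕ} (hi1 : 1 ≤ i) (hi : i ≤ n + 1) (hj1 : 1 ≤ j)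
    (hj : j ≤ n + 1) (hn : 1 ≤ n) (x : D n) :
    c.ka i (del n m j x) = c.ka j (del n m i x) := by
  obtain ⟨i, rfl⟩ : ∃ i', i = i' + 1 := ⟨i - 1, by omega⟩
  obtain ⟨j, rfl⟩ : ∃ i', j = i' + 1 := ⟨j - 1, by omega⟩
  have key : c.HE (i + 1) * c.HE (j + 1) = c.HE (j + 1) * c.HE (i + 1) := by
    rcases lt_trichotomy i j with h | h | h
    · exact BM.comm_prim c.SE_zero (c.rel f) (c.prim f hn) j i h
    · rw [h]
    · exact (BM.comm_prim c.SE_zero (c.rel f) (c.prim f hn) i j h).symm
  have h := congrArg (fun g : Module.End (ZMod 2) (D n × ZMod 2) => (g (x, 0)).2) key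
  simp only [Module.End.mul_apply] at h
  rwa [c.HE_apply f hn (by omega), c.HE_apply f hn (by omega), c.HE_apply f hn (by omega),
    c.HE_apply f hn (by omega)] at h

lemma K3_self (f : DSFacts n m) {i : ℕ} (hi1 : 1 ≤ i) (hi : i ≤ n + 1) (hn : 1 ≤ n) (x : D n) :
    c.ka i (del n m i x) = 0 := by
  obtain ⟨i, rfl⟩ : ∃ i', i = i' + 1 := ⟨i - 1, by omega⟩
  have h := congrArg (fun g : Module.End (ZMod 2) (D n × ZMod 2) => (g (x, 0)).2)
    (BM.sq_zero c.SE_zero (c.rel f) (c.prim f hn) i)
  simp only [Module.End.mul_apply] at h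
  rw [c.HE_apply f hn (by omega), c.HE_apply f hn (by omega)] at h
  exact h

/-! ### coboundaries -/

/-- change of the lifts `x ↦ x + l x ι` -/
noncomputable def cob (f : DSFacts n m) (l : D n →ₗ[ZMod 2] ZMod 2)
    (hl : ∀ (k : ℤ) (x : D n), Hom n k x → k + m * (2 ^ n - 1) ≠ N → l x = 0) : Coc n m N where
  th a := c.th a + l.comp (s n m a) + (if a = 0 then l else 0)
  th_zero := by
    refine LinearMap.ext fun x => ?_
    simp only [LinearMap.add_apply, LinearMap.comp_apply, s_zero, c.th_zero, LinearMap.zero_apply,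
      zero_add, if_true]
    exact CharTwo.add_self_eq_zero _
  supp a k x hx h := by
    simp only [LinearMap.add_apply, LinearMap.comp_apply]
    rw [c.supp a k x hx h, hl _ _ (s_hom hx m a) (fun h' => h (by rw [← h']; ring)), zero_add,
      zero_add]
    split_ifs with h0
    · subst h0
      exact hl _ _ hx (fun h' => h (by rw [← h']; push_cast; ring))
    · rfl
  bm M x := by
    have two : (2 : (ZMod 2)[X]) = 0 := CharTwo.two_eq_zero
    simp only [LinearMap.add_apply, LinearMap.comp_apply, C_add, add_mul, Finset.sum_add_distrib]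
    have h1 := c.bm M x
    have h2 : ∑ a ∈ Finset.range (M + 1), C (l (s n m a (s n m (M - a) x))) *
        BM.wt (ZMod 2) a (M - a) = 0 := by
      refine Polynomial.ext fun j => ?_
      rw [finsetSum_coeff, coeff_zero, ← map_zero l, ← f.bm_coeff M j x, map_sum]
      refine Finset.sum_congr rfl fun a _ => ?_
      rw [BM.coeff_wt, ← mul_add, ← Nat.cast_add, ← Nat.cast_add, ← nsmul_eq_mul', ← nsmul_eq_mul',
        map_nsmul]
    have h3 : ∑ a ∈ Finset.range (M + 1), C ((if a = 0 then l else 0) (s n m (M - a) x)) *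
        BM.wt (ZMod 2) a (M - a) = C (l (s n m M x)) * BM.wt (ZMod 2) 0 M := by
      rw [Finset.sum_eq_single 0]
      · rw [if_pos rfl, Nat.sub_zero]
      · intro a _ ha
        rw [if_neg ha, LinearMap.zero_apply, C_0, zero_mul]
      · intro h; exact absurd (Finset.mem_range.mpr (Nat.succ_pos M)) h
    have h4 : C ((if M = 0 then l else 0) x) * BM.wt (ZMod 2) 0 M = 0 := by
      split_ifs with hM
      · subst hM
        have : BM.wt (ZMod 2) 0 0 = 0 := by
          simp only [BM.wt, pow_zero, mul_one, mul_zero]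
          linear_combination two
        rw [this, mul_zero]
      · rw [LinearMap.zero_apply, C_0, zero_mul]
    rw [h2, h3, h4]
    linear_combination h1 + C (l (s n m M x)) * BM.wt (ZMod 2) 0 M * two

variable {c} in
lemma cob_th (f : DSFacts n m) {l : D n →ₗ[ZMod 2] ZMod 2}
    {hl : ∀ (k : ℤ) (x : D n), Hom n k x → k + m * (2 ^ n - 1) ≠ N → l x = 0}
    {a : ℕ} (ha : 1 ≤ a) (x : D n) : (c.cob f l hl).th a x = c.th a x + l (s n m a x) := by
  show (c.th a + l.comp (s n m a) + (if a = 0 then l else 0)) x = _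
  rw [if_neg (by omega), add_zero]
  rfl

variable {c} in
lemma cob_ka (f : DSFacts n m) {l : D n →ₗ[ZMod 2] ZMod 2}
    {hl : ∀ (k : ℤ) (x : D n), Hom n k x → k + m * (2 ^ n - 1) ≠ N → l x = 0}
    {i : ℕ} (hi1 : 1 ≤ i) (hi : i ≤ n + 1) (x : D n) :
    (c.cob f l hl).ka i x = c.ka i x + l (del n m i x) := by
  obtain ⟨i, rfl⟩ : ∃ i', i = i' + 1 := ⟨i - 1, by omega⟩
  induction i generalizing x with
  | zero =>
    rw [show (0 + 1 : ℕ) = 1 from rfl, ka_one, ka_one, cob_th f le_rfl, f.del_one]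
  | succ i ih =>
    rw [ka_succ_succ, ka_succ_succ, cob_th f (Nat.one_le_two_pow), ih _ (by omega) (by omega),
      f.del_succ (i := i + 1) (by omega) x, map_add]
    ring

/-- terms above the degree do not change -/
lemma cob_th_of_lt (f : DSFacts n m) {l : D n →ₗ[ZMod 2] ZMod 2}
    {hl : ∀ (k : ℤ) (x : D n), Hom n k x → k + m * (2 ^ n - 1) ≠ N → l x = 0}
    {a : ℕ} (ha : 1 ≤ a) {k : ℤ} {x : D n} (hx : Hom n k x) (h : k + m * (2 ^ n - 1) < a) :
    (c.cob f l hl).th a x = c.th a x := by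
  rw [cob_th f ha, s_eq_zero hx h, map_zero, add_zero]

/-! ### change of level -/

/-- restriction to `q_0^(m+e) D_n` -/
noncomputable def shift (e : ℕ) : Coc n (m + e) N where
  th a := (c.th a).comp (LinearMap.mulLeft (ZMod 2) (q n 0 ^ e))
  th_zero := by rw [c.th_zero]; rfl
  supp a k x hx h := by
    have hx' : Hom n (e * (2 ^ n - 2 ^ 0) + k) (q n 0 ^ e * x) := ((Hom.q n 0).pow e).mul hx
    refine c.supp a _ _ hx' (fun h' => h ?_)
    rw [← h']; push_cast; ring
  bm M x := by
    have h1 := c.bm M (q n 0 ^ e * x)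
    simp only [s_q0_pow] at h1
    exact h1

lemma shift_th (e a : ℕ) (x : D n) : (c.shift e).th a x = c.th a (q n 0 ^ e * x) := rfl

lemma del_q0_pow (e : ℕ) (f : DSFacts n m) (f' : DSFacts n (m + e)) {i : ℕ} (hi : i ≤ n + 1)
    (hn : 1 ≤ n) (x : D n) : del n m i (q n 0 ^ e * x) = q n 0 ^ e * del n (m + e) i x := by
  induction i generalizing x with
  | zero =>
    refine hom_ind (P := fun x => del n m 0 (q n 0 ^ e * x) = q n 0 ^ e * del n (m + e) 0 x)
      ?_ ?_ ?_ x
    · simp
    · intro x y hx hy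
      rw [mul_add, map_add, map_add, hx, hy, mul_add]
    · intro k x hx
      have hx' : Hom n (e * (2 ^ n - 2 ^ 0) + k) (q n 0 ^ e * x) := ((Hom.q n 0).pow e).mul hx
      rw [f.del0 _ _ hx', f'.del0 _ _ hx]
      have h2 : (2 : D n) = 0 := CharTwo.two_eq_zero
      obtain ⟨n', rfl⟩ : ∃ n', n = n' + 1 := ⟨n - 1, by omega⟩
      push_cast
      rw [pow_succ]
      linear_combination ((e : D (n' + 1)) * 2 ^ n' - e) * (q (n' + 1) 0 ^ e * x) * h2
  | succ i ih =>
    rw [f.del_succ (by omega), f'.del_succ (by omega), ih (by omega), s_q0_pow, s_q0_pow,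
      ih (by omega), mul_add]

lemma shift_ka (e : ℕ) (f : DSFacts n m) (f' : DSFacts n (m + e)) (hn : 1 ≤ n) {i : ℕ}
    (hi1 : 1 ≤ i) (hi : i ≤ n + 2) (x : D n) : (c.shift e).ka i x = c.ka i (q n 0 ^ e * x) := by
  obtain ⟨i, rfl⟩ : ∃ i', i = i' + 1 := ⟨i - 1, by omega⟩
  induction i generalizing x with
  | zero => rfl
  | succ i ih =>
    rw [ka_succ_succ, ka_succ_succ, ih _ (by omega) (by omega), shift_th, s_q0_pow,
      del_q0_pow e f f' (by omega) hn]

/-! ### Adem relations -/

/-- `C(M,2) Sq^M + Sq^(M-1) Sq^1 + Sq^1 Sq^(M-1) + Sq^2 Sq^(M-2) = 0` on the extension -/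
lemma adem_two {M : ℕ} (hM : 3 ≤ M) (x : D n) :
    (M.choose 2 : ZMod 2) * c.th M x + c.th (M - 1) (s n m 1 x) + c.th 1 (s n m (M - 1) x) +
      c.th 2 (s n m (M - 2) x) = 0 := by
  have h := congrArg (fun p => Polynomial.coeff p 2) (c.bm M x)
  simp only [coeff_add, finsetSum_coeff, coeff_zero, BM.coeff_wt] at h
  have e0 : c.th M x * ((if 2 * M ≤ 2 then Nat.choose 0 (2 - 2 * M) else 0 : ℕ) : ZMod 2) +
      c.th M x * (BM.cc 0 2 : ZMod 2) = 0 := by
    rw [if_neg (by omega)]
    simp [BM.cc]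
  rw [e0, add_zero] at h
  rw [Finset.sum_range_succ, Finset.sum_add_distrib] at h
  obtain ⟨r, rfl⟩ : ∃ r, M = r + 3 := ⟨M - 3, by omega⟩
  have e1 : ∑ a ∈ Finset.range (r + 3), c.th a (s n m (r + 3 - a) x) *
      ((if 2 * (r + 3 - a) ≤ 2 then a.choose (2 - 2 * (r + 3 - a)) else 0 : ℕ) : ZMod 2) =
      c.th (r + 2) (s n m 1 x) := by
    rw [Finset.sum_eq_single (r + 2)]
    · rw [show r + 3 - (r + 2) = 1 by omega, if_pos (by norm_num)]
      simp
    · intro a ha hne
      have := Finset.mem_range.mp ha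
      rw [if_neg (by omega)]; simp
    · intro h'; exact absurd (Finset.mem_range.mpr (by omega)) h'
  have e2 : ∑ a ∈ Finset.range (r + 3), c.th a (s n m (r + 3 - a) x) * (BM.cc a 2 : ZMod 2) =
      c.th 1 (s n m (r + 2) x) + c.th 2 (s n m (r + 1) x) := by
    have hsub : Finset.range 3 ⊆ Finset.range (r + 3) := Finset.range_mono (by omega)
    rw [← Finset.sum_subset hsub]
    · rw [Finset.sum_range_succ, Finset.sum_range_succ, Finset.sum_range_succ,
        Finset.sum_range_zero]
      simp [BM.cc, c.th_zero, show r + 3 - 1 = r + 2 by omega, show r + 3 - 2 = r + 1 by omega]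
    · intro a _ ha
      have : ¬ a < 3 := fun h' => ha (Finset.mem_range.mpr h')
      rw [BM.cc_lt (by omega)]; simp
  rw [e1, e2] at h
  simp only [Nat.sub_self, mul_zero, Nat.zero_le, if_true, Nat.sub_zero, s_zero] at h
  rw [BM.cc_lt (by omega : 2 < r + 3)] at h
  simp only [Nat.cast_zero, mul_zero, add_zero] at h
  rw [show r + 3 - 1 = r + 2 by omega, show r + 3 - 2 = r + 1 by omega]
  linear_combination h

lemma th_one_even (f : DSFacts n m) (hn : 1 ≤ n) {b : ℕ} (hb : Odd b) (x : D n) :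
    c.th 1 (s n m b x) = 0 := c.K1_odd f hn hb x

/-- `th_M(x) = th_(M-1)(Sq^1 x) + th_2(Sq^(M-2) x)` for `M = 2 mod 4` -/
lemma adem_mod4 (f : DSFacts n m) (hn : 1 ≤ n) {M : ℕ} (hM : 3 ≤ M) (h4 : M % 4 = 2) (x : D n) :
    c.th M x = c.th (M - 1) (s n m 1 x) + c.th 2 (s n m (M - 2) x) := by
  have h := c.adem_two hM x
  rw [c.th_one_even f hn (b := M - 1) ⟨(M - 2) / 2, by omega⟩, add_zero] at h
  have h2 : (M.choose 2 : ZMod 2) = 1 := by
    obtain ⟨r, rfl⟩ : ∃ r, M = 4 * r + 2 := ⟨M / 4, by omega⟩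
    rw [Nat.choose_two_right, show (4 * r + 2) * (4 * r + 2 - 1) = 2 * ((2 * r + 1) * (4 * r + 1)) by
      rw [show 4 * r + 2 - 1 = 4 * r + 1 by omega]; ring, Nat.mul_div_cancel_left _ (by norm_num)]
    push_cast
    have : (4 : ZMod 2) = 0 := by decide
    have h2 : (2 : ZMod 2) = 0 := by decide
    rw [this, h2]; ring
  rw [h2, one_mul] at h
  have two : (2 : ZMod 2) = 0 := by decide
  linear_combination h - (c.th (M - 1) (s n m 1 x) + c.th 2 (s n m (M - 2) x)) * two

/-- `th_2(Sq^2 x) = th_3(Sq^1 x)` -/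
lemma adem_22 (f : DSFacts n m) (hn : 1 ≤ n) (x : D n) :
    c.th 2 (s n m 2 x) = c.th 3 (s n m 1 x) := by
  have h := c.adem_two (M := 4) (by norm_num) x
  rw [c.th_one_even f hn (b := 4 - 1) ⟨1, by norm_num⟩, add_zero] at h
  have h2 : ((4 : ℕ).choose 2 : ZMod 2) = 0 := by decide
  rw [h2, zero_mul, zero_add] at h
  have two : (2 : ZMod 2) = 0 := by decide
  simp only [show 4 - 1 = 3 from rfl, show 4 - 2 = 2 from rfl] at h
  linear_combination h - (c.th 3 (s n m 1 x)) * two

end Coc

end Vale.Agent.P263.EX
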