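import Vale.Agent.P263.EX.DSDefs
import Vale.Agent.P263.EX.BM

/-!
P263, block CO, definitions: cocycles of level `m` and degree `N` on the Dickson algebra `D n`.
A cocycle is an extension `E = q_0^m D_n + F_2 ι`, `|ι| = N`, of modules over the Steenrod algebra
(in Bullett-Macdonald form): `Sq^a x = s n m a x + th a x ι`.
-/

namespace Vale.Agent.P263.EX

open Polynomial Vale.Agent.P263.LZ Vale.Agent.P263.EX.DS

/-- A cocycle of level `m` and degree `N` on `D n`. -/
structure Coc (n m N : ℕ) where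
  /-- the `ι`-component of `Sq^a` -/
  th : ℕ → D n →ₗ[ZMod 2] ZMod 2
  th_zero : th 0 = 0
  /-- `th a x` vanishes unless `|x|_m + a = N` -/
  supp : ∀ (a : ℕ) (k : ℤ) (x : D n), Hom n k x → k + m * (2 ^ n - 1) + a ≠ N → th a x = 0
  /-- the Bullett-Macdonald relations -/
  bm : ∀ (M : ℕ) (x : D n),
    ∑ a ∈ Finset.range (M + 1), C (th a (s n m (M - a) x)) * BM.wt (ZMod 2) a (M - a)
      + C (th M x) * BM.wt (ZMod 2) 0 M = 0

namespace Coc

variable {n m N : ℕ} (c : Coc n m N)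

/-- `ka i` is the `ι`-component of the Milnor primitive `h i = [Sq^(2^(i-1)), h (i-1)]`, `i ≥ 1`:
`ka 1 = th 1` and `ka (i+1) x = th (2^i) (del i x) + ka i (s (2^i) x)` for `i ≥ 1`. -/
noncomputable def ka : ℕ → D n →ₗ[ZMod 2] ZMod 2
  | 0 => 0
  | 1 => c.th 1
  | (i+2) => (c.th (2 ^ (i+1))).comp (del n m (i+1)) + (ka (i+1)).comp (s n m (2 ^ (i+1)))

/-- the total value `Σ_a th_a(x)` (`th a = 0` for `a > N` by the support condition) -/
noncomputable def TH : D n →ₗ[ZMod 2] ZMod 2 := ∑ a ∈ Finset.range (N + 1), c.th a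

end Coc

end Vale.Agent.P263.EX
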