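import Vale.Agent.P263.EX.DS1

/-! P263, block DS, part 2: Milnor primitives. -/

namespace Vale.Agent.P263.EX.DS

open Polynomial Vale.Agent.P263.LZ

/-- apply a linear map to all coefficients -/
noncomputable def cw {n : ℕ} (L : D n →ₗ[ZMod 2] D n) (p : (D n)[X]) : (D n)[X] :=
  p.sum fun a c => monomial a (L c)

lemma coeff_cw {n : ℕ} (L : D n →ₗ[ZMod 2] D n) (p : (D n)[X]) (a : ℕ) :
    (cw L p).coeff a = L (p.coeff a) := by
  rw [cw, Polynomial.sum, finsetSum_coeff]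
  simp only [coeff_monomial]
  rw [Finset.sum_ite_eq' p.support a (fun b => L (p.coeff b))]
  split_ifs with h
  · rfl
  · rw [notMem_support_iff.mp h, map_zero]

lemma cw_add {n : ℕ} (L : D n →ₗ[ZMod 2] D n) (p r : (D n)[X]) : cw L (p + r) = cw L p + cw L r := by
  ext a : 1; simp only [coeff_cw, coeff_add, map_add]

lemma cw_zero {n : ℕ} (L : D n →ₗ[ZMod 2] D n) : cw L 0 = 0 := by
  ext a : 1; simp only [coeff_cw, coeff_zero, map_zero]

lemma cw_sum {n : ℕ} (L : D n →ₗ[ZMod 2] D n) {ι : Type*} (t : Finset ι) (f : ι → (D n)[X]) :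
    cw L (∑ i ∈ t, f i) = ∑ i ∈ t, cw L (f i) := by
  ext a : 1; simp only [coeff_cw, finsetSum_coeff, map_sum]

lemma cw_add_left {n : ℕ} (L L' : D n →ₗ[ZMod 2] D n) (p : (D n)[X]) :
    cw (L + L') p = cw L p + cw L' p := by
  ext a : 1; simp only [coeff_cw, coeff_add, LinearMap.add_apply]

lemma cw_mulLeft {n : ℕ} (y : D n) (p : (D n)[X]) :
    cw (LinearMap.mulLeft (ZMod 2) y) p = C y * p := by
  ext a : 1; simp only [coeff_cw, coeff_C_mul, LinearMap.mulLeft_apply]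

lemma cw_C {n : ℕ} (L : D n →ₗ[ZMod 2] D n) (y : D n) : cw L (C y) = C (L y) := by
  ext a : 1
  rw [coeff_cw, coeff_C, coeff_C]; split_ifs
  · rfl
  · exact map_zero _

lemma cw_C_mul_X_pow {n : ℕ} (L : D n →ₗ[ZMod 2] D n) (y : D n) (k : ℕ) :
    cw L (C y * X ^ k) = C (L y) * X ^ k := by
  ext a : 1
  rw [coeff_cw, coeff_C_mul_X_pow, coeff_C_mul_X_pow]; split_ifs
  · rfl
  · exact map_zero _

lemma cw_X_pow_mul {n : ℕ} (L : D n →ₗ[ZMod 2] D n) (p : (D n)[X]) (k : ℕ) :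
    cw L (X ^ k * p) = X ^ k * cw L p := by
  ext a : 1
  rw [coeff_cw, coeff_X_pow_mul', coeff_X_pow_mul']; split_ifs
  · rw [coeff_cw]
  · exact map_zero _

lemma cw_comp {n : ℕ} (L L' : D n →ₗ[ZMod 2] D n) (p : (D n)[X]) :
    cw (L.comp L') p = cw L (cw L' p) := by
  ext a : 1; simp only [coeff_cw, LinearMap.comp_apply]

/-- coefficientwise derivation -/
noncomputable def cd {n : ℕ} (δ : Derivation (ZMod 2) (D n) (D n)) (p : (D n)[X]) : (D n)[X] :=
  cw δ.toLinearMap p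

lemma coeff_cd {n : ℕ} (δ : Derivation (ZMod 2) (D n) (D n)) (p : (D n)[X]) (a : ℕ) :
    (cd δ p).coeff a = δ (p.coeff a) := coeff_cw _ _ _

lemma cd_mul {n : ℕ} (δ : Derivation (ZMod 2) (D n) (D n)) (p r : (D n)[X]) :
    cd δ (p * r) = cd δ p * r + p * cd δ r := by
  ext a : 1
  rw [coeff_cd, coeff_add, coeff_mul, coeff_mul, coeff_mul, map_sum, ← Finset.sum_add_distrib]
  refine Finset.sum_congr rfl fun x _ => ?_
  rw [coeff_cd, coeff_cd, Derivation.leibniz, smul_eq_mul, smul_eq_mul]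
  ring

lemma cd_add {n : ℕ} (δ : Derivation (ZMod 2) (D n) (D n)) (p r : (D n)[X]) :
    cd δ (p + r) = cd δ p + cd δ r := cw_add _ _ _

lemma cd_one {n : ℕ} (δ : Derivation (ZMod 2) (D n) (D n)) : cd δ 1 = 0 := by
  ext a : 1
  rw [coeff_cd, coeff_one, coeff_zero]
  split_ifs
  · exact Derivation.map_one_eq_zero _
  · exact map_zero _

lemma cd_sq {n : ℕ} (δ : Derivation (ZMod 2) (D n) (D n)) (p : (D n)[X]) : cd δ (p ^ 2) = 0 := by
  rw [pow_two, cd_mul, mul_comm]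
  exact CharTwo.add_self_eq_zero _

lemma cd_C_mul_X_pow {n : ℕ} (δ : Derivation (ZMod 2) (D n) (D n)) (y : D n) (k : ℕ) :
    cd δ (C y * X ^ k) = C (δ y) * X ^ k := cw_C_mul_X_pow _ _ _

lemma cd_X_pow_mul {n : ℕ} (δ : Derivation (ZMod 2) (D n) (D n)) (p : (D n)[X]) (k : ℕ) :
    cd δ (X ^ k * p) = X ^ k * cd δ p := cw_X_pow_mul _ _ _

lemma cd_C {n : ℕ} (δ : Derivation (ZMod 2) (D n) (D n)) (y : D n) : cd δ (C y) = C (δ y) := cw_C _ _

lemma der_sq {n : ℕ} (δ : Derivation (ZMod 2) (D n) (D n)) (y : D n) : δ (y ^ 2) = 0 := by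
  rw [pow_two, Derivation.leibniz]
  exact CharTwo.add_self_eq_zero _

/-! ### the derivations `d n i` on the generators -/

lemma pd_gen {n : ℕ} (i j : Fin n) : pd n i (gen j) = if i = j then 1 else 0 := by
  split_ifs with h
  · subst h; exact MvPolynomial.pderiv_X_self i
  · exact MvPolynomial.pderiv_X_of_ne (Ne.symm h)

lemma der_sum {n : ℕ} {ι : Type*} (t : Finset ι) (δ : ι → Derivation (ZMod 2) (D n) (D n))
    (x : D n) : (∑ i ∈ t, δ i) x = ∑ i ∈ t, δ i x := by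
  classical
  induction t using Finset.induction_on with
  | empty => rw [Finset.sum_empty, Finset.sum_empty]; rfl
  | insert a t ha ih => rw [Finset.sum_insert ha, Finset.sum_insert ha, Derivation.add_apply, ih]

lemma pdn_q {n i j : ℕ} (hi : i < n) (hj : j < n) : pdn n i (q n j) = if i = j then 1 else 0 := by
  rw [pdn, dif_pos hi, q_lt hj, pd_gen]
  simp only [Fin.mk.injEq]

lemma eul_gen {n : ℕ} (j : Fin n) : eul n (gen j) = gen j := by
  rw [eul, der_sum, Finset.sum_eq_single j]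
  · rw [Derivation.smul_apply, pd_gen, if_pos rfl, smul_eq_mul, mul_one]
  · intro i _ hi
    rw [Derivation.smul_apply, pd_gen, if_neg hi, smul_zero]
  · intro h; exact absurd (Finset.mem_univ _) h

lemma d_lt {n i : ℕ} (hi : i < n) (x : D n) : d n i x = q n 0 * pdn n i x := by
  rw [d, if_neg (by omega), d0, if_neg (by omega), Derivation.smul_apply, smul_eq_mul]

lemma d_self (n : ℕ) (x : D n) : d n n x = q n 0 * eul n x := by
  rw [d, if_neg (by omega), d0, if_pos rfl, Derivation.smul_apply, smul_eq_mul]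

lemma d_succ (n : ℕ) (x : D n) :
    d n (n + 1) x = ∑ j ∈ Finset.range n, q n j ^ 2 * d n (j + 1) x := by
  rw [d, if_pos rfl, der_sum]
  refine Finset.sum_congr rfl fun j hj => ?_
  rw [d, if_neg (by simp at hj; omega), Derivation.smul_apply, smul_eq_mul]

lemma d_lt_q {n i j : ℕ} (hi : i < n) (hj : j < n) : d n i (q n j) = if i = j then q n 0 else 0 := by
  rw [d_lt hi, pdn_q hi hj]; split_ifs <;> simp

lemma d_self_q {n j : ℕ} (hj : j < n) : d n n (q n j) = q n 0 * q n j := by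
  rw [d_self, q_lt hj, eul_gen]

lemma d_one (n i : ℕ) : d n i 1 = 0 := Derivation.map_one_eq_zero _

lemma d_q_self (n i : ℕ) : d n i (q n n) = 0 := by rw [q_self, d_one]


/-! ### `cd (d i)` of `A_j`, `B_j` and `P` -/

lemma cd_sum {n : ℕ} (δ : Derivation (ZMod 2) (D n) (D n)) {ι : Type*} (t : Finset ι)
    (f : ι → (D n)[X]) : cd δ (∑ i ∈ t, f i) = ∑ i ∈ t, cd δ (f i) := cw_sum _ _ _

lemma cd_d_A_lt {n i j : ℕ} (hi : i < n) (hj : j < n) :
    cd (d n i) (A n j) = if i ≤ j then C (q n 0) * X ^ (2 ^ j - 2 ^ i) else 0 := by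
  rw [A, cd_sum]
  have : ∀ l ∈ Finset.range (j + 1), cd (d n i) (C (q n l) * X ^ (2 ^ j - 2 ^ l)) =
      if i = l then C (q n 0) * X ^ (2 ^ j - 2 ^ i) else 0 := by
    intro l hl
    rw [cd_C_mul_X_pow, d_lt_q hi (by simp at hl; omega)]
    split_ifs with h
    · rw [h]
    · rw [C_0, zero_mul]
  rw [Finset.sum_congr rfl this, Finset.sum_ite_eq]
  simp only [Finset.mem_range]
  split_ifs <;> first | rfl | omega

lemma cd_d_B_lt {n i j : ℕ} (hi : i < n) :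
    cd (d n i) (B n j) = if j < i then C (q n 0) * X ^ (2 ^ n - 2 ^ i) else 0 := by
  rw [B, cd_sum]
  have : ∀ l ∈ Finset.Ioc j n, cd (d n i) (C (q n l) * X ^ (2 ^ n - 2 ^ l)) =
      if i = l then C (q n 0) * X ^ (2 ^ n - 2 ^ i) else 0 := by
    intro l hl
    simp only [Finset.mem_Ioc] at hl
    rcases hl.2.lt_or_eq with h1 | h1
    · rw [cd_C_mul_X_pow, d_lt_q hi h1]
      split_ifs with h
      · rw [h]
      · rw [C_0, zero_mul]
    · rw [h1, cd_C_mul_X_pow, d_q_self, if_neg (by omega), C_0, zero_mul]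
  rw [Finset.sum_congr rfl this, Finset.sum_ite_eq]
  simp only [Finset.mem_Ioc]
  split_ifs <;> first | rfl | omega

lemma cd_d_A_self {n j : ℕ} (hj : j < n) : cd (d n n) (A n j) = C (q n 0) * A n j := by
  rw [A, cd_sum, Finset.mul_sum]
  refine Finset.sum_congr rfl fun l hl => ?_
  rw [cd_C_mul_X_pow, d_self_q (by simp at hl; omega), C_mul]; ring

lemma cd_d_B_self {n j : ℕ} (hj : j < n) : cd (d n n) (B n j) = C (q n 0) * (B n j + 1) := by
  have h1 : Finset.Ioc j n = insert n (Finset.Ioo j n) := by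
    ext a; simp only [Finset.mem_insert, Finset.mem_Ioc, Finset.mem_Ioo]; omega
  have h2 : B n j = 1 + ∑ l ∈ Finset.Ioo j n, C (q n l) * X ^ (2 ^ n - 2 ^ l) := by
    rw [B, h1, Finset.sum_insert (by simp), q_self, Nat.sub_self, C_1, pow_zero, one_mul]
  have h3 : B n j + 1 = ∑ l ∈ Finset.Ioo j n, C (q n l) * X ^ (2 ^ n - 2 ^ l) := by
    rw [h2, add_comm, ← add_assoc, CharTwo.add_self_eq_zero, zero_add]
  rw [h3, h2, cd_add, cd_one, zero_add, cd_sum, Finset.mul_sum]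
  refine Finset.sum_congr rfl fun l hl => ?_
  rw [cd_C_mul_X_pow, d_self_q (by simp at hl; omega), C_mul]; ring

/-- `i ≤ j` -/
lemma cd_AB_lo {n i j : ℕ} (hi : i ≤ j) (hj : j < n) :
    cd (d n i) (A n j * B n j) = C (q n 0) * X ^ (2 ^ j - 2 ^ i) * B n j := by
  rw [cd_mul, cd_d_A_lt (by omega) hj, cd_d_B_lt (by omega), if_pos hi, if_neg (by omega),
    mul_zero, add_zero]

/-- `j < i ≤ n` -/
lemma cd_AB_hi {n i j : ℕ} (hi : j < i) (hin : i ≤ n) :
    cd (d n i) (A n j * B n j) = C (q n 0) * X ^ (2 ^ n - 2 ^ i) * A n j := by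
  rcases hin.lt_or_eq with h | rfl
  · rw [cd_mul, cd_d_A_lt h (by omega), cd_d_B_lt h, if_pos hi, if_neg (by omega), zero_mul, zero_add]
    ring
  · rw [cd_mul, cd_d_A_self (by omega), cd_d_B_self (by omega), Nat.sub_self, pow_zero]
    have := two' i
    linear_combination (C (q i 0) * A i j * B i j) * this

lemma cd_P_q {n i j : ℕ} (hj : j < n) : cd (d n i) (P n (q n j)) = cd (d n i) (A n j * B n j) := by
  rw [P_q hj.le, cd_add, cd_C_mul_X_pow, der_sq, C_0, zero_mul, zero_add]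

lemma cd_succ {n : ℕ} (p : (D n)[X]) :
    cd (d n (n + 1)) p = ∑ l ∈ Finset.range n, C (q n l ^ 2) * cd (d n (l + 1)) p := by
  ext a : 1
  rw [coeff_cd, d_succ, finsetSum_coeff]
  refine Finset.sum_congr rfl fun l _ => ?_
  rw [coeff_C_mul, coeff_cd]

lemma A_sq (n j : ℕ) :
    A n j ^ 2 = C (q n j ^ 2) +
      X ^ 2 ^ j * ∑ l ∈ Finset.range j, C (q n l ^ 2) * X ^ (2 ^ j - 2 ^ (l + 1)) := by
  unfold A
  rw [CharTwo.sum_sq, Finset.sum_range_succ, Nat.sub_self, pow_zero, mul_one, ← C_pow]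
  have : ∑ l ∈ Finset.range j, (C (q n l) * X ^ (2 ^ j - 2 ^ l)) ^ 2 =
      X ^ 2 ^ j * ∑ l ∈ Finset.range j, C (q n l ^ 2) * X ^ (2 ^ j - 2 ^ (l + 1)) := by
    rw [Finset.mul_sum]
    refine Finset.sum_congr rfl fun l hl => ?_
    have h2 : 2 ^ (l + 1) ≤ 2 ^ j := Nat.pow_le_pow_right (by norm_num) (by simp at hl; omega)
    have h3 : (2 ^ j - 2 ^ l) * 2 = 2 ^ j + (2 ^ j - 2 ^ (l + 1)) := by rw [pow_succ] at *; omega
    rw [mul_pow, ← pow_mul, h3, pow_add, C_pow]; ring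
  rw [this, add_comm]

lemma B_sq {n j : ℕ} (hj : j < n) :
    X ^ (2 * (2 ^ n - 2 ^ j)) * C (q n j ^ 2) + B n j ^ 2 + 1 =
      X ^ 2 ^ n * ∑ l ∈ Finset.Ico j n, C (q n l ^ 2) * X ^ (2 ^ n - 2 ^ (l + 1)) := by
  have h0 : ∀ l ≤ n, l + 1 ≤ n → (X : (D n)[X]) ^ 2 ^ n * (C (q n l ^ 2) * X ^ (2 ^ n - 2 ^ (l + 1))) =
      (C (q n l) * X ^ (2 ^ n - 2 ^ l)) ^ 2 := by
    intro l _ hl
    have h2 : 2 ^ (l + 1) ≤ 2 ^ n := Nat.pow_le_pow_right (by norm_num) hl
    have h3 : (2 ^ n - 2 ^ l) * 2 = 2 ^ n + (2 ^ n - 2 ^ (l + 1)) := by rw [pow_succ] at *; omega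
    rw [mul_pow, ← pow_mul, h3, pow_add, C_pow]; ring
  have h1 : Finset.Ioc j n = insert n (Finset.Ioo j n) := by
    ext a; simp only [Finset.mem_insert, Finset.mem_Ioc, Finset.mem_Ioo]; omega
  have h1' : Finset.Ico j n = insert j (Finset.Ioo j n) := by
    ext a; simp only [Finset.mem_insert, Finset.mem_Ico, Finset.mem_Ioo]; omega
  have h2 : B n j = 1 + ∑ l ∈ Finset.Ioo j n, C (q n l) * X ^ (2 ^ n - 2 ^ l) := by
    rw [B, h1, Finset.sum_insert (by simp), q_self, Nat.sub_self, C_1, pow_zero, one_mul]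
  have h3 : B n j ^ 2 = 1 + ∑ l ∈ Finset.Ioo j n, (C (q n l) * X ^ (2 ^ n - 2 ^ l)) ^ 2 := by
    rw [h2, CharTwo.add_sq, one_pow, CharTwo.sum_sq]
  rw [Finset.mul_sum, h1', Finset.sum_insert (by simp), h0 j hj.le hj, h3]
  have h4 : ∑ l ∈ Finset.Ioo j n, (X : (D n)[X]) ^ 2 ^ n * (C (q n l ^ 2) * X ^ (2 ^ n - 2 ^ (l + 1))) =
      ∑ l ∈ Finset.Ioo j n, (C (q n l) * X ^ (2 ^ n - 2 ^ l)) ^ 2 := by
    refine Finset.sum_congr rfl fun l hl => ?_
    simp only [Finset.mem_Ioo] at hl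
    exact h0 l hl.2.le hl.2
  rw [h4, mul_pow, ← pow_mul, C_pow, mul_comm (2 ^ n - 2 ^ j) 2]
  have := two' n
  linear_combination this

lemma cd_succ_P_q {n j : ℕ} (hj : j < n) : cd (d n (n + 1)) (P n (q n j)) =
    C (q n 0) * (B n j * ∑ l ∈ Finset.range j, C (q n l ^ 2) * X ^ (2 ^ j - 2 ^ (l + 1)) +
      A n j * ∑ l ∈ Finset.Ico j n, C (q n l ^ 2) * X ^ (2 ^ n - 2 ^ (l + 1))) := by
  have h1 : ∑ l ∈ Finset.range j, C (q n l ^ 2) * cd (d n (l + 1)) (P n (q n j)) =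
      C (q n 0) * (B n j * ∑ l ∈ Finset.range j, C (q n l ^ 2) * X ^ (2 ^ j - 2 ^ (l + 1))) := by
    rw [Finset.mul_sum, Finset.mul_sum]
    refine Finset.sum_congr rfl fun l hl => ?_
    simp only [Finset.mem_range] at hl
    rw [cd_P_q hj, cd_AB_lo (by omega) hj]; ring
  have h2 : ∑ l ∈ Finset.Ico j n, C (q n l ^ 2) * cd (d n (l + 1)) (P n (q n j)) =
      C (q n 0) * (A n j * ∑ l ∈ Finset.Ico j n, C (q n l ^ 2) * X ^ (2 ^ n - 2 ^ (l + 1))) := by
    rw [Finset.mul_sum, Finset.mul_sum]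
    refine Finset.sum_congr rfl fun l hl => ?_
    simp only [Finset.mem_Ico] at hl
    rw [cd_P_q hj, cd_AB_hi (by omega) (by omega)]; ring
  rw [cd_succ, mul_add, ← h1, ← h2, Finset.sum_range_add_sum_Ico _ hj.le]

lemma key_alg {R : Type*} [CommRing R] (h2 : (2 : R) = 0) (a b y t Q S1 S2 c0 : R)
    (hA : a ^ 2 = Q + t * S1) (hB : y * y * Q + b ^ 2 + 1 = y * t * S2) :
    c0 * (b + y * a) * (Q * y + a * b) = c0 * 1 * a + y * t * (c0 * (b * S1 + a * S2)) := by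
  linear_combination c0 * y * b * hA + c0 * a * hB + (c0 * b * Q * y - c0 * a) * h2

/-- The commutation of the Milnor primitives with the total square, on the generators. -/
lemma P_d_q_self {n j : ℕ} (hj : j < n) :
    P n (d n n (q n j)) = cd (d n n) (P n (q n j)) + X ^ (2 ^ n) * cd (d n (n + 1)) (P n (q n j)) := by
  have hY : (X : (D n)[X]) ^ 2 ^ n = X ^ (2 ^ n - 2 ^ j) * X ^ 2 ^ j := by
    have : 2 ^ j ≤ 2 ^ n := Nat.pow_le_pow_right (by norm_num) hj.le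
    rw [← pow_add]; congr 1; omega
  have hB := B_sq hj
  rw [two_mul, pow_add, hY] at hB
  rw [cd_succ_P_q hj, cd_P_q hj, cd_AB_hi hj le_rfl, d_self_q hj, map_mul, P_q0, P_q hj.le,
    F_eq hj.le, Nat.sub_self, pow_zero, hY]
  exact key_alg (two' n) _ _ _ _ _ _ _ _ (A_sq n j) hB

lemma P_d_q_lt {n i j : ℕ} (hi : i < n) (hj : j < n) :
    P n (d n i (q n j)) = cd (d n i) (P n (q n j)) + X ^ (2 ^ i) * cd (d n (i + 1)) (P n (q n j)) := by
  rw [cd_P_q hj, cd_P_q hj, d_lt_q hi hj]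
  rcases lt_trichotomy i j with h | h | h
  · rw [if_neg (by omega), map_zero, cd_AB_lo h.le hj, cd_AB_lo (by omega : i + 1 ≤ j) hj]
    have h2 : 2 ^ (i + 1) ≤ 2 ^ j := Nat.pow_le_pow_right (by norm_num) h
    have h3 : 2 ^ j - 2 ^ i = 2 ^ i + (2 ^ j - 2 ^ (i + 1)) := by rw [pow_succ] at *; omega
    rw [h3, pow_add]
    have := two' n
    linear_combination (-(C (q n 0) * X ^ 2 ^ i * X ^ (2 ^ j - 2 ^ (i + 1)) * B n j)) * this
  · subst h
    rw [if_pos rfl, P_q0, cd_AB_lo le_rfl hj, cd_AB_hi (by omega) (by omega), F_eq hj.le,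
      Nat.sub_self, pow_zero]
    have h2 : 2 ^ (i + 1) ≤ 2 ^ n := Nat.pow_le_pow_right (by norm_num) (by omega)
    have h3 : 2 ^ n - 2 ^ i = 2 ^ i + (2 ^ n - 2 ^ (i + 1)) := by rw [pow_succ] at *; omega
    rw [h3, pow_add]; ring
  · rw [if_neg (by omega), map_zero, cd_AB_hi h hi.le, cd_AB_hi (by omega) (by omega)]
    have h2 : 2 ^ (i + 1) ≤ 2 ^ n := Nat.pow_le_pow_right (by norm_num) (by omega)
    have h3 : 2 ^ n - 2 ^ i = 2 ^ i + (2 ^ n - 2 ^ (i + 1)) := by rw [pow_succ] at *; omega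
    rw [h3, pow_add]
    have := two' n
    linear_combination (-(C (q n 0) * X ^ 2 ^ i * X ^ (2 ^ n - 2 ^ (i + 1)) * A n j)) * this

/-- `P δ_i = (δ_i + x^(2^i) δ_(i+1)) P` at level `0`. -/
lemma P_d {n i : ℕ} (hin : i ≤ n) (x : D n) :
    P n (d n i x) = cd (d n i) (P n x) + X ^ (2 ^ i) * cd (d n (i + 1)) (P n x) := by
  refine D_induction (P := fun x => P n (d n i x) =
    cd (d n i) (P n x) + X ^ (2 ^ i) * cd (d n (i + 1)) (P n x)) ?_ ?_ ?_ ?_ x
  · simp only [map_zero, cd, cw_zero, mul_zero, add_zero]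
  · rw [d_one, map_zero, map_one, cd_one, cd_one, mul_zero, add_zero]
  · intro x y hx hy
    rw [map_add, map_add, map_add, cd_add, cd_add, hx, hy]; ring
  · intro x j hx
    have hg : P n (d n i (gen j)) =
        cd (d n i) (P n (gen j)) + X ^ (2 ^ i) * cd (d n (i + 1)) (P n (gen j)) := by
      rw [gen_eq]
      rcases hin.lt_or_eq with hi | rfl
      · exact P_d_q_lt hi j.2
      · exact P_d_q_self j.2
    rw [Derivation.leibniz, smul_eq_mul, smul_eq_mul, map_add, map_mul, map_mul, map_mul, hx, hg,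
      cd_mul, cd_mul]
    ring

end Vale.Agent.P263.EX.DS
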