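import Vale.Agent.P263.EX.DS2

/-! P263, block DS, part 3: Milnor primitives at level `m`. -/

namespace Vale.Agent.P263.EX.DS

open Polynomial Vale.Agent.P263.LZ

lemma q0_ne (n : ℕ) : (q n 0 : D n) ≠ 0 := by
  rcases Nat.eq_zero_or_pos n with h | h
  · subst h; rw [q_self]; exact one_ne_zero
  · rw [q_lt h]
    exact MvPolynomial.X_ne_zero (R := ZMod 2) _

lemma d_q0 {n i : ℕ} (hn : 1 ≤ n) (hi : i ≤ n + 1) : d n i (q n 0) = c n i * q n 0 := by
  rcases lt_trichotomy i n with h | h | h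
  · rw [d_lt_q h hn]
    unfold c
    split_ifs with h1 h2 h3 <;> first | omega | simp
  · subst h
    rw [d_self_q hn, c, if_neg (by omega), if_pos rfl]
  · have h' : i = n + 1 := by omega
    subst h'
    rw [d_succ, c, if_neg (by omega), if_neg (by omega), if_pos rfl,
      Finset.sum_eq_single (n - 1)]
    · rw [show n - 1 + 1 = n by omega, d_self_q hn]; ring
    · intro j hj hj'
      simp only [Finset.mem_range] at hj
      rw [d_lt_q (by omega) hn, if_neg (by omega), mul_zero]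
    · intro h; exact absurd (by simp; omega) h

lemma d_mul (n i : ℕ) (x y : D n) : d n i (x * y) = d n i x * y + x * d n i y := by
  rw [Derivation.leibniz, smul_eq_mul, smul_eq_mul]; ring

/-- `del n m i x = q_0^{-m} d_i (q_0^m x)`. -/
lemma d_q0_pow_mul {n i : ℕ} (hn : 1 ≤ n) (hi : i ≤ n + 1) (m : ℕ) (x : D n) :
    d n i (q n 0 ^ m * x) = q n 0 ^ m * del n m i x := by
  have key : d n i (q n 0 ^ m) = (m : D n) * c n i * q n 0 ^ m := by
    induction m with
    | zero => simp
    | succ m ih => rw [pow_succ, d_mul, ih, d_q0 hn hi]; push_cast; ring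
  rw [d_mul, key, del_apply]; ring

lemma del_zero_level (n i : ℕ) (x : D n) : del n 0 i x = d n i x := by
  rw [del_apply]; simp

lemma s_d {n i : ℕ} (hin : i ≤ n) (a : ℕ) (x : D n) :
    s n 0 a (d n i x) = d n i (s n 0 a x) +
      if 2 ^ i ≤ a then d n (i + 1) (s n 0 (a - 2 ^ i) x) else 0 := by
  simp only [s_apply, pow_zero, one_mul]
  rw [P_d hin, coeff_add, coeff_cd, coeff_X_pow_mul']
  simp only [coeff_cd]

/-- The commutation of the Milnor primitives with the squares, at level `m`. -/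
theorem s_del {n i : ℕ} (hn : 1 ≤ n) (hin : i ≤ n) (m a : ℕ) (x : D n) :
    s n m a (del n m i x) = del n m i (s n m a x) +
      if 2 ^ i ≤ a then del n m (i + 1) (s n m (a - 2 ^ i) x) else 0 := by
  have h0 : ∀ b (y : D n), q n 0 ^ m * s n m b y = s n 0 b (q n 0 ^ m * y) := by
    intro b y
    rw [s_q0_pow, zero_add]
  apply mul_left_cancel₀ (pow_ne_zero m (q0_ne n))
  rw [h0, ← d_q0_pow_mul hn (by omega) m x, s_d hin, mul_add, ← h0 a x, d_q0_pow_mul hn (by omega)]
  congr 1
  split_ifs with h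
  · rw [← d_q0_pow_mul hn (by omega), h0]
  · rw [mul_zero]

/-! ### commutation -/

lemma d_comm_lt {n i j : ℕ} (hi1 : 1 ≤ i) (hi : i < n) (hj1 : 1 ≤ j) (hj : j ≤ n) (x : D n) :
    d n i (d n j x) = d n j (d n i x) := by
  refine D_induction (P := fun x => d n i (d n j x) = d n j (d n i x)) ?_ ?_ ?_ ?_ x
  · simp only [map_zero]
  · simp only [d_one, map_zero]
  · intro x y hx hy; simp only [map_add, hx, hy]
  · intro x l hx
    have hg : d n i (d n j (gen l)) = d n j (d n i (gen l)) := by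
      rw [gen_eq]
      rcases hj.lt_or_eq with h | rfl
      · rw [d_lt_q h l.2, d_lt_q hi l.2]
        have hz : ∀ k, 1 ≤ k → k < n → d n k (q n 0) = 0 := by
          intro k hk1 hk
          rw [d_lt_q hk (by omega), if_neg (by omega)]
        split_ifs <;> simp [hz i hi1 hi, hz j hj1 h]
      · rw [d_self_q l.2, d_mul, d_lt_q hi (by omega), if_neg (by omega), zero_mul, zero_add,
          d_lt_q hi l.2]
        split_ifs
        · rw [d_self_q (by omega)]
        · rw [mul_zero, map_zero]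
    simp only [d_mul, map_add, hx, hg]; ring

lemma d_sq_lt {n i : ℕ} (hi1 : 1 ≤ i) (hi : i ≤ n) (x : D n) : d n i (d n i x) = 0 := by
  refine D_induction (P := fun x => d n i (d n i x) = 0) ?_ ?_ ?_ ?_ x
  · simp only [map_zero]
  · simp only [d_one, map_zero]
  · intro x y hx hy; simp only [map_add, hx, hy, add_zero]
  · intro x l hx
    have hg : d n i (d n i (gen l)) = 0 := by
      rw [gen_eq]
      rcases hi.lt_or_eq with h | rfl
      · rw [d_lt_q h l.2]
        split_ifs
        · rw [d_lt_q h (by omega), if_neg (by omega)]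
        · rw [map_zero]
      · rw [d_self_q l.2, d_mul, d_self_q (by omega), d_self_q l.2]
        have := two i
        linear_combination (q i 0 * q i 0 * q i l) * this
    simp only [d_mul, map_add, hx, hg]
    have := two n
    linear_combination (d n i x * d n i (gen l)) * this

lemma d_comm_le {n i j : ℕ} (hi1 : 1 ≤ i) (hi : i ≤ n) (hj1 : 1 ≤ j) (hj : j ≤ n) (x : D n) :
    d n i (d n j x) = d n j (d n i x) := by
  rcases hi.lt_or_eq with h | rfl
  · exact d_comm_lt hi1 h hj1 hj x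
  · rcases hj.lt_or_eq with h | rfl
    · exact (d_comm_lt hj1 h hi1 hi x).symm
    · rfl

lemma d_sq_mul (n i : ℕ) (y x : D n) : d n i (y ^ 2 * x) = y ^ 2 * d n i x := by
  rw [d_mul, der_sq, zero_mul, zero_add]

lemma d_comm_succ {n i : ℕ} (hi1 : 1 ≤ i) (hi : i ≤ n) (x : D n) :
    d n i (d n (n + 1) x) = d n (n + 1) (d n i x) := by
  rw [d_succ, d_succ, map_sum]
  refine Finset.sum_congr rfl fun j hj => ?_
  simp only [Finset.mem_range] at hj
  rw [d_sq_mul, d_comm_le hi1 hi (by omega) (by omega)]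

lemma sum_symm_zero {R : Type*} [CommRing R] [CharP R 2] (t : Finset ℕ) (f : ℕ → ℕ → R)
    (hs : ∀ i ∈ t, ∀ j ∈ t, f i j = f j i) (hd : ∀ i ∈ t, f i i = 0) :
    ∑ i ∈ t, ∑ j ∈ t, f i j = 0 := by
  induction t using Finset.induction_on with
  | empty => simp
  | insert a t ha ih =>
    rw [Finset.sum_insert ha, Finset.sum_insert ha, hd a (Finset.mem_insert_self _ _), zero_add]
    have h1 : ∑ i ∈ t, ∑ j ∈ insert a t, f i j = ∑ i ∈ t, f i a + ∑ i ∈ t, ∑ j ∈ t, f i j := by
      rw [← Finset.sum_add_distrib]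
      exact Finset.sum_congr rfl fun i _ => Finset.sum_insert ha
    rw [h1, ih (fun i hi j hj => hs i (Finset.mem_insert_of_mem hi) j (Finset.mem_insert_of_mem hj))
      (fun i hi => hd i (Finset.mem_insert_of_mem hi)), add_zero]
    have h2 : ∑ i ∈ t, f i a = ∑ j ∈ t, f a j :=
      Finset.sum_congr rfl fun i hi => hs i (Finset.mem_insert_of_mem hi) a (Finset.mem_insert_self _ _)
    rw [h2]
    exact CharTwo.add_self_eq_zero _

lemma d_sq_succ {n : ℕ} (x : D n) : d n (n + 1) (d n (n + 1) x) = 0 := by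
  rw [d_succ n (d n (n + 1) x)]
  have : ∀ j ∈ Finset.range n, q n j ^ 2 * d n (j + 1) (d n (n + 1) x) =
      ∑ l ∈ Finset.range n, q n j ^ 2 * q n l ^ 2 * d n (j + 1) (d n (l + 1) x) := by
    intro j _
    rw [d_succ, map_sum, Finset.mul_sum]
    refine Finset.sum_congr rfl fun l _ => ?_
    rw [d_sq_mul]; ring
  rw [Finset.sum_congr rfl this]
  refine sum_symm_zero _ _ (fun i hi j hj => ?_) (fun i hi => ?_)
  · simp only [Finset.mem_range] at hi hj
    rw [d_comm_le (by omega : 1 ≤ i + 1) (by omega) (by omega : 1 ≤ j + 1) (by omega)]; ring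
  · simp only [Finset.mem_range] at hi
    rw [d_sq_lt (by omega) (by omega), mul_zero]

lemma d_comm {n i j : ℕ} (hi1 : 1 ≤ i) (hi : i ≤ n + 1) (hj1 : 1 ≤ j) (hj : j ≤ n + 1) (x : D n) :
    d n i (d n j x) = d n j (d n i x) := by
  rcases Nat.lt_or_ge n i with h | h
  · have hi' : i = n + 1 := by omega
    subst hi'
    rcases Nat.lt_or_ge n j with h' | h'
    · have hj' : j = n + 1 := by omega
      subst hj'; rfl
    · exact (d_comm_succ hj1 h' x).symm
  · rcases Nat.lt_or_ge n j with h' | h'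
    · have hj' : j = n + 1 := by omega
      subst hj'
      exact d_comm_succ hi1 h x
    · exact d_comm_le hi1 h hj1 h' x

lemma d_sq {n i : ℕ} (hi1 : 1 ≤ i) (hi : i ≤ n + 1) (x : D n) : d n i (d n i x) = 0 := by
  rcases Nat.lt_or_ge n i with h | h
  · have hi' : i = n + 1 := by omega
    subst hi'; exact d_sq_succ x
  · exact d_sq_lt hi1 h x

theorem del_comm {n i j : ℕ} (hn : 1 ≤ n) (hi1 : 1 ≤ i) (hi : i ≤ n + 1) (hj1 : 1 ≤ j)
    (hj : j ≤ n + 1) (m : ℕ) (x : D n) :
    del n m i (del n m j x) = del n m j (del n m i x) := by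
  apply mul_left_cancel₀ (pow_ne_zero m (q0_ne n))
  rw [← d_q0_pow_mul hn hi, ← d_q0_pow_mul hn hj, ← d_q0_pow_mul hn hj, ← d_q0_pow_mul hn hi,
    d_comm hi1 hi hj1 hj]

theorem del_sq {n i : ℕ} (hn : 1 ≤ n) (hi1 : 1 ≤ i) (hi : i ≤ n + 1) (m : ℕ) (x : D n) :
    del n m i (del n m i x) = 0 := by
  apply mul_left_cancel₀ (pow_ne_zero m (q0_ne n))
  rw [← d_q0_pow_mul hn hi, ← d_q0_pow_mul hn hi, d_sq hi1 hi, mul_zero]

theorem del_succ {n : ℕ} (hn : 1 ≤ n) (m : ℕ) (x : D n) :
    del n m (n + 1) x = ∑ j ∈ Finset.range n, q n j ^ 2 * del n m (j + 1) x := by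
  apply mul_left_cancel₀ (pow_ne_zero m (q0_ne n))
  rw [← d_q0_pow_mul hn le_rfl, d_succ, Finset.mul_sum]
  refine Finset.sum_congr rfl fun j hj => ?_
  simp only [Finset.mem_range] at hj
  rw [d_q0_pow_mul hn (by omega)]; ring

theorem del_sq_mul {n : ℕ} (m i : ℕ) (y x : D n) :
    del n m i (y ^ 2 * x) = y ^ 2 * del n m i x := by
  rw [del_apply, del_apply, d_sq_mul]; ring

end Vale.Agent.P263.EX.DS
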