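import Vale.Agent.P263.EX.DS3
import Vale.Agent.P263.EX.Mono


/-! P263, block DS, part 4: the all-odd part of `P^(m)(π w²)` is `π (P^(μ) w)²`, `2 μ + 1 = m + n`. -/

namespace Vale.Agent.P263.EX.DS

open Polynomial Vale.Agent.P263.LZ

lemma Pm_apply (n m : ℕ) (x : D n) : Pm n m x = F n ^ m * P n x := rfl

lemma coeff_Pm (n m a : ℕ) (x : D n) : (Pm n m x).coeff a = s n m a x := rfl

lemma Pm_del {n i : ℕ} (hn : 1 ≤ n) (hin : i ≤ n) (m : ℕ) (x : D n) :
    Pm n m (del n m i x) =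
      cw (del n m i) (Pm n m x) + X ^ 2 ^ i * cw (del n m (i + 1)) (Pm n m x) := by
  ext a : 1
  rw [coeff_Pm, s_del hn hin, coeff_add, coeff_cw, coeff_X_pow_mul', coeff_Pm]
  simp only [coeff_cw, coeff_Pm]

/-- `δ_l ⋯ δ_1` on `D n` -/
noncomputable def dl (n m : ℕ) : ℕ → D n → D n
  | 0, x => x
  | (l+1), x => del n m (l+1) (dl n m l x)

/-- `δ_l ⋯ δ_1` on `(D n)[X]` -/
noncomputable def Dl (n m : ℕ) : ℕ → (D n)[X] → (D n)[X]
  | 0, p => p
  | (l+1), p => cw (del n m (l+1)) (Dl n m l p)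

/-- `∏ (δ_i + X^(2^i) δ_(i+1))` -/
noncomputable def G (n m : ℕ) : ℕ → (D n)[X] → (D n)[X]
  | 0, p => p
  | (l+1), p => cw (del n m (l+1)) (G n m l p) + X ^ 2 ^ (l+1) * cw (del n m (l+2)) (G n m l p)

lemma coeff_Dl (n m l : ℕ) (p : (D n)[X]) (a : ℕ) : (Dl n m l p).coeff a = dl n m l (p.coeff a) := by
  induction l with
  | zero => rfl
  | succ l ih => rw [Dl, dl, coeff_cw, ih]

lemma dl_add (n m l : ℕ) (x y : D n) : dl n m l (x + y) = dl n m l x + dl n m l y := by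
  induction l with
  | zero => rfl
  | succ l ih => rw [dl, dl, dl, ih, map_add]

lemma dl_zero (n m l : ℕ) : dl n m l 0 = 0 := by
  induction l with
  | zero => rfl
  | succ l ih => rw [dl, ih, map_zero]

lemma Pm_dl {n : ℕ} (hn : 1 ≤ n) (m : ℕ) {l : ℕ} (hl : l ≤ n) (x : D n) :
    Pm n m (dl n m l x) = G n m l (Pm n m x) := by
  induction l with
  | zero => rfl
  | succ l ih => rw [dl, Pm_del hn hl, ih (by omega), G]

lemma cw_del_comm {n i j : ℕ} (hn : 1 ≤ n) (hi1 : 1 ≤ i) (hi : i ≤ n + 1) (hj1 : 1 ≤ j)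
    (hj : j ≤ n + 1) (m : ℕ) (p : (D n)[X]) :
    cw (del n m i) (cw (del n m j) p) = cw (del n m j) (cw (del n m i) p) := by
  ext a : 1
  simp only [coeff_cw]
  exact del_comm hn hi1 hi hj1 hj m _

lemma cw_del_sq {n i : ℕ} (hn : 1 ≤ n) (hi1 : 1 ≤ i) (hi : i ≤ n + 1) (m : ℕ) (p : (D n)[X]) :
    cw (del n m i) (cw (del n m i) p) = 0 := by
  ext a : 1
  simp only [coeff_cw, coeff_zero]
  exact del_sq hn hi1 hi m _

lemma cw_del_G {n : ℕ} (hn : 1 ≤ n) (m : ℕ) {l : ℕ} (hl : l ≤ n) (p : (D n)[X]) :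
    cw (del n m (l + 1)) (G n m l p) = Dl n m (l + 1) p := by
  induction l with
  | zero => rfl
  | succ l ih =>
    rw [G, cw_add, cw_X_pow_mul, cw_del_sq hn (by omega) (by omega), mul_zero, add_zero,
      ih (by omega)]
    rfl

lemma G_succ {n : ℕ} (hn : 1 ≤ n) (m : ℕ) {l : ℕ} (hl : l ≤ n) (p : (D n)[X]) :
    G n m (l + 1) p = Dl n m (l + 1) p + X ^ 2 ^ (l+1) * cw (del n m (l+2)) (G n m l p) := by
  rw [G, cw_del_G hn m hl]

lemma cw_del_Dl {n : ℕ} (hn : 1 ≤ n) (m : ℕ) {l i : ℕ} (hl : l ≤ n) (hi1 : 1 ≤ i) (hi : i ≤ l)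
    (p : (D n)[X]) : cw (del n m i) (Dl n m l p) = 0 := by
  induction l with
  | zero => omega
  | succ l ih =>
    rw [Dl]
    rcases hi.lt_or_eq with h | rfl
    · rw [cw_del_comm hn hi1 (by omega) (by omega) (by omega), ih (by omega) (by omega), cw_zero]
    · exact cw_del_sq hn hi1 (by omega) m _

lemma cw_del_G' {n : ℕ} (hn : 1 ≤ n) (m : ℕ) {l i : ℕ} (hl : l ≤ n) (hi1 : 1 ≤ i) (hi : i ≤ l + 1)
    (p : (D n)[X]) :
    cw (del n m i) (G n m l p) = X ^ (2 ^ (l + 1) - 2 ^ i) * Dl n m (l + 1) p := by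
  induction l with
  | zero =>
    have : i = 1 := by omega
    subst this
    rw [cw_del_G hn m hl, Nat.sub_self, pow_zero, one_mul]
  | succ l ih =>
    rcases hi.lt_or_eq with h | rfl
    · have h2 : 2 ^ i ≤ 2 ^ (l + 1) := Nat.pow_le_pow_right (by norm_num) (by omega)
      have h3 : 2 ^ (l + 1 + 1) - 2 ^ i = 2 ^ (l + 1) + (2 ^ (l + 1) - 2 ^ i) := by
        rw [pow_succ 2 (l + 1)]; omega
      rw [G_succ hn m (by omega), cw_add, cw_del_Dl hn m hl hi1 (by omega), zero_add, cw_X_pow_mul,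
        cw_del_comm hn hi1 (by omega) (by omega) (by omega), ih (by omega) (by omega), cw_X_pow_mul,
        ← mul_assoc, ← pow_add, h3]
      rfl
    · rw [cw_del_G hn m hl, Nat.sub_self, pow_zero, one_mul]

lemma F_eq_one_add (n : ℕ) :
    F n = 1 + ∑ l ∈ Finset.range n, C (q n l) * X ^ (2 ^ n - 2 ^ l) := by
  have h := Finset.sum_range_succ (fun l => (C (q n l) * X ^ (2 ^ n - 2 ^ l) : (D n)[X])) n
  have h2 : (C (q n n) * X ^ (2 ^ n - 2 ^ n) : (D n)[X]) = 1 := by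
    rw [Nat.sub_self, q_self, C_1, pow_zero, one_mul]
  rw [h2] at h
  exact h.trans (add_comm _ _)

lemma term_sq {n l : ℕ} (hl : l < n) :
    (C (q n l) * X ^ (2 ^ n - 2 ^ l) : (D n)[X]) ^ 2 =
      X ^ 2 ^ n * (C (q n l ^ 2) * X ^ (2 ^ n - 2 ^ (l + 1))) := by
  have h2 : 2 ^ (l + 1) ≤ 2 ^ n := Nat.pow_le_pow_right (by norm_num) hl
  have h3 : (2 ^ n - 2 ^ l) * 2 = 2 ^ n + (2 ^ n - 2 ^ (l + 1)) := by rw [pow_succ] at *; omega
  rw [mul_pow, ← pow_mul, h3, pow_add, C_pow]; ring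

lemma F_sq (n : ℕ) :
    F n ^ 2 = 1 + X ^ 2 ^ n * ∑ l ∈ Finset.range n, C (q n l ^ 2) * X ^ (2 ^ n - 2 ^ (l + 1)) := by
  have h3 : (∑ l ∈ Finset.range n, (C (q n l) * X ^ (2 ^ n - 2 ^ l) : (D n)[X])) ^ 2 =
      X ^ 2 ^ n * ∑ l ∈ Finset.range n, C (q n l ^ 2) * X ^ (2 ^ n - 2 ^ (l + 1)) := by
    rw [CharTwo.sum_sq, Finset.mul_sum]
    exact Finset.sum_congr rfl fun l hl => term_sq (Finset.mem_range.mp hl)
  rw [F_eq_one_add, CharTwo.add_sq, one_pow, h3]

lemma cw_del_succ {n : ℕ} (hn : 1 ≤ n) (m : ℕ) (p : (D n)[X]) :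
    cw (del n m (n + 1)) p = ∑ l ∈ Finset.range n, C (q n l ^ 2) * cw (del n m (l + 1)) p := by
  ext a : 1
  rw [coeff_cw, del_succ hn, finsetSum_coeff]
  refine Finset.sum_congr rfl fun l _ => ?_
  rw [coeff_C_mul, coeff_cw]

lemma G_self_aux {n k : ℕ} (hn : 1 ≤ n) (hk : k + 1 = n) (m : ℕ) (p : (D n)[X]) :
    cw (del n m (n + 1)) (G n m k p) =
      (∑ l ∈ Finset.range n, C (q n l ^ 2) * X ^ (2 ^ n - 2 ^ (l + 1))) * Dl n m n p := by
  rw [cw_del_succ hn m, Finset.sum_mul]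
  refine Finset.sum_congr rfl fun l hl => ?_
  simp only [Finset.mem_range] at hl
  rw [cw_del_G' hn m (by omega) (by omega) (by omega), hk, mul_assoc]

lemma G_self {n : ℕ} (hn : 1 ≤ n) (m : ℕ) (p : (D n)[X]) : G n m n p = F n ^ 2 * Dl n m n p := by
  have hk : (n - 1) + 1 = n := by omega
  have h1 : G n m n p = Dl n m n p + X ^ 2 ^ n * cw (del n m (n + 1)) (G n m (n - 1) p) := by
    have := G_succ hn m (l := n - 1) (by omega) p
    rw [hk, show n - 1 + 2 = n + 1 by omega] at this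
    exact this
  rw [h1, G_self_aux hn hk, F_sq]
  ring

theorem Pm_dl_self {n : ℕ} (hn : 1 ≤ n) (m : ℕ) (x : D n) :
    Pm n m (dl n m n x) = F n ^ 2 * Dl n m n (Pm n m x) := by
  rw [Pm_dl hn m le_rfl, G_self hn]

/-! ### `δ_n ⋯ δ_1` on monomials -/

/-- exponent of `q_i` (zero for `i ≥ n`) -/
def xn {n : ℕ} (e : Fin n →₀ ℕ) (i : ℕ) : ℕ := if h : i < n then e ⟨i, h⟩ else 0

lemma q_mul_pdn_mo {n i : ℕ} (hi : i < n) (e : Fin n →₀ ℕ) :
    q n i * pdn n i (mo e) = (xn e i : D n) * mo e := by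
  have h := MvPolynomial.X_mul_pderiv_monomial (R := ZMod 2) (i := (⟨i, hi⟩ : Fin n)) (m := e) (r := 1)
  rw [q_lt hi, pdn, dif_pos hi, xn, dif_pos hi, ← nsmul_eq_mul]
  exact h

lemma eul_mo {n : ℕ} (e : Fin n →₀ ℕ) :
    eul n (mo e) = ((∑ i ∈ Finset.range n, xn e i : ℕ) : D n) * mo e := by
  rw [eul, der_sum, Finset.sum_range, Nat.cast_sum, Finset.sum_mul]
  refine Finset.sum_congr rfl fun j _ => ?_
  rw [← q_mul_pdn_mo j.2, Derivation.smul_apply, smul_eq_mul, gen_eq, pdn, dif_pos j.2]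

lemma d_natCast_mul (n i k : ℕ) (x : D n) : d n i ((k : D n) * x) = (k : D n) * d n i x := by
  rw [d_mul, Derivation.map_natCast, zero_mul, zero_add]

lemma del_lt {n i : ℕ} (hi1 : 1 ≤ i) (hi : i < n) (m : ℕ) (x : D n) : del n m i x = d n i x := by
  rw [del_apply, c, if_neg (by omega), if_neg (by omega), if_neg (by omega)]; simp

lemma del_self {n : ℕ} (hn : 1 ≤ n) (m : ℕ) (x : D n) :
    del n m n x = d n n x + (m : D n) * q n 0 * x := by
  rw [del_apply, c, if_neg (by omega), if_pos rfl]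

lemma d_prod_zero {n l : ℕ} (hl : l + 1 < n) :
    d n (l + 1) (∏ i ∈ Finset.range l, q n (i + 1)) = 0 := by
  have : ∀ k ≤ l, d n (l + 1) (∏ i ∈ Finset.range k, q n (i + 1)) = 0 := by
    intro k hk
    induction k with
    | zero => rw [Finset.prod_range_zero, d_one]
    | succ k ih =>
      rw [Finset.prod_range_succ, d_mul, ih (by omega), d_lt_q hl (by omega), if_neg (by omega)]
      simp
  exact this l le_rfl

lemma d_self_prod {n k : ℕ} (hk : k < n) :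
    d n n (∏ i ∈ Finset.range k, q n (i + 1)) =
      (k : D n) * q n 0 * ∏ i ∈ Finset.range k, q n (i + 1) := by
  induction k with
  | zero => rw [Finset.prod_range_zero, d_one]; simp
  | succ k ih =>
    rw [Finset.prod_range_succ, d_mul, ih (by omega), d_self_q (by omega)]
    push_cast; ring

lemma d_lt_q0_pow {n i : ℕ} (hi1 : 1 ≤ i) (hi : i < n) (k : ℕ) : d n i (q n 0 ^ k) = 0 := by
  induction k with
  | zero => rw [pow_zero, d_one]
  | succ k ih => rw [pow_succ, d_mul, ih, d_lt_q hi (by omega), if_neg (by omega)]; simp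

lemma d_self_q0_pow {n : ℕ} (hn : 1 ≤ n) (k : ℕ) : d n n (q n 0 ^ k) = (k : D n) * q n 0 * q n 0 ^ k := by
  induction k with
  | zero => rw [pow_zero, d_one]; simp
  | succ k ih => rw [pow_succ, d_mul, ih, d_self_q hn]; push_cast; ring

lemma dl_mo_lt {n : ℕ} (m : ℕ) {l : ℕ} (hl : l < n) (e : Fin n →₀ ℕ) :
    (∏ i ∈ Finset.range l, q n (i + 1)) * dl n m l (mo e) =
      ((∏ i ∈ Finset.range l, xn e (i + 1) : ℕ) : D n) * q n 0 ^ l * mo e := by
  induction l with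
  | zero => simp [dl]
  | succ l ih =>
    have h1 := ih (by omega)
    have h2 : (∏ i ∈ Finset.range l, q n (i + 1)) * d n (l + 1) (dl n m l (mo e)) =
        ((∏ i ∈ Finset.range l, xn e (i + 1) : ℕ) : D n) * q n 0 ^ l * d n (l + 1) (mo e) := by
      have h3 := congrArg (d n (l + 1)) h1
      rw [d_mul, d_prod_zero hl, zero_mul, zero_add, mul_assoc, d_natCast_mul, d_mul,
        d_lt_q0_pow (by omega) hl, zero_mul, zero_add, ← mul_assoc] at h3
      exact h3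
    have h4 : q n (l + 1) * d n (l + 1) (mo e) = (xn e (l + 1) : D n) * q n 0 * mo e := by
      rw [d_lt hl, mul_left_comm, q_mul_pdn_mo hl]; ring
    rw [Finset.prod_range_succ, Finset.prod_range_succ, dl, del_lt (by omega) hl]
    push_cast at h2 h1 ⊢
    linear_combination q n (l + 1) * h2 +
      ((∏ i ∈ Finset.range l, (xn e (i + 1) : D n)) * q n 0 ^ l) * h4

lemma dl_mo_self {n : ℕ} (hn : 1 ≤ n) (m : ℕ) (e : Fin n →₀ ℕ) :
    (∏ i ∈ Finset.range (n - 1), q n (i + 1)) * dl n m n (mo e) =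
      (((∏ i ∈ Finset.range (n - 1), xn e (i + 1)) * ((∑ i ∈ Finset.range n, xn e i) + m) : ℕ) : D n) *
        q n 0 ^ n * mo e := by
  have hk : (n - 1) + 1 = n := by omega
  have h0 : dl n m n (mo e) = del n m n (dl n m (n - 1) (mo e)) := by
    have : dl n m (n - 1 + 1) (mo e) = del n m (n - 1 + 1) (dl n m (n - 1) (mo e)) := rfl
    rwa [hk] at this
  have h1 := dl_mo_lt (n := n) m (l := n - 1) (by omega) e
  generalize dl n m (n - 1) (mo e) = y at h0 h1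
  have h3 := congrArg (d n n) h1
  rw [d_mul, d_self_prod (by omega), mul_assoc (Nat.cast _) (q n 0 ^ (n - 1)), d_natCast_mul, d_mul,
    d_self_q0_pow hn, d_self n (mo e), eul_mo] at h3
  rw [h0, del_self hn]
  have h5 : q n 0 ^ n = q n 0 ^ (n - 1) * q n 0 := by rw [← pow_succ, hk]
  rw [h5]
  push_cast at h1 h3 ⊢
  linear_combination h3 + (m : D n) * q n 0 * h1 - ((n - 1 : ℕ) : D n) * q n 0 * h1

lemma sum_odd_mod (f : ℕ → ℕ) (k : ℕ) (h : ∀ i ∈ Finset.range k, Odd (f i)) :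
    (∑ i ∈ Finset.range k, f i) % 2 = k % 2 := by
  induction k with
  | zero => simp
  | succ k ih =>
    rw [Finset.sum_range_succ]
    have h1 := ih fun i hi => h i (by simp at hi ⊢; omega)
    have h2 := Nat.odd_iff.mp (h k (by simp))
    omega

lemma coef_mod {n : ℕ} (hn : 1 ≤ n) {m : ℕ} (hm : (m + n) % 2 = 1) (e : Fin n →₀ ℕ) :
    ((∏ i ∈ Finset.range (n - 1), xn e (i + 1)) * ((∑ i ∈ Finset.range n, xn e i) + m)) % 2 =
      if ∀ i, Odd (e i) then 1 else 0 := by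
  classical
  have hx : ∀ i : Fin n, xn e i = e i := fun i => by rw [xn, dif_pos i.2]
  have hsum : ∑ i ∈ Finset.range n, xn e i = ∑ i ∈ Finset.range (n - 1), xn e (i + 1) + xn e 0 := by
    obtain ⟨k, rfl⟩ : ∃ k, n = k + 1 := ⟨n - 1, by omega⟩
    exact Finset.sum_range_succ' _ _
  by_cases h : ∀ i ∈ Finset.range (n - 1), Odd (xn e (i + 1))
  · have h1 : (∏ i ∈ Finset.range (n - 1), xn e (i + 1)) % 2 = 1 :=
      Nat.odd_iff.mp (Finset.prod_induction _ Odd (fun _ _ => Odd.mul) odd_one h)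
    have h2 := sum_odd_mod _ _ h
    rw [hsum]
    by_cases h3 : Odd (xn e 0)
    · have h4 : ∀ i, Odd (e i) := by
        intro i
        rcases Nat.eq_zero_or_pos (i : ℕ) with h5 | h5
        · rw [← hx, h5]; exact h3
        · have := h (i - 1) (by simp; omega)
          rw [show (i : ℕ) - 1 + 1 = i by omega] at this
          rwa [← hx]
      rw [if_pos h4, Nat.mul_mod, h1]
      have := Nat.odd_iff.mp h3
      omega
    · have h4 : ¬ ∀ i, Odd (e i) := by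
        intro h5
        apply h3
        have := h5 ⟨0, by omega⟩
        rwa [← hx] at this
      rw [if_neg h4, Nat.mul_mod, h1]
      have := Nat.not_odd_iff.mp h3
      omega
  · have h4 : ¬ ∀ i, Odd (e i) := by
      intro h5
      apply h
      intro i hi
      simp only [Finset.mem_range] at hi
      have := h5 ⟨i + 1, by omega⟩
      rwa [← hx] at this
    rw [if_neg h4]
    push Not at h
    obtain ⟨i, hi, hio⟩ := h
    have h5 : 2 ∣ ∏ i ∈ Finset.range (n - 1), xn e (i + 1) :=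
      dvd_trans (even_iff_two_dvd.mp (Nat.not_odd_iff_even.mp hio)) (Finset.dvd_prod_of_mem _ hi)
    exact Nat.mod_eq_zero_of_dvd (dvd_mul_of_dvd_left h5 _)

lemma piD_eq {n : ℕ} (hn : 1 ≤ n) : piD n = q n 0 * ∏ i ∈ Finset.range (n - 1), q n (i + 1) := by
  have h1 : piD n = ∏ i ∈ Finset.range n, q n i := by
    rw [piD, Finset.prod_range]
    exact Finset.prod_congr rfl fun i _ => gen_eq i
  rw [h1]
  obtain ⟨k, rfl⟩ : ∃ k, n = k + 1 := ⟨n - 1, by omega⟩
  rw [Finset.prod_range_succ', mul_comm]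
  rfl

lemma natCast_mod (n k : ℕ) : ((k : ℕ) : D n) = ((k % 2 : ℕ) : D n) := by
  conv_lhs => rw [← Nat.div_add_mod k 2]
  push_cast
  rw [two n]; ring

theorem piD_mul_dl {n : ℕ} (hn : 1 ≤ n) {m : ℕ} (hm : (m + n) % 2 = 1) (x : D n) :
    piD n * dl n m n x = q n 0 ^ (n + 1) * oddPart x := by
  refine mo_induction (P := fun x => piD n * dl n m n x = q n 0 ^ (n + 1) * oddPart x) ?_ ?_ ?_ x
  · rw [dl_zero, map_zero, mul_zero, mul_zero]
  · intro x y hx hy
    rw [dl_add, mul_add, hx, hy, map_add, mul_add]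
  · intro e
    rw [piD_eq hn, mul_assoc, dl_mo_self hn, natCast_mod, coef_mod hn hm]
    split_ifs with h
    · rw [oddPart_mo_of h, pow_succ]; push_cast; ring
    · rw [oddPart_mo_not h]; push_cast; ring

/-! ### the all-odd part of `P^(m)(π w²)` -/

lemma oddPart_piD {n : ℕ} : oddPart (piD n) = piD n := by
  rw [piD_eq_mo]
  refine oddPart_mo_of fun i => ?_
  rw [Finsupp.finsetSum_apply, Finset.sum_eq_single i]
  · simp
  · intro b _ hb; rw [Finsupp.single_apply, if_neg hb]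
  · intro h; exact absurd (Finset.mem_univ _) h

lemma piD_ne (n : ℕ) : piD n ≠ 0 := by
  rw [piD]
  refine Finset.prod_ne_zero_iff.mpr fun i _ => ?_
  exact MvPolynomial.X_ne_zero (R := ZMod 2) _

lemma oddPart_piD_sq {n : ℕ} (w : D n) : oddPart (piD n * w ^ 2) = piD n * w ^ 2 := by
  rw [mul_comm, oddPart_sq_mul, oddPart_piD]

lemma dl_piD_sq {n : ℕ} (hn : 1 ≤ n) {m : ℕ} (hm : (m + n) % 2 = 1) (w : D n) :
    dl n m n (piD n * w ^ 2) = q n 0 ^ (n + 1) * w ^ 2 := by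
  apply mul_left_cancel₀ (piD_ne n)
  rw [piD_mul_dl hn hm, oddPart_piD_sq]; ring

lemma F_ne (n : ℕ) : F n ≠ 0 := by
  intro h
  have := coeff_F_zero n
  rw [h, coeff_zero] at this
  exact zero_ne_one this

theorem Dl_Pm_piD_sq {n : ℕ} (hn : 1 ≤ n) {m μ : ℕ} (hm : m + n = 2 * μ + 1) (w : D n) :
    Dl n m n (Pm n m (piD n * w ^ 2)) = C (q n 0 ^ (n + 1)) * (Pm n μ w) ^ 2 := by
  have h1 := Pm_dl_self hn m (piD n * w ^ 2)
  rw [dl_piD_sq hn (by omega)] at h1
  apply mul_left_cancel₀ (pow_ne_zero 2 (F_ne n))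
  rw [← h1, Pm_apply, Pm_apply, map_mul, map_pow, map_pow, P_q0, mul_pow, ← C_pow]
  have h2 : F n ^ m * (C (q n 0 ^ (n + 1)) * F n ^ (n + 1) * P n w ^ 2) =
      C (q n 0 ^ (n + 1)) * (F n ^ (m + n + 1) * P n w ^ 2) := by
    rw [show m + n + 1 = m + (n + 1) by omega, pow_add]; ring
  have h3 : F n ^ (m + n + 1) = F n ^ 2 * (F n ^ μ) ^ 2 := by
    rw [← pow_mul, ← pow_add]; congr 1; omega
  rw [h2, h3]
  ring

lemma coeff_sq_D {n : ℕ} (p : (D n)[X]) (a : ℕ) :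
    (p ^ 2).coeff a = if 2 ∣ a then p.coeff (a / 2) ^ 2 else 0 := by
  have : ExpChar (D n) 2 := ExpChar.prime Nat.prime_two
  rw [← map_frobenius_expand (R := D n) (p := 2) (f := p), coeff_map, coeff_expand (by norm_num)]
  split_ifs with h
  · rfl
  · exact map_zero _

/-- The all-odd part of `Sq^a (π w^2)` at level `m`, `m + n = 2 μ + 1`, is `π (Sq^(a/2) w)^2` at
level `μ` for `a` even, `0` for `a` odd. -/
theorem oddPart_s {n : ℕ} (hn : 1 ≤ n) {m μ : ℕ} (hm : m + n = 2 * μ + 1) (a : ℕ) (w : D n) :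
    oddPart (s n m a (piD n * w ^ 2)) = if 2 ∣ a then piD n * (s n μ (a / 2) w) ^ 2 else 0 := by
  apply mul_left_cancel₀ (pow_ne_zero (n + 1) (q0_ne n))
  rw [← piD_mul_dl hn (by omega : (m + n) % 2 = 1), ← coeff_Pm, ← coeff_Dl,
    Dl_Pm_piD_sq hn hm, coeff_C_mul, coeff_sq_D, coeff_Pm]
  split_ifs
  · ring
  · ring

end Vale.Agent.P263.EX.DS
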