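import Vale.Agent.P263.EX.DS4
import Vale.Agent.P263.EX.CO

/-! P263, block DS, part 5: the facts needed by the blocks CO and T1 in their form. -/

namespace Vale.Agent.P263.EX.DS

open Polynomial Vale.Agent.P263.LZ

/-- `d 0` on a monomial is multiplication by its degree. -/
lemma d_zero_mo {n : ℕ} (hn : 1 ≤ n) (e : Fin n →₀ ℕ) :
    d n 0 (mo e) = ((∑ i, (e i : ℤ) * w n i : ℤ) : D n) * mo e := by
  have hk : ∀ i : Fin n, (((e i : ℤ) * w n i : ℤ) : D n) = if (i : ℕ) = 0 then (xn e 0 : D n) else 0 := by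
    intro i
    split_ifs with h
    · have h1 : w n i = 2 * 2 ^ (n - 1) - 1 := by
        rw [w, h, pow_zero, ← pow_succ', Nat.sub_add_cancel hn]
      have h2 : (e i : ℤ) = (xn e 0 : ℤ) := by
        have : i = ⟨0, hn⟩ := Fin.ext h
        rw [xn, dif_pos (Nat.lt_of_lt_of_le Nat.zero_lt_one hn), this]
      rw [h1, h2]
      push_cast
      rw [two n]
      have := two n
      linear_combination (-(xn e 0 : D n)) * this
    · have h1 : w n i = 2 * (2 ^ (n - 1) - 2 ^ ((i : ℕ) - 1)) := by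
        rw [w, mul_sub, ← pow_succ', ← pow_succ', Nat.sub_add_cancel hn,
          Nat.sub_add_cancel (by omega)]
      rw [h1]
      push_cast
      rw [two n]; ring
  rw [d_lt hn, q_mul_pdn_mo hn, Int.cast_sum]
  congr 1
  rw [Finset.sum_congr rfl fun i _ => hk i, Finset.sum_eq_single ⟨0, hn⟩]
  · rw [if_pos rfl]
  · intro i _ hi
    rw [if_neg]
    intro h; exact hi (Fin.ext h)
  · intro h; exact absurd (Finset.mem_univ _) h

lemma d_zero_hom {n : ℕ} (hn : 1 ≤ n) {k : ℤ} {x : D n} (hx : Hom n k x) :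
    d n 0 x = (k : D n) * x := by
  conv_lhs => rw [eq_sum_mo x]
  conv_rhs => rw [eq_sum_mo x]
  rw [map_sum, Finset.mul_sum]
  refine Finset.sum_congr rfl fun e he => ?_
  rw [d_zero_mo hn, hx.weight he]

theorem del_zero_hom {n : ℕ} (hn : 1 ≤ n) (m : ℕ) {k : ℤ} {x : D n} (hx : Hom n k x) :
    del n m 0 x = ((k + m : ℤ) : D n) * x := by
  rw [del_apply, d_zero_hom hn hx, c, if_pos rfl]; push_cast; ring

theorem s_del_pow {n i : ℕ} (hn : 1 ≤ n) (hin : i ≤ n) (m : ℕ) (x : D n) :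
    s n m (2 ^ i) (del n m i x) = del n m i (s n m (2 ^ i) x) + del n m (i + 1) x := by
  rw [s_del hn hin, if_pos le_rfl, Nat.sub_self, s_zero]

theorem O_even {n : ℕ} (hn : 1 ≤ n) (m mu a : ℕ) (x : D n) (h : m + n = 2 * mu + 1) :
    oddPart (s n m (2 * a) (piD n * x ^ 2)) = piD n * (s n mu a x) ^ 2 := by
  rw [oddPart_s hn h, if_pos (dvd_mul_right 2 a), Nat.mul_div_cancel_left a (by norm_num)]

theorem O_odd {n : ℕ} (hn : 1 ≤ n) (m mu a : ℕ) (x : D n) (h : m + n = 2 * mu + 1) :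
    oddPart (s n m (2 * a + 1) (piD n * x ^ 2)) = 0 := by
  rw [oddPart_s hn h, if_neg (by omega)]

/-- `DSFacts` from the Bullett-Macdonald identity. -/
theorem dsFacts_of_bm {n m : ℕ} (hn : 1 ≤ n)
    (hbm : ∀ (M : ℕ) (x : D n),
      ∑ a ∈ Finset.range (M + 1), C (s n m a (s n m (M - a) x)) * BM.wt (D n) a (M - a) = 0) :
    DSFacts n m where
  bm := hbm
  del0 := fun _ _ hx => del_zero_hom hn m hx
  sdel := fun _ hi x => s_del_pow hn hi m x

/-! ### degrees of the Milnor primitives -/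

lemma Hom.pd {n : ℕ} {k : ℤ} {x : D n} (hx : Hom n k x) (i : Fin n) : Hom n (k - w n i) (pd n i x) :=
  MvPolynomial.IsWeightedHomogeneous.pderiv (R := ZMod 2) (n := k) (n' := k - w n i) hx (by ring)

lemma d_hom_lt {n i : ℕ} (hi : i < n) {k : ℤ} {x : D n} (hx : Hom n k x) :
    Hom n (k + 2 ^ i - 1) (d n i x) := by
  rw [d_lt hi, pdn, dif_pos hi]
  exact ((Hom.q n 0).mul (Hom.pd hx ⟨i, hi⟩)).congr (by simp only [w]; ring)

lemma eul_hom {n : ℕ} {k : ℤ} {x : D n} (hx : Hom n k x) : Hom n k (eul n x) := by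
  rw [eul, der_sum]
  refine Hom.sum _ _ fun j _ => ?_
  rw [Derivation.smul_apply, smul_eq_mul]
  exact ((Hom.gen j).mul (Hom.pd hx j)).congr (by ring)

lemma d_hom_le {n i : ℕ} (hi : i ≤ n) {k : ℤ} {x : D n} (hx : Hom n k x) :
    Hom n (k + 2 ^ i - 1) (d n i x) := by
  rcases hi.lt_or_eq with h | rfl
  · exact d_hom_lt h hx
  · rw [d_self]
    exact ((Hom.q i 0).mul (eul_hom hx)).congr (by ring)

lemma d_hom {n i : ℕ} (hi : i ≤ n + 1) {k : ℤ} {x : D n} (hx : Hom n k x) :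
    Hom n (k + 2 ^ i - 1) (d n i x) := by
  rcases Nat.lt_or_ge n i with h | h
  · have : i = n + 1 := by omega
    subst this
    rw [d_succ]
    refine Hom.sum _ _ fun j hj => ?_
    simp only [Finset.mem_range] at hj
    exact (((Hom.q n j).pow 2).mul (d_hom_le (by omega : j + 1 ≤ n) hx)).congr
      (by push_cast; ring)
  · exact d_hom_le h hx

theorem del_hom {n i : ℕ} (hn : 1 ≤ n) (hi : i ≤ n + 1) (m : ℕ) {k : ℤ} {x : D n}
    (hx : Hom n k x) : Hom n (k + 2 ^ i - 1) (del n m i x) := by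
  rw [del_apply]
  refine (d_hom hi hx).add ?_
  have hm : Hom n 0 (m : D n) := by
    induction m with
    | zero => rw [Nat.cast_zero]; exact Hom.zero _ _
    | succ m ih => rw [Nat.cast_succ]; exact ih.add (Hom.one n)
  have hc : Hom n (2 ^ i - 1) (c n i) := by
    unfold c
    split_ifs with h1 h2 h3
    · subst h1; exact (Hom.one n).congr (by norm_num)
    · subst h2; exact (Hom.q i 0).congr (by ring)
    · subst h3
      have h4 : (2 : ℤ) ^ n = 2 * 2 ^ (n - 1) := by rw [← pow_succ', Nat.sub_add_cancel hn]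
      exact ((Hom.q n 0).mul ((Hom.q n (n - 1)).pow 2)).congr (by push_cast; rw [pow_succ, h4]; ring)
    · exact Hom.zero _ _
  exact ((hm.mul hc).mul hx).congr (by ring)

end Vale.Agent.P263.EX.DS
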