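import Vale.Agent.P263.EX.DS1
import Vale.Agent.P263.EX.BM

/-!
P263, block DS, the Bullett-Macdonald identity for the total square of the Dickson algebra
(helper387), at every level.

For a ring map `φ : D n → B` and `u : B` let `E φ u : D n → B` be `P` evaluated at `u`. The two
ring maps `E (E φ u) v` and `E (E φ u') v'` agree for `u = (1+t) w`, `v = t^2 w`,
`u' = t (1+t) w`, `v' = w`.
-/

namespace Vale.Agent.P263.EX.DS

open Polynomial Vale.Agent.P263.LZ

/-- the recursion for the total square of the generators -/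
lemma P_rec {n l : ℕ} (h : l < n) :
    P n (q n (l + 1)) + X ^ (2 ^ l) * P n (q n l) =
      C (q n l) ^ 2 * X ^ (2 ^ n) + F n * C (q n (l + 1)) := by
  have h2 := two' n
  have e1 : (2 ^ l + (2 ^ n - 2 ^ l) : ℕ) = 2 ^ n := by
    have : 2 ^ l ≤ 2 ^ n := Nat.pow_le_pow_right (by norm_num) (by omega)
    omega
  have e2 : (X : (D n)[X]) ^ (2 ^ n) = X ^ (2 ^ l) * X ^ (2 ^ n - 2 ^ l) := by
    rw [← pow_add, e1]
  rw [P_q (by omega : l + 1 ≤ n), P_q (by omega : l ≤ n), F_eq (by omega : l + 1 ≤ n), B_step h,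
    A_succ, e2]
  simp only [map_pow]
  linear_combination (X ^ 2 ^ l * A n l * B n (l + 1)) * h2

section hom

variable {n : ℕ} {B' : Type*} [CommRing B']

/-- the total square with values in `B'`, at the parameter `u` -/
noncomputable def E (φ : D n →+* B') (u : B') : D n →+* B' :=
  (Polynomial.eval₂RingHom φ u).comp (P n : D n →+* (D n)[X])

/-- `F` evaluated at `u` -/
noncomputable def FE (φ : D n →+* B') (u : B') : B' := (F n).eval₂ φ u

lemma E_apply (φ : D n →+* B') (u : B') (x : D n) : E φ u x = (P n x).eval₂ φ u := rfl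

lemma FE_eq (φ : D n →+* B') (u : B') :
    FE φ u = ∑ l ∈ Finset.range (n + 1), φ (q n l) * u ^ (2 ^ n - 2 ^ l) := by
  unfold FE F
  rw [eval₂_finsetSum]
  refine Finset.sum_congr rfl fun l _ => ?_
  rw [eval₂_mul, eval₂_C, eval₂_X_pow]

lemma E_rec (φ : D n →+* B') (u : B') {l : ℕ} (h : l < n) :
    E φ u (q n (l + 1)) + u ^ (2 ^ l) * E φ u (q n l) =
      φ (q n l) ^ 2 * u ^ (2 ^ n) + FE φ u * φ (q n (l + 1)) := by
  have h1 := congrArg (Polynomial.eval₂ φ u) (P_rec h)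
  simp only [eval₂_add, eval₂_mul, eval₂_pow, eval₂_X, eval₂_C] at h1
  exact h1

lemma E_q0 (φ : D n →+* B') (u : B') : E φ u (q n 0) = φ (q n 0) * FE φ u := by
  have h1 := congrArg (Polynomial.eval₂ φ u) (P_q0 n)
  simp only [eval₂_mul, eval₂_C] at h1
  exact h1

lemma E_qn (φ : D n →+* B') (u : B') : E φ u (q n n) = 1 := by
  rw [q_self, map_one]

variable [CharP B' 2]

lemma two_B : (2 : B') = 0 := CharTwo.two_eq_zero

lemma add_pow_two_pow (x y : B') (l : ℕ) : (x + y) ^ (2 ^ l) = x ^ (2 ^ l) + y ^ (2 ^ l) :=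
  add_pow_char_pow x y 2 l

/-- additivity of `f(1/z) = F(z)/z^N` -/
lemma FE_three (φ : D n →+* B') (t w : B') :
    FE φ (t * (1 + t) * w) = (1 + t) ^ (2 ^ n) * FE φ (t * w) + t ^ (2 ^ n) * FE φ ((1 + t) * w) := by
  rw [FE_eq, FE_eq, FE_eq, Finset.mul_sum, Finset.mul_sum, ← Finset.sum_add_distrib]
  refine Finset.sum_congr rfl fun l hl => ?_
  have hl' : 2 ^ l ≤ 2 ^ n := Nat.pow_le_pow_right (by norm_num) (by simp at hl; omega)
  obtain ⟨k, hk⟩ : ∃ k, 2 ^ n = 2 ^ l + k := ⟨2 ^ n - 2 ^ l, by omega⟩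
  have hk' : 2 ^ n - 2 ^ l = k := by omega
  rw [hk', hk, pow_add, pow_add, mul_pow, mul_pow, mul_pow, mul_pow, add_pow_two_pow, one_pow]
  have h2 : (2 : B') = 0 := two_B
  linear_combination (-(t ^ k * (1 + t) ^ k * t ^ 2 ^ l * w ^ k * φ (q n l))) * h2

/-- the second level of `F` -/
lemma FE_FE (φ : D n →+* B') (u v z y : B') (hy : y = z + u) (hz : z ^ 2 = v * y) :
    y ^ (2 ^ n) * FE (E φ u) v =
      FE φ z * (u ^ (2 ^ n) * FE φ z + z ^ (2 ^ n) * FE φ u) := by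
  have h2 : (2 : B') = 0 := two_B
  have hpow : 2 * 2 ^ n = 2 ^ (n + 1) := by rw [pow_succ]; ring
  -- left side
  have h1 : y ^ (2 ^ n) * FE (E φ u) v =
      ∑ l ∈ Finset.range (n + 1), (E φ u (q n l) * z ^ (2 * 2 ^ n - 2 ^ l) +
        u ^ (2 ^ l) * E φ u (q n l) * z ^ (2 * 2 ^ n - 2 ^ (l + 1))) := by
    rw [FE_eq, Finset.mul_sum]
    refine Finset.sum_congr rfl fun l hl => ?_
    have hl' : 2 ^ l ≤ 2 ^ n := Nat.pow_le_pow_right (by norm_num) (by simp at hl; omega)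
    obtain ⟨k, hk⟩ : ∃ k, 2 ^ n = 2 ^ l + k := ⟨2 ^ n - 2 ^ l, by omega⟩
    have hk' : 2 ^ n - 2 ^ l = k := by omega
    have hk2 : 2 * 2 ^ n - 2 ^ l = 2 * k + 2 ^ l := by omega
    have hk3 : 2 * 2 ^ n - 2 ^ (l + 1) = 2 * k := by rw [pow_succ]; omega
    rw [hk', hk2, hk3, hk, pow_add]
    have h3 : z ^ (2 * k) = v ^ k * y ^ k := by rw [pow_mul, hz, mul_pow]
    have h4 : y ^ (2 ^ l) = z ^ (2 ^ l) + u ^ (2 ^ l) := by rw [hy, add_pow_two_pow]
    rw [pow_add, h3, h4]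
    ring
  rw [h1, Finset.sum_add_distrib]
  -- reorganise
  have h5 : ∑ l ∈ Finset.range (n + 1), E φ u (q n l) * z ^ (2 * 2 ^ n - 2 ^ l) =
      ∑ l ∈ Finset.range n, E φ u (q n (l + 1)) * z ^ (2 * 2 ^ n - 2 ^ (l + 1)) +
        E φ u (q n 0) * z ^ (2 * 2 ^ n - 1) := by
    rw [Finset.sum_range_succ']
    simp
  have h6 : ∑ l ∈ Finset.range (n + 1), u ^ (2 ^ l) * E φ u (q n l) *
      z ^ (2 * 2 ^ n - 2 ^ (l + 1)) =
      ∑ l ∈ Finset.range n, u ^ (2 ^ l) * E φ u (q n l) * z ^ (2 * 2 ^ n - 2 ^ (l + 1)) +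
        u ^ (2 ^ n) := by
    rw [Finset.sum_range_succ, E_qn, hpow, Nat.sub_self, pow_zero, mul_one, mul_one]
  have h7 : ∑ l ∈ Finset.range n, E φ u (q n (l + 1)) * z ^ (2 * 2 ^ n - 2 ^ (l + 1)) +
      ∑ l ∈ Finset.range n, u ^ (2 ^ l) * E φ u (q n l) * z ^ (2 * 2 ^ n - 2 ^ (l + 1)) =
      ∑ l ∈ Finset.range n, φ (q n l) ^ 2 * u ^ (2 ^ n) * z ^ (2 * 2 ^ n - 2 ^ (l + 1)) +
        ∑ l ∈ Finset.range n, FE φ u * φ (q n (l + 1)) * z ^ (2 * 2 ^ n - 2 ^ (l + 1)) := by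
    rw [← Finset.sum_add_distrib, ← Finset.sum_add_distrib]
    refine Finset.sum_congr rfl fun l hl => ?_
    have h := E_rec φ u (Finset.mem_range.mp hl)
    linear_combination (z ^ (2 * 2 ^ n - 2 ^ (l + 1))) * h
  have h8 : FE φ z ^ 2 = ∑ l ∈ Finset.range n, φ (q n l) ^ 2 * z ^ (2 * 2 ^ n - 2 ^ (l + 1)) + 1 := by
    have h9 : FE φ z ^ 2 = ∑ l ∈ Finset.range (n + 1), (φ (q n l) * z ^ (2 ^ n - 2 ^ l)) ^ 2 := by
      rw [FE_eq, CharTwo.sum_sq]
    rw [h9, Finset.sum_range_succ, Nat.sub_self, pow_zero, q_self, map_one, mul_one, one_pow]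
    congr 1
    refine Finset.sum_congr rfl fun l hl => ?_
    have hl' : 2 ^ l ≤ 2 ^ n := Nat.pow_le_pow_right (by norm_num) (by simp at hl; omega)
    rw [mul_pow, ← pow_mul]
    congr 2
    rw [pow_succ]; omega
  have h10 : z ^ (2 ^ n) * FE φ z =
      ∑ l ∈ Finset.range n, φ (q n (l + 1)) * z ^ (2 * 2 ^ n - 2 ^ (l + 1)) +
        φ (q n 0) * z ^ (2 * 2 ^ n - 1) := by
    rw [FE_eq, Finset.mul_sum, Finset.sum_range_succ']
    congr 1
    · refine Finset.sum_congr rfl fun l hl => ?_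
      have hl' : 2 ^ (l + 1) ≤ 2 ^ n :=
        Nat.pow_le_pow_right (by norm_num) (by simp at hl; omega)
      have : 2 * 2 ^ n - 2 ^ (l + 1) = 2 ^ n + (2 ^ n - 2 ^ (l + 1)) := by omega
      rw [this, pow_add]; ring
    · have h1' : 1 ≤ 2 ^ n := Nat.one_le_two_pow
      have : 2 * 2 ^ n - 1 = 2 ^ n + (2 ^ n - 1) := by omega
      rw [pow_zero, this, pow_add]; ring
  have h11 : ∑ l ∈ Finset.range n, φ (q n l) ^ 2 * u ^ (2 ^ n) * z ^ (2 * 2 ^ n - 2 ^ (l + 1)) =
      u ^ (2 ^ n) * ∑ l ∈ Finset.range n, φ (q n l) ^ 2 * z ^ (2 * 2 ^ n - 2 ^ (l + 1)) := by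
    rw [Finset.mul_sum]
    exact Finset.sum_congr rfl fun l _ => by ring
  have h12 : ∑ l ∈ Finset.range n, FE φ u * φ (q n (l + 1)) * z ^ (2 * 2 ^ n - 2 ^ (l + 1)) =
      FE φ u * ∑ l ∈ Finset.range n, φ (q n (l + 1)) * z ^ (2 * 2 ^ n - 2 ^ (l + 1)) := by
    rw [Finset.mul_sum]
    exact Finset.sum_congr rfl fun l _ => by ring
  rw [h11, h12] at h7
  rw [h5, h6, E_q0]
  linear_combination h7 - u ^ (2 ^ n) * h8 - FE φ u * h10

/-- the double recursion -/
lemma EE_rec (φ : D n →+* B') (u v : B') {l : ℕ} (h : l + 1 < n) :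
    E (E φ u) v (q n (l + 2)) = (u + v) ^ (2 ^ (l + 1)) * E (E φ u) v (q n (l + 1)) +
      (u ^ 2 * v) ^ (2 ^ l) * E (E φ u) v (q n l) + (u ^ 2 * v) ^ (2 ^ n) * φ (q n l) ^ 4 +
      (v ^ (2 ^ n) * FE φ u ^ 2 + u ^ (2 ^ n) * FE (E φ u) v) * φ (q n (l + 1)) ^ 2 +
      FE φ u * FE (E φ u) v * φ (q n (l + 2)) := by
  have h2 : (2 : B') = 0 := two_B
  have a1 := E_rec (E φ u) v (by omega : l < n)
  have a2 := E_rec (E φ u) v h
  have b1 := E_rec φ u (by omega : l < n)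
  have b2 := E_rec φ u h
  have e1 : u ^ (2 ^ (l + 1)) = (u ^ (2 ^ l)) ^ 2 := by rw [pow_succ, pow_mul]
  have e2 : (u ^ 2 * v) ^ (2 ^ l) = (u ^ (2 ^ l)) ^ 2 * v ^ (2 ^ l) := by
    rw [mul_pow, ← pow_mul, ← pow_mul, mul_comm 2]
  have e3 : (u ^ 2 * v) ^ (2 ^ n) = (u ^ (2 ^ n)) ^ 2 * v ^ (2 ^ n) := by
    rw [mul_pow, ← pow_mul, ← pow_mul, mul_comm 2]
  rw [add_pow_two_pow, e2, e3, e1]
  rw [e1] at b2
  have b1' : E φ u (q n (l + 1)) ^ 2 + (u ^ (2 ^ l)) ^ 2 * E φ u (q n l) ^ 2 =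
      (φ (q n l) ^ 2 * u ^ (2 ^ n) + FE φ u * φ (q n (l + 1))) ^ 2 := by
    rw [← b1]
    linear_combination (-(u ^ 2 ^ l * E φ u (q n l) * E φ u (q n (l + 1)))) * h2
  generalize E (E φ u) v (q n (l + 2)) = A2 at *
  generalize E (E φ u) v (q n (l + 1)) = A1 at *
  generalize E (E φ u) v (q n l) = A0 at *
  generalize E φ u (q n (l + 2)) = p2 at *
  generalize E φ u (q n (l + 1)) = p1 at *
  generalize E φ u (q n l) = p0 at *
  generalize FE (E φ u) v = G2 at *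
  generalize FE φ u = G1 at *
  generalize φ (q n (l + 2)) = c2 at *
  generalize φ (q n (l + 1)) = c1 at *
  generalize φ (q n l) = c0 at *
  generalize u ^ (2 ^ l) = U at *
  generalize v ^ (2 ^ (l + 1)) = V1 at *
  generalize v ^ (2 ^ l) = V at *
  generalize u ^ (2 ^ n) = UN at *
  generalize v ^ (2 ^ n) = VN at *
  linear_combination a2 + U ^ 2 * a1 + VN * b1' + G2 * b2 +
    (-(V1 * A1) - U ^ 2 * A1 - U ^ 2 * V * A0 + VN * c0 ^ 2 * UN * G1 * c1) * h2

omit [CharP B' 2] in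
lemma EE_q0 (φ : D n →+* B') (u v : B') :
    E (E φ u) v (q n 0) = FE φ u * FE (E φ u) v * φ (q n 0) := by
  rw [E_q0, E_q0]; ring

lemma EE_q1 (φ : D n →+* B') (u v : B') (h : 0 < n) :
    E (E φ u) v (q n 1) = (u + v) * E (E φ u) v (q n 0) +
      (v ^ (2 ^ n) * FE φ u ^ 2 + u ^ (2 ^ n) * FE (E φ u) v) * φ (q n 0) ^ 2 +
      FE φ u * FE (E φ u) v * φ (q n 1) := by
  have h2 : (2 : B') = 0 := two_B
  have a1 := E_rec (E φ u) v h
  have b1 := E_rec φ u h
  have a0 := E_q0 (E φ u) v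
  have b0 := E_q0 φ u
  rw [pow_zero, pow_one, zero_add] at a1 b1
  generalize E (E φ u) v (q n 1) = A1 at *
  generalize E (E φ u) v (q n 0) = A0 at *
  generalize E φ u (q n 1) = p1 at *
  generalize E φ u (q n 0) = p0 at *
  generalize FE (E φ u) v = G2 at *
  generalize FE φ u = G1 at *
  generalize φ (q n 1) = c1 at *
  generalize φ (q n 0) = c0 at *
  generalize u ^ (2 ^ n) = UN at *
  generalize v ^ (2 ^ n) = VN at *
  subst a0 b0
  linear_combination a1 + G2 * b1 + (-(v * (c0 * G1 * G2)) - u * (c0 * G1) * G2) * h2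

/-- the two iterated total squares agree -/
theorem EE_eq [IsDomain B'] (φ : D n →+* B') (t w : B') (ht : t ≠ 0) (hw : w ≠ 0) :
    E (E φ ((1 + t) * w)) (t ^ 2 * w) = E (E φ (t * (1 + t) * w)) w := by
  have h2 : (2 : B') = 0 := two_B
  have hc := FE_three φ t w
  -- the two second level values
  have f1 : FE (E φ ((1 + t) * w)) (t ^ 2 * w) = FE φ (t * w) * FE φ (t * (1 + t) * w) := by
    have h := FE_FE φ ((1 + t) * w) (t ^ 2 * w) (t * w) w
      (by linear_combination (-(t * w)) * h2) (by ring)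
    have hne : w ^ (2 ^ n) ≠ 0 := pow_ne_zero _ hw
    apply mul_left_cancel₀ hne
    rw [h, hc, mul_pow, mul_pow]
    ring
  have f2 : FE (E φ (t * (1 + t) * w)) w = FE φ (t * w) * FE φ ((1 + t) * w) := by
    have h := FE_FE φ (t * (1 + t) * w) w (t * w) (t ^ 2 * w)
      (by linear_combination (-(t * w)) * h2) (by ring)
    have hne : (t ^ 2 * w) ^ (2 ^ n) ≠ 0 := pow_ne_zero _ (mul_ne_zero (pow_ne_zero _ ht) hw)
    apply mul_left_cancel₀ hne
    rw [h, hc, mul_pow, mul_pow, mul_pow, mul_pow, ← pow_mul, mul_comm 2 (2 ^ n), pow_mul]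
    linear_combination (t ^ 2 ^ n * (1 + t) ^ 2 ^ n * w ^ 2 ^ n * FE φ (t * w) ^ 2) * h2
  have g1 : FE φ ((1 + t) * w) * FE (E φ ((1 + t) * w)) (t ^ 2 * w) =
      FE φ (t * (1 + t) * w) * FE (E φ (t * (1 + t) * w)) w := by
    rw [f1, f2]; ring
  have g2 : (t ^ 2 * w) ^ (2 ^ n) * FE φ ((1 + t) * w) ^ 2 +
      ((1 + t) * w) ^ (2 ^ n) * FE (E φ ((1 + t) * w)) (t ^ 2 * w) =
      w ^ (2 ^ n) * FE φ (t * (1 + t) * w) ^ 2 +
      (t * (1 + t) * w) ^ (2 ^ n) * FE (E φ (t * (1 + t) * w)) w := by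
    rw [f1, f2, hc, mul_pow, mul_pow, mul_pow, mul_pow, ← pow_mul, mul_comm 2 (2 ^ n), pow_mul]
    linear_combination
      (-(w ^ 2 ^ n * (1 + t) ^ 2 ^ n * t ^ 2 ^ n * FE φ (t * w) * FE φ ((1 + t) * w))) * h2
  have k1 : (1 + t) * w + t ^ 2 * w = t * (1 + t) * w + w := by ring
  have k2 : ((1 + t) * w) ^ 2 * (t ^ 2 * w) = (t * (1 + t) * w) ^ 2 * w := by ring
  have key : ∀ l, l ≤ n → E (E φ ((1 + t) * w)) (t ^ 2 * w) (q n l) =
      E (E φ (t * (1 + t) * w)) w (q n l) := by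
    intro l
    induction l using Nat.strong_induction_on with
    | _ l ih =>
      intro hl
      match l, ih, hl with
      | 0, _, _ => rw [EE_q0, EE_q0, g1]
      | 1, ih, hl =>
        rw [EE_q1 _ _ _ (by omega), EE_q1 _ _ _ (by omega), ih 0 (by omega) (by omega), g1, g2, k1]
      | l + 2, ih, hl =>
        rw [EE_rec _ _ _ (by omega), EE_rec _ _ _ (by omega), ih (l + 1) (by omega) (by omega),
          ih l (by omega) (by omega), g1, g2, k1, k2]
  ext1 x
  refine D_induction (P := fun x => E (E φ ((1 + t) * w)) (t ^ 2 * w) x =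
      E (E φ (t * (1 + t) * w)) w x) ?_ ?_ ?_ ?_ x
  · rw [map_zero, map_zero]
  · rw [map_one, map_one]
  · intro x y hx hy; rw [map_add, map_add, hx, hy]
  · intro x i hx; rw [map_mul, map_mul, hx, gen_eq, key _ i.2.le]

end hom

/-! ### extraction of coefficients -/

/-- coefficients of a polynomial evaluated at `r Y` -/
lemma coeff_eval₂_mul_X {R S : Type*} [CommRing R] [CommRing S] (g : R →+* S[X]) (r : S)
    (f : R[X]) (N : ℕ) :
    (f.eval₂ g (C r * X)).coeff N =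
      ∑ b ∈ Finset.range (N + 1), (g (f.coeff b)).coeff (N - b) * r ^ b := by
  induction f using Polynomial.induction_on' with
  | add p q hp hq =>
    rw [eval₂_add, coeff_add, hp, hq, ← Finset.sum_add_distrib]
    refine Finset.sum_congr rfl fun b _ => ?_
    rw [coeff_add, map_add, coeff_add]; ring
  | monomial k a =>
    rw [eval₂_monomial, mul_pow, ← C_pow, ← mul_assoc, mul_comm (g a) (C (r ^ k)), mul_assoc,
      coeff_C_mul, coeff_mul_X_pow']
    by_cases h : k ≤ N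
    · rw [if_pos h, Finset.sum_eq_single k]
      · rw [coeff_monomial, if_pos rfl]; ring
      · intro b _ hb
        rw [coeff_monomial, if_neg (Ne.symm hb), map_zero, coeff_zero, zero_mul]
      · intro hk
        exact absurd (Finset.mem_range.mpr (by omega)) hk
    · rw [if_neg h, mul_zero]
      symm
      refine Finset.sum_eq_zero fun b hb => ?_
      rw [coeff_monomial, if_neg (by have := Finset.mem_range.mp hb; omega), map_zero, coeff_zero,
        zero_mul]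

/-- the base ring map `D n → (D n)[t][w]` -/
noncomputable def base (n : ℕ) : D n →+* ((D n)[X])[X] := (C : (D n)[X] →+* _).comp C

lemma coeff_E_base {n : ℕ} (p : (D n)[X]) (y : D n) (a : ℕ) :
    (E (base n) (C p * X) y).coeff a = C ((P n y).coeff a) * p ^ a := by
  rw [E_apply, coeff_eval₂_mul_X, Finset.sum_eq_single a]
  · rw [Nat.sub_self]
    unfold base
    rw [RingHom.comp_apply, coeff_C_zero]
  · intro b hb hba
    have := Finset.mem_range.mp hb
    unfold base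
    rw [RingHom.comp_apply, coeff_C, if_neg (by omega), zero_mul]
  · intro h
    exact absurd (Finset.mem_range.mpr (by omega)) h

lemma coeff_EE_base {n : ℕ} (p r : (D n)[X]) (x : D n) (N : ℕ) :
    (E (E (base n) (C p * X)) (C r * X) x).coeff N =
      ∑ b ∈ Finset.range (N + 1), C ((P n ((P n x).coeff b)).coeff (N - b)) * p ^ (N - b) * r ^ b := by
  rw [E_apply, coeff_eval₂_mul_X]
  refine Finset.sum_congr rfl fun b _ => ?_
  rw [coeff_E_base]

/-- The Bullett-Macdonald identity, level zero. -/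
theorem bm_s_zero {n : ℕ} (x : D n) (N : ℕ) :
    ∑ a ∈ Finset.range (N + 1), C (s n 0 a (s n 0 (N - a) x)) * BM.wt (D n) a (N - a) = 0 := by
  have hs : ∀ a y, s n 0 a y = (P n y).coeff a := by
    intro a y; rw [s_apply, pow_zero, one_mul]
  have h := EE_eq (base n) (C (X : (D n)[X])) (X : ((D n)[X])[X])
    (by rw [Ne, C_eq_zero]; exact X_ne_zero) X_ne_zero
  have e1 : (1 + C (X : (D n)[X])) * (X : ((D n)[X])[X]) = C (1 + X) * X := by
    rw [C_add, C_1]
  have e2 : (C (X : (D n)[X])) ^ 2 * (X : ((D n)[X])[X]) = C (X ^ 2) * X := by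
    rw [C_pow]
  have e3 : C (X : (D n)[X]) * (1 + C X) * (X : ((D n)[X])[X]) = C (X * (1 + X)) * X := by
    rw [C_mul, C_add, C_1]
  have e4 : (X : ((D n)[X])[X]) = C 1 * X := by rw [C_1, one_mul]
  rw [e1, e2, e3] at h
  have h' : (E (E (base n) (C (1 + X) * X)) (C (X ^ 2) * X) x).coeff N =
      (E (E (base n) (C (X * (1 + X)) * X)) X x).coeff N := by rw [h]
  rw [coeff_EE_base] at h'
  have h3 := coeff_EE_base (n := n) (X * (1 + X)) 1 x N
  rw [← e4] at h3
  rw [h3] at h'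
  have hsum : ∑ a ∈ Finset.range (N + 1), C (s n 0 a (s n 0 (N - a) x)) * BM.wt (D n) a (N - a) =
      ∑ b ∈ Finset.range (N + 1), C ((P n ((P n x).coeff b)).coeff (N - b)) *
        BM.wt (D n) (N - b) b := by
    rw [← Finset.sum_range_reflect]
    refine Finset.sum_congr rfl fun b hb => ?_
    have hb' := Finset.mem_range.mp hb
    rw [hs, hs]
    have i1 : N + 1 - 1 - b = N - b := by omega
    have i2 : N - (N - b) = b := by omega
    rw [i1, i2]
  rw [hsum]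
  have hsplit : ∑ b ∈ Finset.range (N + 1), C ((P n ((P n x).coeff b)).coeff (N - b)) *
        BM.wt (D n) (N - b) b =
      ∑ b ∈ Finset.range (N + 1), C ((P n ((P n x).coeff b)).coeff (N - b)) *
        (1 + X) ^ (N - b) * (X ^ 2) ^ b +
      ∑ b ∈ Finset.range (N + 1), C ((P n ((P n x).coeff b)).coeff (N - b)) *
        (X * (1 + X)) ^ (N - b) * 1 ^ b := by
    rw [← Finset.sum_add_distrib]
    refine Finset.sum_congr rfl fun b _ => ?_
    unfold BM.wt
    rw [one_pow, mul_pow, ← pow_mul]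
    ring
  rw [hsplit, h']
  exact CharTwo.add_self_eq_zero _

lemma q0_ne_zero (n : ℕ) : q n 0 ≠ 0 := by
  rcases Nat.eq_zero_or_pos n with hn | hn
  · subst hn; rw [q_self]; exact one_ne_zero
  · rw [q_lt hn]
    exact MvPolynomial.X_ne_zero (R := ZMod 2) _

/-- The Bullett-Macdonald identity for the level `m` operations. -/
theorem bm_s {n m : ℕ} (x : D n) (N : ℕ) :
    ∑ a ∈ Finset.range (N + 1), C (s n m a (s n m (N - a) x)) * BM.wt (D n) a (N - a) = 0 := by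
  have h := bm_s_zero (n := n) (q n 0 ^ m * x) N
  have hC : (C (q n 0 ^ m) : (D n)[X]) ≠ 0 := by
    rw [Ne, C_eq_zero]; exact pow_ne_zero _ (q0_ne_zero n)
  apply mul_left_cancel₀ hC
  rw [mul_zero, ← h, Finset.mul_sum]
  refine Finset.sum_congr rfl fun a _ => ?_
  rw [s_q0_pow, s_q0_pow, zero_add, C_mul]
  ring

/-- the operations of level `m` as endomorphisms satisfy the abstract relations -/
theorem rel_s (n m : ℕ) :
    BM.Rel (fun a => (s n m a : Module.End (ZMod 2) (D n))) := by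
  apply BM.rel_of_coeff
  intro N j
  refine LinearMap.ext fun x => ?_
  have h := congrArg (fun p : (D n)[X] => p.coeff j) (bm_s (n := n) (m := m) x N)
  simp only [finsetSum_coeff, coeff_zero] at h
  rw [LinearMap.zero_apply, ← h, LinearMap.sum_apply]
  refine Finset.sum_congr rfl fun a _ => ?_
  rw [BM.coeff_wt, ← mul_add, ← Nat.cast_add, ← Nat.cast_add]
  generalize (if 2 * (N - a) ≤ j then a.choose (j - 2 * (N - a)) else 0) + BM.cc a j = k
  rw [Module.End.mul_apply, Module.End.mul_apply, Module.End.natCast_apply, map_nsmul, map_nsmul,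
    nsmul_eq_mul, mul_comm]

end Vale.Agent.P263.EX.DS
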