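import Vale.Agent.P263.LZ.Basic

/-!
P263, block DS (helper659), definitions.

`LZ.D n = F_2[q_0, …, q_{n-1}]` (the rank `n` Dickson algebra, from `LZ/Basic.lean`), its total square
`P n : D n → (D n)[x]` (the coefficient of `x^a` is `Sq^a`), the level `m` operations `s n m a` (they are
the squares on the ideal `q_0^m D_n`, after division by `q_0^m`), the Milnor primitives `del n m i` at
level `m`, and the map `z : D_{n+1} → D_n`.
-/

namespace Vale.Agent.P263.EX.DS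

open Polynomial Vale.Agent.P263.LZ

/-- `A_j = Σ_{l ≤ j} q_l x^(2^j - 2^l)` -/
noncomputable def A (n j : ℕ) : (D n)[X] :=
  ∑ l ∈ Finset.range (j + 1), C (q n l) * X ^ (2 ^ j - 2 ^ l)

/-- `B_j = Σ_{j < t ≤ n} q_t x^(2^n - 2^t)` -/
noncomputable def B (n j : ℕ) : (D n)[X] :=
  ∑ t ∈ Finset.Ioc j n, C (q n t) * X ^ (2 ^ n - 2 ^ t)

/-- `F = Σ_{l ≤ n} q_l x^(2^n - 2^l)` -/
noncomputable def F (n : ℕ) : (D n)[X] :=
  ∑ l ∈ Finset.range (n + 1), C (q n l) * X ^ (2 ^ n - 2 ^ l)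

/-- The total square: `P (q_j) = x^(2^n - 2^j) q_j^2 + A_j B_j`, multiplicative. The coefficient of
`x^a` is `Sq^a`. -/
noncomputable def P (n : ℕ) : D n →ₐ[ZMod 2] (D n)[X] :=
  lift fun j : Fin n => C (q n j ^ 2) * X ^ (2 ^ n - 2 ^ (j : ℕ)) + A n j * B n j

/-- level `m` total square: `F^m P(x)`. -/
noncomputable def Pm (n m : ℕ) : D n →ₗ[ZMod 2] (D n)[X] :=
  (LinearMap.mulLeft (ZMod 2) (F n ^ m)).comp (P n).toLinearMap

/-- `Sq^a` at level `m`. -/
noncomputable def s (n m a : ℕ) : D n →ₗ[ZMod 2] D n where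
  toFun x := (Pm n m x).coeff a
  map_add' x y := by simp
  map_smul' c x := by simp

theorem s_apply (n m a : ℕ) (x : D n) : s n m a x = (F n ^ m * P n x).coeff a := rfl

/-- `∂/∂q_i` -/
noncomputable def pd (n : ℕ) (i : Fin n) : Derivation (ZMod 2) (D n) (D n) :=
  (MvPolynomial.pderiv i : Derivation (ZMod 2) (MvPolynomial (Fin n) (ZMod 2))
    (MvPolynomial (Fin n) (ZMod 2)))

/-- `∂/∂q_i`, zero for `i ≥ n` -/
noncomputable def pdn (n i : ℕ) : Derivation (ZMod 2) (D n) (D n) :=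
  if h : i < n then pd n ⟨i, h⟩ else 0

/-- the Euler derivation `Σ q_j ∂/∂q_j` (number of variables) -/
noncomputable def eul (n : ℕ) : Derivation (ZMod 2) (D n) (D n) :=
  ∑ j : Fin n, gen j • pd n j

/-- level zero: `d 0 = q_0 ∂_0`, `d i = q_0 ∂_i` (`i < n`), `d n = q_0 eul`,
`d (n+1) = Σ_{i=1..n} q_{i-1}^2 d i`, zero beyond. (`n ≥ 1`) -/
noncomputable def d0 (n i : ℕ) : Derivation (ZMod 2) (D n) (D n) :=
  if i = n then q n 0 • eul n else q n 0 • pdn n i

noncomputable def d (n i : ℕ) : Derivation (ZMod 2) (D n) (D n) :=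
  if i = n + 1 then ∑ j ∈ Finset.range n, (q n j ^ 2) • d0 n (j + 1) else d0 n i

/-- `d i (q_0) / q_0`: `1` for `i = 0`, `q_0` for `i = n`, `q_0 q_{n-1}^2` for `i = n + 1`, else `0`. -/
noncomputable def c (n i : ℕ) : D n :=
  if i = 0 then 1 else if i = n then q n 0 else if i = n + 1 then q n 0 * q n (n - 1) ^ 2 else 0

/-- The Milnor primitives at level `m`: `del n m i x = d i x + m c_i x`; explicitly
`del 0 = q_0 ∂_0 + m`, `del i = q_0 ∂_i` (`1 ≤ i ≤ n - 1`), `del n = q_0 (eul + m)`,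
`del (n+1) = Σ_{i=1..n} q_{i-1}^2 del i`. -/
noncomputable def del (n m i : ℕ) : D n →ₗ[ZMod 2] D n :=
  (d n i).toLinearMap + LinearMap.mulLeft (ZMod 2) ((m : D n) * c n i)

theorem del_apply (n m i : ℕ) (x : D n) : del n m i x = d n i x + (m : D n) * c n i * x := rfl

/-- the map `z : D_{n+1} → D_n`, `q_0 ↦ q_0`, `q_i ↦ q_{i-1} + q_i` (`q_n = 1` in `D n`). -/
noncomputable def z (n : ℕ) : D (n + 1) →ₐ[ZMod 2] D n :=
  lift fun i : Fin (n + 1) => qm n i + q n i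

end Vale.Agent.P263.EX.DS
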