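import Vale.Agent.P263.EX.BM

/-!
P263: the Adem relations imply the Bullett–Macdonald relations (two-index form, for a family `x a b`
which stands for `Sq^a Sq^b` or for `θ_a(Sq^b x)`).
-/

namespace Vale.Agent.P263.F

open Finset Polynomial Vale.Agent.P263.EX

/-- `T_n = Σ_{u+v+1=n} C(v,u) A^u B^(v+1)` -/
def TT {R : Type*} [CommRing R] (A B : R) (n : ℕ) : R :=
  ∑ u ∈ range n, ((n - 1 - u).choose u : R) * (A ^ u * B ^ (n - u))

theorem TT_succ_succ {R : Type*} [CommRing R] (A B : R) (n : ℕ) :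
    TT A B (n + 2) = B * TT A B (n + 1) + A * B * TT A B n := by
  unfold TT
  have h1 : ∑ u ∈ range (n + 2), ((n + 2 - 1 - u).choose u : R) * (A ^ u * B ^ (n + 2 - u)) =
      B ^ (n + 2) + ∑ u ∈ range n, ((n + 1 - (u + 1)).choose (u + 1) : R) *
        (A ^ (u + 1) * B ^ (n + 1 - u)) := by
    rw [Finset.sum_range_succ', Finset.sum_range_succ]
    have e1 : ((n + 2 - 1 - (n + 1)).choose (n + 1) : R) = 0 := by
      rw [show n + 2 - 1 - (n + 1) = 0 by omega, Nat.choose_eq_zero_of_lt (by omega)]; simp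
    rw [e1]
    have e2 : ∀ u ∈ range n, ((n + 2 - 1 - (u + 1)).choose (u + 1) : R) *
        (A ^ (u + 1) * B ^ (n + 2 - (u + 1))) = ((n + 1 - (u + 1)).choose (u + 1) : R) *
        (A ^ (u + 1) * B ^ (n + 1 - u)) := by
      intro u hu
      rw [show n + 2 - 1 - (u + 1) = n + 1 - (u + 1) by omega,
        show n + 2 - (u + 1) = n + 1 - u by omega]
    rw [Finset.sum_congr rfl e2]
    simp
    ring
  have h2 : ∑ u ∈ range (n + 1), ((n + 1 - 1 - u).choose u : R) * (A ^ u * B ^ (n + 1 - u)) =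
      B ^ (n + 1) + ∑ u ∈ range n, ((n - (u + 1)).choose (u + 1) : R) *
        (A ^ (u + 1) * B ^ (n - u)) := by
    rw [Finset.sum_range_succ']
    have e2 : ∀ u ∈ range n, ((n + 1 - 1 - (u + 1)).choose (u + 1) : R) *
        (A ^ (u + 1) * B ^ (n + 1 - (u + 1))) = ((n - (u + 1)).choose (u + 1) : R) *
        (A ^ (u + 1) * B ^ (n - u)) := by
      intro u hu
      rw [show n + 1 - 1 - (u + 1) = n - (u + 1) by omega,
        show n + 1 - (u + 1) = n - u by omega]
    rw [Finset.sum_congr rfl e2]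
    simp
    ring
  rw [h1, h2, mul_add, Finset.mul_sum, Finset.mul_sum, add_assoc, ← Finset.sum_add_distrib]
  congr 1
  · ring
  · refine Finset.sum_congr rfl (fun u hu => ?_)
    rw [Finset.mem_range] at hu
    obtain ⟨k, hk⟩ : ∃ k, n = u + 1 + k := ⟨n - (u + 1), by omega⟩
    have e3 : n + 1 - (u + 1) = k + 1 := by omega
    have e4 : n - (u + 1) = k := by omega
    have e5 : n - 1 - u = k := by omega
    rw [e3, e4, e5, Nat.choose_succ_succ, show n + 1 - u = (n - u) + 1 by omega, pow_succ, pow_succ]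
    push_cast
    ring

theorem TT_zero {R : Type*} [CommRing R] (A B : R) : TT A B 0 = 0 := by simp [TT]
theorem TT_one {R : Type*} [CommRing R] (A B : R) : TT A B 1 = B := by simp [TT]

theorem SS_rec {R : Type*} [CommRing R] [CharP R 2] (A B : R) (n : ℕ) :
    A ^ (n + 3) + TT A B (n + 3) =
      (A + B) * (A ^ (n + 2) + TT A B (n + 2)) + A ^ 2 * B * (A ^ n + TT A B n) := by
  have h2 : (2 : R) = 0 := CharTwo.two_eq_zero
  have h3 := TT_succ_succ A B (n + 1)
  have h4 := TT_succ_succ A B n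
  linear_combination h3 - A * h4 + (-(A ^ (n + 2) * B) - A ^ 2 * B * TT A B n -
    A * TT A B (n + 2) + A * TT A B (n + 2)) * h2

theorem SS_eq (n : ℕ) :
    (1 + X : (ZMod 2)[X]) ^ n + TT (1 + X) (X ^ 2) n = (X * (1 + X)) ^ n + TT (X * (1 + X)) 1 n := by
  induction n using Nat.strong_induction_on with
  | _ n ih =>
    have h2 : (2 : (ZMod 2)[X]) = 0 := CharTwo.two_eq_zero
    rcases n with _ | _ | _ | n
    · simp [TT_zero]
    · rw [TT_one, TT_one]; ring
    · have h := TT_succ_succ (1 + X : (ZMod 2)[X]) (X ^ 2) 0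
      have h' := TT_succ_succ (X * (1 + X) : (ZMod 2)[X]) 1 0
      simp only [zero_add, TT_zero, TT_one] at h h' ⊢
      rw [h, h']
      linear_combination (X - X ^ 3 : (ZMod 2)[X]) * h2
    · rw [SS_rec, SS_rec, ih (n + 2) (by omega), ih n (by omega)]
      ring

theorem wt_id (n c : ℕ) :
    ∑ u ∈ range n, ((n - 1 - u).choose u : (ZMod 2)[X]) * BM.wt (ZMod 2) (2 * c + u) (c + (n - u)) =
      BM.wt (ZMod 2) (2 * c + n) c := by
  have h2 : (2 : (ZMod 2)[X]) = 0 := CharTwo.two_eq_zero
  have h := SS_eq n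
  have e : ∀ u ∈ range n, ((n - 1 - u).choose u : (ZMod 2)[X]) *
      BM.wt (ZMod 2) (2 * c + u) (c + (n - u)) =
      (X ^ (2 * c) * (1 + X) ^ (2 * c)) *
        (((n - 1 - u).choose u : (ZMod 2)[X]) * ((1 + X) ^ u * (X ^ 2) ^ (n - u))) +
      (X ^ (2 * c) * (1 + X) ^ (2 * c)) *
        (((n - 1 - u).choose u : (ZMod 2)[X]) * ((X * (1 + X)) ^ u * 1 ^ (n - u))) := by
    intro u _
    unfold BM.wt
    rw [← pow_mul, one_pow, mul_pow]
    ring
  rw [Finset.sum_congr rfl e, Finset.sum_add_distrib, ← Finset.mul_sum, ← Finset.mul_sum]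
  change (X ^ (2 * c) * (1 + X) ^ (2 * c)) * TT (1 + X) (X ^ 2) n +
    (X ^ (2 * c) * (1 + X) ^ (2 * c)) * TT (X * (1 + X)) 1 n = _
  unfold BM.wt
  rw [mul_pow] at h
  linear_combination (X ^ (2 * c) * (1 + X) ^ (2 * c)) * h +
    ((X ^ (2 * c) * (1 + X) ^ (2 * c)) * TT (X * (1 + X)) 1 n -
      X ^ (2 * c) * (1 + X) ^ (2 * c) * (1 + X) ^ n) * h2

variable {V : Type*} [AddCommGroup V] [Module (ZMod 2) V]

/-- Adem relations imply Bullett–Macdonald relations. -/
theorem bm_of_adem (x : ℕ → ℕ → V)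
    (h : ∀ a b, a < 2 * b → x a b = ∑ c ∈ range (a / 2 + 1),
      ((b - c - 1).choose (a - 2 * c) : ZMod 2) • x (a + b - c) c) (N j : ℕ) :
    ∑ a ∈ range (N + 1), (BM.wt (ZMod 2) a (N - a)).coeff j • x a (N - a) = 0 := by
  classical
  have hx : ∀ a ∈ range (N + 1), (BM.wt (ZMod 2) a (N - a)).coeff j • x a (N - a) =
      (if 2 * (N - a) ≤ a then (BM.wt (ZMod 2) a (N - a)).coeff j • x a (N - a) else 0) +
      ∑ c ∈ range (N + 1), (if a < 2 * (N - a) ∧ 2 * c ≤ a then
        ((BM.wt (ZMod 2) a (N - a)).coeff j * ((N - a - c - 1).choose (a - 2 * c) : ZMod 2)) •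
          x (N - c) c else 0) := by
    intro a ha
    rw [Finset.mem_range] at ha
    by_cases hab : a < 2 * (N - a)
    · rw [if_neg (by omega), zero_add, h a (N - a) hab, Finset.smul_sum]
      have hsub : range (a / 2 + 1) ⊆ range (N + 1) := by
        intro c hc; rw [Finset.mem_range] at hc ⊢; omega
      rw [← Finset.sum_subset hsub]
      · refine Finset.sum_congr rfl (fun c hc => ?_)
        rw [Finset.mem_range] at hc
        rw [if_pos ⟨hab, by omega⟩, smul_smul, show a + (N - a) - c = N - c by omega]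
      · intro c _ hc
        rw [Finset.mem_range] at hc
        rw [if_neg]
        rintro ⟨_, h2⟩
        omega
    · rw [if_pos (by omega), Finset.sum_eq_zero, add_zero]
      intro c _
      rw [if_neg (fun h => hab h.1)]
  rw [Finset.sum_congr rfl hx, Finset.sum_add_distrib, Finset.sum_comm]
  have h1 : ∑ a ∈ range (N + 1), (if 2 * (N - a) ≤ a then
      (BM.wt (ZMod 2) a (N - a)).coeff j • x a (N - a) else 0) =
      ∑ c ∈ range (N + 1), (if 3 * c ≤ N then
        (BM.wt (ZMod 2) (N - c) c).coeff j • x (N - c) c else 0) := by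
    rw [← Finset.sum_range_reflect]
    refine Finset.sum_congr rfl (fun c hc => ?_)
    rw [Finset.mem_range] at hc
    rw [show N + 1 - 1 - c = N - c by omega, show N - (N - c) = c by omega]
    by_cases h3 : 3 * c ≤ N
    · rw [if_pos h3, if_pos (by omega)]
    · rw [if_neg h3, if_neg (by omega)]
  rw [h1, ← Finset.sum_add_distrib]
  refine Finset.sum_eq_zero (fun c hc => ?_)
  rw [Finset.mem_range] at hc
  by_cases h3 : 3 * c ≤ N
  · rw [if_pos h3]
    obtain ⟨n, hn⟩ : ∃ n, N = 3 * c + n := ⟨N - 3 * c, by omega⟩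
    have hid := congrArg (fun p => Polynomial.coeff p j) (wt_id n c)
    simp only [Polynomial.finsetSum_coeff] at hid
    rw [show N - c = 2 * c + n by omega, ← hid, Finset.sum_smul]
    have hshift : ∑ a ∈ range (N + 1), (if a < 2 * (N - a) ∧ 2 * c ≤ a then
        ((BM.wt (ZMod 2) a (N - a)).coeff j * ((N - a - c - 1).choose (a - 2 * c) : ZMod 2)) •
          x (2 * c + n) c else 0) =
        ∑ u ∈ range n, ((n - 1 - u).choose u * BM.wt (ZMod 2) (2 * c + u) (c + (n - u)) :
          (ZMod 2)[X]).coeff j • x (2 * c + n) c := by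
      have hsub : (range n).image (fun u => 2 * c + u) ⊆ range (N + 1) := by
        intro a ha
        rw [Finset.mem_image] at ha
        obtain ⟨u, hu, rfl⟩ := ha
        rw [Finset.mem_range] at hu ⊢
        omega
      rw [← Finset.sum_subset hsub, Finset.sum_image (fun u _ v _ h => by
        have : 2 * c + u = 2 * c + v := h
        omega)]
      · refine Finset.sum_congr rfl (fun u hu => ?_)
        rw [Finset.mem_range] at hu
        rw [← Polynomial.C_eq_natCast, Polynomial.coeff_C_mul,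
          show N - (2 * c + u) = c + (n - u) by omega,
          show c + (n - u) - c - 1 = n - 1 - u by omega,
          show 2 * c + u - 2 * c = u by omega]
        by_cases hu2 : 2 * c + u < 2 * (c + (n - u))
        · rw [if_pos ⟨hu2, by omega⟩, mul_comm]
        · rw [if_neg (fun h => hu2 h.1), Nat.choose_eq_zero_of_lt (by omega)]
          simp
      · intro a ha hna
        rw [Finset.mem_range] at ha
        rw [if_neg]
        rintro ⟨h4, h5⟩
        apply hna
        rw [Finset.mem_image]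
        exact ⟨a - 2 * c, by rw [Finset.mem_range]; omega, by omega⟩
    rw [hshift, ← Finset.sum_add_distrib]
    refine Finset.sum_eq_zero (fun u _ => ?_)
    rw [← add_smul, CharTwo.add_self_eq_zero, zero_smul]
  · rw [if_neg h3, zero_add]
    refine Finset.sum_eq_zero (fun a ha => ?_)
    split_ifs with h4
    · obtain ⟨h5, h6⟩ := h4
      omega
    · rfl

end Vale.Agent.P263.F
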