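import Vale.Agent.P263.EX.GE2

/-!
# Block GE, part 3: homogeneity, the product formula for `q_0`, and injectivity of `D n → S n`
-/

namespace Vale.Agent.P263.EX.GE

open Finset Polynomial Vale.Agent.P263.LZ

section

variable {R : Type*} [CommRing R] [Algebra (ZMod 2) R]

lemma lf_zero {n : ℕ} (x : Fin n → R) : lf (0 : Fin n → ZMod 2) x = 0 := by
  simp [lf]

/-- `q_0` is the product of the nonzero linear forms. -/
theorem dc_zero_prod {n : ℕ} (x : Fin n → R) :
    dc n x 0 = ∏ v ∈ (univ : Finset (Fin n → ZMod 2)).erase 0, lf v x := by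
  have h : ∀ p : R[X], (X * p).coeff 1 = p.coeff 0 := fun p => Polynomial.coeff_X_mul p 0
  rw [← dpoly_coeff x 0 (Nat.zero_le _), dpoly, ← Finset.mul_prod_erase univ _ (Finset.mem_univ 0),
    lf_zero, map_zero, add_zero, pow_zero, h,
    Polynomial.coeff_zero_eq_eval_zero, Polynomial.eval_prod]
  refine Finset.prod_congr rfl (fun v _ => ?_)
  simp

end

/-! ### homogeneity -/

section hom

open MvPolynomial

lemma lf_X_homog {n : ℕ} (v : Fin n → ZMod 2) :
    (lf v (fun i => (MvPolynomial.X i : S n))).IsHomogeneous 1 := by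
  unfold lf
  refine MvPolynomial.IsHomogeneous.sum _ _ _ (fun i _ => ?_)
  rw [MvPolynomial.smul_eq_C_mul]
  exact MvPolynomial.isHomogeneous_C_mul_X _ _

/-- Dickson elements of linear forms are homogeneous. -/
theorem dc_homog {σ : Type*} : ∀ (n : ℕ) (x : Fin n → MvPolynomial σ (ZMod 2)),
    (∀ i, (x i).IsHomogeneous 1) → ∀ j, j ≤ n → (dc n x j).IsHomogeneous (2 ^ n - 2 ^ j) := by
  intro n
  induction n with
  | zero =>
    intro x _ j hj
    obtain rfl : j = 0 := by omega
    rw [dc_zero, if_pos rfl]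
    simpa using isHomogeneous_one σ (ZMod 2)
  | succ n ih =>
    intro x hx j hj
    have hx' : ∀ i, ((fun i : Fin n => x i.succ) i).IsHomogeneous 1 := fun i => hx i.succ
    have hg : (dv n (fun i => x i.succ) (x 0)).IsHomogeneous (2 ^ n) := by
      unfold dv
      refine MvPolynomial.IsHomogeneous.sum _ _ _ (fun l hl => ?_)
      have hl' : l ≤ n := by simpa [Nat.lt_succ_iff] using hl
      have h1 := (ih _ hx' l hl').mul ((hx 0).pow (2 ^ l))
      have h2 : 2 ^ n - 2 ^ l + 1 * 2 ^ l = 2 ^ n := by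
        have : 2 ^ l ≤ 2 ^ n := Nat.pow_le_pow_right (by norm_num) hl'
        omega
      rwa [h2] at h1
    have hgc : ∀ j, j ≤ n + 1 → (dv n (fun i => x i.succ) (x 0) *
        dc n (fun i => x i.succ) j).IsHomogeneous (2 ^ (n + 1) - 2 ^ j) := by
      intro j hj
      rcases Nat.lt_or_ge n j with h | h
      · rw [dc_gt n _ j h, mul_zero]
        exact isHomogeneous_zero _ _ _
      · have h1 := hg.mul (ih _ hx' j h)
        have h2 : 2 ^ n + (2 ^ n - 2 ^ j) = 2 ^ (n + 1) - 2 ^ j := by
          have : 2 ^ j ≤ 2 ^ n := Nat.pow_le_pow_right (by norm_num) h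
          rw [pow_succ]; omega
        rwa [h2] at h1
    rcases j with _ | j
    · rw [dc_succ_zero]
      exact hgc 0 (Nat.zero_le _)
    · rw [dc_succ_succ]
      refine MvPolynomial.IsHomogeneous.add ?_ (hgc (j + 1) hj)
      have h1 := (ih _ hx' j (by omega)).pow 2
      have h2 : (2 ^ n - 2 ^ j) * 2 = 2 ^ (n + 1) - 2 ^ (j + 1) := by
        rw [pow_succ, pow_succ, Nat.sub_mul]
      rwa [h2] at h1

lemma io_q {n : ℕ} (j : ℕ) : io n (q n j) = dc n (fun i => MvPolynomial.X i) j := ev_q _ j

lemma io_q_homog {n j : ℕ} (hj : j ≤ n) : (io n (q n j)).IsHomogeneous (2 ^ n - 2 ^ j) := by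
  rw [io_q]
  exact dc_homog n _ (fun i => isHomogeneous_X _ _) j hj

/-- The embedding is homogeneous. -/
theorem io_homog {n : ℕ} (k : ℕ) (f : D n) (hf : Hom n (k : ℤ) f) : (io n f).IsHomogeneous k := by
  have h := hom_map (s := n) (B := S n)
    (fun (m : ℤ) (g : S n) => g = 0 ∨ ∃ l : ℕ, (l : ℤ) = m ∧ g.IsHomogeneous l)
    (fun _ => Or.inl rfl)
    (fun m x y hx hy => by
      rcases hx with rfl | ⟨l, hl, hx⟩
      · rw [zero_add]; exact hy
      · rcases hy with rfl | ⟨l', hl', hy⟩
        · rw [add_zero]; exact Or.inr ⟨l, hl, hx⟩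
        · obtain rfl : l = l' := by omega
          exact Or.inr ⟨l, hl, hx.add hy⟩)
    (Or.inr ⟨0, rfl, isHomogeneous_one _ _⟩)
    (fun m m' x y hx hy => by
      rcases hx with rfl | ⟨l, hl, hx⟩
      · rw [zero_mul]; exact Or.inl rfl
      · rcases hy with rfl | ⟨l', hl', hy⟩
        · rw [mul_zero]; exact Or.inl rfl
        · exact Or.inr ⟨l + l', by push_cast; omega, hx.mul hy⟩)
    (io n : D n →+* S n)
    (fun i => by
      refine Or.inr ⟨2 ^ n - 2 ^ (i : ℕ), ?_, ?_⟩
      · have : 2 ^ (i : ℕ) ≤ 2 ^ n := Nat.pow_le_pow_right (by norm_num) i.2.le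
        unfold w
        push_cast [Nat.cast_sub this]
        ring
      · have h1 := io_q_homog (n := n) i.2.le
        rw [q_lt i.2] at h1
        exact h1)
    f (k : ℤ) hf
  rcases h with h | ⟨l, hl, h⟩
  · have : io n f = 0 := h
    rw [this]; exact isHomogeneous_zero _ _ _
  · obtain rfl : l = k := by exact_mod_cast hl
    exact h

end hom

/-! ### injectivity -/

section inj

/-- linear independence of the variables -/
lemma lf_X_ne_zero {n : ℕ} (v : Fin n → ZMod 2) (hv : v ≠ 0) :
    lf v (fun i => (MvPolynomial.X i : S n)) ≠ 0 := by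
  intro h
  apply hv
  funext i
  have h1 := congrArg (MvPolynomial.coeff (Finsupp.single i 1)) h
  unfold lf at h1
  rw [MvPolynomial.coeff_sum, Finset.sum_eq_single i] at h1
  · simpa using h1
  · intro j _ hj
    rw [MvPolynomial.coeff_smul, MvPolynomial.coeff_X, if_neg, smul_zero]
    intro h2
    exact hj (Finsupp.single_left_injective (one_ne_zero) h2)
  · intro h2; exact absurd (Finset.mem_univ i) h2

lemma io_q_zero_ne {n : ℕ} : io n (q n 0) ≠ 0 := by
  rw [io_q, dc_zero_prod, Finset.prod_ne_zero_iff]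
  intro v hv
  exact lf_X_ne_zero v (Finset.ne_of_mem_erase hv)

/-- Restriction to the hyperplane on which the first variable vanishes. -/
noncomputable def res (n : ℕ) : S (n + 1) →ₐ[ZMod 2] S n :=
  MvPolynomial.aeval (Fin.cons 0 (fun i => MvPolynomial.X i) : Fin (n + 1) → S n)

lemma res_X_zero (n : ℕ) : res n (MvPolynomial.X 0) = 0 := by
  rw [res, MvPolynomial.aeval_X, Fin.cons_zero]

lemma res_X_succ (n : ℕ) (i : Fin n) : res n (MvPolynomial.X i.succ) = MvPolynomial.X i := by
  rw [res, MvPolynomial.aeval_X, Fin.cons_succ]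

lemma res_ev (n : ℕ) (f : D (n + 1)) : res n (io (n + 1) f) =
    ev (Fin.cons 0 (fun i => MvPolynomial.X i) : Fin (n + 1) → S n) f := by
  rw [io, ev_map]
  congr 2
  funext i
  rw [res, MvPolynomial.aeval_X]

lemma res_q_zero (n : ℕ) : res n (io (n + 1) (q (n + 1) 0)) = 0 := by
  rw [res_ev, ev_q, dc_cons_zero_zero]

lemma res_q_succ (n j : ℕ) :
    res n (io (n + 1) (q (n + 1) (j + 1))) = io n (q n j) ^ 2 := by
  rw [res_ev, ev_q, dc_cons_zero, io_q]

/-- the shift `q_j ↦ q_{j+1}` -/
noncomputable def sh (n : ℕ) : D n →ₐ[ZMod 2] D (n + 1) :=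
  LZ.lift fun j : Fin n => q (n + 1) (j + 1)

lemma sh_q (n j : ℕ) : sh n (q n j) = q (n + 1) (j + 1) := by
  rcases lt_trichotomy j n with h | h | h
  · rw [q_lt h, sh, lift_gen]
  · subst h; rw [q_self, map_one, q_self]
  · rw [q_gt h, map_zero, q_gt (by omega)]

/-- the restriction `q_0 ↦ 0`, `q_{j+1} ↦ q_j` -/
noncomputable def rs (n : ℕ) : D (n + 1) →ₐ[ZMod 2] D n :=
  LZ.lift fun j : Fin (n + 1) => qm n j

lemma rs_q_zero (n : ℕ) : rs n (q (n + 1) 0) = 0 := by
  rw [q_lt (Nat.succ_pos n), rs, lift_gen]; rfl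

lemma rs_q_succ (n j : ℕ) : rs n (q (n + 1) (j + 1)) = q n j := by
  rcases lt_trichotomy j n with h | h | h
  · rw [q_lt (by omega : j + 1 < n + 1), rs, lift_gen]; rfl
  · subst h; rw [q_self, map_one, q_self]
  · rw [q_gt (by omega), map_zero, q_gt h]

lemma rs_sh (n : ℕ) (f : D n) : rs n (sh n f) = f := by
  have : (rs n).comp (sh n) = AlgHom.id (ZMod 2) (D n) := by
    refine algHom_ext_D (fun j _ => ?_)
    rw [AlgHom.comp_apply, sh_q, rs_q_succ]; rfl
  exact DFunLike.congr_fun this f

/-- Frobenius, as an algebra map -/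
noncomputable def frob (n : ℕ) : S n →ₐ[ZMod 2] S n :=
  { frobenius (S n) 2 with
    commutes' := fun a => by
      show (algebraMap (ZMod 2) (S n) a) ^ 2 = _
      rw [← map_pow]
      congr 1
      revert a; decide }

lemma frob_apply (n : ℕ) (f : S n) : frob n f = f ^ 2 := rfl

theorem res_io (n : ℕ) (f : D (n + 1)) : res n (io (n + 1) f) = io n (rs n f) ^ 2 := by
  have : (res n).comp (io (n + 1)) = ((frob n).comp (io n)).comp (rs n) := by
    refine algHom_ext_D (fun j _ => ?_)
    rw [AlgHom.comp_apply, AlgHom.comp_apply, AlgHom.comp_apply, frob_apply]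
    rcases j with _ | j
    · rw [res_q_zero, rs_q_zero, map_zero]; ring
    · rw [res_q_succ, rs_q_succ]
  exact DFunLike.congr_fun this f

/-- elements with zero restriction are divisible by `q_0` -/
lemma q_zero_dvd {n : ℕ} (f : D (n + 1)) : ∃ g, f = sh n (rs n f) + q (n + 1) 0 * g := by
  refine D_induction (P := fun f => ∃ g, f = sh n (rs n f) + q (n + 1) 0 * g) ?_ ?_ ?_ ?_ f
  · exact ⟨0, by simp⟩
  · exact ⟨0, by simp⟩
  · rintro x y ⟨g, hg⟩ ⟨h, hh⟩
    refine ⟨g + h, ?_⟩
    rw [map_add, map_add]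
    nth_rewrite 1 [hg]
    nth_rewrite 1 [hh]
    ring
  · rintro x i ⟨g, hg⟩
    rcases i with ⟨i, hi⟩
    rw [← q_lt hi]
    rcases i with _ | i
    · refine ⟨x, ?_⟩
      rw [map_mul, map_mul, rs_q_zero, map_zero]
      ring
    · refine ⟨g * q (n + 1) (i + 1), ?_⟩
      rw [map_mul, map_mul, rs_q_succ, sh_q]
      nth_rewrite 1 [hg]
      ring

/-- The Dickson invariants are algebraically independent. -/
theorem io_injective : ∀ n : ℕ, Function.Injective (io n) := by
  intro n
  induction n with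
  | zero =>
    rw [injective_iff_map_eq_zero]
    intro f hf
    have h1 : (f : MvPolynomial (Fin 0) (ZMod 2)) =
        MvPolynomial.C (MvPolynomial.coeff 0 (f : MvPolynomial (Fin 0) (ZMod 2))) :=
      MvPolynomial.eq_C_of_isEmpty _
    rcases zmod2 (MvPolynomial.coeff 0 (f : MvPolynomial (Fin 0) (ZMod 2))) with h | h
    · rw [h, MvPolynomial.C_0] at h1; exact h1
    · rw [h, MvPolynomial.C_1] at h1
      have h2 : f = (1 : D 0) := h1
      rw [h2, map_one] at hf
      exact absurd hf one_ne_zero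
  | succ n ih =>
    rw [injective_iff_map_eq_zero]
    have key : ∀ N : ℕ, ∀ f : D (n + 1), io (n + 1) f = 0 →
        MvPolynomial.totalDegree (f : MvPolynomial (Fin (n + 1)) (ZMod 2)) ≤ N → f = 0 := by
      intro N
      induction N with
      | zero =>
        intro f hf hN
        have h0 : MvPolynomial.totalDegree (f : MvPolynomial (Fin (n + 1)) (ZMod 2)) = 0 := by
          omega
        have h1 := MvPolynomial.totalDegree_eq_zero_iff_eq_C.mp h0
        rcases zmod2 (MvPolynomial.coeff 0 (f : MvPolynomial (Fin (n + 1)) (ZMod 2))) with h | h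
        · rw [h, MvPolynomial.C_0] at h1; exact h1
        · rw [h, MvPolynomial.C_1] at h1
          have h2 : f = (1 : D (n + 1)) := h1
          rw [h2, map_one] at hf
          exact absurd hf one_ne_zero
      | succ N ihN =>
        intro f hf hN
        have h1 : io n (rs n f) ^ 2 = 0 := by rw [← res_io, hf, map_zero]
        have h2 : rs n f = 0 := by
          apply ih
          rw [map_zero]
          exact pow_eq_zero_iff (two_ne_zero) |>.mp h1
        obtain ⟨g, hg⟩ := q_zero_dvd f
        rw [h2, map_zero, zero_add] at hg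
        have h3 : io (n + 1) g = 0 := by
          rw [hg, map_mul] at hf
          rcases mul_eq_zero.mp hf with h | h
          · exact absurd h io_q_zero_ne
          · exact h
        by_cases hg0 : g = 0
        · rw [hg, hg0, mul_zero]
        · exfalso
          apply hg0
          apply ihN g h3
          obtain ⟨g', hg'⟩ : ∃ g' : MvPolynomial (Fin (n + 1)) (ZMod 2), g' = g := ⟨g, rfl⟩
          obtain ⟨f', hf'⟩ : ∃ f' : MvPolynomial (Fin (n + 1)) (ZMod 2), f' = f := ⟨f, rfl⟩
          have h5 : f' = MvPolynomial.X 0 * g' := by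
            rw [hf', hg, q_lt (Nat.succ_pos n), hg']; rfl
          have h6 : g' ≠ 0 := fun h => hg0 (hg'.symm.trans h)
          have h4 : f'.totalDegree = 1 + g'.totalDegree := by
            rw [h5, MvPolynomial.totalDegree_mul_of_isDomain (MvPolynomial.X_ne_zero 0) h6,
              MvPolynomial.totalDegree_X]
          rw [← hf'] at hN
          rw [← hg']
          omega
    intro f hf
    exact key _ f hf le_rfl

end inj

end Vale.Agent.P263.EX.GE
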