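import Vale.Agent.P263.EX.FDefs
import Vale.Agent.P263.EX.CODefs
import Vale.Agent.P263.EX.DS1
import Vale.Agent.P263.EX.GE3
import Vale.Agent.P263.EX.FAdem

/-!
P263: from the geometric definitions (`FDefs`) to cocycles on the abstract Dickson algebra (`Coc`).
-/

namespace Vale.Agent.P263.F

open Vale.Agent.P263.LZ Vale.Agent.P263.EX Vale.Agent.P263.EX.DS

theorem Sq_eq (n a : ℕ) (f : S n) : Sq n a f = GE.Sq n a f := rfl

theorem Q_eq {n j : ℕ} (hj : j ≤ n) : Q n j = GE.io n (q n j) := by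
  rw [GE.io_q, ← GE.dpoly_coeff _ j hj]
  rfl

theorem Dick_eq (n : ℕ) : Dick n = (GE.io n).range := by
  apply le_antisymm
  · refine Algebra.adjoin_le ?_
    rintro y ⟨j, hj, rfl⟩
    exact ⟨q n j, (Q_eq hj.le).symm⟩
  · rintro _ ⟨f, rfl⟩
    refine D_induction (P := fun f => GE.io n f ∈ Dick n) ?_ ?_ ?_ ?_ f
    · rw [map_zero]; exact (Dick n).zero_mem
    · rw [map_one]; exact (Dick n).one_mem
    · intro x y hx hy; rw [map_add]; exact (Dick n).add_mem hx hy
    · intro x i hx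
      rw [map_mul]
      refine (Dick n).mul_mem hx (Algebra.subset_adjoin ⟨i, i.2, ?_⟩)
      rw [Q_eq i.2.le, q_lt i.2]

theorem mem_Dick {n : ℕ} {y : S n} : y ∈ Dick n ↔ ∃ x : D n, y = GE.io n x := by
  rw [Dick_eq]
  constructor
  · rintro ⟨x, rfl⟩; exact ⟨x, rfl⟩
  · rintro ⟨x, rfl⟩; exact ⟨x, rfl⟩

theorem mem_M {n m : ℕ} {y : S n} : y ∈ M n m ↔ ∃ x : D n, y = GE.io n (q n 0 ^ m * x) := by
  unfold M
  rw [Submodule.mem_map]
  constructor
  · rintro ⟨z, hz, rfl⟩
    obtain ⟨x, rfl⟩ := mem_Dick.mp hz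
    refine ⟨x, ?_⟩
    rw [LinearMap.mulLeft_apply, Q_eq (Nat.zero_le n), map_mul, map_pow]
  · rintro ⟨x, rfl⟩
    refine ⟨GE.io n x, mem_Dick.mpr ⟨x, rfl⟩, ?_⟩
    rw [LinearMap.mulLeft_apply, Q_eq (Nat.zero_le n), map_mul, map_pow]

/-- the operations of an extension on the abstract Dickson algebra -/
noncomputable def Ext.th {n m N : ℕ} (E : Ext n m N) (a : ℕ) : D n →ₗ[ZMod 2] ZMod 2 :=
  if a = 0 then 0 else
    (E.θ a).comp ((GE.io n).toLinearMap.comp (LinearMap.mulLeft (ZMod 2) (q n 0 ^ m)))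

theorem Ext.th_zero {n m N : ℕ} (E : Ext n m N) : E.th 0 = 0 := by
  unfold Ext.th; rw [if_pos rfl]

theorem Ext.th_pos {n m N : ℕ} (E : Ext n m N) {a : ℕ} (ha : 1 ≤ a) (x : D n) :
    E.th a x = E.θ a (GE.io n (q n 0 ^ m * x)) := by
  unfold Ext.th; rw [if_neg (by omega)]; rfl

theorem Hom_q0_pow {n : ℕ} (m : ℕ) {k : ℤ} {x : D n} (hx : Hom n k x) :
    Hom n (k + m * (2 ^ n - 1)) (q n 0 ^ m * x) := by
  refine (((Hom.q n 0).pow m).mul hx).congr ?_
  rw [pow_zero]; ring

theorem two_pow_sub_one_nonneg (n : ℕ) : (0 : ℤ) ≤ 2 ^ n - 1 := by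
  have : (1 : ℤ) ≤ 2 ^ n := one_le_pow₀ (by norm_num)
  linarith

/-- the cocycle of an extension -/
noncomputable def Ext.coc {n m N : ℕ} (E : Ext n m N) : Coc n m N where
  th := E.th
  th_zero := E.th_zero
  supp := by
    intro a k x hx hk
    rcases Nat.eq_zero_or_pos a with ha | ha
    · subst ha; rw [E.th_zero]; rfl
    rcases lt_or_ge k 0 with hk0 | hk0
    · rw [hx.eq_zero_of_neg hk0, map_zero]
    · rw [E.th_pos ha]
      obtain ⟨d, hd⟩ : ∃ d : ℕ, (d : ℤ) = k + m * (2 ^ n - 1) :=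
        ⟨(k + m * (2 ^ n - 1)).toNat, Int.toNat_of_nonneg
          (add_nonneg hk0 (mul_nonneg (Int.natCast_nonneg _) (two_pow_sub_one_nonneg n)))⟩
      refine E.degree a d _ ha (mem_M.mpr ⟨x, rfl⟩) (GE.io_homog d _ ?_) ?_
      · rw [hd]; exact Hom_q0_pow m hx
      · intro h
        apply hk
        rw [← hd]
        exact_mod_cast h
  bm := by
    intro K x
    have hbs := fun j => bm_of_adem
      (fun a b => if a = 0 then E.th b x else E.th a (s n m b x)) (by
        intro a b hab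
        rcases Nat.eq_zero_or_pos a with ha | ha
        · subst ha
          have hb : b ≠ 0 := by omega
          simp [hb, s_zero]
        · have h1 : (if a = 0 then E.th b x else E.th a (s n m b x)) = E.th a (s n m b x) :=
            if_neg (by omega)
          simp only [h1]
          rw [E.th_pos ha, ← GE.Sq_io_level, ← Sq_eq, E.adem a b _ ha hab (mem_M.mpr ⟨x, rfl⟩)]
          refine Finset.sum_congr rfl (fun c hc => ?_)
          rw [Finset.mem_range] at hc
          rw [if_neg (by omega), E.th_pos (by omega), ← GE.Sq_io_level, ← Sq_eq, smul_eq_mul]) K j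
    refine Polynomial.ext (fun j => ?_)
    rw [Polynomial.coeff_add, Polynomial.finsetSum_coeff, Polynomial.coeff_zero]
    rw [← hbs j, Finset.sum_range_succ', Finset.sum_range_succ']
    simp only [Nat.succ_ne_zero, if_false, if_true, Nat.sub_zero, Polynomial.coeff_C_mul,
      smul_eq_mul, E.th_zero, LinearMap.zero_apply, Polynomial.C_0, zero_mul, Polynomial.coeff_zero,
      add_zero]
    congr 1
    · exact Finset.sum_congr rfl (fun a _ => mul_comm _ _)
    · exact mul_comm _ _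

end Vale.Agent.P263.F
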