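import Mathlib

/-!
P263, definitions for the final algebraic statement (self-contained, Mathlib only).

* `S n = F_2[x_0, …, x_{n-1}]` with its Steenrod squares `Sq n a`;
* the Dickson invariants `Q n j`, the Dickson algebra `Dick n` of rank `n`, and the submodules
  `M n m = Q_{n,0}^m D_n` over the Steenrod algebra;
* `Ext n m N`: extensions of `M n m` by `F_2` in degree `N` as modules over the Steenrod algebra;
* `St n d`: the Steenrod map `Z ↦ Σ_b x_0^{d-b} Sq^b Z`.
-/

namespace Vale.Agent.P263.F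

open MvPolynomial

/-- `F_2[x_0, …, x_{n-1}]`, the cohomology of `(Z/2)^n` -/
abbrev S (n : ℕ) : Type := MvPolynomial (Fin n) (ZMod 2)

/-- the total Steenrod square: the algebra map with `x_i ↦ x_i + x_i^2 t` -/
noncomputable def totalSq (n : ℕ) : S n →ₐ[ZMod 2] Polynomial (S n) :=
  aeval fun i => Polynomial.C (X i) + Polynomial.C (X i ^ 2) * Polynomial.X

/-- the Steenrod square `Sq^a`: the coefficient of `t^a` in the total square -/
noncomputable def Sq (n a : ℕ) : S n →ₗ[ZMod 2] S n where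
  toFun f := (totalSq n f).coeff a
  map_add' f g := by simp
  map_smul' c f := by simp

/-- the Dickson polynomial `∏_v (Y + v_0 x_0 + … + v_{n-1} x_{n-1})`, `v ∈ F_2^n` -/
noncomputable def dicksonPoly (n : ℕ) : Polynomial (S n) :=
  ∏ v : Fin n → ZMod 2, (Polynomial.X + Polynomial.C (∑ i, v i • X i))

/-- the Dickson invariant `Q_{n,j}` (of degree `2^n - 2^j`) -/
noncomputable def Q (n j : ℕ) : S n := (dicksonPoly n).coeff (2 ^ j)

/-- the Dickson algebra `D_n`, generated by `Q_{n,0}, …, Q_{n,n-1}` -/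
noncomputable def Dick (n : ℕ) : Subalgebra (ZMod 2) (S n) :=
  Algebra.adjoin (ZMod 2) {y | ∃ j < n, y = Q n j}

/-- `M_{n,m} = Q_{n,0}^m D_n` -/
noncomputable def M (n m : ℕ) : Submodule (ZMod 2) (S n) :=
  (Subalgebra.toSubmodule (Dick n)).map (LinearMap.mulLeft (ZMod 2) (Q n 0 ^ m))

/-- An extension `0 → F_2 ι → E → M_{n,m} → 0`, `|ι| = N`, of graded modules over the mod 2 Steenrod
algebra, with a graded splitting `E = M_{n,m} ⊕ F_2 ι`: `Sq^a x` in `E` is `Sq^a x + θ_a(x) ι` for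
`a ≥ 1`. (Only the values of the `θ_a`, `a ≥ 1`, on `M_{n,m}` are used.) The two conditions are the
grading and the Adem relations. Equivalently: `θ_a(x) = φ(Sq^a ⊗ x)` for a linear functional `φ` of
degree `N` on `A⁺ ⊗_A M_{n,m}`. -/
structure Ext (n m N : ℕ) where
  θ : ℕ → S n →ₗ[ZMod 2] ZMod 2
  degree : ∀ (a d : ℕ) (x : S n), 1 ≤ a → x ∈ M n m → x.IsHomogeneous d → d + a ≠ N → θ a x = 0
  adem : ∀ (a b : ℕ) (x : S n), 0 < a → a < 2 * b → x ∈ M n m →
    θ a (Sq n b x) = ∑ c ∈ Finset.range (a / 2 + 1),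
      ((b - c - 1).choose (a - 2 * c) : ZMod 2) * θ (a + b - c) (Sq n c x)

/-- `St(Z) = Σ_b x_0^{d-b} Sq^b(Z)(x_1, …, x_n)` for `Z` homogeneous of degree `d` in `n` variables -/
noncomputable def St (n d : ℕ) (Z : S n) : S (n + 1) :=
  ∑ b ∈ Finset.range (d + 1), X 0 ^ (d - b) * rename Fin.succ (Sq n b Z)

end Vale.Agent.P263.F
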