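import Vale.Agent.P263.EX.GE3
import Vale.Agent.P263.EX.FDefs

/-!
# Block GE, part 4: the Steenrod map and the map `z`

The inclusion of the Dickson algebra of rank `n + 1` in `R_1` of the Dickson algebra of rank `n`.
-/

namespace Vale.Agent.P263.EX.GE

open Finset Polynomial Vale.Agent.P263.LZ

/-! ### the Dickson elements of `n + 1` elements from those of `n` elements -/

section

variable {R : Type*} [CommRing R] [Algebra (ZMod 2) R]

/-- the norms `x_i (x_i + x_0)` -/
def nrm {n : ℕ} (x : Fin (n + 1) → R) : Fin n → R := fun i => x i.succ * (x i.succ + x 0)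

lemma lf_nrm {n : ℕ} (x : Fin (n + 1) → R) (v : Fin n → ZMod 2) :
    lf v (nrm x) = lf v (fun i => x i.succ) * (lf v (fun i => x i.succ) + x 0) := by
  have h1 : (nrm x : Fin n → R) = fun i => (fun i => x i.succ ^ 2) i + (fun i => x 0 * x i.succ) i := by
    funext i; unfold nrm; ring
  rw [h1, lf_add v (fun i => x i.succ ^ 2) (fun i => x 0 * x i.succ),
    lf_mul v (x 0) (fun i => x i.succ), ← lf_sq]
  ring

lemma dv_succ_nrm {n : ℕ} (x : Fin (n + 1) → R) (y : R) :
    dv (n + 1) x y = dv n (nrm x) (y ^ 2 + x 0 * y) := by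
  rw [dv_eq_prod, dv_eq_prod, prod_cons, ← Finset.prod_mul_distrib]
  refine Finset.prod_congr rfl (fun v _ => ?_)
  rw [lf_cons, lf_cons, zero_smul, one_smul, lf_nrm]
  have := add_self' (y * lf v (fun i => x i.succ))
  linear_combination this

/-- The recursion for the Dickson elements, through the norms. -/
theorem dc_succ_nrm {n : ℕ} (x : Fin (n + 1) → R) (j : ℕ) (hj : j ≤ n + 1) :
    dc (n + 1) x j = (if j = 0 then 0 else dc n (nrm x) (j - 1)) +
      x 0 ^ (2 ^ j) * dc n (nrm x) j := by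
  have h1 : ∑ j ∈ range (n + 2), C (dc (n + 1) x j) * (X : R[X]) ^ (2 ^ j) =
      ∑ j ∈ range (n + 1), C (dc n (nrm x) j) * X ^ (2 ^ (j + 1)) +
        ∑ j ∈ range (n + 2), C (x 0 ^ (2 ^ j) * dc n (nrm x) j) * X ^ (2 ^ j) := by
    rw [← dv_C, dv_succ_nrm]
    have h2 : (nrm (fun i => (C (x i) : R[X])) : Fin n → R[X]) = fun i => C (nrm x i) := by
      funext i
      simp only [nrm, map_mul, map_add]
    rw [h2, dv_C, Finset.sum_range_succ _ (n + 1), dc_gt n _ (n + 1) (by omega), mul_zero, map_zero,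
      zero_mul, add_zero, ← Finset.sum_add_distrib]
    refine Finset.sum_congr rfl (fun j _ => ?_)
    rw [add_pow_two_pow, mul_pow, ← pow_mul, map_mul, map_pow, pow_succ' 2 j]
    ring
  have h := congrArg (fun p => Polynomial.coeff p (2 ^ j)) h1
  simp only [Polynomial.coeff_add] at h
  rw [coeff_add_poly (n + 2) _ j (by omega), coeff_add_poly (n + 2) _ j (by omega),
    coeff_add_poly' (n + 1) (fun j => dc n (nrm x) j) j (by omega)] at h
  exact h

/-- The map `q_j ↦ q_{j-1} + X ^ (2 ^ j) q_j`. -/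
noncomputable def zx (n : ℕ) : D (n + 1) →ₐ[ZMod 2] (D n)[X] :=
  LZ.lift fun i : Fin (n + 1) => C (qm n i) + X ^ (2 ^ (i : ℕ)) * C (q n i)

lemma zx_q (n j : ℕ) : zx n (q (n + 1) j) = C (qm n j) + X ^ (2 ^ j) * C (q n j) := by
  rcases lt_trichotomy j (n + 1) with h | h | h
  · rw [q_lt h, zx, lift_gen]
  · subst h
    rw [q_self, map_one, qm_succ, q_self, q_gt (Nat.lt_succ_self n)]; simp
  · rw [q_gt h, map_zero]
    obtain ⟨i, rfl⟩ : ∃ i, j = i + 1 := ⟨j - 1, by omega⟩
    rw [qm_succ, q_gt (by omega : n < i), q_gt (by omega : n < i + 1)]; simp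

/-- The Dickson algebra of rank `n + 1` inside `R_1` of that of rank `n`. -/
theorem ev_succ {n : ℕ} (x : Fin (n + 1) → R) (G : D (n + 1)) :
    ev x G = (zx n G).eval₂ (ev (nrm x) : D n →+* R) (x 0) := by
  let ψ : D (n + 1) →ₐ[ZMod 2] R :=
    (Polynomial.eval₂AlgHom (ev (nrm x)) (x 0) (fun _ => Commute.all _ _)).comp (zx n)
  have hψ : ev x = ψ := by
    refine algHom_ext_D (fun j hj => ?_)
    rw [ev_q, dc_succ_nrm x j hj.le]
    show _ = (zx n (q (n + 1) j)).eval₂ (ev (nrm x) : D n →+* R) (x 0)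
    rw [zx_q, Polynomial.eval₂_add, Polynomial.eval₂_mul, Polynomial.eval₂_C, Polynomial.eval₂_C,
      Polynomial.eval₂_X_pow]
    have h1 : ∀ i, (ev (nrm x) : D n →+* R) (q n i) = dc n (nrm x) i := fun i => ev_q (nrm x) i
    rw [h1]
    congr 1
    rcases j with _ | j
    · rw [if_pos rfl, qm_zero, map_zero]
    · rw [if_neg (Nat.succ_ne_zero j), qm_succ, h1, Nat.add_sub_cancel]
  rw [hψ]
  rfl

end

/-- `z` is the value of `zx` at `X = 1`. -/
theorem z_eq (n : ℕ) (G : D (n + 1)) : DS.z n G = (zx n G).eval 1 := by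
  let ψ : D (n + 1) →ₐ[ZMod 2] D n :=
    (Polynomial.eval₂AlgHom (AlgHom.id (ZMod 2) (D n)) 1 (fun _ => Commute.all _ _)).comp (zx n)
  have hψ : DS.z n = ψ := by
    refine algHom_ext_D (fun j hj => ?_)
    show _ = (zx n (q (n + 1) j)).eval 1
    rw [zx_q, q_lt hj, DS.z, lift_gen]
    simp
  rw [hψ]
  rfl

/-! ### the Steenrod map on the polynomial ring -/

/-- The Steenrod map `x_i ↦ x_i (x_i + x_0)`. -/
noncomputable def Sta (n : ℕ) : S n →ₐ[ZMod 2] S (n + 1) :=
  MvPolynomial.aeval (nrm (fun i => (MvPolynomial.X i : S (n + 1))))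

lemma Sta_X {n : ℕ} (i : Fin n) : Sta n (MvPolynomial.X i) =
    MvPolynomial.X i.succ * (MvPolynomial.X i.succ + MvPolynomial.X 0) := by
  rw [Sta, MvPolynomial.aeval_X]; rfl

lemma Sta_io {n : ℕ} (f : D n) :
    Sta n (io n f) = ev (nrm (fun i => (MvPolynomial.X i : S (n + 1)))) f := by
  rw [io, ev_map]
  congr 2
  funext i
  rw [Sta, MvPolynomial.aeval_X]

/-- `G = sum_a x_0 ^ a St(G_a)`. -/
theorem io_succ {n : ℕ} (G : D (n + 1)) :
    io (n + 1) G = (zx n G).eval₂ (((Sta n).comp (io n) : D n →ₐ[ZMod 2] S (n + 1)) :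
      D n →+* S (n + 1)) (MvPolynomial.X 0) := by
  have h1 : (((Sta n).comp (io n) : D n →ₐ[ZMod 2] S (n + 1)) : D n →+* S (n + 1)) =
      (ev (nrm (fun i => (MvPolynomial.X i : S (n + 1)))) : D n →+* S (n + 1)) := by
    refine RingHom.ext (fun f => ?_)
    exact Sta_io f
  rw [h1]
  exact ev_succ _ G

/-- `G = sum_a x_0 ^ a St(G_a)`, as a sum. -/
theorem io_succ_sum {n : ℕ} (G : D (n + 1)) {N : ℕ} (hN : (zx n G).natDegree < N) :
    io (n + 1) G = ∑ a ∈ range N, MvPolynomial.X 0 ^ a * Sta n (io n ((zx n G).coeff a)) := by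
  rw [io_succ, Polynomial.eval₂_eq_sum_range' _ hN]
  refine Finset.sum_congr rfl (fun a _ => ?_)
  rw [mul_comm]
  rfl

/-- `x_0^a St(Z_a)` are independent. -/
theorem eval₂_Sta_injective (n : ℕ) : Function.Injective
    (Polynomial.eval₂ (Sta n : S n →+* S (n + 1)) (MvPolynomial.X 0)) := by
  have hres : ∀ p : (S n)[X], res n (p.eval₂ (Sta n : S n →+* S (n + 1)) (MvPolynomial.X 0)) =
      p.coeff 0 ^ 2 := by
    intro p
    have h1 : (res n).comp (Sta n) = frob n := by
      refine MvPolynomial.algHom_ext (fun i => ?_)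
      rw [AlgHom.comp_apply, Sta_X, map_mul, map_add, res_X_succ, res_X_zero, add_zero, frob_apply,
        pow_two]
    have h2 : ∀ f : S n, res n (Sta n f) = f ^ 2 := fun f => DFunLike.congr_fun h1 f
    induction p using Polynomial.induction_on' with
    | add p q hp hq =>
      rw [Polynomial.eval₂_add, map_add, hp, hq, Polynomial.coeff_add, CharTwo.add_sq]
    | monomial k a =>
      rw [Polynomial.eval₂_monomial, map_mul, map_pow, res_X_zero]
      rcases k with _ | k
      · rw [pow_zero, mul_one, Polynomial.coeff_monomial, if_pos rfl]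
        exact h2 a
      · rw [zero_pow (Nat.succ_ne_zero k), mul_zero, Polynomial.coeff_monomial,
          if_neg (Nat.succ_ne_zero k)]
        ring
  have key : ∀ p : (S n)[X],
      p.eval₂ (Sta n : S n →+* S (n + 1)) (MvPolynomial.X 0) = 0 → p = 0 := by
    intro p
    induction p using Polynomial.recOnHorner with
    | M0 => intro _; rfl
    | MC p a hp ha _ =>
      intro h
      exfalso
      have h1 := hres (p + C a)
      rw [h, map_zero, Polynomial.coeff_add, hp, Polynomial.coeff_C_zero, zero_add] at h1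
      exact ha (pow_eq_zero_iff two_ne_zero |>.mp h1.symm)
    | MX p hp ih =>
      intro h
      rw [Polynomial.eval₂_mul_X] at h
      rcases mul_eq_zero.mp h with h1 | h1
      · rw [ih h1, zero_mul]
      · exact absurd h1 (MvPolynomial.X_ne_zero 0)
  intro p r hpr
  have h1 : (p - r).eval₂ (Sta n : S n →+* S (n + 1)) (MvPolynomial.X 0) = 0 := by
    rw [Polynomial.eval₂_sub, sub_eq_zero]; exact hpr
  exact sub_eq_zero.mp (key _ h1)

/-! ### the Steenrod map in terms of the squares -/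

/-- the auxiliary predicate: `Z` has total square of degree at most `d`, and its homogenisation is
the Steenrod map -/
def Good {n : ℕ} (d : ℕ) (Z : S n) : Prop :=
  (PS n Z).natDegree ≤ d ∧
    (Polynomial.reflect d (PS n Z)).eval₂
      ((MvPolynomial.rename Fin.succ : S n →ₐ[ZMod 2] S (n + 1)) : S n →+* S (n + 1))
      (MvPolynomial.X 0) = Sta n Z

lemma Good.mul {n d d' : ℕ} {Z Z' : S n} (h : Good d Z) (h' : Good d' Z') :
    Good (d + d') (Z * Z') := by
  refine ⟨?_, ?_⟩
  · rw [map_mul]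
    exact le_trans Polynomial.natDegree_mul_le (Nat.add_le_add h.1 h'.1)
  · rw [map_mul, Polynomial.reflect_mul _ _ h.1 h'.1, Polynomial.eval₂_mul, h.2, h'.2, map_mul]

lemma Good.zero {n d : ℕ} : Good d (0 : S n) := by
  refine ⟨by simp, ?_⟩
  rw [map_zero, map_zero, Polynomial.reflect_zero, Polynomial.eval₂_zero]

lemma Good.one {n : ℕ} : Good 0 (1 : S n) := by
  refine ⟨by simp, ?_⟩
  rw [map_one, map_one, Polynomial.reflect_one]
  simp

lemma Good.add {n d : ℕ} {Z Z' : S n} (h : Good d Z) (h' : Good d Z') : Good d (Z + Z') := by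
  refine ⟨?_, ?_⟩
  · rw [map_add]
    exact Polynomial.natDegree_add_le_of_degree_le h.1 h'.1
  · rw [map_add, Polynomial.reflect_add, Polynomial.eval₂_add, h.2, h'.2, map_add]

lemma Good.X {n : ℕ} (i : Fin n) : Good 1 (MvPolynomial.X i : S n) := by
  have h0 : PS n (MvPolynomial.X i) = C (MvPolynomial.X i ^ 2) * Polynomial.X ^ 1 +
      C (MvPolynomial.X i) * Polynomial.X ^ 0 := by
    rw [PS_X, pow_one, pow_zero, mul_one, add_comm]
  refine ⟨?_, ?_⟩
  · rw [h0, pow_one, pow_zero, mul_one]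
    exact Polynomial.natDegree_linear_le
  · rw [h0, Polynomial.reflect_add, Polynomial.reflect_C_mul_X_pow,
      Polynomial.reflect_C_mul_X_pow, Polynomial.revAt_le le_rfl,
      Polynomial.revAt_le (Nat.zero_le 1), Nat.sub_self, Nat.sub_zero, pow_zero, mul_one, pow_one,
      Polynomial.eval₂_add, Polynomial.eval₂_mul, Polynomial.eval₂_C, Polynomial.eval₂_C,
      Polynomial.eval₂_X, Sta_X, map_pow]
    have h1 : ((MvPolynomial.rename Fin.succ : S n →ₐ[ZMod 2] S (n + 1)) : S n →+* S (n + 1))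
      (MvPolynomial.X i) = MvPolynomial.X i.succ := MvPolynomial.rename_X _ _
    rw [h1]
    ring

lemma Good.pow {n d : ℕ} {Z : S n} (h : Good d Z) (k : ℕ) : Good (k * d) (Z ^ k) := by
  induction k with
  | zero => rw [pow_zero, zero_mul]; exact Good.one
  | succ k ih =>
    rw [pow_succ, Nat.succ_mul]
    exact ih.mul h

lemma Good.prod {n : ℕ} {ι : Type*} (s : Finset ι) (d : ι → ℕ) (Z : ι → S n)
    (h : ∀ i ∈ s, Good (d i) (Z i)) : Good (∑ i ∈ s, d i) (∏ i ∈ s, Z i) := by
  classical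
  induction s using Finset.induction_on with
  | empty => rw [Finset.sum_empty, Finset.prod_empty]; exact Good.one
  | insert a s ha ih =>
    rw [Finset.sum_insert ha, Finset.prod_insert ha]
    exact (h a (Finset.mem_insert_self _ _)).mul
      (ih (fun i hi => h i (Finset.mem_insert_of_mem hi)))

lemma Good.sum {n d : ℕ} {ι : Type*} (s : Finset ι) (Z : ι → S n)
    (h : ∀ i ∈ s, Good d (Z i)) : Good d (∑ i ∈ s, Z i) := by
  classical
  induction s using Finset.induction_on with
  | empty => rw [Finset.sum_empty]; exact Good.zero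
  | insert a s ha ih =>
    rw [Finset.sum_insert ha]
    exact (h a (Finset.mem_insert_self _ _)).add
      (ih (fun i hi => h i (Finset.mem_insert_of_mem hi)))

lemma Good.homog {n d : ℕ} {Z : S n} (hZ : Z.IsHomogeneous d) : Good d Z := by
  rw [Z.as_sum]
  refine Good.sum _ _ (fun m hm => ?_)
  have h1 : MvPolynomial.coeff m Z = 1 := by
    rcases zmod2 (MvPolynomial.coeff m Z) with h | h
    · exact absurd h (MvPolynomial.mem_support_iff.mp hm)
    · exact h
  have h2 : ∑ i, m i * 1 = d := by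
    have h3 := hZ (MvPolynomial.mem_support_iff.mp hm)
    rw [← h3, Finsupp.weight_apply, Finsupp.sum_fintype _ _ (fun i => by simp)]
    simp
  rw [h1, MvPolynomial.monomial_eq, MvPolynomial.C_1, one_mul,
    Finsupp.prod_fintype _ _ (fun i => pow_zero _), ← h2]
  exact Good.prod _ _ _ (fun i _ => (Good.X i).pow (m i))

lemma eval₂_reflect {A B : Type*} [CommRing A] [CommRing B] (f : A →+* B) (x : B) (d : ℕ)
    (p : A[X]) (hp : p.natDegree ≤ d) :
    (Polynomial.reflect d p).eval₂ f x = ∑ b ∈ range (d + 1), x ^ (d - b) * f (p.coeff b) := by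
  have h1 : (Polynomial.reflect d p).natDegree < d + 1 := by
    rw [Nat.lt_succ_iff, Polynomial.natDegree_le_iff_coeff_eq_zero]
    intro N hN
    rw [Polynomial.coeff_reflect, Polynomial.revAt_eq_self_of_lt hN]
    exact Polynomial.coeff_eq_zero_of_natDegree_lt (lt_of_le_of_lt hp hN)
  rw [Polynomial.eval₂_eq_sum_range' _ h1, ← Finset.sum_range_reflect]
  refine Finset.sum_congr rfl (fun b hb => ?_)
  have hb' : b ≤ d := by simpa [Nat.lt_succ_iff] using hb
  rw [Nat.add_sub_cancel, Polynomial.coeff_reflect, Polynomial.revAt_le (Nat.sub_le d b),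
    Nat.sub_sub_self hb', mul_comm]

/-- The Steenrod map on homogeneous elements, in terms of the squares. -/
theorem St_eq {n d : ℕ} {Z : S n} (hZ : Z.IsHomogeneous d) : F.St n d Z = Sta n Z := by
  rw [← (Good.homog hZ).2, eval₂_reflect _ _ _ _ (Good.homog hZ).1]
  rfl

end Vale.Agent.P263.EX.GE
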