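import Vale.Agent.P263.EX.DSDefs

/-!
P263, block LL (helper387): Lemma L.

Given a family of functionals `κ i` (`1 ≤ i ≤ n`) on `D n` which commute with the Milnor primitives,
there is a functional `lam` (a coboundary change) with `κ i = lam ∘ δ i` for all `i`.
The file starts with monomials of `D n` and functionals given by their monomial values.
-/

namespace Vale.Agent.P263.EX.LL

open Vale.Agent.P263.LZ Vale.Agent.P263.EX.DS

variable {n : ℕ}

/-- the monomial with exponents `e` -/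
noncomputable def mon (e : Fin n →₀ ℕ) : D n :=
  (MvPolynomial.monomial e (1 : ZMod 2) : MvPolynomial (Fin n) (ZMod 2))

theorem mon_add (e f : Fin n →₀ ℕ) : mon (e + f) = mon e * mon f := by
  have h := (MvPolynomial.monomial_mul (σ := Fin n) (R := ZMod 2) (s := e) (s' := f)
    (a := 1) (b := 1))
  rw [one_mul] at h
  exact h.symm

theorem mon_zero : mon (0 : Fin n →₀ ℕ) = 1 := rfl

/-- the functional with given monomial values -/
noncomputable def func (g : (Fin n →₀ ℕ) → ZMod 2) : D n →ₗ[ZMod 2] ZMod 2 :=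
  (MvPolynomial.basisMonomials (Fin n) (ZMod 2)).constr (ZMod 2) g

theorem func_mon (g : (Fin n →₀ ℕ) → ZMod 2) (e : Fin n →₀ ℕ) : func g (mon e) = g e := by
  have h := (MvPolynomial.basisMonomials (Fin n) (ZMod 2)).constr_basis (ZMod 2) g e
  rw [MvPolynomial.coe_basisMonomials] at h
  exact h

theorem ext_mon {V : Type*} [AddCommMonoid V] [Module (ZMod 2) V]
    {φ ψ : D n →ₗ[ZMod 2] V} (h : ∀ e, φ (mon e) = ψ (mon e)) : φ = ψ := by
  apply (MvPolynomial.basisMonomials (Fin n) (ZMod 2)).ext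
  intro e
  rw [MvPolynomial.coe_basisMonomials]
  exact h e

/-- exponent of `q_j` -/
def ex (e : Fin n →₀ ℕ) (j : ℕ) : ℕ := if h : j < n then e ⟨j, h⟩ else 0

/-- the exponent vector of `q_j` (zero for `j ≥ n`) -/
noncomputable def sg (n j : ℕ) : Fin n →₀ ℕ := if h : j < n then Finsupp.single ⟨j, h⟩ 1 else 0

theorem ex_add (e f : Fin n →₀ ℕ) (j : ℕ) : ex (e + f) j = ex e j + ex f j := by
  unfold ex; split_ifs <;> simp

theorem ex_sub (e f : Fin n →₀ ℕ) (j : ℕ) : ex (e - f) j = ex e j - ex f j := by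
  unfold ex; split_ifs <;> simp

theorem ex_sg (j i : ℕ) (hj : j < n) : ex (sg n j) i = if i = j then 1 else 0 := by
  unfold ex sg
  rw [dif_pos hj]
  by_cases hi : i < n
  · rw [dif_pos hi, Finsupp.single_apply]
    by_cases h : i = j
    · subst h; simp
    · rw [if_neg h, if_neg]
      intro h2; exact h (by rw [Fin.mk.injEq] at h2; exact h2.symm)
  · rw [dif_neg hi, if_neg]
    intro h; exact hi (h ▸ hj)

theorem sg_ge (j : ℕ) (hj : n ≤ j) : sg n j = 0 := by
  unfold sg; rw [dif_neg (by omega)]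

theorem ex_sg_ge (j i : ℕ) (hj : n ≤ j) : ex (sg n j) i = 0 := by
  rw [sg_ge j hj]
  unfold ex
  split_ifs <;> simp

theorem ex_ge (e : Fin n →₀ ℕ) (j : ℕ) (hj : n ≤ j) : ex e j = 0 := by
  unfold ex; rw [dif_neg (by omega)]

theorem ext_ex {e f : Fin n →₀ ℕ} (h : ∀ j, j < n → ex e j = ex f j) : e = f := by
  ext ⟨j, hj⟩
  have := h j hj
  unfold ex at this
  rw [dif_pos hj, dif_pos hj] at this
  exact this

theorem mon_sg (j : ℕ) (hj : j ≤ n) : mon (sg n j) = q n j := by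
  rcases Nat.lt_or_ge j n with h | h
  · rw [q_lt h]; unfold sg; rw [dif_pos h]; rfl
  · have : j = n := le_antisymm hj h
    subst this
    rw [sg_ge _ le_rfl, mon_zero, q_self]

/-- number of variables -/
def len (e : Fin n →₀ ℕ) : ℕ := ∑ j : Fin n, e j

theorem len_add (e f : Fin n →₀ ℕ) : len (e + f) = len e + len f := by
  unfold len; rw [← Finset.sum_add_distrib]; rfl

theorem len_sg (j : ℕ) (hj : j < n) : len (sg n j) = 1 := by
  unfold len sg; rw [dif_pos hj]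
  rw [Finset.sum_eq_single ⟨j, hj⟩]
  · simp
  · intro b _ hb; rw [Finsupp.single_apply, if_neg (Ne.symm hb)]
  · intro h; exact absurd (Finset.mem_univ _) h

theorem len_zero : len (0 : Fin n →₀ ℕ) = 0 := by unfold len; simp

/-- the degree -/
def wt (e : Fin n →₀ ℕ) : ℤ := ∑ j : Fin n, (e j : ℤ) * (2 ^ n - 2 ^ (j : ℕ))

theorem wt_add (e f : Fin n →₀ ℕ) : wt (e + f) = wt e + wt f := by
  unfold wt; rw [← Finset.sum_add_distrib]
  refine Finset.sum_congr rfl fun j _ => ?_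
  rw [Finsupp.add_apply]; push_cast; ring

theorem wt_zero : wt (0 : Fin n →₀ ℕ) = 0 := by unfold wt; simp

theorem wt_sg (j : ℕ) (hj : j ≤ n) : wt (sg n j) = 2 ^ n - 2 ^ j := by
  rcases Nat.lt_or_ge j n with h | h
  · unfold wt sg; rw [dif_pos h]
    rw [Finset.sum_eq_single ⟨j, h⟩]
    · simp
    · intro b _ hb; rw [Finsupp.single_apply, if_neg (Ne.symm hb)]; simp
    · intro h; exact absurd (Finset.mem_univ _) h
  · have : j = n := le_antisymm hj h
    subst this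
    rw [sg_ge _ le_rfl, wt_zero]; ring

/-- degrees modulo four -/
theorem wt_mod4 (hn : 2 ≤ n) (e : Fin n →₀ ℕ) :
    (wt e - (3 * ex e 0 + 2 * ex e 1 : ℤ)) % 4 = 0 := by
  obtain ⟨k, rfl⟩ : ∃ k, n = k + 2 := ⟨n - 2, by omega⟩
  have h1 : wt e = ((ex e 0 : ℤ) * (2 ^ (k + 2) - 1)) + ((ex e 1 : ℤ) * (2 ^ (k + 2) - 2)) +
      ∑ j : Fin k, (e j.succ.succ : ℤ) * (2 ^ (k + 2) - 2 ^ ((j : ℕ) + 2)) := by
    unfold wt
    rw [Fin.sum_univ_succ, Fin.sum_univ_succ]
    have e0 : ex e 0 = e 0 := by unfold ex; rw [dif_pos (by omega)]; rfl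
    have e1 : ex e 1 = e (Fin.succ 0) := by unfold ex; rw [dif_pos (by omega)]; rfl
    rw [e0, e1]
    simp only [Fin.val_zero, Fin.val_succ, pow_zero, zero_add, pow_one]
    ring
  have h2 : (4 : ℤ) ∣ ∑ j : Fin k, (e j.succ.succ : ℤ) * (2 ^ (k + 2) - 2 ^ ((j : ℕ) + 2)) := by
    apply Finset.dvd_sum
    intro j _
    apply Dvd.dvd.mul_left
    rw [pow_add, pow_add]
    exact ⟨2 ^ k - 2 ^ (j : ℕ), by ring⟩
  obtain ⟨c, hc⟩ := h2
  rw [h1, hc, pow_add]
  have h3 : (ex e 0 : ℤ) * (2 ^ k * 2 ^ 2 - 1) + (ex e 1 : ℤ) * (2 ^ k * 2 ^ 2 - 2) + 4 * c -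
      (3 * (ex e 0 : ℤ) + 2 * ex e 1) =
      4 * ((ex e 0 : ℤ) * (2 ^ k - 1) + (ex e 1 : ℤ) * (2 ^ k - 1) + c) := by ring
  rw [h3]
  omega

/-- degrees modulo two -/
theorem wt_mod2 (hn : 1 ≤ n) (e : Fin n →₀ ℕ) : (wt e - (ex e 0 : ℤ)) % 2 = 0 := by
  obtain ⟨k, rfl⟩ : ∃ k, n = k + 1 := ⟨n - 1, by omega⟩
  have h1 : wt e = ((ex e 0 : ℤ) * (2 ^ (k + 1) - 1)) +
      ∑ j : Fin k, (e j.succ : ℤ) * (2 ^ (k + 1) - 2 ^ ((j : ℕ) + 1)) := by
    unfold wt
    rw [Fin.sum_univ_succ]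
    have e0 : ex e 0 = e 0 := by unfold ex; rw [dif_pos (by omega)]; rfl
    rw [e0]
    simp only [Fin.val_zero, Fin.val_succ, pow_zero]
  have h2 : (2 : ℤ) ∣ ∑ j : Fin k, (e j.succ : ℤ) * (2 ^ (k + 1) - 2 ^ ((j : ℕ) + 1)) := by
    apply Finset.dvd_sum
    intro j _
    apply Dvd.dvd.mul_left
    rw [pow_add, pow_add]
    exact ⟨2 ^ k - 2 ^ (j : ℕ), by ring⟩
  obtain ⟨c, hc⟩ := h2
  rw [h1, hc, pow_add]
  have h3 : (ex e 0 : ℤ) * (2 ^ k * 2 ^ 1 - 1) + 2 * c - (ex e 0 : ℤ) =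
      2 * ((ex e 0 : ℤ) * (2 ^ k - 1) + c) := by ring
  rw [h3]
  omega

/-- the coefficient in `δ_i (q^e) = cc_i(e) q_0 q^e / q_i` -/
def cc (m : ℕ) (e : Fin n →₀ ℕ) (i : ℕ) : ZMod 2 :=
  if i < n then (ex e i : ZMod 2) else ((len e + m : ℕ) : ZMod 2)

/-- the Milnor primitives of level `m` on monomials -/
def IsDelta (m : ℕ) (δ : ℕ → D n →ₗ[ZMod 2] D n) : Prop :=
  ∀ i, 1 ≤ i → i ≤ n → ∀ e : Fin n →₀ ℕ, δ i (mon e) = cc m e i • mon (e - sg n i + sg n 0)

/-- the support condition of `κ_i` -/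
def KSupp (m : ℕ) (N : ℤ) (κ : ℕ → D n →ₗ[ZMod 2] ZMod 2) : Prop :=
  ∀ i, 1 ≤ i → i ≤ n → ∀ e : Fin n →₀ ℕ, wt e + m * (2 ^ n - 1) + 2 ^ i - 1 ≠ N → κ i (mon e) = 0

/-- the support condition of a coboundary -/
def LSupp (m : ℕ) (N : ℤ) (lam : D n →ₗ[ZMod 2] ZMod 2) : Prop :=
  ∀ e : Fin n →₀ ℕ, wt e + m * (2 ^ n - 1) ≠ N → lam (mon e) = 0

theorem exists_tj (n : ℕ) (e : Fin n →₀ ℕ) : ∃ j, 1 ≤ j ∧ (j < n → Even (ex e j)) :=
  ⟨n + 1, by omega, fun h => by omega⟩

open Classical in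
/-- the smallest `j ≥ 1` with `e_j` even, or `n` -/
noncomputable def tj (e : Fin n →₀ ℕ) : ℕ := Nat.find (exists_tj n e)

theorem tj_pos (e : Fin n →₀ ℕ) : 1 ≤ tj e := by
  classical
  exact (Nat.find_spec (exists_tj n e)).1

theorem tj_even (e : Fin n →₀ ℕ) (h : tj e < n) : Even (ex e (tj e)) := by
  classical
  exact (Nat.find_spec (exists_tj n e)).2 h

theorem tj_le (e : Fin n →₀ ℕ) (j : ℕ) (h1 : 1 ≤ j) (h2 : j < n → Even (ex e j)) : tj e ≤ j := by
  classical
  exact Nat.find_min' (exists_tj n e) ⟨h1, h2⟩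

/-- the first change -/
noncomputable def lam0 (κ : ℕ → D n →ₗ[ZMod 2] ZMod 2) : D n →ₗ[ZMod 2] ZMod 2 :=
  func fun e => if 2 ≤ ex e 0 then κ (tj e) (mon (e + sg n (tj e) - sg n 0)) else 0

theorem lam0_mon (κ : ℕ → D n →ₗ[ZMod 2] ZMod 2) (e : Fin n →₀ ℕ) :
    lam0 κ (mon e) = if 2 ≤ ex e 0 then κ (tj e) (mon (e + sg n (tj e) - sg n 0)) else 0 :=
  func_mon _ e

theorem sub_sg_add (e : Fin n →₀ ℕ) (j : ℕ) (h : j < n → 1 ≤ ex e j) :
    e - sg n j + sg n j = e := by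
  apply ext_ex
  intro i hi
  rw [ex_add, ex_sub]
  rcases Nat.lt_or_ge j n with hj | hj
  · rw [ex_sg j i hj]
    split_ifs with h1
    · subst h1; have := h hi; omega
    · omega
  · rw [ex_sg_ge j i hj]; omega

theorem wt_sub_sg (e : Fin n →₀ ℕ) (j : ℕ) (hj : j ≤ n) (h : j < n → 1 ≤ ex e j) :
    wt (e - sg n j) = wt e - (2 ^ n - 2 ^ j) := by
  have h1 := congrArg wt (sub_sg_add e j h)
  rw [wt_add, wt_sg j hj] at h1
  linarith

theorem len_sub_sg (e : Fin n →₀ ℕ) (j : ℕ) (hj : j < n) (h : 1 ≤ ex e j) :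
    len (e - sg n j) + 1 = len e := by
  have h1 := congrArg len (sub_sg_add e j (fun _ => h))
  rw [len_add, len_sg j hj] at h1
  exact h1

theorem lam0_supp (hn : 1 ≤ n) (m : ℕ) (N : ℤ) (κ : ℕ → D n →ₗ[ZMod 2] ZMod 2)
    (hs : KSupp m N κ) : LSupp m N (lam0 κ) := by
  intro e he
  rw [lam0_mon]
  split_ifs with h
  · have ht : tj e ≤ n := tj_le e n hn (fun h => absurd h (lt_irrefl _))
    apply hs _ (tj_pos e) ht
    have h2 : wt (e + sg n (tj e) - sg n 0) = wt (e + sg n (tj e)) - (2 ^ n - 2 ^ 0) := by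
      apply wt_sub_sg _ _ (by omega)
      intro _
      rw [ex_add]; omega
    rw [h2, wt_add, wt_sg _ ht]
    intro h3
    apply he
    rw [← h3]; ring
  · rfl

theorem ex_aux (e : Fin n →₀ ℕ) (i j : ℕ) (hn : 1 ≤ n) (hi : 1 ≤ i) :
    ex (e + sg n j - sg n 0) i = ex e i + (if j < n ∧ i = j then 1 else 0) := by
  rw [ex_sub, ex_add, ex_sg 0 i (by omega), if_neg (by omega)]
  rcases Nat.lt_or_ge j n with hj | hj
  · rw [ex_sg j i hj]
    by_cases h : i = j
    · rw [if_pos h, if_pos ⟨hj, h⟩]; omega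
    · rw [if_neg h, if_neg (fun h2 => h h2.2)]; omega
  · rw [ex_sg_ge j i hj, if_neg (fun h2 => by omega)]; omega

theorem len_aux (e : Fin n →₀ ℕ) (j : ℕ) (hn : 1 ≤ n) (h0 : 1 ≤ ex e 0) :
    len (e + sg n j - sg n 0) + 1 = len e + (if j < n then 1 else 0) := by
  rw [len_sub_sg _ 0 (by omega) (by rw [ex_add]; omega), len_add]
  congr 1
  split_ifs with h
  · exact len_sg j h
  · rw [sg_ge j (by omega), len_zero]

theorem zmod_two_add_self (a : ZMod 2) : a + a = 0 := by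
  revert a; decide

theorem cc_self (m : ℕ) (e : Fin n →₀ ℕ) (i : ℕ) (hn : 1 ≤ n) (h1 : 1 ≤ i) (h0 : 1 ≤ ex e 0) :
    cc m (e + sg n i - sg n 0) i = cc m e i + 1 := by
  unfold cc
  rcases Nat.lt_or_ge i n with hi | hi
  · rw [if_pos hi, if_pos hi, ex_aux e i i hn h1, if_pos ⟨hi, rfl⟩]; push_cast; rfl
  · rw [if_neg (by omega), if_neg (by omega)]
    have h := len_aux e i hn h0
    rw [if_neg (by omega), add_zero] at h
    rw [← h]
    push_cast
    have h2 : ((1 : ZMod 2) + 1) = 0 := by decide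
    linear_combination (-1 : ZMod 2) * h2

theorem cc_lt (m : ℕ) (e : Fin n →₀ ℕ) (i j : ℕ) (hn : 1 ≤ n) (h1 : 1 ≤ i) (hij : j < i)
    (hi : i ≤ n) (h0 : 1 ≤ ex e 0) : cc m (e + sg n j - sg n 0) i = cc m e i := by
  unfold cc
  rcases Nat.lt_or_ge i n with hi' | hi'
  · rw [if_pos hi', if_pos hi', ex_aux e i j hn h1, if_neg (fun h => by omega)]; rfl
  · rw [if_neg (by omega), if_neg (by omega)]
    have h := len_aux e j hn h0
    rw [if_pos (by omega)] at h
    have h2 : len (e + sg n j - sg n 0) = len e := by omega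
    rw [h2]

theorem zmod_cases (a : ZMod 2) : a = 0 ∨ a = 1 := by
  revert a; decide

/-- Step 1: the functionals `κ_i` are a coboundary on the monomials divisible by `q_0`. -/
theorem step1 (hn : 1 ≤ n) (m : ℕ) (δ : ℕ → D n →ₗ[ZMod 2] D n) (hd : IsDelta m δ)
    (κ : ℕ → D n →ₗ[ZMod 2] ZMod 2)
    (K3 : ∀ i j, 1 ≤ i → i ≤ n → 1 ≤ j → j ≤ n → ∀ X, κ i (δ j X) = κ j (δ i X))
    (K3' : ∀ i, 1 ≤ i → i ≤ n → ∀ X, κ i (δ i X) = 0)
    (i : ℕ) (h1 : 1 ≤ i) (hi : i ≤ n) (e : Fin n →₀ ℕ) (h0 : 1 ≤ ex e 0) :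
    κ i (mon e) = lam0 κ (δ i (mon e)) := by
  rw [hd i h1 hi e]
  rcases zmod_cases (cc m e i) with hc | hc
  · rw [hc, zero_smul, map_zero]
    have h2 := hd i h1 hi (e + sg n i - sg n 0)
    rw [cc_self m e i hn h1 h0, hc, zero_add, one_smul] at h2
    have h3 : e + sg n i - sg n 0 - sg n i + sg n 0 = e := by
      apply ext_ex
      intro j hj
      rw [ex_add, ex_sub, ex_sub, ex_add, ex_sg 0 j (by omega)]
      rcases Nat.lt_or_ge i n with hi' | hi'
      · rw [ex_sg i j hi']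
        by_cases hj0 : j = 0
        · subst hj0; rw [if_pos rfl, if_neg (by omega)]; omega
        · rw [if_neg hj0]; omega
      · rw [ex_sg_ge i j hi']
        by_cases hj0 : j = 0
        · subst hj0; rw [if_pos rfl]; omega
        · rw [if_neg hj0]; omega
    rw [h3] at h2
    rw [← h2]
    exact K3' i h1 hi _
  · rw [hc, one_smul, lam0_mon]
    -- the exponent of `q_i` is positive for `i < n`
    have hpos : i < n → 1 ≤ ex e i := by
      intro hlt
      unfold cc at hc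
      rw [if_pos hlt] at hc
      rcases Nat.eq_zero_or_pos (ex e i) with h | h
      · rw [h] at hc; exact absurd hc (by decide)
      · exact h
    have hz0 : ex (e - sg n i + sg n 0) 0 = ex e 0 + 1 := by
      rw [ex_add, ex_sub, ex_sg 0 0 (by omega), if_pos rfl]
      rcases Nat.lt_or_ge i n with hi' | hi'
      · rw [ex_sg i 0 hi', if_neg (by omega)]; omega
      · rw [ex_sg_ge i 0 hi']; omega
    rw [if_pos (by omega)]
    set Z := e - sg n i + sg n 0 with hZ
    have htj : tj Z ≤ i := by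
      apply tj_le _ _ h1
      intro hlt
      rw [hZ, ex_add, ex_sub, ex_sg 0 i (by omega), if_neg (by omega), ex_sg i i hlt, if_pos rfl]
      unfold cc at hc
      rw [if_pos hlt] at hc
      have hodd : ¬ Even (ex e i) := by
        intro hev
        have h5 : (ex e i : ZMod 2) = 0 := (ZMod.natCast_eq_zero_iff_even).mpr hev
        rw [h5] at hc; exact absurd hc (by decide)
      rw [Nat.not_even_iff_odd] at hodd
      obtain ⟨k, hk⟩ := hodd
      exact ⟨k, by omega⟩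
    rcases Nat.lt_or_ge (tj Z) i with hlt | hge
    · -- the main case
      set j := tj Z with hj
      have hj1 : 1 ≤ j := tj_pos Z
      have hjn : j < n := by omega
      have hjev : Even (ex e j) := by
        have h6 := tj_even Z (hj ▸ hjn)
        rw [← hj, hZ, ex_add, ex_sub, ex_sg 0 j (by omega), if_neg (by omega)] at h6
        rcases Nat.lt_or_ge i n with hi' | hi'
        · rw [ex_sg i j hi', if_neg (by omega)] at h6; simpa using h6
        · rw [ex_sg_ge i j hi'] at h6; simpa using h6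
      have h2 := hd j hj1 hjn.le (e + sg n j - sg n 0)
      have hcj : cc m e j = 0 := by
        unfold cc
        rw [if_pos hjn]
        exact (ZMod.natCast_eq_zero_iff_even).mpr hjev
      rw [cc_self m e j hn hj1 h0, hcj, zero_add, one_smul] at h2
      have h3 : e + sg n j - sg n 0 - sg n j + sg n 0 = e := by
        apply ext_ex
        intro l hl
        rw [ex_add, ex_sub, ex_sub, ex_add, ex_sg 0 l (by omega), ex_sg j l hjn]
        by_cases hl0 : l = 0
        · subst hl0; rw [if_pos rfl, if_neg (by omega)]; omega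
        · rw [if_neg hl0]; omega
      rw [h3] at h2
      rw [← h2, K3 i j h1 hi hj1 hjn.le, hd i h1 hi, cc_lt m e i j hn h1 hlt hi h0, hc, one_smul]
      congr 2
      apply ext_ex
      intro l hl
      rw [hZ]
      rw [ex_add, ex_sub, ex_sub, ex_add, ex_sub, ex_add, ex_add, ex_sub, ex_sg 0 l (by omega),
        ex_sg j l hjn]
      have hl' : l = i → i < n → 1 ≤ ex e l := fun h h' => h ▸ hpos h'
      rcases Nat.lt_or_ge i n with hi' | hi'
      · rw [ex_sg i l hi']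
        by_cases hl0 : l = 0
        · subst hl0; rw [if_pos rfl, if_neg (by omega), if_neg (by omega)]; omega
        · rw [if_neg hl0]
          by_cases hli : l = i
          · rw [if_pos hli]; have := hl' hli hi'; omega
          · rw [if_neg hli]; omega
      · rw [ex_sg_ge i l hi']
        by_cases hl0 : l = 0
        · subst hl0; rw [if_pos rfl, if_neg (by omega)]; omega
        · rw [if_neg hl0]; omega
    · have hji : tj Z = i := le_antisymm htj hge
      rw [hji]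
      congr 2
      apply ext_ex
      intro l hl
      rw [hZ, ex_sub, ex_add, ex_add, ex_sub, ex_sg 0 l (by omega)]
      have hl' : l = i → i < n → 1 ≤ ex e l := fun h h' => h ▸ hpos h'
      rcases Nat.lt_or_ge i n with hi' | hi'
      · rw [ex_sg i l hi']
        by_cases hli : l = i
        · rw [if_pos hli]; have := hl' hli hi'; omega
        · rw [if_neg hli]; omega
      · rw [ex_sg_ge i l hi']; omega

/-- `q_0`-exponent of the monomial in `δ_i (q^e)` -/
theorem ex_delta_zero (e : Fin n →₀ ℕ) (i : ℕ) (hn : 1 ≤ n) (h1 : 1 ≤ i) :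
    ex (e - sg n i + sg n 0) 0 = ex e 0 + 1 := by
  rw [ex_add, ex_sub, ex_sg 0 0 (by omega), if_pos rfl]
  rcases Nat.lt_or_ge i n with hi' | hi'
  · rw [ex_sg i 0 hi', if_neg (by omega)]; omega
  · rw [ex_sg_ge i 0 hi']; omega

theorem lam0_small (κ : ℕ → D n →ₗ[ZMod 2] ZMod 2) (e : Fin n →₀ ℕ) (h : ex e 0 ≤ 1) :
    lam0 κ (mon e) = 0 := by
  rw [lam0_mon, if_neg (by omega)]

/-- Lemma L when `N + m` is even (`n ≥ 1`): all `κ_i` are a coboundary. -/
theorem lemmaL_even (hn : 1 ≤ n) (m : ℕ) (N : ℤ) (hN : (N + m) % 2 = 0)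
    (δ : ℕ → D n →ₗ[ZMod 2] D n) (hd : IsDelta m δ)
    (κ : ℕ → D n →ₗ[ZMod 2] ZMod 2) (hs : KSupp m N κ)
    (K3 : ∀ i j, 1 ≤ i → i ≤ n → 1 ≤ j → j ≤ n → ∀ X, κ i (δ j X) = κ j (δ i X))
    (K3' : ∀ i, 1 ≤ i → i ≤ n → ∀ X, κ i (δ i X) = 0) :
    ∃ lam : D n →ₗ[ZMod 2] ZMod 2, LSupp m N lam ∧
      ∀ i, 1 ≤ i → i ≤ n → ∀ X, κ i X + lam (δ i X) = 0 := by
  refine ⟨lam0 κ, lam0_supp hn m N κ hs, fun i h1 hi => ?_⟩
  have h : κ i + (lam0 κ).comp (δ i) = 0 := by
    apply ext_mon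
    intro e
    rw [LinearMap.add_apply, LinearMap.comp_apply, LinearMap.zero_apply]
    rcases Nat.eq_zero_or_pos (ex e 0) with h0 | h0
    · have h2 : κ i (mon e) = 0 := by
        apply hs i h1 hi
        have h3 := wt_mod2 hn e
        rw [h0] at h3
        obtain ⟨a, rfl⟩ : ∃ a, n = a + 1 := ⟨n - 1, by omega⟩
        obtain ⟨b, rfl⟩ : ∃ b, i = b + 1 := ⟨i - 1, by omega⟩
        intro h4
        have h5 : wt e = N - 2 * ((m : ℤ) * 2 ^ a) + m - 2 * 2 ^ b + 1 := by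
          rw [← h4, pow_succ, pow_succ]; ring
        rw [h5] at h3
        push_cast at h3
        generalize (m : ℤ) * 2 ^ a = u at h3
        generalize (2 : ℤ) ^ b = v at h3
        omega
      rw [h2, hd i h1 hi, map_smul, lam0_small, smul_zero, add_zero]
      rw [ex_delta_zero e i hn h1]; omega
    · rw [step1 hn m δ hd κ K3 K3' i h1 hi e h0]
      exact zmod_two_add_self _
  intro X
  exact LinearMap.congr_fun h X

/-- degrees modulo four, contrapositive form -/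
theorem deg_cond (hn : 2 ≤ n) (m : ℕ) (N : ℤ) (hN : (N + m - 3) % 4 = 0) (i : ℕ) (h1 : 1 ≤ i)
    (e : Fin n →₀ ℕ) (h0 : ex e 0 = 0) (h : (i = 1 ∧ Even (ex e 1)) ∨ (2 ≤ i ∧ Odd (ex e 1))) :
    wt e + m * (2 ^ n - 1) + 2 ^ i - 1 ≠ N := by
  intro h4
  have h3 := wt_mod4 hn e
  rw [h0] at h3
  obtain ⟨a, rfl⟩ : ∃ a, n = a + 2 := ⟨n - 2, by omega⟩
  have h5 : wt e = N - 4 * ((m : ℤ) * 2 ^ a) + m - 2 ^ i + 1 := by
    rw [← h4, pow_add]; ring
  rw [h5] at h3
  generalize (m : ℤ) * 2 ^ a = u at h3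
  rcases h with ⟨hi, hk⟩ | ⟨hi, hk⟩
  · subst hi
    obtain ⟨k, hk⟩ := hk
    rw [hk] at h3
    push_cast at h3
    omega
  · obtain ⟨b, rfl⟩ : ∃ b, i = b + 2 := ⟨i - 2, by omega⟩
    obtain ⟨k, hk⟩ := hk
    rw [hk, pow_add] at h3
    push_cast at h3
    generalize (2 : ℤ) ^ b = v at h3
    omega

/-- the second change -/
noncomputable def lam1 (κ1 : D n →ₗ[ZMod 2] ZMod 2) : D n →ₗ[ZMod 2] ZMod 2 :=
  func fun e => if ex e 0 = 1 ∧ ex e 1 % 2 = 0 then κ1 (mon (e - sg n 0 + sg n 1)) else 0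

theorem lam1_mon (κ1 : D n →ₗ[ZMod 2] ZMod 2) (e : Fin n →₀ ℕ) :
    lam1 κ1 (mon e) =
      if ex e 0 = 1 ∧ ex e 1 % 2 = 0 then κ1 (mon (e - sg n 0 + sg n 1)) else 0 :=
  func_mon _ e

theorem lam1_supp (hn : 2 ≤ n) (m : ℕ) (N : ℤ) (κ1 : D n →ₗ[ZMod 2] ZMod 2)
    (hs : ∀ e : Fin n →₀ ℕ, wt e + m * (2 ^ n - 1) + 2 ^ 1 - 1 ≠ N → κ1 (mon e) = 0) :
    LSupp m N (lam1 κ1) := by
  intro e he
  rw [lam1_mon]
  split_ifs with h
  · apply hs
    rw [wt_add, wt_sub_sg e 0 (by omega) (fun _ => by omega), wt_sg 1 (by omega)]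
    intro h3
    apply he
    rw [← h3]; ring
  · rfl

theorem lam1_zero (κ1 : D n →ₗ[ZMod 2] ZMod 2) (e : Fin n →₀ ℕ)
    (h : ¬ (ex e 0 = 1 ∧ ex e 1 % 2 = 0)) : lam1 κ1 (mon e) = 0 := by
  rw [lam1_mon, if_neg h]

/-- `κ_1` after the second change -/
theorem step2_one (hn : 2 ≤ n) (m : ℕ) (N : ℤ) (hN : (N + m - 3) % 4 = 0)
    (δ : ℕ → D n →ₗ[ZMod 2] D n) (hd : IsDelta m δ) (κ : ℕ → D n →ₗ[ZMod 2] ZMod 2)
    (hs : KSupp m N κ) (h0 : ∀ e : Fin n →₀ ℕ, 1 ≤ ex e 0 → κ 1 (mon e) = 0)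
    (e : Fin n →₀ ℕ) : κ 1 (mon e) + lam1 (κ 1) (δ 1 (mon e)) = 0 := by
  rw [hd 1 le_rfl (by omega), map_smul]
  rcases Nat.eq_zero_or_pos (ex e 0) with he | he
  · rcases Nat.even_or_odd (ex e 1) with hev | hodd
    · have hc : cc m e 1 = 0 := by
        unfold cc
        rw [if_pos (by omega)]
        exact (ZMod.natCast_eq_zero_iff_even).mpr hev
      rw [hc, zero_smul, add_zero]
      exact hs 1 le_rfl (by omega) e (deg_cond hn m N hN 1 le_rfl e he (Or.inl ⟨rfl, hev⟩))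
    · have hc : cc m e 1 = 1 := by
        unfold cc
        rw [if_pos (by omega)]
        exact (ZMod.natCast_eq_one_iff_odd).mpr hodd
      rw [hc, one_smul, lam1_mon, if_pos]
      · have h3 : e - sg n 1 + sg n 0 - sg n 0 + sg n 1 = e := by
          apply ext_ex
          intro l hl
          obtain ⟨k, hk⟩ := hodd
          rw [ex_add, ex_sub, ex_add, ex_sub, ex_sg 0 l (by omega), ex_sg 1 l (by omega)]
          by_cases h1 : l = 1
          · subst h1; simp only [if_true]; omega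
          · rw [if_neg h1]; omega
        rw [h3]
        exact zmod_two_add_self _
      · obtain ⟨k, hk⟩ := hodd
        rw [ex_delta_zero e 1 (by omega) le_rfl, he, ex_add, ex_sub, ex_sg 0 1 (by omega),
          ex_sg 1 1 (by omega), if_pos rfl, if_neg (by omega)]
        omega
  · rw [h0 e he, lam1_zero, smul_zero, add_zero]
    rw [ex_delta_zero e 1 (by omega) le_rfl]
    omega

/-- `κ_i`, `i ≥ 2`, after the second change -/
theorem step2_big (hn : 2 ≤ n) (m : ℕ) (N : ℤ) (hN : (N + m - 3) % 4 = 0)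
    (δ : ℕ → D n →ₗ[ZMod 2] D n) (hd : IsDelta m δ) (κ : ℕ → D n →ₗ[ZMod 2] ZMod 2)
    (hs : KSupp m N κ) (i : ℕ) (h2 : 2 ≤ i) (hi : i ≤ n)
    (h0 : ∀ e : Fin n →₀ ℕ, 1 ≤ ex e 0 → κ i (mon e) = 0)
    (e : Fin n →₀ ℕ) (he : ¬ (ex e 0 = 0 ∧ ex e 1 % 2 = 0)) :
    κ i (mon e) + lam1 (κ 1) (δ i (mon e)) = 0 := by
  rw [hd i (by omega) hi, map_smul]
  rcases Nat.eq_zero_or_pos (ex e 0) with he0 | he0
  · have hodd : Odd (ex e 1) := by
      rw [Nat.odd_iff]
      omega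
    rw [hs i (by omega) hi e (deg_cond hn m N hN i (by omega) e he0 (Or.inr ⟨h2, hodd⟩)),
      lam1_zero, smul_zero, add_zero]
    have h3 : ex (e - sg n i + sg n 0) 1 = ex e 1 := by
      rw [ex_add, ex_sub, ex_sg 0 1 (by omega), if_neg (by omega)]
      rcases Nat.lt_or_ge i n with hi' | hi'
      · rw [ex_sg i 1 hi', if_neg (by omega)]; omega
      · rw [ex_sg_ge i 1 hi']; omega
    rw [h3]
    rw [Nat.odd_iff] at hodd
    omega
  · rw [h0 e he0, lam1_zero, smul_zero, add_zero]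
    rw [ex_delta_zero e i (by omega) (by omega)]
    omega

/-- the span of the images of `δ_1, …, δ_{j-1}` -/
noncomputable def Im (δ : ℕ → D n →ₗ[ZMod 2] D n) (j : ℕ) : Submodule (ZMod 2) (D n) :=
  ⨆ i : {i : ℕ // 1 ≤ i ∧ i < j}, LinearMap.range (δ i.1)

theorem mem_Im (δ : ℕ → D n →ₗ[ZMod 2] D n) (j i : ℕ) (h1 : 1 ≤ i) (h2 : i < j) (X : D n) :
    δ i X ∈ Im δ j :=
  Submodule.mem_iSup_of_mem (p := fun i : {i : ℕ // 1 ≤ i ∧ i < j} => LinearMap.range (δ i.1))
    ⟨i, h1, h2⟩ ⟨X, rfl⟩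

/-- a linear map which kills the images kills the span -/
theorem Im_le (δ : ℕ → D n →ₗ[ZMod 2] D n) (j : ℕ) (P : Submodule (ZMod 2) (D n))
    (h : ∀ i, 1 ≤ i → i < j → ∀ X, δ i X ∈ P) : Im δ j ≤ P := by
  apply iSup_le
  rintro ⟨i, h1, h2⟩ x ⟨X, rfl⟩
  exact h i h1 h2 X

/-- `δ_j r` is in the span of the images of the lower primitives if `δ_1 r = 0`. -/
theorem delta_mem_Im (s δ : ℕ → D n →ₗ[ZMod 2] D n) (hs0 : ∀ X, s 0 X = X)
    (comm : ∀ i, 1 ≤ i → i < n → ∀ a X, s a (δ i X) =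
      δ i (s a X) + (if 2 ^ i ≤ a then δ (i + 1) (s (a - 2 ^ i) X) else 0))
    (r : D n) (hr : δ 1 r = 0) (j : ℕ) (h1 : 1 ≤ j) (hj : j ≤ n) : δ j r ∈ Im δ j := by
  induction j, h1 using Nat.le_induction with
  | base => rw [hr]; exact zero_mem _
  | succ j h1 ih =>
    have ih' := ih (by omega)
    have h2 : s (2 ^ j) (δ j r) ∈ Im δ (j + 1) := by
      have h3 : Im δ j ≤ (Im δ (j + 1)).comap (s (2 ^ j)) := by
        apply Im_le
        intro i hi1 hi2 X
        rw [Submodule.mem_comap, comm i hi1 (by omega)]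
        apply Submodule.add_mem
        · exact mem_Im δ (j + 1) i hi1 (by omega) _
        · split_ifs
          · exact mem_Im δ (j + 1) (i + 1) (by omega) (by omega) _
          · exact zero_mem _
      exact h3 ih'
    have h4 := comm j h1 (by omega) (2 ^ j) r
    rw [if_pos le_rfl, Nat.sub_self, hs0] at h4
    have h5 : δ (j + 1) r = s (2 ^ j) (δ j r) - δ j (s (2 ^ j) r) := by
      rw [h4]; abel
    rw [h5]
    exact Submodule.sub_mem _ h2 (mem_Im δ (j + 1) j h1 (by omega) _)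

/-- Step 3: if `κ_1 = 0` and the `κ_i` are supported on the monomials in `q_1, …, q_{n-1}`
with even exponent of `q_1`, then all `κ_i` vanish. -/
theorem step3 (m : ℕ) (s δ : ℕ → D n →ₗ[ZMod 2] D n) (hn : 2 ≤ n) (hd : IsDelta m δ)
    (hs0 : ∀ X, s 0 X = X)
    (comm : ∀ i, 1 ≤ i → i < n → ∀ a X, s a (δ i X) =
      δ i (s a X) + (if 2 ^ i ≤ a then δ (i + 1) (s (a - 2 ^ i) X) else 0))
    (θ κ : ℕ → D n →ₗ[ZMod 2] ZMod 2)
    (K2 : ∀ i, 1 ≤ i → i < n → ∀ a, 1 ≤ a → ∀ X, θ a (δ i X) =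
      κ i (s a X) + (if 2 ^ i ≤ a then κ (i + 1) (s (a - 2 ^ i) X) else 0))
    (h1 : κ 1 = 0)
    (h2 : ∀ i, 2 ≤ i → i ≤ n → ∀ e : Fin n →₀ ℕ, ¬ (ex e 0 = 0 ∧ ex e 1 % 2 = 0) →
      κ i (mon e) = 0)
    (i : ℕ) (hi1 : 1 ≤ i) (hi : i ≤ n) : κ i = 0 := by
  induction i using Nat.strong_induction_on with
  | _ i ih =>
    rcases Nat.lt_or_ge i 2 with h | h
    · have : i = 1 := by omega
      rw [this]; exact h1
    · obtain ⟨j, rfl⟩ : ∃ j, i = j + 1 := ⟨i - 1, by omega⟩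
      apply ext_mon
      intro e
      rw [LinearMap.zero_apply]
      by_cases he : ex e 0 = 0 ∧ ex e 1 % 2 = 0
      · have hr : δ 1 (mon e) = 0 := by
          rw [hd 1 le_rfl (by omega)]
          have hc : cc m e 1 = 0 := by
            unfold cc
            rw [if_pos (by omega)]
            exact (ZMod.natCast_eq_zero_iff_even).mpr (Nat.even_iff.mpr he.2)
          rw [hc, zero_smul]
        have hmem := delta_mem_Im s δ hs0 comm (mon e) hr j (by omega) (by omega)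
        have hker : Im δ j ≤ LinearMap.ker (θ (2 ^ j)) := by
          apply Im_le
          intro l hl1 hl2 X
          rw [LinearMap.mem_ker, K2 l hl1 (by omega) _ Nat.one_le_two_pow,
            ih l (by omega) hl1 (by omega), ih (l + 1) (by omega) (by omega) (by omega)]
          simp
        have h3 := hker hmem
        rw [LinearMap.mem_ker, K2 j (by omega) (by omega) _ Nat.one_le_two_pow, if_pos le_rfl,
          Nat.sub_self, hs0, ih j (by omega) (by omega) (by omega), LinearMap.zero_apply,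
          zero_add] at h3
        exact h3
      · exact h2 (j + 1) h hi e he

/-- The functionals `κ_i + lam ∘ δ_i` keep the support condition. -/
theorem KSupp_add (hn : 1 ≤ n) (m : ℕ) (N : ℤ) (δ : ℕ → D n →ₗ[ZMod 2] D n) (hd : IsDelta m δ)
    (κ : ℕ → D n →ₗ[ZMod 2] ZMod 2) (hs : KSupp m N κ) (lam : D n →ₗ[ZMod 2] ZMod 2)
    (hl : LSupp m N lam) : KSupp m N (fun i => κ i + lam.comp (δ i)) := by
  intro i h1 hi e he
  rw [LinearMap.add_apply, hs i h1 hi e he, zero_add, LinearMap.comp_apply, hd i h1 hi, map_smul]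
  rcases zmod_cases (cc m e i) with hc | hc
  · rw [hc, zero_smul]
  · have hpos : i < n → 1 ≤ ex e i := by
      intro hlt
      unfold cc at hc
      rw [if_pos hlt] at hc
      rcases Nat.eq_zero_or_pos (ex e i) with h | h
      · rw [h] at hc; exact absurd hc (by decide)
      · exact h
    rw [hl, smul_zero]
    rw [wt_add, wt_sub_sg e i hi hpos, wt_sg 0 (by omega)]
    intro h3
    apply he
    rw [← h3]; ring

/-- Lemma L (9962), `n ≥ 2`, `N = 3 - m` modulo four: all `κ_i` (`1 ≤ i ≤ n`) are removed by one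
coboundary change. -/
theorem lemmaL (hn : 2 ≤ n) (m : ℕ) (N : ℤ) (hN : (N + m - 3) % 4 = 0)
    (s δ : ℕ → D n →ₗ[ZMod 2] D n) (hd : IsDelta m δ) (hs0 : ∀ X, s 0 X = X)
    (comm : ∀ i, 1 ≤ i → i < n → ∀ a X, s a (δ i X) =
      δ i (s a X) + (if 2 ^ i ≤ a then δ (i + 1) (s (a - 2 ^ i) X) else 0))
    (θ κ : ℕ → D n →ₗ[ZMod 2] ZMod 2) (hs : KSupp m N κ)
    (K2 : ∀ i, 1 ≤ i → i < n → ∀ a, 1 ≤ a → ∀ X, θ a (δ i X) =
      κ i (s a X) + (if 2 ^ i ≤ a then κ (i + 1) (s (a - 2 ^ i) X) else 0))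
    (K3 : ∀ i j, 1 ≤ i → i ≤ n → 1 ≤ j → j ≤ n → ∀ X, κ i (δ j X) = κ j (δ i X))
    (K3' : ∀ i, 1 ≤ i → i ≤ n → ∀ X, κ i (δ i X) = 0) :
    ∃ lam : D n →ₗ[ZMod 2] ZMod 2, LSupp m N lam ∧
      ∀ i, 1 ≤ i → i ≤ n → ∀ X, κ i X + lam (δ i X) = 0 := by
  have hn1 : 1 ≤ n := by omega
  have hl0 : LSupp m N (lam0 κ) := lam0_supp hn1 m N κ hs
  set κ' : ℕ → D n →ₗ[ZMod 2] ZMod 2 := fun i => κ i + (lam0 κ).comp (δ i) with hκ'
  have hs' : KSupp m N κ' := KSupp_add hn1 m N δ hd κ hs _ hl0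
  have h0 : ∀ i, 1 ≤ i → i ≤ n → ∀ e : Fin n →₀ ℕ, 1 ≤ ex e 0 → κ' i (mon e) = 0 := by
    intro i h1 hi e he
    rw [hκ']
    simp only [LinearMap.add_apply, LinearMap.comp_apply]
    rw [← step1 hn1 m δ hd κ K3 K3' i h1 hi e he]
    exact zmod_two_add_self _
  have hl1 : LSupp m N (lam1 (κ' 1)) := lam1_supp hn m N (κ' 1) (hs' 1 le_rfl hn1)
  have hl : LSupp m N (lam0 κ + lam1 (κ' 1)) := by
    intro e he
    rw [LinearMap.add_apply, hl0 e he, hl1 e he, add_zero]
  refine ⟨lam0 κ + lam1 (κ' 1), hl, fun i h1 hi X => ?_⟩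
  set lam := lam0 κ + lam1 (κ' 1) with hlam
  have key : κ i + lam.comp (δ i) = 0 := by
    refine step3 m s δ hn hd hs0 comm (fun a => θ a + lam.comp (s a))
      (fun i => κ i + lam.comp (δ i)) ?_ ?_ ?_ i h1 hi
    · intro i h1 hi a ha X
      simp only [LinearMap.add_apply, LinearMap.comp_apply]
      rw [K2 i h1 hi a ha, comm i h1 hi a, map_add]
      split_ifs
      · abel
      · simp
    · apply ext_mon
      intro e
      have h5 := step2_one hn m N hN δ hd κ' hs' (h0 1 le_rfl hn1) e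
      rw [hκ'] at h5
      simp only [LinearMap.add_apply, LinearMap.comp_apply] at h5
      simp only [hlam, LinearMap.add_apply, LinearMap.comp_apply, LinearMap.zero_apply]
      rw [← add_assoc]
      exact h5
    · intro i h2 hi e he
      have h5 := step2_big hn m N hN δ hd κ' hs' i h2 hi (h0 i (by omega) hi) e he
      rw [hκ'] at h5
      simp only [LinearMap.add_apply, LinearMap.comp_apply] at h5
      simp only [hlam, LinearMap.add_apply, LinearMap.comp_apply]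
      rw [← add_assoc]
      exact h5
  exact LinearMap.congr_fun key X

/-! ### the connection with the definitions of block DS -/

theorem pd_mon (i : Fin n) (e : Fin n →₀ ℕ) :
    pd n i (mon e) = (e i : ZMod 2) • mon (e - sg n i) := by
  have h : pd n i (mon e) = (MvPolynomial.pderiv i (MvPolynomial.monomial e (1 : ZMod 2)) :
      MvPolynomial (Fin n) (ZMod 2)) := rfl
  have hs : sg n i = Finsupp.single i 1 := by unfold sg; rw [dif_pos i.2]
  rw [h, MvPolynomial.pderiv_monomial, one_mul, hs]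
  have h2 : (MvPolynomial.monomial (e - Finsupp.single i 1) (e i : ZMod 2) :
      MvPolynomial (Fin n) (ZMod 2)) =
      (e i : ZMod 2) • MvPolynomial.monomial (e - Finsupp.single i 1) (1 : ZMod 2) := by
    rw [MvPolynomial.smul_monomial, smul_eq_mul, mul_one]
  rw [h2]
  rfl

theorem gen_eq_mon (i : Fin n) : (gen i : D n) = mon (sg n i) := by
  rw [mon_sg _ i.2.le, q_lt i.2]

theorem eul_mon (e : Fin n →₀ ℕ) : eul n (mon e) = (len e : ZMod 2) • mon e := by
  have h : eul n (mon e) = ∑ j : Fin n, gen j * pd n j (mon e) := by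
    have hD : ∀ t : Finset (Fin n), (∑ j ∈ t, gen j • pd n j) (mon e) =
        ∑ j ∈ t, gen j * pd n j (mon e) := by
      classical
      intro t
      induction t using Finset.induction_on with
      | empty => simp
      | insert a t ha ih =>
        rw [Finset.sum_insert ha, Finset.sum_insert ha, Derivation.add_apply, ih]
        rfl
    exact hD Finset.univ
  rw [h]
  unfold len
  rw [Nat.cast_sum, Finset.sum_smul]
  refine Finset.sum_congr rfl fun j _ => ?_
  rw [pd_mon, mul_smul_comm, gen_eq_mon, ← mon_add]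
  rcases Nat.eq_zero_or_pos (e j) with h0 | h0
  · rw [h0]; simp
  · congr 2
    rw [add_comm]
    apply sub_sg_add
    intro _
    unfold ex
    rw [dif_pos j.2]
    exact h0

theorem isDelta_del (hn : 1 ≤ n) (m : ℕ) : IsDelta m (del n m) := by
  intro i h1 hi e
  rw [del_apply]
  have hq : q n 0 = mon (sg n 0) := (mon_sg 0 (by omega)).symm
  rcases Nat.lt_or_ge i n with hlt | hge
  · have hc : c n i = 0 := by
      unfold c
      rw [if_neg (by omega), if_neg (by omega), if_neg (by omega)]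
    have hd : d n i (mon e) = q n 0 * pd n ⟨i, hlt⟩ (mon e) := by
      unfold d d0 pdn
      rw [if_neg (by omega), if_neg (by omega), dif_pos hlt]
      rfl
    rw [hc, hd, mul_zero, zero_mul, add_zero, pd_mon, mul_smul_comm, hq, ← mon_add]
    unfold cc
    rw [if_pos hlt]
    have hex : ex e i = e ⟨i, hlt⟩ := by unfold ex; rw [dif_pos hlt]
    rw [hex, add_comm]
  · have hin : i = n := le_antisymm hi hge
    subst hin
    have hc : c i i = q i 0 := by
      unfold c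
      rw [if_neg (by omega), if_pos rfl]
    have hd : d i i (mon e) = q i 0 * eul i (mon e) := by
      unfold d d0
      rw [if_neg (by omega), if_pos rfl]
      rfl
    rw [hc, hd, eul_mon, mul_smul_comm, hq, ← mon_add]
    have hcc : cc m e i = (len e : ZMod 2) + (m : ZMod 2) := by
      unfold cc
      rw [if_neg (by omega)]
      push_cast
      rfl
    have hm : ((m : ℕ) : D i) * mon (sg i 0) * mon e = (m : ZMod 2) • mon (sg i 0 + e) := by
      rw [mul_assoc, ← mon_add, Algebra.smul_def, map_natCast]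
    rw [hm, hcc, add_smul, sg_ge i le_rfl, tsub_zero, add_comm (sg i 0) e]

theorem hom_mon (e : Fin n →₀ ℕ) : Hom n (wt e) (mon e) := by
  unfold Hom mon wt
  apply MvPolynomial.isWeightedHomogeneous_monomial
  rw [Finsupp.weight_apply, Finsupp.sum_fintype _ _ (fun i => by simp)]
  simp [w]

/-- support condition in terms of homogeneous elements -/
theorem LSupp.hom {m : ℕ} {N : ℤ} {lam : D n →ₗ[ZMod 2] ZMod 2} (h : LSupp m N lam) (k : ℤ)
    (X : D n) (hX : Hom n k X) (hk : k + m * (2 ^ n - 1) ≠ N) : lam X = 0 := by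
  rw [D_as_sum X, map_sum]
  refine Finset.sum_eq_zero fun e he => ?_
  have h1 : ∏ i, gen i ^ e i = mon e := by
    have h2 := MvPolynomial.monomial_eq (σ := Fin n) (R := ZMod 2) (s := e) (a := 1)
    rw [MvPolynomial.C_1, one_mul, Finsupp.prod_fintype _ _ (fun i => pow_zero _)] at h2
    exact h2.symm
  rw [h1]
  apply h
  have h3 := hX.weight he
  have h4 : wt e = k := by
    rw [← h3]; rfl
  rw [h4]
  exact hk

theorem kSupp_of_hom {m : ℕ} {N : ℤ} {κ : ℕ → D n →ₗ[ZMod 2] ZMod 2}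
    (h : ∀ i, 1 ≤ i → i ≤ n → ∀ (k : ℤ) (X : D n), Hom n k X →
      k + m * (2 ^ n - 1) + 2 ^ i - 1 ≠ N → κ i X = 0) : KSupp m N κ :=
  fun i h1 hi e he => h i h1 hi (wt e) (mon e) (hom_mon e) he

end Vale.Agent.P263.EX.LL
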