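import Vale.Agent.P263.EX.T1
import Vale.Agent.P263.EX.LL
import Vale.Agent.P263.EX.DS5
import Vale.Agent.P263.EX.DSBM

/-!
P263: the facts used by block T1, from blocks DS, CO, LL; the unconditional theorem T1.
-/

namespace Vale.Agent.P263.EX

open Polynomial Vale.Agent.P263.LZ Vale.Agent.P263.EX.DS

theorem dsFacts {n : ℕ} (hn : 1 ≤ n) (m : ℕ) : DSFacts n m :=
  dsFacts_of_bm hn (fun M x => bm_s x M)

/-- Lemma L for cocycles. -/
theorem lemmaL_coc {n m N : ℕ} (hn : 2 ≤ n) (f : DSFacts n m) (c : Coc n m N)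
    (hN : (N + m) % 4 = 3) :
    ∃ (l : D n →ₗ[ZMod 2] ZMod 2)
      (hl : ∀ (k : ℤ) (x : D n), Hom n k x → k + m * (2 ^ n - 1) ≠ N → l x = 0),
      ∀ i, 1 ≤ i → i ≤ n → (c.cob f l hl).ka i = 0 := by
  obtain ⟨l, hl, hk⟩ := LL.lemmaL hn m N (by omega) (s n m) (del n m)
    (LL.isDelta_del (by omega) m) (s_zero n m)
    (fun i _ hi a x => s_del (by omega) (by omega) m a x) c.th c.ka
    (LL.kSupp_of_hom (fun i hi1 hi k x hx hk => c.ka_supp f hi1 (by omega) k x hx (by
      intro h; apply hk; linarith)))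
    (fun i hi1 hi a ha x => c.K2 f hi1 (by omega) ha x)
    (fun i j hi1 hi hj1 hj x => c.K3 f hi1 (by omega) hj1 (by omega) (by omega) x)
    (fun i hi1 hi x => c.K3_self f hi1 (by omega) (by omega) x)
  refine ⟨l, fun k x hx h => LL.LSupp.hom hl k x hx h, fun i hi1 hi => ?_⟩
  refine LinearMap.ext fun x => ?_
  rw [Coc.cob_ka f hi1 (by omega), hk i hi1 hi x]; rfl

/-- Normalisation for `N + m` even (first step of Lemma L plus parity). -/
theorem lemmaL_even_coc {n m N : ℕ} (hn : 1 ≤ n) (f : DSFacts n m) (c : Coc n m N)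
    (hN : (N + m) % 2 = 0) :
    ∃ (l : D n →ₗ[ZMod 2] ZMod 2)
      (hl : ∀ (k : ℤ) (x : D n), Hom n k x → k + m * (2 ^ n - 1) ≠ N → l x = 0),
      ∀ i, 1 ≤ i → i ≤ n → (c.cob f l hl).ka i = 0 := by
  obtain ⟨l, hl, hk⟩ := LL.lemmaL_even hn m N (by omega) (del n m)
    (LL.isDelta_del (by omega) m) c.ka
    (LL.kSupp_of_hom (fun i hi1 hi k x hx hk => c.ka_supp f hi1 (by omega) k x hx (by
      intro h; apply hk; linarith)))
    (fun i j hi1 hi hj1 hj x => c.K3 f hi1 (by omega) hj1 (by omega) (by omega) x)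
    (fun i hi1 hi x => c.K3_self f hi1 (by omega) (by omega) x)
  refine ⟨l, fun k x hx h => LL.LSupp.hom hl k x hx h, fun i hi1 hi => ?_⟩
  refine LinearMap.ext fun x => ?_
  rw [Coc.cob_ka f hi1 (by omega), hk i hi1 hi x]; rfl

/-- In rank one, `m` even, `N + m = 3 mod 4`, the function `ka 1` vanishes. -/
theorem ka_rank_one {m N : ℕ} (f : DSFacts 1 m) (c : Coc 1 m N) (hm : (m + 1) % 2 = 1)
    (hN : (N + m) % 4 = 3) : c.ka 1 = 0 := by
  refine LinearMap.toAddMonoidHom_injective ?_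
  refine addHom_ext (fun e => ?_)
  show c.ka 1 (mo e) = 0
  by_cases hdeg : wtm e + m * (2 ^ 1 - 1) + 2 ^ 1 - 1 = N
  · have hw : wtm e = e 0 := by
      unfold wtm
      rw [Fin.sum_univ_one]
      simp [w]
    rw [hw] at hdeg
    have h0 : (e 0) + m + 1 = N := by
      have : ((e 0 + m + 1 : ℕ) : ℤ) = N := by push_cast; linarith
      exact_mod_cast this
    have hpos : 1 ≤ e 0 := by omega
    have hsplit : e = (e - Finsupp.single 0 1) + Finsupp.single 0 1 := by
      refine Finsupp.ext (fun j => ?_)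
      have : j = 0 := Subsingleton.elim _ _
      subst this
      simp only [Finsupp.add_apply, Finsupp.tsub_apply, Finsupp.single_apply, if_true]
      omega
    have hde : mo e = del 1 m 1 (mo (e - Finsupp.single 0 1)) := by
      rw [del_n le_rfl, eul_mo, ← add_mul, ← Nat.cast_add, odd_mul_D, q_zero_eq Nat.one_pos, mo_mul,
        add_comm]
      · exact congrArg mo hsplit
      · rw [Fin.sum_univ_one, Finsupp.tsub_apply, Finsupp.single_apply, if_pos rfl, Nat.odd_iff]
        omega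
    rw [hde]
    exact c.K3_self f le_rfl (by omega) le_rfl _
  · exact c.ka_supp f le_rfl (by omega) _ _ (hom_mo e) (by intro h; apply hdeg; linarith)

theorem t1Facts {n : ℕ} (hn : 1 ≤ n) : T1Facts n where
  s_zero m x := s_zero n m x
  s_hom m a k x hx := s_hom hx m a
  s_eq_zero m a k x hx h := s_eq_zero hx h
  s_q0 m a x := s_q0 n m a x
  O_even := fun m mu a x h => O_even hn m mu a x h
  O_odd := fun m mu a x h => O_odd hn m mu a x h
  K1 m N c a x ha := c.K1 (dsFacts hn m) (by omega) ha x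
  K2 m N c i a x hi1 hi ha := c.K2 (dsFacts hn m) hi1 hi ha x
  LL m N c hmn hN := by
    rcases Nat.lt_or_ge n 2 with h | h
    · have : n = 1 := by omega
      subst this
      refine ⟨c, 0, fun a x ha => by simp, fun i hi1 hi => ?_⟩
      have : i = 1 := by omega
      subst this
      exact ka_rank_one (dsFacts hn m) c hmn hN
    · obtain ⟨l, hl, hk⟩ := lemmaL_coc h (dsFacts hn m) c hN
      exact ⟨c.cob (dsFacts hn m) l hl, l, fun a x ha => Coc.cob_th (dsFacts hn m) ha x, hk⟩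

/-- **Theorem T1** (all ranks `n ≥ 1`, all levels `m ≥ 1`). For every cocycle `c` of level `m` and
degree `N` on the Dickson algebra `D n`, and every homogeneous `G` of `D (n+1)` with
`1 + |G| + m (2^(n+1) - 1) = N`, the value `Σ_a th_a (z G)` vanishes. -/
theorem T1_final {n : ℕ} (hn : 1 ≤ n) {m N : ℕ} (c : Coc n m N) (hm : 1 ≤ m) (k : ℤ)
    (G : D (n + 1)) (hG : Hom (n + 1) k G) (hN : (N : ℤ) = 1 + k + m * (2 ^ (n + 1) - 1)) :
    c.TH (z n G) = 0 :=
  T1 n hn (t1Facts hn) m N c hm k G hG hN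

end Vale.Agent.P263.EX
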