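import Vale.Agent.P263.EX.T2f
import Vale.Agent.P263.EX.T1Inst

/-!
P263, block T2 (helper564): the theorem for cocycles of level zero, all ranks at least two.
-/

namespace Vale.Agent.P263.EX.T2

open Polynomial Vale.Agent.P263.LZ Vale.Agent.P263.EX Vale.Agent.P263.EX.DS

/-- the degree of the leading monomial -/
theorem wtm_lexp {n : ℕ} (e : Fin (n + 1) →₀ ℕ) (h0 : e 0 = 0) : 2 * wtm (lexp e) = wtm e := by
  have h3 : wtm e = ∑ i : Fin n, ((e i.succ : ℕ) : ℤ) * LZ.w (n + 1) i.succ := by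
    unfold wtm
    rw [Fin.sum_univ_succ, h0]; simp
  rw [h3, wtm, Finset.mul_sum]
  refine Finset.sum_congr rfl (fun i _ => ?_)
  have h2 : lexp e i = e i.succ := rfl
  rw [h2]
  simp only [LZ.w, Fin.val_succ, pow_succ]
  ring

theorem lexp_ne {n : ℕ} {e : Fin (n + 1) →₀ ℕ} (h0 : e 0 = 0) (he : e ≠ 0) : lexp e ≠ 0 := by
  intro h
  apply he
  apply Finsupp.ext
  intro i
  refine Fin.cases h0 (fun i => ?_) i
  exact DFunLike.congr_fun h i

/-- Monomials, any rank `n = p + 1 ≥ 2`: only the values on squares of monomials of `D p`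
matter, and these vanish on hit monomials. -/
theorem T2_mo_hit {p N : ℕ} (hp : 1 ≤ p) (F : T1Facts (p + 1)) (f : DSFacts (p + 1) 0)
    (c : Coc (p + 1) 0 N) (e : Fin (p + 1 + 1) →₀ ℕ)
    (hN : (N : ℤ) = 1 + wtm e)
    (hcore : e 0 = 0 → LL.ex (lexp e) 0 = 0 → LL.mon (dn (lexp e)) ∈ HH p) :
    c.TH (z (p + 1) (mo e)) = 0 := by
  rcases Nat.eq_zero_or_pos (e 0) with h0 | h0
  swap
  · exact TH_pos (by omega) F c e h0 hN
  by_cases hall : Odd (p + 1) ∧ ∀ i, i ≠ 0 → Odd (e i)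
  · exact TH_odd (by have := Nat.odd_iff.mp hall.1; omega) hall.1 F c e h0 hall.2 hN
  have hnot : Even (p + 1) ∨ ¬ ∀ i, i ≠ 0 → Odd (e i) := by
    rcases Nat.even_or_odd (p + 1) with h | h
    · exact Or.inl h
    · exact Or.inr (fun h2 => hall ⟨h, h2⟩)
  obtain ⟨c', l, hl, hnrm⟩ := exists_nrm (by omega) f c
  have hlead := lead_z (p + 1) e h0
  rw [lead_eq e h0] at hlead
  rw [← TH_cob F c c' l hl (wtm e) (by rw [hN]; push_cast; ring) (z (p + 1) (mo e)) hlead.dle]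
  rcases TH_eq_top (by omega) F c' e h0 hN hnot with h1 | h1
  · exact h1
  rw [h1]
  have hw := wtm_lexp e h0
  obtain ⟨ℓ, hℓ⟩ := Int.eq_ofNat_of_zero_le (wtm_nonneg (lexp e))
  have ha : wtm (lexp e) + ((0 : ℕ) : ℤ) * (2 ^ (p + 1) - 1) + ((ℓ + 1 : ℕ) : ℤ) = N := by
    push_cast; linarith
  have ha2 : ℓ + 1 ≤ N := by
    have : ((ℓ + 1 : ℕ) : ℤ) ≤ N := by
      have := wtm_nonneg (lexp e)
      push_cast at ha ⊢; linarith
    exact_mod_cast this
  rw [c'.TH_hom (hom_mo _) ha ha2, ← mon_eq_mo]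
  have k1a : K1a c'.th c'.ka := fun a ha X => c'.K1 f (by omega) ha X
  have k1b : K1b c'.ka := fun b hb X => c'.K1_odd f (by omega) hb X
  have k2 : K2 c'.th c'.ka := fun i h1 hi a ha X => c'.K2 f h1 hi ha X
  have hℓ' : LL.wt (lexp e) = ℓ := by rw [wt_eq_wtm]; exact hℓ
  have hnot' : Even (p + 1) ∨ ∃ i, i < p + 1 ∧ Even (LL.ex (lexp e) i) := by
    rcases hnot with h | h
    · exact Or.inl h
    · right
      push Not at h
      obtain ⟨i, hi0, hi⟩ := h
      obtain ⟨i', rfl⟩ := Fin.exists_succ_eq.mpr hi0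
      refine ⟨i', i'.2, ?_⟩
      unfold LL.ex
      rw [dif_pos i'.2]
      exact Nat.not_odd_iff_even.mp hi
  rcases Nat.even_or_odd (LL.ex (lexp e) 0) with h4 | h4
  · rcases Nat.eq_zero_or_pos (LL.ex (lexp e) 0) with h3 | h3
    · have hL : Hom (p + 1) ℓ (LL.mon (lexp e)) := by rw [← hℓ']; exact LL.hom_mon _
      have hle : Even ℓ := by
        have := LL.wt_mod2 (by omega) (lexp e)
        rw [h3] at this
        rw [Nat.even_iff]; omega
      rw [top_even k1a hL hle, mon_dn h3]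
      exact kev_mem f k2 hnrm (hcore h0 h3)
    · exact top_mon_q0 (by omega) k1a hnrm hℓ' h4 h3
  · exact top_mon_odd f (by omega) k1b k2 hℓ' h4 hnot'

/-- Rank two. -/
theorem T2_mo_two {N : ℕ} (F : T1Facts 2) (f : DSFacts 2 0)
    (c : Coc 2 0 N) (e : Fin 3 →₀ ℕ) (hN : (N : ℤ) = 1 + wtm e)
    (he : e 0 ≠ 0 ∨ e 1 ≠ 0 ∨ ∀ r, e 2 + 1 ≠ 2 ^ r) :
    c.TH (z 2 (mo e)) = 0 := by
  refine T2_mo_hit le_rfl F f c e hN (fun h0 h1 => ?_)
  have h1' : e 1 = 0 := h1
  have h2 : LL.mon (dn (lexp e)) = q 1 0 ^ (e 2) := by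
    rw [mon_prod, Fin.prod_univ_one, gen_eq]
    rfl
  rw [h2]
  refine mem_one _ ?_
  rcases he with h | h | h
  · exact absurd h0 h
  · exact absurd h1' h
  · exact h

/-- Rank three. -/
theorem T2_mo_three {N : ℕ} (F : T1Facts 3) (f : DSFacts 3 0)
    (c : Coc 3 0 N) (e : Fin 4 →₀ ℕ) (hN : (N : ℤ) = 1 + wtm e)
    (he : e 0 ≠ 0 ∨ e 1 ≠ 0 ∨ e 2 ≠ 0 ∨ ∀ r, e 3 + 1 ≠ 2 ^ r) :
    c.TH (z 3 (mo e)) = 0 := by
  refine T2_mo_hit (by norm_num) F f c e hN (fun h0 h1 => ?_)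
  have h1' : e 1 = 0 := h1
  have h2 : LL.mon (dn (lexp e)) = q 2 0 ^ (e 2) * q 2 1 ^ (e 3) := by
    rw [mon_prod, Fin.prod_univ_two, gen_eq, gen_eq]
    rfl
  rw [h2]
  refine mem_two _ _ _ rfl ?_
  rcases he with h | h | h | h
  · exact absurd h0 h
  · exact absurd h1' h
  · exact Or.inl h
  · exact Or.inr h

/-- The exceptional monomials of level zero: powers `q_n ^ (2^r - 1)` of the last generator
in ranks two and three. -/
def Exc (n : ℕ) (e : Fin (n + 1) →₀ ℕ) : Prop :=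
  n ≤ 3 ∧ ∃ r : ℕ, e = Finsupp.single (Fin.last n) (2 ^ r - 1)

/-- **T2** for monomials, all ranks `n ≥ 2`. -/
theorem T2_monomial {n N : ℕ} (hn : 2 ≤ n) (c : Coc n 0 N) (e : Fin (n + 1) →₀ ℕ)
    (he : e ≠ 0) (hexc : ¬ Exc n e) (hN : (N : ℤ) = 1 + wtm e) : c.TH (z n (mo e)) = 0 := by
  have F := t1Facts (show 1 ≤ n by omega)
  have f := dsFacts (show 1 ≤ n by omega) 0
  rcases Nat.lt_or_ge n 4 with h | h
  · obtain rfl | rfl : n = 2 ∨ n = 3 := by omega
    · refine T2_mo_two F f c e hN ?_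
      by_contra hc
      push Not at hc
      obtain ⟨h0, h1, r, hr⟩ := hc
      refine hexc ⟨by norm_num, r, ?_⟩
      refine Finsupp.ext (fun i => ?_)
      rw [← hr, Nat.add_sub_cancel]
      fin_cases i
      · rw [Finsupp.single_apply, if_neg (by decide)]; exact h0
      · rw [Finsupp.single_apply, if_neg (by decide)]; exact h1
      · exact (Finsupp.single_eq_same).symm
    · refine T2_mo_three F f c e hN ?_
      by_contra hc
      push Not at hc
      obtain ⟨h0, h1, h2, r, hr⟩ := hc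
      refine hexc ⟨by norm_num, r, ?_⟩
      refine Finsupp.ext (fun i => ?_)
      rw [← hr, Nat.add_sub_cancel]
      fin_cases i
      · rw [Finsupp.single_apply, if_neg (by decide)]; exact h0
      · rw [Finsupp.single_apply, if_neg (by decide)]; exact h1
      · rw [Finsupp.single_apply, if_neg (by decide)]; exact h2
      · exact (Finsupp.single_eq_same).symm
  · obtain ⟨p, rfl⟩ : ∃ p, n = p + 1 := ⟨n - 1, by omega⟩
    exact T2_mo (by omega) F f (dsFacts (by omega) 0) c e he hN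

theorem wtm_exc {n : ℕ} (r : ℕ) :
    wtm (Finsupp.single (Fin.last n) (2 ^ r - 1) : Fin (n + 1) →₀ ℕ) = (2 ^ r - 1) * 2 ^ n := by
  rw [wtm_single]
  have h1 : (1 : ℕ) ≤ 2 ^ r := Nat.one_le_two_pow
  simp only [LZ.w, Fin.val_last, pow_succ]
  push_cast [h1]
  ring

/-- **T2** (level zero, all ranks `n ≥ 2`). For a cocycle `c` of level zero and degree `N` on
`D n` and a homogeneous `G` of `D (n+1)` of degree `k = N - 1 > 0` the sum `Σ_a th_a (z G)`
vanishes, unless `n = 2, 3` and `k = 2^n (2^r - 1)`. -/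
theorem T2_final {n N : ℕ} (hn : 2 ≤ n) (c : Coc n 0 N) {k : ℤ} (hk : 0 < k)
    (G : D (n + 1)) (hG : Hom (n + 1) k G) (hN : (N : ℤ) = 1 + k)
    (hexc : n ≤ 3 → ∀ r : ℕ, k ≠ (2 ^ r - 1) * 2 ^ n) : c.TH (z n G) = 0 := by
  have hsum := eq_sum_mo G
  rw [hsum, map_sum, map_sum]
  refine Finset.sum_eq_zero (fun e he => ?_)
  have hw := hom_wtm hG he
  refine T2_monomial hn c e ?_ ?_ (by rw [hw]; exact hN)
  · intro h
    subst h
    rw [wtm_zero] at hw
    omega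
  · rintro ⟨h3, r, rfl⟩
    rw [wtm_exc] at hw
    exact hexc h3 r hw.symm

end Vale.Agent.P263.EX.T2
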