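import Vale.Agent.P263.EX.FT3
import Vale.Agent.P263.EX.GE4
import Vale.Agent.P263.EX.T2g

/-!
P263: the theorems T1, T2 in geometric form.
-/

namespace Vale.Agent.P263.F

open Vale.Agent.P263.LZ Vale.Agent.P263.EX Vale.Agent.P263.EX.DS

/-- the element `Σ_d x_0^(K-2d) St(Z_d)` -/
noncomputable def WW (n K : ℕ) (Z : ℕ → S n) : S (n + 1) :=
  ∑ d ∈ Finset.range (K / 2 + 1), MvPolynomial.X 0 ^ (K - 2 * d) * St n d (Z d)

theorem Sta_homog {n d : ℕ} {Z : S n} (hZ : Z.IsHomogeneous d) :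
    (GE.Sta n Z).IsHomogeneous (2 * d) := by
  rw [GE.Sta]
  refine hZ.aeval _ (fun i => ?_)
  have h1 : (MvPolynomial.X i.succ : S (n + 1)).IsHomogeneous 1 := MvPolynomial.isHomogeneous_X _ _
  have h2 : (MvPolynomial.X i.succ + MvPolynomial.X 0 : S (n + 1)).IsHomogeneous 1 :=
    (MvPolynomial.isHomogeneous_X _ _).add (MvPolynomial.isHomogeneous_X _ _)
  exact h1.mul h2

theorem WW_homog {n K : ℕ} {Z : ℕ → S n} (hZ : ∀ d, (Z d).IsHomogeneous d) :
    (WW n K Z).IsHomogeneous K := by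
  refine MvPolynomial.IsHomogeneous.sum _ _ _ (fun d hd => ?_)
  rw [Finset.mem_range] at hd
  rw [GE.St_eq (hZ d)]
  have h1 : ((MvPolynomial.X 0 : S (n + 1)) ^ (K - 2 * d)).IsHomogeneous (K - 2 * d) := by
    simpa using (MvPolynomial.isHomogeneous_X (ZMod 2) (0 : Fin (n + 1))).pow (K - 2 * d)
  have h2 := h1.mul (Sta_homog (hZ d))
  rwa [show K - 2 * d + 2 * d = K by omega] at h2

theorem WW_eval₂ {n K : ℕ} {Z : ℕ → S n} (hZ : ∀ d, (Z d).IsHomogeneous d) :
    WW n K Z = Polynomial.eval₂ (GE.Sta n : S n →+* S (n + 1)) (MvPolynomial.X 0)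
      (∑ d ∈ Finset.range (K / 2 + 1), Polynomial.X ^ (K - 2 * d) * Polynomial.C (Z d)) := by
  rw [Polynomial.eval₂_finsetSum]
  refine Finset.sum_congr rfl (fun d _ => ?_)
  rw [Polynomial.eval₂_mul, Polynomial.eval₂_pow, Polynomial.eval₂_X, Polynomial.eval₂_C,
    GE.St_eq (hZ d)]
  rfl

/-- if `Σ_d x_0^(K-2d) St(Z_d)` is the Dickson element `G`, then `Σ_d Z_d` is `z(G)`. -/
theorem sum_eq {n K : ℕ} {Z : ℕ → S n} (hZ : ∀ d, (Z d).IsHomogeneous d) (G : D (n + 1))
    (hG : WW n K Z = GE.io (n + 1) G) :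
    ∑ d ∈ Finset.range (K / 2 + 1), Z d = GE.io n (z n G) := by
  rw [WW_eval₂ hZ, GE.io_succ] at hG
  have h1 : (GE.zx n G).eval₂ (((GE.Sta n).comp (GE.io n) : D n →ₐ[ZMod 2] S (n + 1)) :
      D n →+* S (n + 1)) (MvPolynomial.X 0) =
      Polynomial.eval₂ (GE.Sta n : S n →+* S (n + 1)) (MvPolynomial.X 0)
        ((GE.zx n G).map (GE.io n : D n →+* S n)) := by
    rw [Polynomial.eval₂_map]; rfl
  rw [h1] at hG
  have h2 := congrArg (Polynomial.eval 1) (GE.eval₂_Sta_injective n hG)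
  rw [Polynomial.eval_finsetSum] at h2
  simp only [Polynomial.eval_mul, Polynomial.eval_pow, Polynomial.eval_X, one_pow, one_mul,
    Polynomial.eval_C] at h2
  rw [h2, GE.z_eq, Polynomial.eval_map]
  have h3 := Polynomial.hom_eval₂ (GE.zx n G) (RingHom.id (D n)) (GE.io n : D n →+* S n) 1
  rw [RingHom.comp_id, map_one] at h3
  rw [← h3]
  rfl

/-- the total functional on `S n` -/
noncomputable def Ext.tot {n m N : ℕ} (E : Ext n m N) : S n →ₗ[ZMod 2] ZMod 2 :=
  ∑ b ∈ Finset.range N, E.θ (b + 1)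

theorem Ext.tot_eq {n m N : ℕ} (E : Ext n m N) (x : D n) :
    E.tot (GE.io n (q n 0 ^ m * x)) = E.coc.TH x := by
  unfold Ext.tot Coc.TH
  rw [LinearMap.sum_apply, LinearMap.sum_apply, Finset.sum_range_succ']
  have h0 : E.coc.th 0 x = 0 := by rw [E.coc.th_zero]; rfl
  rw [h0, add_zero]
  refine Finset.sum_congr rfl (fun b _ => ?_)
  exact (E.th_pos (by omega) x).symm

theorem Ext.tot_homog {n m K : ℕ} (E : Ext n m (K + 1)) {d : ℕ} (hd : d ≤ K) {Z : S n}
    (hZ : Z ∈ M n m) (hZd : Z.IsHomogeneous d) : E.tot Z = E.θ (K + 1 - d) Z := by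
  unfold Ext.tot
  rw [LinearMap.sum_apply, Finset.sum_eq_single (K - d)]
  · rw [show K - d + 1 = K + 1 - d by omega]
  · intro b _ hb
    exact E.degree (b + 1) d Z (by omega) hZ hZd (by omega)
  · intro h
    rw [Finset.mem_range] at h
    omega

theorem z_q0_pow (n m : ℕ) (G : D (n + 1)) : z n (q (n + 1) 0 ^ m * G) = q n 0 ^ m * z n G := by
  rw [map_mul, map_pow, ← zmap_eq_z, zmap_q]
  simp

/-- a homogeneous element of `M_{n,m}` comes from a homogeneous element of the abstract algebra -/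
theorem exists_hom {n m K : ℕ} {W : S n} (hW : W ∈ M n m) (hK : W.IsHomogeneous K) :
    ∃ G : D n, Hom n (K - m * (2 ^ n - 1)) G ∧ W = GE.io n (q n 0 ^ m * G) := by
  classical
  obtain ⟨G, rfl⟩ := mem_M.mp hW
  refine ⟨∑ e ∈ (supp G).filter (fun e => wtm e + m * (2 ^ n - 1) = K), mo e, ?_, ?_⟩
  · refine Hom.sum _ _ (fun e he => ?_)
    rw [Finset.mem_filter] at he
    exact (hom_mo e).congr (by linarith [he.2])
  · have h1 := MvPolynomial.homogeneousComponent_of_mem (m := K) hK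
    rw [if_pos rfl] at h1
    rw [← h1]
    conv_lhs => rw [eq_sum_mo G]
    rw [Finset.mul_sum, map_sum, map_sum, Finset.mul_sum, map_sum, Finset.sum_filter]
    refine Finset.sum_congr rfl (fun e _ => ?_)
    split_ifs with h
    · exact hc_of_eq (hom_mo e) h
    · exact hc_of_ne (hom_mo e) h

/-- **T1, geometric form.** -/
theorem excess_pos (n m K : ℕ) (hn : 1 ≤ n) (hm : 1 ≤ m) (E : Ext n m (K + 1)) (Z : ℕ → S n)
    (hZ : ∀ d, Z d ∈ M n m ∧ (Z d).IsHomogeneous d) (hW : WW n K Z ∈ M (n + 1) m) :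
    ∑ d ∈ Finset.range (K / 2 + 1), E.θ (K + 1 - d) (Z d) = 0 := by
  obtain ⟨G, hG, hWG⟩ := exists_hom hW (WW_homog (fun d => (hZ d).2))
  have h1 := sum_eq (fun d => (hZ d).2) _ hWG
  have h2 : ∑ d ∈ Finset.range (K / 2 + 1), E.θ (K + 1 - d) (Z d) =
      E.tot (∑ d ∈ Finset.range (K / 2 + 1), Z d) := by
    rw [map_sum]
    refine Finset.sum_congr rfl (fun d hd => ?_)
    rw [Finset.mem_range] at hd
    exact (E.tot_homog (by omega) (hZ d).1 (hZ d).2).symm
  rw [h2, h1, z_q0_pow, E.tot_eq]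
  exact T1_final hn E.coc hm _ G hG (by push_cast; ring)

theorem not_single_last {n : ℕ} (g : ℕ → D (n + 1)) (s : ℕ) :
    Finsupp.single (Fin.last n) s ∉ supp (∑ j ∈ Finset.range n, q (n + 1) j * g j) := by
  intro h
  refine (MvPolynomial.mem_support_iff.mp h) ?_
  have h1 : ∀ j ∈ Finset.range n, cf (Finsupp.single (Fin.last n) s) (q (n + 1) j * g j) = 0 := by
    intro j hj
    rw [Finset.mem_range] at hj
    rw [q_lt (by omega : j < n + 1)]
    have key : ∀ p : MvPolynomial (Fin (n + 1)) (ZMod 2),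
        MvPolynomial.coeff (Finsupp.single (Fin.last n) s)
          (MvPolynomial.X (⟨j, by omega⟩ : Fin (n + 1)) * p) = 0 := by
      intro p
      rw [MvPolynomial.coeff_X_mul', if_neg]
      intro hmem
      rw [Finsupp.mem_support_iff, Finsupp.single_apply] at hmem
      apply hmem
      rw [if_neg]
      intro h
      have := congrArg Fin.val h
      simp at this
      omega
    exact key (g j)
  have h2 : ∀ (t : Finset ℕ), (∀ j ∈ t, cf (Finsupp.single (Fin.last n) s)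
      (q (n + 1) j * g j) = 0) →
      cf (Finsupp.single (Fin.last n) s) (∑ j ∈ t, q (n + 1) j * g j) = 0 := by
    intro t
    induction t using Finset.induction_on with
    | empty => intro _; exact MvPolynomial.coeff_zero _
    | insert a t ha ih =>
      intro h
      rw [Finset.sum_insert ha]
      have e1 := h a (Finset.mem_insert_self _ _)
      have e2 := ih (fun j hj => h j (Finset.mem_insert_of_mem hj))
      exact (MvPolynomial.coeff_add _ _ _).trans (by
        change cf _ _ + cf _ _ = 0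
        rw [e1, e2, add_zero])
  exact h2 _ h1

/-- **T2, geometric form.** -/
theorem excess_zero (n K : ℕ) (hn : 2 ≤ n) (hK : 1 ≤ K) (E : Ext n 0 (K + 1)) (Z : ℕ → S n)
    (hZ : ∀ d, Z d ∈ M n 0 ∧ (Z d).IsHomogeneous d) (hW : WW n K Z ∈ M (n + 1) 0)
    (hexc : n ≤ 3 → (∀ r : ℕ, K ≠ (2 ^ r - 1) * 2 ^ n) ∨ ∃ G : ℕ → S (n + 1),
      (∀ j, G j ∈ Dick (n + 1)) ∧ WW n K Z = ∑ j ∈ Finset.range n, Q (n + 1) j * G j) :
    ∑ d ∈ Finset.range (K / 2 + 1), E.θ (K + 1 - d) (Z d) = 0 := by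
  obtain ⟨G, hG, hWG⟩ := exists_hom hW (WW_homog (fun d => (hZ d).2))
  have h1 := sum_eq (fun d => (hZ d).2) _ hWG
  have h2 : ∑ d ∈ Finset.range (K / 2 + 1), E.θ (K + 1 - d) (Z d) =
      E.tot (∑ d ∈ Finset.range (K / 2 + 1), Z d) := by
    rw [map_sum]
    refine Finset.sum_congr rfl (fun d hd => ?_)
    rw [Finset.mem_range] at hd
    exact (E.tot_homog (by omega) (hZ d).1 (hZ d).2).symm
  rw [h2, h1, z_q0_pow, E.tot_eq]
  have hG' : Hom (n + 1) K G := hG.congr (by push_cast; ring)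
  by_cases h3 : n ≤ 3 → ∀ r : ℕ, (K : ℤ) ≠ (2 ^ r - 1) * 2 ^ n
  · exact T2.T2_final hn E.coc (by exact_mod_cast hK) G hG' (by push_cast; ring) h3
  · push Not at h3
    obtain ⟨h3, r, hr⟩ := h3
    rcases hexc h3 with h4 | ⟨g, hg, hgW⟩
    · exfalso
      apply h4 r
      have h5 : (1 : ℕ) ≤ 2 ^ r := Nat.one_le_two_pow
      have : (K : ℤ) = (((2 ^ r - 1) * 2 ^ n : ℕ) : ℤ) := by
        rw [hr]; push_cast [h5]; ring
      exact_mod_cast this
    · choose g' hg' using fun j => mem_Dick.mp (hg j)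
      have h6 : G = ∑ j ∈ Finset.range n, q (n + 1) j * g' j := by
        apply GE.io_injective (n + 1)
        rw [pow_zero, one_mul] at hWG
        rw [← hWG, hgW, map_sum]
        refine Finset.sum_congr rfl (fun j hj => ?_)
        rw [Finset.mem_range] at hj
        rw [map_mul, hg' j, Q_eq (by omega)]
      rw [eq_sum_mo G, map_sum, map_sum]
      refine Finset.sum_eq_zero (fun e he => ?_)
      have hw := hom_wtm hG' he
      refine T2.T2_monomial hn E.coc e ?_ ?_ (by rw [hw]; push_cast; ring)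
      · rintro rfl
        rw [wtm_zero] at hw
        have : K = 0 := by exact_mod_cast hw.symm
        omega
      · rintro ⟨-, s, rfl⟩
        rw [h6] at he
        exact not_single_last g' _ he

end Vale.Agent.P263.F
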