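import Vale.Agent.P263.EX.T1Inst

/-!
P263, block C2 (Case 2, odd squares), helper320.

Let `y` be an annihilated functional of degree `w` on level `j` of the Dickson algebra, and let `c` be
a cocycle of level `j + 1` and degree `2 w + j + 1` (an extension of the submodule `q_0 D_n` of level
`j`), with `c.th (w + j + 1) x = y (q_0 x)`. Then `y` vanishes on the multiples of `q_0`.
For `j = 0` this is Case 2 (odd squares).
-/

namespace Vale.Agent.P263.EX

open Polynomial Vale.Agent.P263.LZ Vale.Agent.P263.EX.DS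

/-- `y` is a functional on level `m`, supported in degree `w`, killed by all operations. -/
structure Ann (n m w : ℕ) (y : D n →ₗ[ZMod 2] ZMod 2) : Prop where
  supp : ∀ (k : ℤ) (x : D n), Hom n k x → k + m * (2 ^ n - 1) ≠ w → y x = 0
  ann : ∀ (b : ℕ) (x : D n), 1 ≤ b → y (s n m b x) = 0

/-! ### annihilated functionals -/

namespace Ann

variable {n m w : ℕ} {y : D n →ₗ[ZMod 2] ZMod 2}

lemma del (f : DSFacts n m) (hy : Ann n m w y) :
    ∀ i, 1 ≤ i → i ≤ n → ∀ x, y (DS.del n m i x) = 0 := by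
  intro i
  induction i with
  | zero => intro h; omega
  | succ i ih =>
    intro _ hi x
    rcases Nat.eq_zero_or_pos i with h0 | h0
    · subst h0
      rw [show (0 + 1 : ℕ) = 1 from rfl, f.del_one]
      exact hy.ann 1 x le_rfl
    · rw [f.del_succ (by omega), map_add, hy.ann _ _ Nat.one_le_two_pow, ih h0 (by omega), zero_add]

/-- the parity of `e_0` in degree `w` -/
lemma parity (hn : 1 ≤ n) (e : Fin n →₀ ℕ) (hw : wtm e + m * (2 ^ n - 1) = w) :
    (e ⟨0, hn⟩ + m) % 2 = w % 2 := by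
  obtain ⟨k, hk⟩ := wtm_parity e hn
  have hp2 : ∃ r : ℤ, (2:ℤ) ^ n = 2 * r := ⟨2 ^ (n-1), by
    rw [← pow_succ']; congr 1; omega⟩
  obtain ⟨r, hr⟩ := hp2
  rw [hk, hr] at hw
  have h4 : (w : ℤ) = 2 * (k + m * r - m) + (e ⟨0, hn⟩ + m) := by linarith
  omega

/-- an annihilated functional with `w + m` odd sees only all-odd monomials. -/
lemma mo_eq (hn : 2 ≤ n) (f : DSFacts n m) (hy : Ann n m w y) (hpar : (w + m) % 2 = 1)
    (e : Fin n →₀ ℕ) (h : ¬ ∀ i, Odd (e i)) : y (mo e) = 0 := by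
  by_cases hw : wtm e + m * (2 ^ n - 1) = w
  · have hp := parity (by omega : 1 ≤ n) e hw
    have he0 : Odd (e ⟨0, by omega⟩) := by rw [Nat.odd_iff]; omega
    obtain ⟨i, hi⟩ := not_forall.mp h
    have hei := Nat.not_odd_iff_even.mp hi
    have hi1 : 1 ≤ (i : ℕ) := by
      by_contra hc
      have : i = ⟨0, by omega⟩ := Fin.ext (by simp; omega)
      rw [this] at hi; exact hi he0
    rw [mo_eq_del_lt m i hi1 e he0.pos hei]
    exact hy.del f i hi1 i.2.le _
  · exact hy.supp _ _ (hom_mo e) hw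

lemma oddPart_eq (hn : 2 ≤ n) (f : DSFacts n m) (hy : Ann n m w y) (hpar : (w + m) % 2 = 1)
    (x : D n) : y (oddPart x) = y x := by
  refine mo_induction (P := fun x => y (oddPart x) = y x) ?_ ?_ ?_ x
  · simp
  · intro a b ha hb; rw [map_add, map_add, map_add, ha, hb]
  · intro e
    by_cases h : ∀ i, Odd (e i)
    · rw [oddPart_mo_of h]
    · rw [oddPart_mo_not h, map_zero, hy.mo_eq hn f hpar e h]

/-- halving of an annihilated functional -/
lemma half (hn : 2 ≤ n) (F : T1Facts n) (f : DSFacts n m) (hy : Ann n m w y)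
    (hpar : (w + m) % 2 = 1) {mu w' : ℕ} (hmu : m + n = 2 * mu + 1) (hw : w = 2 * w' + n) :
    Ann n mu w' (sqComp y (piD n)) where
  supp k x hx h := by
    rw [sqComp_apply]
    refine hy.supp _ _ ((hom_pi n).mul (hx.pow 2)) ?_
    intro h2
    apply h
    have h3 : (m : ℤ) = 2 * mu + 1 - n := by
      have : ((m + n : ℕ) : ℤ) = 2 * mu + 1 := by rw [hmu]; push_cast; ring
      push_cast at this; linarith
    rw [h3, hw] at h2
    push_cast at h2
    have h4 : (2:ℤ) * (k + mu * (2 ^ n - 1)) = 2 * w' := by linarith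
    linarith
  ann b x hb := by
    rw [sqComp_apply, ← F.O_even m mu b x hmu, hy.oddPart_eq hn f hpar]
    exact hy.ann _ _ (by omega)

end Ann

/-! ### the square below the top -/

/-- `Sq^(|x|-1) x = Σ_i q_0 q_(i+1) (∂_i x)^2` -/
noncomputable def Lq (n : ℕ) (x : D n) : D n :=
  ∑ i ∈ Finset.range n, q n 0 * q n (i + 1) * (pdn n i x) ^ 2

lemma Lq_add {n : ℕ} (x y : D n) : Lq n (x + y) = Lq n x + Lq n y := by
  unfold Lq
  rw [← Finset.sum_add_distrib]
  refine Finset.sum_congr rfl fun i _ => ?_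
  rw [map_add, add_sq', mul_add]

lemma Lq_zero {n : ℕ} : Lq n 0 = 0 := by
  unfold Lq
  refine Finset.sum_eq_zero fun i _ => ?_
  rw [map_zero]; ring

lemma Lq_one {n : ℕ} : Lq n 1 = 0 := by
  unfold Lq
  refine Finset.sum_eq_zero fun i _ => ?_
  rw [Derivation.map_one_eq_zero]; ring

lemma Lq_mul {n : ℕ} (x y : D n) : Lq n (x * y) = Lq n x * y ^ 2 + x ^ 2 * Lq n y := by
  unfold Lq
  rw [Finset.sum_mul, Finset.mul_sum, ← Finset.sum_add_distrib]
  refine Finset.sum_congr rfl fun i _ => ?_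
  rw [Derivation.leibniz, smul_eq_mul, smul_eq_mul, add_sq']
  ring

def Inst2 (n : ℕ) (k : ℤ) (y : D n × (D n)[X]) : Prop :=
  Inst n k y ∧ (∀ a : ℕ, (a : ℤ) + 1 = k → y.2.coeff a = Lq n y.1) ∧ (k ≤ 0 → Lq n y.1 = 0)

lemma Inst2.zero (n : ℕ) (k : ℤ) : Inst2 n k 0 :=
  ⟨Inst.zero n k, by simp [Lq_zero], by simp [Lq_zero]⟩

lemma Inst2.one (n : ℕ) : Inst2 n 0 1 := by
  refine ⟨Inst.one n, fun a ha => by omega, fun _ => ?_⟩
  exact Lq_one

lemma Inst2.add {n : ℕ} {k : ℤ} {y y' : D n × (D n)[X]} (h : Inst2 n k y) (h' : Inst2 n k y') :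
    Inst2 n k (y + y') := by
  refine ⟨h.1.add h'.1, fun a ha => ?_, fun hk => ?_⟩
  · rw [Prod.snd_add, coeff_add, Prod.fst_add, h.2.1 a ha, h'.2.1 a ha, Lq_add]
  · rw [Prod.fst_add, Lq_add, h.2.2 hk, h'.2.2 hk, add_zero]

lemma Inst2.mul {n : ℕ} {k l : ℤ} {y y' : D n × (D n)[X]} (h : Inst2 n k y) (h' : Inst2 n l y') :
    Inst2 n (k + l) (y * y') := by
  rcases lt_or_ge k 0 with hk | hk
  · have h1 := h.1.eq_zero hk
    have h2 := h.1.2.2 hk
    have : y * y' = 0 := by ext1 <;> simp [h1, h2]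
    rw [this]; exact Inst2.zero _ _
  rcases lt_or_ge l 0 with hl | hl
  · have h1 := h'.1.eq_zero hl
    have h2 := h'.1.2.2 hl
    have : y * y' = 0 := by ext1 <;> simp [h1, h2]
    rw [this]; exact Inst2.zero _ _
  refine ⟨h.1.mul h'.1, fun a ha => ?_, fun hkl => ?_⟩
  · obtain ⟨k, rfl⟩ := Int.eq_ofNat_of_zero_le hk
    obtain ⟨l, rfl⟩ := Int.eq_ofNat_of_zero_le hl
    rw [Prod.fst_mul, Lq_mul, Prod.snd_mul, coeff_mul]
    have hpos : 0 < k + l := by omega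
    -- all terms vanish except `(k-1, l)` and `(k, l-1)`
    have hterm : ∀ p ∈ Finset.HasAntidiagonal.antidiagonal a, y.2.coeff p.1 * y'.2.coeff p.2 =
        (if p.1 + 1 = k then Lq n y.1 * y'.1 ^ 2 else 0) +
          (if p.1 = k then y.1 ^ 2 * Lq n y'.1 else 0) := by
      intro p hp
      have hp' : p.1 + p.2 = a := by simpa using hp
      by_cases h1 : p.1 + 1 = k
      · rw [if_pos h1, if_neg (by omega), add_zero, h.2.1 p.1 (by exact_mod_cast h1),
          h'.1.2.1 p.2 (by omega)]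
      · rw [if_neg h1, zero_add]
        by_cases h2 : p.1 = k
        · rw [if_pos h2, h.1.2.1 p.1 (by exact_mod_cast h2), h'.2.1 p.2 (by omega)]
        · rw [if_neg h2]
          rcases lt_or_ge k p.1 with h3 | h3
          · rw [h.1.1 p.1 (by exact_mod_cast h3), zero_mul]
          · rw [h'.1.1 p.2 (by omega), mul_zero]
    rw [Finset.sum_congr rfl hterm, Finset.sum_add_distrib]
    congr 1
    · rcases Nat.eq_zero_or_pos k with hk0 | hk0
      · subst hk0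
        rw [h.2.2 (by simp), zero_mul]
        refine Finset.sum_eq_zero fun p _ => ?_
        rw [if_neg (by omega)]
      · rw [Finset.sum_eq_single (k - 1, l)]
        · rw [if_pos (by simp; omega)]
        · intro p hp hne
          have hp' : p.1 + p.2 = a := by simpa using hp
          rw [if_neg]
          intro h1
          apply hne
          ext
          · simp; omega
          · simp; omega
        · intro hnm
          exact absurd (by simp; omega) hnm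
    · rcases Nat.eq_zero_or_pos l with hl0 | hl0
      · subst hl0
        rw [h'.2.2 (by simp), mul_zero]
        refine Finset.sum_eq_zero fun p hp => ?_
        rw [ite_self]
      · rw [Finset.sum_eq_single (k, l - 1)]
        · rw [if_pos rfl]
        · intro p hp hne
          have hp' : p.1 + p.2 = a := by simpa using hp
          rw [if_neg]
          intro h1
          apply hne
          ext
          · simp; omega
          · simp; omega
        · intro hnm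
          exact absurd (by simp; omega) hnm
  · rw [Prod.fst_mul, Lq_mul, h.2.2 (by omega), h'.2.2 (by omega)]; ring

lemma coeff_A_top (n j : ℕ) : (A n j).coeff (2 ^ j - 1) = q n 0 := by
  rw [A, finsetSum_coeff, Finset.sum_eq_single 0]
  · rw [pow_zero, coeff_C_mul_X_pow, if_pos rfl]
  · intro l hl hl0
    have h1 : 2 ^ l ≤ 2 ^ j := Nat.pow_le_pow_right (by norm_num) (by simp at hl; omega)
    have h2 : 2 ^ 1 ≤ 2 ^ l := Nat.pow_le_pow_right (by norm_num) (by omega)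
    rw [coeff_C_mul_X_pow, if_neg (by omega)]
  · intro h; exact absurd (by simp) h

lemma coeff_B_top {n j : ℕ} (h : j < n) : (B n j).coeff (2 ^ n - 2 ^ (j + 1)) = q n (j + 1) := by
  rw [B, finsetSum_coeff, Finset.sum_eq_single (j + 1)]
  · rw [coeff_C_mul_X_pow, if_pos rfl]
  · intro l hl hl0
    rw [Finset.mem_Ioc] at hl
    have h1 : 2 ^ l ≤ 2 ^ n := Nat.pow_le_pow_right (by norm_num) hl.2
    have h2 : 2 ^ (j + 1) < 2 ^ l := Nat.pow_lt_pow_right (by norm_num) (by omega)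
    rw [coeff_C_mul_X_pow, if_neg (by omega)]
  · intro h'; exact absurd (by simp; omega) h'

lemma Lq_gen {n : ℕ} (j : Fin n) : Lq n (gen j) = q n 0 * q n (j + 1) := by
  unfold Lq
  rw [Finset.sum_eq_single (j : ℕ)]
  · rw [gen_eq, pdn_q j.2 j.2, if_pos rfl]; ring
  · intro i hi hij
    rw [Finset.mem_range] at hi
    rw [gen_eq, pdn_q hi j.2, if_neg hij]; ring
  · intro h; exact absurd (Finset.mem_range.mpr j.2) h

lemma Inst2_gen (n : ℕ) (j : Fin n) : Inst2 n (w n j) (gen j, P n (gen j)) := by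
  have h2 : 2 ^ (j : ℕ) < 2 ^ n := Nat.pow_lt_pow_right (by norm_num) j.2
  refine ⟨Inst_gen n j, fun a ha => ?_, fun h => ?_⟩
  · have ha' : a + 1 = 2 ^ n - 2 ^ (j : ℕ) := by
      rw [w_cast] at ha; exact_mod_cast ha
    show (P n (gen j)).coeff a = Lq n (gen j)
    rw [P_gen, coeff_add, coeff_C_mul_X_pow, if_neg (by omega), zero_add, Lq_gen]
    have h3 : 2 ^ ((j : ℕ) + 1) ≤ 2 ^ n := Nat.pow_le_pow_right (by norm_num) j.2
    have h4 : 1 ≤ 2 ^ (j : ℕ) := Nat.one_le_two_pow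
    have h5 : a = (2 ^ (j : ℕ) - 1) + (2 ^ n - 2 ^ ((j : ℕ) + 1)) := by
      rw [pow_succ] at h3 ⊢; omega
    rw [h5, coeff_mul_add_eq_of_natDegree_le (natDegree_A n j) (natDegree_B), coeff_A_top,
      coeff_B_top j.2]
  · rw [w_cast] at h
    have : ((2 ^ n - 2 ^ (j : ℕ) : ℕ) : ℤ) ≤ ((0 : ℕ) : ℤ) := by simpa using h
    have := Int.ofNat_le.mp this
    omega

lemma Inst2_P {n : ℕ} {k : ℤ} {x : D n} (hx : Hom n k x) : Inst2 n k (x, P n x) := by
  refine hom_map (Inst2 n) (Inst2.zero n) (fun _ _ _ => Inst2.add) (Inst2.one n)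
    (fun _ _ _ _ => Inst2.mul) ((RingHom.id (D n)).prod (P n : D n →+* (D n)[X])) ?_ x k hx
  intro j
  exact Inst2_gen n j

/-- The square below the top. -/
theorem s_below_top {n : ℕ} {k : ℤ} {x : D n} (hx : Hom n k x) {a : ℕ} (ha : (a : ℤ) + 1 = k) :
    s n 0 a x = Lq n x := by
  rw [s_apply, pow_zero, one_mul]
  exact (Inst2_P hx).2.1 a ha

/-! ### the identity `Sq^2 (q_2 x^2) = q_1 x^2 + q_2 (Sq^1 x)^2` at level `1` -/

lemma coeff_F_small {n a : ℕ} (hn : 3 ≤ n) (ha1 : 1 ≤ a) (ha : a ≤ 2) : (F n).coeff a = 0 := by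
  rw [coeff_F]
  refine Finset.sum_eq_zero fun l hl => ?_
  rw [if_neg]
  intro h
  have hl' : l ≤ n := by simp at hl; omega
  rcases hl'.lt_or_eq with h1 | h1
  · have h2 : 2 ^ l ≤ 2 ^ (n - 1) := Nat.pow_le_pow_right (by norm_num) (by omega)
    have h3 : 2 ^ 2 ≤ 2 ^ (n - 1) := Nat.pow_le_pow_right (by norm_num) (by omega)
    have h4 : 2 ^ n = 2 * 2 ^ (n - 1) := by rw [← pow_succ']; congr 1; omega
    omega
  · subst h1; omega

lemma coeff_B2_small {n a : ℕ} (hn : 3 ≤ n) (ha1 : 1 ≤ a) (ha : a ≤ 2) : (B n 2).coeff a = 0 := by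
  rw [B, finsetSum_coeff]
  refine Finset.sum_eq_zero fun l hl => ?_
  rw [Finset.mem_Ioc] at hl
  rw [coeff_C_mul_X_pow, if_neg]
  intro h
  rcases hl.2.lt_or_eq with h1 | h1
  · have h2 : 2 ^ l ≤ 2 ^ (n - 1) := Nat.pow_le_pow_right (by norm_num) (by omega)
    have h3 : 2 ^ 2 ≤ 2 ^ (n - 1) := Nat.pow_le_pow_right (by norm_num) (by omega)
    have h4 : 2 ^ n = 2 * 2 ^ (n - 1) := by rw [← pow_succ']; congr 1; omega
    omega
  · subst h1; omega

lemma A_two_eq (n : ℕ) : A n 2 = C (q n 0) * X ^ 3 + C (q n 1) * X ^ 2 + C (q n 2) := by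
  rw [A, Finset.sum_range_succ, Finset.sum_range_succ, Finset.sum_range_one]
  norm_num

lemma coeff_two_mul {R : Type*} [Semiring R] (p r : R[X]) :
    (p * r).coeff 2 = p.coeff 0 * r.coeff 2 + p.coeff 1 * r.coeff 1 + p.coeff 2 * r.coeff 0 := by
  rw [coeff_mul, Finset.Nat.sum_antidiagonal_succ, Finset.Nat.sum_antidiagonal_succ,
    Finset.Nat.antidiagonal_zero, Finset.sum_singleton]
  simp [add_assoc]

lemma coeff_one_mul {R : Type*} [Semiring R] (p r : R[X]) :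
    (p * r).coeff 1 = p.coeff 0 * r.coeff 1 + p.coeff 1 * r.coeff 0 := by
  rw [coeff_mul, Finset.Nat.sum_antidiagonal_succ,
    Finset.Nat.antidiagonal_zero, Finset.sum_singleton]

lemma s12 {n : ℕ} (hn : 3 ≤ n) (x : D n) :
    s n 1 2 (q n 2 * x ^ 2) = q n 1 * x ^ 2 + q n 2 * (s n 0 1 x) ^ 2 := by
  have hA := A_two_eq n
  have hP2 : P n (q n 2) = C (q n 2 ^ 2) * X ^ (2 ^ n - 2 ^ 2) + A n 2 * B n 2 := by
    rw [← P_gen n ⟨2, by omega⟩, gen_eq]
  have h8 : 2 ^ 3 ≤ 2 ^ n := Nat.pow_le_pow_right (by norm_num) hn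
  have c0 : (P n (q n 2)).coeff 0 = q n 2 := P_coeff_zero _
  have c1 : (P n (q n 2)).coeff 1 = 0 := by
    rw [hP2, coeff_add, coeff_C_mul_X_pow, if_neg (by omega), zero_add, coeff_one_mul,
      coeff_B2_small hn le_rfl (by norm_num), hA]
    simp [coeff_C]
  have c2 : (P n (q n 2)).coeff 2 = q n 1 := by
    rw [hP2, coeff_add, coeff_C_mul_X_pow, if_neg (by omega), zero_add, coeff_two_mul,
      coeff_B2_small hn le_rfl (by norm_num), coeff_B2_small hn (by norm_num) le_rfl,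
      coeff_B_zero (by omega), hA]
    simp [coeff_C]
  have e1 : (P n x ^ 2).coeff 1 = 0 := by
    rw [pow_two, coeff_one_mul, mul_comm, add_self]
  have e2 : (P n x ^ 2).coeff 2 = (s n 0 1 x) ^ 2 := by
    rw [pow_two, coeff_two_mul, s_apply, pow_zero, one_mul, mul_comm ((P n x).coeff 0), add_right_comm,
      add_self, zero_add]
    ring
  have e0 : (P n x ^ 2).coeff 0 = x ^ 2 := by
    rw [pow_two, mul_coeff_zero, P_coeff_zero]; ring
  have g0 : (P n (q n 2) * P n x ^ 2).coeff 0 = q n 2 * x ^ 2 := by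
    rw [mul_coeff_zero, c0, e0]
  have g1 : (P n (q n 2) * P n x ^ 2).coeff 1 = 0 := by
    rw [coeff_one_mul, c1, e1]; ring
  have g2 : (P n (q n 2) * P n x ^ 2).coeff 2 = q n 1 * x ^ 2 + q n 2 * (s n 0 1 x) ^ 2 := by
    rw [coeff_two_mul, c0, c1, c2, e0, e1, e2]; ring
  rw [s_apply, pow_one, map_mul, map_pow, coeff_two_mul, g0, g1, g2,
    coeff_F_small hn le_rfl (by norm_num), coeff_F_small hn (by norm_num) le_rfl, coeff_F_zero]
  ring

/-! ### `th 2` -/

lemma pd_q_ne {n i l : ℕ} (hi : i < n) (h : l ≠ i) : pd n ⟨i, hi⟩ (q n l) = 0 := by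
  rcases lt_trichotomy l n with h1 | h1 | h1
  · rw [q_lt h1, pd_gen, if_neg]
    intro h2; exact h (by rw [Fin.mk.injEq] at h2; exact h2.symm)
  · subst h1; rw [q_self, Derivation.map_one_eq_zero]
  · rw [q_gt h1, map_zero]

lemma pd_q_self {n i : ℕ} (hi : i < n) : pd n ⟨i, hi⟩ (q n i) = 1 := by
  rw [q_lt hi, pd_gen, if_pos rfl]

lemma pd_sq {n : ℕ} (i : Fin n) (x : D n) : pd n i (x ^ 2) = 0 := der_sq _ x

/-- `q_0^2 q_l S^2`, `l ≠ 1`, is in the image of `del 1`. -/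
lemma del_one_form {n m l : ℕ} (hn : 2 ≤ n) (hl : l ≠ 1) (S : D n) :
    q n 0 ^ 2 * q n l * S ^ 2 = del n m 1 (q n 1 * (q n 0 * (q n l * S ^ 2))) := by
  rw [del_lt le_rfl (by omega : 1 < n)]
  simp only [Derivation.leibniz, smul_eq_mul, pd_sq, pd_q_ne (by omega : 1 < n) hl,
    pd_q_ne (by omega : 1 < n) (show (0 : ℕ) ≠ 1 by norm_num), pd_q_self (by omega : 1 < n)]
  ring

namespace Coc

variable {n m N : ℕ} (c : Coc n m N)

lemma th_two_del (hn : 2 ≤ n) (F : T1Facts n) (hka : ∀ i, 1 ≤ i → i ≤ n → c.ka i = 0) (x : D n) :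
    c.th 2 (del n m 1 x) = 0 := by
  rw [F.K2 m N c 1 2 x le_rfl (by omega) (by norm_num), hka 1 le_rfl (by omega),
    hka (1 + 1) (by norm_num) (by omega)]
  simp

lemma th_two_form (hn : 2 ≤ n) (F : T1Facts n) (hka : ∀ i, 1 ≤ i → i ≤ n → c.ka i = 0) {l : ℕ}
    (hl : l ≠ 1) (S : D n) : c.th 2 (q n 0 ^ 2 * q n l * S ^ 2) = 0 := by
  rw [del_one_form hn hl S, c.th_two_del hn F hka]

end Coc

/-! ### the main theorem -/

lemma wtm_odd_ge {n : ℕ} (e : Fin n →₀ ℕ) (he : ∀ i, Odd (e i)) : (n : ℤ) ≤ wtm e := by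
  unfold wtm
  have h : ∀ i ∈ (Finset.univ : Finset (Fin n)), (1 : ℤ) ≤ (e i : ℤ) * w n i := by
    intro i _
    have h1 : (1 : ℤ) ≤ e i := by exact_mod_cast (he i).pos
    have h2 : 0 < w n i := w_pos i
    nlinarith
  have := Finset.sum_le_sum h
  simpa using this

/-- degrees mod 4 of all-odd monomials -/
lemma wtm_mod_four_odd {n : ℕ} (hn : 2 ≤ n) (e : Fin n →₀ ℕ) (he : ∀ i, Odd (e i)) :
    ∃ k : ℤ, wtm e = 4 * k - e ⟨0, by omega⟩ - 2 := by
  obtain ⟨p, rfl⟩ : ∃ p, n = p + 2 := ⟨n - 2, by omega⟩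
  unfold wtm
  rw [Fin.sum_univ_succ, Fin.sum_univ_succ]
  have h : ∀ i : Fin p, ((e i.succ.succ : ℕ) : ℤ) * w (p+1+1) i.succ.succ =
      4 * ((e i.succ.succ : ℤ) * (2 ^ p - 2 ^ (i : ℕ))) := by
    intro i
    simp only [w, Fin.val_succ, pow_succ]; ring
  rw [Finset.sum_congr rfl (fun i _ => h i), ← Finset.mul_sum]
  obtain ⟨b, hb⟩ := he (Fin.succ 0)
  have h0 : e ⟨0, by omega⟩ = e 0 := rfl
  rw [h0, hb]
  refine ⟨(e 0 : ℤ) * 2 ^ p + (2 * b + 1) * 2 ^ p - b +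
    ∑ i : Fin p, (e i.succ.succ : ℤ) * (2 ^ p - 2 ^ (i : ℕ)), ?_⟩
  simp only [w, Fin.val_succ, Fin.val_zero, pow_succ, pow_zero]
  push_cast
  ring

lemma sum_range_pos {M : Type*} [AddCommMonoid M] (f : ℕ → M) {k : ℕ} (hk : 0 < k) :
    ∑ i ∈ Finset.range k, f i = ∑ i ∈ Finset.range (k - 1), f (i + 1) + f 0 := by
  obtain ⟨p, rfl⟩ : ∃ p, k = p + 1 := ⟨k - 1, by omega⟩
  exact Finset.sum_range_succ' f p

lemma pdn_zero_q0_mul {n : ℕ} (hz : 0 < n) (e : Fin n →₀ ℕ) (h0 : Even (e ⟨0, hz⟩)) :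
    pdn n 0 (q n 0 * mo e) = mo e := by
  rw [pdn, dif_pos hz, Derivation.leibniz, smul_eq_mul, smul_eq_mul, pd_q_self hz, pd_mo,
    even_mul_D h0, mul_zero, zero_add, mul_one]

lemma pdn_succ_q0_mul {n i : ℕ} (hi : i + 1 < n) (x : D n) :
    pdn n (i + 1) (q n 0 * x) = q n 0 * pdn n (i + 1) x := by
  rw [pdn, dif_pos hi, Derivation.leibniz, smul_eq_mul, smul_eq_mul,
    pd_q_ne hi (by omega), mul_zero, add_zero]

lemma Lq_q0_mul {n : ℕ} (hz : 0 < n) (e : Fin n →₀ ℕ) (h0 : Even (e ⟨0, hz⟩)) :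
    Lq n (q n 0 * mo e) = q n 0 * (q n 1 * mo e ^ 2 +
      ∑ i ∈ Finset.range (n - 1), q n 0 ^ 2 * q n (i + 1 + 1) * (pdn n (i + 1) (mo e)) ^ 2) := by
  unfold Lq
  rw [sum_range_pos _ hz, pdn_zero_q0_mul hz e h0, mul_add, Finset.mul_sum]
  refine (add_comm _ _).trans ?_
  refine congrArg₂ (· + ·) (mul_assoc _ _ _) (Finset.sum_congr rfl fun i hi => ?_)
  rw [Finset.mem_range] at hi
  rw [pdn_succ_q0_mul (by omega), mul_pow]
  ring

/-- The square below the top at level `1`, for even `e_0`. -/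
lemma s_one_below {n : ℕ} (hz : 0 < n) (e : Fin n →₀ ℕ) (h0 : Even (e ⟨0, hz⟩)) {a : ℕ}
    (ha : (a : ℤ) + 1 = wtm e + (2 ^ n - 1)) :
    s n 1 a (mo e) = q n 1 * mo e ^ 2 +
      ∑ i ∈ Finset.range (n - 1), q n 0 ^ 2 * q n (i + 1 + 1) * (pdn n (i + 1) (mo e)) ^ 2 := by
  have hx : Hom n (wtm e + (2 ^ n - 1)) (q n 0 * mo e) :=
    ((Hom.q n 0).mul (hom_mo e)).congr (by ring)
  apply mul_left_cancel₀ (q0_ne n)
  rw [← Lq_q0_mul hz e h0, ← s_below_top hx ha, s_q0]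

/-- Base case, level `1`: the square below the top of an element with even `e_0`. -/
lemma base_zero {n N : ℕ} (hn : 3 ≤ n) (F : T1Facts n) (f : ∀ m, DSFacts n m) (c : Coc n 1 N)
    (hka : ∀ i, 1 ≤ i → i ≤ n → c.ka i = 0) (e : Fin n →₀ ℕ) (hz : 0 < n) (h0 : Even (e ⟨0, hz⟩))
    {a : ℕ} (ha : (a : ℤ) + 1 = wtm e + (2 ^ n - 1)) : c.th 2 (s n 1 a (mo e)) = 0 := by
  have hform := fun (l : ℕ) (hl : l ≠ 1) (S : D n) => c.th_two_form (by omega) F hka hl S
  have h5 : q n 1 * mo e ^ 2 = s n 1 2 (q n 2 * mo e ^ 2) +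
      q n 0 ^ 2 * q n 2 * (pd n ⟨1, by omega⟩ (mo e)) ^ 2 := by
    rw [s12 hn (mo e), ← (f 0).del_one, del_lt le_rfl (by omega : 1 < n)]
    have := add_self (q n 0 ^ 2 * q n 2 * (pd n ⟨1, by omega⟩ (mo e)) ^ 2)
    linear_combination -this
  have h6 : c.th 2 (s n 1 2 (q n 2 * mo e ^ 2)) = 0 := by
    rw [c.adem_22 (f 1) (by omega), F.K1 1 N c 3 _ ⟨1, rfl⟩, hka 1 le_rfl (by omega)]
    rfl
  rw [s_one_below hz e h0 ha, map_add, map_sum,
    Finset.sum_eq_zero (fun i _ => hform (i + 1 + 1) (by omega) _), add_zero,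
    h5, map_add, hform 2 (by norm_num), add_zero, h6]

/-- an all-odd monomial with `e_0 ≥ 3` -/
lemma mo_odd_sq {n : ℕ} (hn : 1 ≤ n) (e : Fin n →₀ ℕ) (hall : ∀ i, Odd (e i))
    (h0 : 3 ≤ e ⟨0, hn⟩) : ∃ h : Fin n →₀ ℕ, mo e = piD n * (q n 0 * mo h) ^ 2 := by
  obtain ⟨h, hh⟩ : ∃ h : Fin n →₀ ℕ, ∀ i, e i = 2 * h i + 1 := by
    refine ⟨Finsupp.equivFunOnFinite.symm (fun i => e i / 2), fun i => ?_⟩
    have := Nat.odd_iff.mp (hall i)
    simp only [Finsupp.equivFunOnFinite_symm_apply_apply]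
    omega
  have hh0 : 1 ≤ h ⟨0, hn⟩ := by
    have := hh ⟨0, hn⟩
    omega
  refine ⟨h - Finsupp.single ⟨0, hn⟩ 1, ?_⟩
  have hs : Finsupp.single (⟨0, hn⟩ : Fin n) 1 + (h - Finsupp.single (⟨0, hn⟩ : Fin n) 1) = h := by
    ext i
    rw [Finsupp.add_apply, Finsupp.tsub_apply, Finsupp.single_apply]
    split_ifs with h5
    · subst h5; omega
    · omega
  rw [q_zero_eq hn, mo_mul, hs, mo_pow, piD_eq_mo, mo_mul]
  congr 1
  ext i
  rw [Finsupp.add_apply, Finsupp.finsetSum_apply, Finset.sum_eq_single i, Finsupp.smul_apply,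
    Finsupp.single_apply, hh i, if_pos rfl, smul_eq_mul, add_comm]
  · intro b _ hb; rw [Finsupp.single_apply, if_neg hb]
  · intro h; exact absurd (Finset.mem_univ _) h

/-- the normalised cocycle -/
lemma T3_norm {n : ℕ} (hn : 2 ≤ n) (F : T1Facts n) (f : ∀ m, DSFacts n m) (w j : ℕ)
    (c : Coc n (j + 1) (2 * w + j + 1)) : ∃ c' : Coc n (j + 1) (2 * w + j + 1),
      (∀ x, c'.th (w + j + 1) x = c.th (w + j + 1) x) ∧ (∀ i, 1 ≤ i → i ≤ n → c'.ka i = 0) ∧
        (∀ a, Odd a → c'.th a = 0) := by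
  obtain ⟨l, hl, hka⟩ := lemmaL_even_coc (by omega) (f (j + 1)) c (by omega)
  refine ⟨c.cob (f (j + 1)) l hl, ?_, hka, ?_⟩
  · intro x
    refine mo_induction (P := fun x => (c.cob (f (j + 1)) l hl).th (w + j + 1) x =
      c.th (w + j + 1) x) ?_ ?_ ?_ x
    · simp
    · intro a b ha hb; rw [map_add, map_add, ha, hb]
    · intro e
      by_cases hw : wtm e + (j + 1 : ℕ) * (2 ^ n - 1) + (w + j + 1 : ℕ) = (2 * w + j + 1 : ℕ)
      · refine c.cob_th_of_lt (f (j + 1)) (by omega) (hom_mo e) ?_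
        push_cast at hw ⊢
        linarith
      · rw [(c.cob (f (j + 1)) l hl).supp _ _ _ (hom_mo e) hw, c.supp _ _ _ (hom_mo e) hw]
  · intro a ha
    ext x
    rw [F.K1 _ _ _ a x ha, hka 1 le_rfl (by omega)]; rfl

/-- the case `w + j + 1 = 2 mod 4` -/
lemma T3_two {n : ℕ} (hn : 2 ≤ n) (F : T1Facts n) (f : ∀ m, DSFacts n m) (w j : ℕ)
    (c : Coc n (j + 1) (2 * w + j + 1)) (hka : ∀ i, 1 ≤ i → i ≤ n → c.ka i = 0)
    (hodd : ∀ a, Odd a → c.th a = 0) (hnj : (j + n) % 2 = 1) (g : Fin n →₀ ℕ)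
    (hz : 0 < n) (hg0 : Even (g ⟨0, hz⟩)) (hxw : wtm g + (j + 1 : ℕ) * (2 ^ n - 1) = w)
    (hw : 2 ≤ w) (h42 : (w + j + 1) % 4 = 2) : c.th (w + j + 1) (mo g) = 0 := by
  have hx : Hom n (wtm g) (mo g) := hom_mo g
  rw [c.adem_mod4 (f (j + 1)) (by omega) (by omega) h42,
    hodd (w + j + 1 - 1) (by rw [Nat.odd_iff]; omega), LinearMap.zero_apply, zero_add]
  rcases Nat.lt_or_ge j 2 with hj | hj
  · rcases Nat.eq_zero_or_pos j with hj0 | hj0
    · subst hj0
      refine base_zero (by omega) F f c hka g hz hg0 ?_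
      have : ((w + 0 + 1 - 2 : ℕ) : ℤ) = w - 1 := by omega
      rw [this, ← hxw]; push_cast; ring
    · have hj1 : j = 1 := by omega
      subst hj1
      rw [s_top hx (m := 1 + 1) (a := w + 1 + 1 - 2) (by
        rw [show w + 1 + 1 - 2 = w by omega, ← hxw])]
      have h6 := c.th_two_form hn F hka (l := n) (by omega) (mo g)
      rw [q_self, mul_one] at h6
      exact h6
  · rw [s_eq_zero hx (m := j + 1) (a := w + j + 1 - 2) ?_, map_zero]
    rw [hxw]
    have : ((w + j + 1 - 2 : ℕ) : ℤ) = w + j - 1 := by omega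
    rw [this]
    have : (2 : ℤ) ≤ j := by exact_mod_cast hj
    linarith

/-- halving of the cocycle -/
lemma T3_half {n : ℕ} (hn : 2 ≤ n) (F : T1Facts n) (f : ∀ m, DSFacts n m) (w j w' mu : ℕ)
    (c : Coc n (j + 1) (2 * w + j + 1)) (hka : ∀ i, 1 ≤ i → i ≤ n → c.ka i = 0)
    (hmu : j + n = 2 * mu + 1) (hw' : w = 2 * w' + n) :
    ∃ c' : Coc n (mu + 1) (2 * w' + mu + 1), ∀ x,
      c'.th (w' + mu + 1) x = c.th (w + j + 1) (q n 0 * (piD n * x ^ 2)) := by
  have hka1 : ∀ i, 1 ≤ i → i ≤ n → (c.shift 1).ka i = 0 := by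
    intro i hi1 hi
    ext x
    rw [c.shift_ka 1 (f _) (f _) (by omega) hi1 (by omega), hka i hi1 hi]; rfl
  obtain ⟨ho, hO⟩ := th_oddPart (by omega) F (c.shift 1) (by omega) hka1
  refine ⟨(c.shift 1).double F (mu + 1) (2 * w' + mu + 1) (by omega) (by omega) ho hO, fun x => ?_⟩
  show c.th (2 * (w' + mu + 1)) (q n 0 ^ 1 * (piD n * x ^ 2)) = _
  rw [show 2 * (w' + mu + 1) = w + j + 1 by omega, pow_one]

theorem T3_aux (n : ℕ) (hn : 2 ≤ n) (F : T1Facts n) (f : ∀ m, DSFacts n m) :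
    ∀ (w j : ℕ) (c : Coc n (j + 1) (2 * w + j + 1)) (y : D n →ₗ[ZMod 2] ZMod 2), Ann n j w y →
      (∀ x, y (q n 0 * x) = c.th (w + j + 1) x) → ∀ x, y (q n 0 * x) = 0 := by
  intro w
  induction w using Nat.strong_induction_on with
  | _ w ih =>
  intro j c y hy hc x
  have hz : 0 < n := by omega
  obtain ⟨c', hsame, hka, hodd⟩ := T3_norm hn F f w j c
  -- reduce to monomials
  refine mo_induction (P := fun x => y (q n 0 * x) = 0) ?_ ?_ ?_ x
  · simp
  · intro a b ha hb; rw [mul_add, map_add, ha, hb, add_zero]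
  intro g
  by_cases hpar : (w + j) % 2 = 1
  swap
  · -- `w + j + 1` odd
    rw [hc, ← hsame, hodd _ (by rw [Nat.odd_iff]; omega)]; rfl
  have hqe : q n 0 * mo g = mo (Finsupp.single ⟨0, hz⟩ 1 + g) := by
    rw [q_zero_eq hz, mo_mul]
  obtain ⟨e, he⟩ : ∃ e : Fin n →₀ ℕ, e = Finsupp.single ⟨0, hz⟩ 1 + g := ⟨_, rfl⟩
  rw [← he] at hqe
  by_cases hall : ∀ i, Odd (e i)
  swap
  · rw [hqe, hy.mo_eq hn (f j) hpar e hall]
  by_cases hnj : (j + n) % 2 = 1
  swap
  · rw [hqe, mo_eq_del_n j (by omega) e hall (by rw [Nat.even_iff]; omega)]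
    exact hy.del (f j) n (by omega) le_rfl _
  by_cases hw : wtm e + j * (2 ^ n - 1) = w
  swap
  · rw [hqe]; exact hy.supp _ _ (hom_mo e) hw
  have hwn : n ≤ w := by
    have h1 := wtm_odd_ge e hall
    have h2 := Coc.level_nonneg j n
    have : (n : ℤ) ≤ w := by linarith
    exact_mod_cast this
  obtain ⟨k, hk⟩ := wtm_mod_four_odd hn e hall
  rcases Nat.lt_or_ge ((w + j + 1) % 4) 2 with h4 | h4
  · -- `w + j + 1 = 0 mod 4`: halving
    have he3 : 3 ≤ e ⟨0, hz⟩ := by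
      obtain ⟨p, hp⟩ : ∃ p, n = p + 2 := ⟨n - 2, by omega⟩
      have h1 : (w : ℤ) = 4 * (k + j * 2 ^ p) - j - e ⟨0, by omega⟩ - 2 := by
        rw [← hw, hk]
        have : (2 : ℤ) ^ n = 4 * 2 ^ p := by rw [hp, pow_add]; ring
        rw [this]; ring
      omega
    obtain ⟨mu, hmu⟩ : ∃ mu, j + n = 2 * mu + 1 := ⟨(j + n) / 2, by omega⟩
    obtain ⟨w', hw'⟩ : ∃ w', w = 2 * w' + n := ⟨(w - n) / 2, by omega⟩
    obtain ⟨c'', hc''⟩ := T3_half hn F f w j w' mu c' hka hmu hw'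
    have hy' : Ann n mu w' (sqComp y (piD n)) := hy.half hn F (f j) hpar hmu hw'
    obtain ⟨h, hmoe⟩ := mo_odd_sq hz e hall he3
    have key := ih w' (by omega) mu c'' (sqComp y (piD n)) hy' (fun x => by
      rw [hc'', hsame, ← hc, sqComp_apply]
      congr 1
      ring) (mo h)
    rw [hqe, hmoe]
    exact key
  · -- `w + j + 1 = 2 mod 4`
    rw [hc, ← hsame]
    refine T3_two hn F f w j c' hka hodd hnj g hz ?_ ?_ (by omega) (by omega)
    · have h1 := Nat.odd_iff.mp (hall ⟨0, hz⟩)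
      have h2 : e ⟨0, hz⟩ = 1 + g ⟨0, hz⟩ := by
        rw [he, Finsupp.add_apply, Finsupp.single_apply, if_pos rfl]
      rw [Nat.even_iff]; omega
    · have hwe : wtm e = (2 ^ n - 1) + wtm g := by
        rw [he, wtm_add, wtm_single]; simp only [LZ.w, pow_zero]; ring
      rw [← hw, hwe]; push_cast; ring

/-- **T3** (Case 2, all levels). `y` is an annihilated functional of degree `w` on level `j`; `c` is a
cocycle of level `j + 1` (an extension of the multiples of `q_0` in level `j`), of degree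
`2 w + j + 1`, whose operation of degree `w + j + 1` is given by `y`.  Then `y` vanishes on the
multiples of `q_0`. -/
theorem T3 (n : ℕ) (hn : 2 ≤ n) (F : T1Facts n) (f : ∀ m, DSFacts n m) (w j : ℕ)
    (c : Coc n (j + 1) (2 * w + j + 1)) (y : D n →ₗ[ZMod 2] ZMod 2) (hy : Ann n j w y)
    (hc : ∀ x, y (q n 0 * x) = c.th (w + j + 1) x) (x : D n) : y (q n 0 * x) = 0 :=
  T3_aux n hn F f w j c y hy hc x

end Vale.Agent.P263.EX
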