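import Vale.Agent.P263.EX.FBridge
import Vale.Agent.P263.EX.T3

/-!
P263: the odd-square theorem T3 in geometric form.
-/

namespace Vale.Agent.P263.F

open Vale.Agent.P263.LZ Vale.Agent.P263.EX Vale.Agent.P263.EX.DS

/-- for homogeneous `x` the element `io (q_0^m x)` is homogeneous -/
theorem io_level_homog {n m : ℕ} {k : ℤ} {x : D n} (hx : Hom n k x) {d : ℕ}
    (hd : k + m * (2 ^ n - 1) = d) : (GE.io n (q n 0 ^ m * x)).IsHomogeneous d := by
  refine GE.io_homog d _ ?_
  rw [← hd]; exact Hom_q0_pow m hx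

/-- degree `w` part of `io (q_0^m x)` for homogeneous `x` -/
theorem hc_of_eq {n m w : ℕ} {k : ℤ} {x : D n} (hx : Hom n k x)
    (hd : k + m * (2 ^ n - 1) = w) :
    MvPolynomial.homogeneousComponent w (GE.io n (q n 0 ^ m * x)) = GE.io n (q n 0 ^ m * x) := by
  have h := io_level_homog hx hd
  rw [MvPolynomial.homogeneousComponent_of_mem h, if_pos rfl]

theorem hc_of_ne {n m w : ℕ} {k : ℤ} {x : D n} (hx : Hom n k x)
    (hd : k + m * (2 ^ n - 1) ≠ w) :
    MvPolynomial.homogeneousComponent w (GE.io n (q n 0 ^ m * x)) = 0 := by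
  rcases lt_or_ge k 0 with hk | hk
  · rw [hx.eq_zero_of_neg hk, mul_zero, map_zero, map_zero]
  · obtain ⟨d, hd'⟩ : ∃ d : ℕ, k + m * (2 ^ n - 1) = (d : ℤ) :=
      ⟨(k + m * (2 ^ n - 1)).toNat, (Int.toNat_of_nonneg
        (add_nonneg hk (mul_nonneg (Int.natCast_nonneg _) (two_pow_sub_one_nonneg n)))).symm⟩
    have h := io_level_homog hx hd'
    rw [MvPolynomial.homogeneousComponent_of_mem h, if_neg]
    rintro rfl
    exact hd hd'

/-- the functional `x ↦ y(degree w part of q_0^j x)` on the abstract Dickson algebra -/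
noncomputable def yj (n j w : ℕ) (y : S n →ₗ[ZMod 2] ZMod 2) : D n →ₗ[ZMod 2] ZMod 2 :=
  y.comp ((MvPolynomial.homogeneousComponent w).comp
    ((GE.io n).toLinearMap.comp (LinearMap.mulLeft (ZMod 2) (q n 0 ^ j))))

theorem yj_apply (n j w : ℕ) (y : S n →ₗ[ZMod 2] ZMod 2) (x : D n) :
    yj n j w y x = y (MvPolynomial.homogeneousComponent w (GE.io n (q n 0 ^ j * x))) := rfl

theorem ann_yj {n j w : ℕ} {y : S n →ₗ[ZMod 2] ZMod 2}
    (hy : ∀ (a d : ℕ) (x : S n), 1 ≤ a → d + a = w → x ∈ M n j → x.IsHomogeneous d →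
      y (Sq n a x) = 0) : Ann n j w (yj n j w y) where
  supp := by
    intro k x hx hk
    rw [yj_apply, hc_of_ne hx hk, map_zero]
  ann := by
    intro b x hb
    refine mo_induction (P := fun x => yj n j w y (s n j b x) = 0) ?_ ?_ ?_ x
    · simp
    · intro u v hu hv; rw [map_add, map_add, hu, hv, add_zero]
    · intro e
      have he := hom_mo e
      have hs : Hom n (wtm e + b) (s n j b (mo e)) := s_hom he j b
      rw [yj_apply]
      by_cases hk : wtm e + b + j * (2 ^ n - 1) = w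
      · rw [hc_of_eq hs hk, ← GE.Sq_io_level, ← Sq_eq]
        obtain ⟨d, hd⟩ : ∃ d : ℕ, wtm e + j * (2 ^ n - 1) = (d : ℤ) :=
          ⟨(wtm e + j * (2 ^ n - 1)).toNat, (Int.toNat_of_nonneg
            (add_nonneg (wtm_nonneg e)
              (mul_nonneg (Int.natCast_nonneg _) (two_pow_sub_one_nonneg n)))).symm⟩
        refine hy b d _ hb ?_ (mem_M.mpr ⟨mo e, rfl⟩) (io_level_homog he hd)
        have : (d : ℤ) + b = w := by rw [← hd, ← hk]; ring
        exact_mod_cast this
      · rw [hc_of_ne hs hk, map_zero]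

/-- **T3, geometric form.** -/
theorem odd_squares (n j w : ℕ) (hn : 2 ≤ n) (E : Ext n (j + 1) (2 * w + j + 1))
    (y : S n →ₗ[ZMod 2] ZMod 2)
    (hy : ∀ (a d : ℕ) (x : S n), 1 ≤ a → d + a = w → x ∈ M n j → x.IsHomogeneous d →
      y (Sq n a x) = 0)
    (hE : ∀ x ∈ M n (j + 1), x.IsHomogeneous w → E.θ (w + j + 1) x = y x) :
    ∀ x ∈ M n (j + 1), x.IsHomogeneous w → y x = 0 := by
  intro z hz hzw
  obtain ⟨x, rfl⟩ := mem_M.mp hz
  have key : ∀ x : D n, yj n j w y (q n 0 * x) = E.coc.th (w + j + 1) x := by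
    intro x
    refine mo_induction (P := fun x => yj n j w y (q n 0 * x) = E.coc.th (w + j + 1) x) ?_ ?_ ?_ x
    · simp
    · intro u v hu hv; rw [mul_add, map_add, map_add, hu, hv]
    · intro e
      have he := hom_mo e
      have h1 : GE.io n (q n 0 ^ j * (q n 0 * mo e)) = GE.io n (q n 0 ^ (j + 1) * mo e) := by
        congr 1; ring
      rw [yj_apply, h1]
      by_cases hk : wtm e + ((j + 1 : ℕ) : ℤ) * (2 ^ n - 1) = w
      · rw [hc_of_eq he hk]
        show _ = E.th (w + j + 1) (mo e)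
        rw [E.th_pos (by omega), hE _ (mem_M.mpr ⟨mo e, rfl⟩) (io_level_homog he hk)]
      · rw [hc_of_ne he hk, map_zero]
        refine (E.coc.supp (w + j + 1) _ _ he ?_).symm
        intro h
        apply hk
        push_cast at h ⊢
        linarith
  have h3 := T3 n hn (t1Facts (by omega)) (fun m => dsFacts (by omega) m) w j E.coc
    (yj n j w y) (ann_yj hy) key x
  rw [yj_apply] at h3
  have h1 : GE.io n (q n 0 ^ j * (q n 0 * x)) = GE.io n (q n 0 ^ (j + 1) * x) := by
    congr 1; ring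
  rw [h1, MvPolynomial.homogeneousComponent_of_mem hzw, if_pos rfl] at h3
  exact h3

end Vale.Agent.P263.F
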