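import Mathlib

/-!
# Block GE, part 1: the coefficients of the product of `Y + v` over the span of `x_0, ..., x_{n-1}`

`dc n x j` is the coefficient of `Y ^ (2 ^ j)` in the product of `Y + v` over all `2 ^ n`
combinations `v` of the elements `x_0, ..., x_{n-1}` of a commutative ring of characteristic two
(the `j`-th Dickson element of `x`), with the formula for its behaviour under
`x_i ↦ x_i + u * x_i ^ 2`.
-/

namespace Vale.Agent.P263.EX.GE

open Finset

section gen

variable {R : Type*} [CommRing R]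

/-- The `j`-th Dickson element of `x_0, ..., x_{n-1}`, by recursion on `n`. -/
def dc : (n : ℕ) → (Fin n → R) → ℕ → R
  | 0, _, j => if j = 0 then 1 else 0
  | n + 1, x, j => (if j = 0 then 0 else dc n (fun i => x i.succ) (j - 1) ^ 2) +
      (∑ l ∈ range (n + 1), dc n (fun i => x i.succ) l * x 0 ^ (2 ^ l)) *
        dc n (fun i => x i.succ) j

/-- The value of the Dickson polynomial of `x` at `y`. -/
def dv (n : ℕ) (x : Fin n → R) (y : R) : R := ∑ l ∈ range (n + 1), dc n x l * y ^ (2 ^ l)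

lemma dc_zero (x : Fin 0 → R) (j : ℕ) : dc 0 x j = if j = 0 then 1 else 0 := rfl

lemma dc_succ_zero (n : ℕ) (x : Fin (n + 1) → R) :
    dc (n + 1) x 0 = dv n (fun i => x i.succ) (x 0) * dc n (fun i => x i.succ) 0 := by
  rw [dc, if_pos rfl, zero_add, dv]

lemma dc_succ_succ (n : ℕ) (x : Fin (n + 1) → R) (j : ℕ) :
    dc (n + 1) x (j + 1) = dc n (fun i => x i.succ) j ^ 2 +
      dv n (fun i => x i.succ) (x 0) * dc n (fun i => x i.succ) (j + 1) := by
  rw [dc, if_neg (Nat.succ_ne_zero j), Nat.add_sub_cancel, dv]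

lemma dc_gt : ∀ (n : ℕ) (x : Fin n → R) (j : ℕ), n < j → dc n x j = 0 := by
  intro n
  induction n with
  | zero =>
    intro x j hj
    rw [dc_zero, if_neg (by omega)]
  | succ n ih =>
    intro x j hj
    obtain ⟨j, rfl⟩ : ∃ i, j = i + 1 := ⟨j - 1, by omega⟩
    rw [dc_succ_succ, ih _ j (by omega), ih _ (j + 1) (by omega)]
    ring

lemma dc_self : ∀ (n : ℕ) (x : Fin n → R), dc n x n = 1 := by
  intro n
  induction n with
  | zero => intro x; rw [dc_zero, if_pos rfl]
  | succ n ih =>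
    intro x
    rw [dc_succ_succ, ih, dc_gt n _ (n + 1) (by omega)]
    ring

lemma dc_map {R' : Type*} [CommRing R'] (φ : R →+* R') : ∀ (n : ℕ) (x : Fin n → R) (j : ℕ),
    φ (dc n x j) = dc n (fun i => φ (x i)) j := by
  intro n
  induction n with
  | zero =>
    intro x j
    rw [dc_zero, dc_zero]
    split_ifs <;> simp
  | succ n ih =>
    intro x j
    have hdv : φ (dv n (fun i => x i.succ) (x 0)) =
        dv n (fun i => φ (x i.succ)) (φ (x 0)) := by
      unfold dv
      rw [map_sum]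
      refine Finset.sum_congr rfl (fun l _ => ?_)
      rw [map_mul, map_pow, ih]
    rcases j with _ | j
    · rw [dc_succ_zero, dc_succ_zero, map_mul, hdv, ih]
    · rw [dc_succ_succ, dc_succ_succ, map_add, map_mul, map_pow, hdv, ih, ih]

lemma dv_map {R' : Type*} [CommRing R'] (φ : R →+* R') (n : ℕ) (x : Fin n → R) (y : R) :
    φ (dv n x y) = dv n (fun i => φ (x i)) (φ y) := by
  unfold dv
  rw [map_sum]
  refine Finset.sum_congr rfl (fun l _ => ?_)
  rw [map_mul, map_pow, dc_map]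

/-- Restriction to the hyperplane on which the first variable vanishes. -/
lemma dc_cons_zero (n : ℕ) (x : Fin n → R) (j : ℕ) :
    dc (n + 1) (Fin.cons 0 x : Fin (n + 1) → R) (j + 1) = dc n x j ^ 2 := by
  rw [dc_succ_succ]
  have : dv n (fun i => (Fin.cons 0 x : Fin (n + 1) → R) i.succ)
      ((Fin.cons 0 x : Fin (n + 1) → R) 0) = 0 := by
    unfold dv
    refine Finset.sum_eq_zero (fun l _ => ?_)
    rw [Fin.cons_zero, zero_pow (pow_ne_zero _ (by norm_num)), mul_zero]
  rw [this, zero_mul, add_zero]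
  simp only [Fin.cons_succ]

lemma dc_cons_zero_zero (n : ℕ) (x : Fin n → R) :
    dc (n + 1) (Fin.cons 0 x : Fin (n + 1) → R) 0 = 0 := by
  rw [dc_succ_zero]
  have : dv n (fun i => (Fin.cons 0 x : Fin (n + 1) → R) i.succ)
      ((Fin.cons 0 x : Fin (n + 1) → R) 0) = 0 := by
    unfold dv
    refine Finset.sum_eq_zero (fun l _ => ?_)
    rw [Fin.cons_zero, zero_pow (pow_ne_zero _ (by norm_num)), mul_zero]
  rw [this, zero_mul]

end gen

section char2

variable {R : Type*} [CommRing R] [Algebra (ZMod 2) R]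

/-- The combination of the `x_i` with coefficients `v`. -/
def lf {n : ℕ} (v : Fin n → ZMod 2) (x : Fin n → R) : R := ∑ i, v i • x i

lemma lf_cons {n : ℕ} (a : ZMod 2) (v : Fin n → ZMod 2) (x : Fin (n + 1) → R) :
    lf (Fin.cons a v : Fin (n + 1) → ZMod 2) x = a • x 0 + lf v (fun i => x i.succ) := by
  unfold lf
  rw [Fin.sum_univ_succ]
  simp only [Fin.cons_zero, Fin.cons_succ]

lemma lf_map {R' : Type*} [CommRing R'] [Algebra (ZMod 2) R'] (φ : R →ₐ[ZMod 2] R') {n : ℕ}
    (v : Fin n → ZMod 2) (x : Fin n → R) : φ (lf v x) = lf v (fun i => φ (x i)) := by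
  unfold lf
  rw [map_sum]
  exact Finset.sum_congr rfl (fun i _ => map_smul φ (v i) (x i))

lemma prod_cons {M : Type*} [CommMonoid M] {n : ℕ} (f : (Fin (n + 1) → ZMod 2) → M) :
    ∏ v, f v =
      (∏ v : Fin n → ZMod 2, f (Fin.cons 0 v)) * ∏ v : Fin n → ZMod 2, f (Fin.cons 1 v) := by
  rw [← Equiv.prod_comp (Fin.consEquiv (fun _ => ZMod 2)), Fintype.prod_prod_type]
  have h : (Finset.univ : Finset (ZMod 2)) = {0, 1} := by decide
  rw [h, Finset.prod_insert (by decide), Finset.prod_singleton]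
  rfl

/-- characteristic two from the algebra structure -/
lemma add_self' (a : R) : a + a = 0 := by
  have h : (2 : ZMod 2) • a = (0 : ZMod 2) • a := by congr 1
  rw [zero_smul, two_smul] at h
  exact h

lemma add_pow_two_pow (a b : R) (l : ℕ) : (a + b) ^ (2 ^ l) = a ^ (2 ^ l) + b ^ (2 ^ l) := by
  induction l with
  | zero => simp
  | succ l ih =>
    rw [pow_succ, pow_mul, pow_mul, pow_mul, ih]
    have := add_self' (a ^ (2 ^ l) * b ^ (2 ^ l))
    linear_combination this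

lemma sum_sq' {ι : Type*} (s : Finset ι) (f : ι → R) : (∑ i ∈ s, f i) ^ 2 = ∑ i ∈ s, f i ^ 2 := by
  classical
  induction s using Finset.induction_on with
  | empty => simp
  | insert a s ha ih =>
    rw [Finset.sum_insert ha, Finset.sum_insert ha, ← ih]
    have := add_self' (f a * ∑ i ∈ s, f i)
    linear_combination this

lemma lf_sq {n : ℕ} (v : Fin n → ZMod 2) (x : Fin n → R) :
    lf v x ^ 2 = lf v (fun i => x i ^ 2) := by
  unfold lf
  rw [sum_sq']
  refine Finset.sum_congr rfl (fun i _ => ?_)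
  rw [smul_pow]
  have : v i ^ 2 = v i := by generalize v i = a; revert a; decide
  rw [this]

lemma lf_add {n : ℕ} (v : Fin n → ZMod 2) (x y : Fin n → R) :
    lf v (fun i => x i + y i) = lf v x + lf v y := by
  unfold lf
  rw [← Finset.sum_add_distrib]
  exact Finset.sum_congr rfl (fun i _ => smul_add _ _ _)

lemma lf_mul {n : ℕ} (v : Fin n → ZMod 2) (u : R) (x : Fin n → R) :
    lf v (fun i => u * x i) = u * lf v x := by
  unfold lf
  rw [Finset.mul_sum]
  exact Finset.sum_congr rfl (fun i _ => (mul_smul_comm _ _ _).symm)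

lemma dv_add (n : ℕ) (x : Fin n → R) (y z : R) : dv n x (y + z) = dv n x y + dv n x z := by
  unfold dv
  rw [← Finset.sum_add_distrib]
  refine Finset.sum_congr rfl (fun l _ => ?_)
  rw [add_pow_two_pow]
  ring

/-- The homogenised product formula. -/
theorem prod_lf : ∀ (n : ℕ) (x : Fin n → R) (a b : R),
    ∏ v : Fin n → ZMod 2, (a + b * lf v x) =
      ∑ j ∈ range (n + 1), dc n x j * b ^ (2 ^ n - 2 ^ j) * a ^ (2 ^ j) := by
  intro n
  induction n with
  | zero =>
    intro x a b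
    simp [lf, dc_zero]
  | succ n ih =>
    intro x a b
    set c : ℕ → R := dc n (fun i => x i.succ) with hc
    set P : R := ∑ j ∈ range (n + 1), c j * b ^ (2 ^ n - 2 ^ j) * a ^ (2 ^ j) with hP
    set g : R := dv n (fun i => x i.succ) (x 0) with hg
    have hle : ∀ j ∈ range (n + 1), 2 ^ j ≤ 2 ^ n := by
      intro j hj
      exact Nat.pow_le_pow_right (by norm_num) (by simpa [Nat.lt_succ_iff] using hj)
    have e1 : ∏ v : Fin n → ZMod 2, (a + b * lf (Fin.cons 0 v : Fin (n + 1) → ZMod 2) x) = P := by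
      rw [hP, ← ih (fun i => x i.succ) a b]
      refine Finset.prod_congr rfl (fun v _ => ?_)
      rw [lf_cons, zero_smul, zero_add]
    have e2 : ∏ v : Fin n → ZMod 2, (a + b * lf (Fin.cons 1 v : Fin (n + 1) → ZMod 2) x) =
        P + b ^ (2 ^ n) * g := by
      have : ∏ v : Fin n → ZMod 2, (a + b * lf (Fin.cons 1 v : Fin (n + 1) → ZMod 2) x) =
          ∏ v : Fin n → ZMod 2, ((a + b * x 0) + b * lf v (fun i => x i.succ)) := by
        refine Finset.prod_congr rfl (fun v _ => ?_)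
        rw [lf_cons, one_smul]
        ring
      rw [this, ih, hP, hg, dv, Finset.mul_sum, ← Finset.sum_add_distrib]
      refine Finset.sum_congr rfl (fun j hj => ?_)
      have h1 : b ^ (2 ^ n) = b ^ (2 ^ n - 2 ^ j) * b ^ (2 ^ j) := by
        rw [← pow_add, Nat.sub_add_cancel (hle j hj)]
      rw [add_pow_two_pow, mul_pow, h1]
      ring
    rw [prod_cons, e1, e2]
    have e3 : P * P = ∑ j ∈ range (n + 1), c j ^ 2 * b ^ (2 ^ (n + 1) - 2 ^ (j + 1)) *
        a ^ (2 ^ (j + 1)) := by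
      rw [← pow_two, hP, sum_sq']
      refine Finset.sum_congr rfl (fun j hj => ?_)
      have h1 : 2 ^ (n + 1) - 2 ^ (j + 1) = (2 ^ n - 2 ^ j) * 2 := by
        rw [pow_succ, pow_succ, Nat.sub_mul]
      rw [mul_pow, mul_pow, ← pow_mul, ← pow_mul, h1, pow_succ 2 j]
    have e4 : b ^ (2 ^ n) * g * P =
        ∑ j ∈ range (n + 2), g * c j * b ^ (2 ^ (n + 1) - 2 ^ j) * a ^ (2 ^ j) := by
      rw [Finset.sum_range_succ _ (n + 1), hc, dc_gt n _ (n + 1) (by omega), mul_zero, zero_mul,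
        zero_mul, add_zero, hP, Finset.mul_sum]
      refine Finset.sum_congr rfl (fun j hj => ?_)
      have h1 : 2 ^ (n + 1) - 2 ^ j = 2 ^ n + (2 ^ n - 2 ^ j) := by
        have := hle j hj
        rw [pow_succ]; omega
      rw [h1, pow_add]
      ring
    have e5 : P * (P + b ^ (2 ^ n) * g) = P * P + b ^ (2 ^ n) * g * P := by ring
    rw [e5, e3, e4, Finset.sum_range_succ' _ (n + 1), Finset.sum_range_succ' _ (n + 1),
      dc_succ_zero, ← add_assoc, ← Finset.sum_add_distrib]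
    refine congrArg₂ (· + ·) (Finset.sum_congr rfl (fun j _ => ?_)) rfl
    rw [dc_succ_succ]
    ring

/-- `dv n x y` is the product of `y + v` over the span of `x`. -/
theorem dv_eq_prod (n : ℕ) (x : Fin n → R) (y : R) :
    dv n x y = ∏ v : Fin n → ZMod 2, (y + lf v x) := by
  have h := prod_lf n x y 1
  simp only [one_mul, one_pow, mul_one] at h
  rw [h]
  rfl

end char2

section poly

open Polynomial

variable {R : Type*} [CommRing R] [Algebra (ZMod 2) R]

omit [Algebra (ZMod 2) R] in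
lemma coeff_add_poly (N : ℕ) (c : ℕ → R) (k : ℕ) (hk : k < N) :
    (∑ j ∈ range N, C (c j) * (X : R[X]) ^ (2 ^ j)).coeff (2 ^ k) = c k := by
  rw [Polynomial.finsetSum_coeff, Finset.sum_eq_single k]
  · simp
  · intro j _ hj
    rw [Polynomial.coeff_C_mul, Polynomial.coeff_X_pow, if_neg, mul_zero]
    intro h
    exact hj (Nat.pow_right_injective (le_refl 2) h).symm
  · intro h
    rw [Finset.mem_range] at h
    omega

omit [Algebra (ZMod 2) R] in
lemma coeff_add_poly' (N : ℕ) (c : ℕ → R) (k : ℕ) (hk : k < N + 1) :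
    (∑ j ∈ range N, C (c j) * (X : R[X]) ^ (2 ^ (j + 1))).coeff (2 ^ k) =
      if k = 0 then 0 else c (k - 1) := by
  have h := coeff_add_poly (N + 1) (fun j => if j = 0 then 0 else c (j - 1)) k hk
  rw [Finset.sum_range_succ'] at h
  simp only [Nat.succ_ne_zero, if_false, Nat.add_sub_cancel, if_true, map_zero, zero_mul,
    add_zero] at h
  exact h

/-- the elements `x_i + u x_i ^ 2` -/
def tw {n : ℕ} (u : R) (x : Fin n → R) : Fin n → R := fun i => x i + u * x i ^ 2

lemma lf_tw {n : ℕ} (u : R) (x : Fin n → R) (v : Fin n → ZMod 2) :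
    lf v (tw u x) = lf v x + u * lf v x ^ 2 := by
  unfold tw
  rw [lf_add v x (fun i => u * x i ^ 2), lf_mul v u (fun i => x i ^ 2), lf_sq]

/-- The sum `F` of the `u ^ (2 ^ n - 2 ^ l) q_l`. -/
def Fs (n : ℕ) (x : Fin n → R) (u : R) : R :=
  ∑ l ∈ range (n + 1), dc n x l * u ^ (2 ^ n - 2 ^ l)

omit [Algebra (ZMod 2) R] in
lemma dv_C (n : ℕ) (x : Fin n → R) (p : R[X]) :
    dv n (fun i => C (x i)) p = ∑ j ∈ range (n + 1), C (dc n x j) * p ^ (2 ^ j) := by
  unfold dv
  refine Finset.sum_congr rfl (fun j _ => ?_)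
  rw [← dc_map C]

/-- The functional equation of the Dickson polynomial of `x_i + u x_i ^ 2`. -/
theorem functional_eq (n : ℕ) (x : Fin n → R) (u : R) :
    ∑ j ∈ range (n + 1), C (dc n (tw u x) j) * (X + C u * X ^ 2) ^ (2 ^ j) =
      (∑ j ∈ range (n + 1), C (dc n x j) * X ^ (2 ^ j)) *
        (C (Fs n x u) + C (u ^ (2 ^ n)) * ∑ j ∈ range (n + 1), C (dc n x j) * X ^ (2 ^ j)) := by
  have e0 : ∀ v : Fin n → ZMod 2, lf v (fun i => (C (tw u x i) : R[X])) =
      C (lf v x + u * lf v x ^ 2) := by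
    intro v
    rw [← lf_tw]
    exact (lf_map (Polynomial.CAlgHom (R := ZMod 2) (A := R)) v (tw u x)).symm
  have e1 : ∀ v : Fin n → ZMod 2, lf v (fun i => (C (x i) : R[X])) = C (lf v x) := by
    intro v
    exact (lf_map (Polynomial.CAlgHom (R := ZMod 2) (A := R)) v x).symm
  rw [← dv_C, ← dv_C, dv_eq_prod]
  have e2 : ∀ v : Fin n → ZMod 2, (X + C u * X ^ 2 + lf v (fun i => (C (tw u x i) : R[X]))) =
      (X + lf v (fun i => (C (x i) : R[X]))) *
        ((1 + C u * X) + C u * lf v (fun i => (C (x i) : R[X]))) := by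
    intro v
    rw [e0, e1, map_add, map_mul, map_pow]
    have := add_self' (C u * X * C (lf v x))
    linear_combination (-1 : R[X]) * this
  rw [Finset.prod_congr rfl (fun v _ => e2 v), Finset.prod_mul_distrib, ← dv_eq_prod, prod_lf]
  congr 1
  rw [Fs, map_sum, dv_C, Finset.mul_sum, ← Finset.sum_add_distrib]
  refine Finset.sum_congr rfl (fun j hj => ?_)
  have hle : 2 ^ j ≤ 2 ^ n :=
    Nat.pow_le_pow_right (by norm_num) (by simpa [Nat.lt_succ_iff] using hj)
  have h1 : (C (u ^ 2 ^ n) : R[X]) = C u ^ (2 ^ n - 2 ^ j) * C u ^ (2 ^ j) := by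
    rw [map_pow, ← pow_add, Nat.sub_add_cancel hle]
  rw [add_pow_two_pow, one_pow, mul_pow, h1, ← dc_map C, map_mul, map_pow]
  ring

/-- The recursion for the Dickson elements of `x_i + u x_i ^ 2`. -/
theorem dc_tw_rec (n : ℕ) (x : Fin n → R) (u : R) (k : ℕ) (hk : k ≤ n) :
    dc n (tw u x) k + (if k = 0 then 0 else u ^ (2 ^ (k - 1)) * dc n (tw u x) (k - 1)) =
      Fs n x u * dc n x k + (if k = 0 then 0 else u ^ (2 ^ n) * dc n x (k - 1) ^ 2) := by
  have h := congrArg (fun p => Polynomial.coeff p (2 ^ k)) (functional_eq n x u)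
  have e1 : ∑ j ∈ range (n + 1), C (dc n (tw u x) j) * (X + C u * X ^ 2) ^ (2 ^ j) =
      ∑ j ∈ range (n + 1), C (dc n (tw u x) j) * X ^ (2 ^ j) +
        ∑ j ∈ range (n + 1), C (u ^ (2 ^ j) * dc n (tw u x) j) * X ^ (2 ^ (j + 1)) := by
    rw [← Finset.sum_add_distrib]
    refine Finset.sum_congr rfl (fun j _ => ?_)
    rw [add_pow_two_pow, mul_pow, ← pow_mul, map_mul, map_pow, pow_succ' 2 j]
    ring
  have e2 : (∑ j ∈ range (n + 1), C (dc n x j) * X ^ (2 ^ j)) *
        (C (Fs n x u) + C (u ^ (2 ^ n)) * ∑ j ∈ range (n + 1), C (dc n x j) * X ^ (2 ^ j)) =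
      ∑ j ∈ range (n + 1), C (Fs n x u * dc n x j) * X ^ (2 ^ j) +
        ∑ j ∈ range (n + 1), C (u ^ (2 ^ n) * dc n x j ^ 2) * X ^ (2 ^ (j + 1)) := by
    have e3 : (∑ j ∈ range (n + 1), C (dc n x j) * (X : R[X]) ^ (2 ^ j)) ^ 2 =
        ∑ j ∈ range (n + 1), C (dc n x j ^ 2) * X ^ (2 ^ (j + 1)) := by
      rw [sum_sq']
      refine Finset.sum_congr rfl (fun j _ => ?_)
      rw [mul_pow, ← pow_mul, map_pow, pow_succ 2 j]
    have e5 : C (Fs n x u) * (∑ j ∈ range (n + 1), C (dc n x j) * (X : R[X]) ^ (2 ^ j)) =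
        ∑ j ∈ range (n + 1), C (Fs n x u * dc n x j) * X ^ (2 ^ j) := by
      rw [Finset.mul_sum]
      refine Finset.sum_congr rfl (fun j _ => ?_)
      rw [map_mul, mul_assoc]
    have e6 : C (u ^ (2 ^ n)) * (∑ j ∈ range (n + 1), C (dc n x j ^ 2) * (X : R[X]) ^ (2 ^ (j + 1))) =
        ∑ j ∈ range (n + 1), C (u ^ (2 ^ n) * dc n x j ^ 2) * X ^ (2 ^ (j + 1)) := by
      rw [Finset.mul_sum]
      refine Finset.sum_congr rfl (fun j _ => ?_)
      rw [map_mul, mul_assoc]
    rw [← e5, ← e6, ← e3]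
    generalize (∑ j ∈ range (n + 1), C (dc n x j) * (X : R[X]) ^ (2 ^ j)) = f
    ring
  simp only [e1, e2, Polynomial.coeff_add] at h
  rw [coeff_add_poly (n + 1) _ k (by omega), coeff_add_poly (n + 1) _ k (by omega),
    coeff_add_poly' (n + 1) (fun j => u ^ (2 ^ j) * dc n (tw u x) j) k (by omega),
    coeff_add_poly' (n + 1) (fun j => u ^ (2 ^ n) * dc n x j ^ 2) k (by omega)] at h
  exact h

/-- The sum `A_j` of the `u ^ (2 ^ j - 2 ^ l) q_l` over `l ≤ j`. -/
def As (n : ℕ) (x : Fin n → R) (u : R) (j : ℕ) : R :=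
  ∑ l ∈ range (j + 1), dc n x l * u ^ (2 ^ j - 2 ^ l)

/-- The sum `B_j` of the `u ^ (2 ^ n - 2 ^ t) q_t` over `j < t ≤ n`. -/
def Bs (n : ℕ) (x : Fin n → R) (u : R) (j : ℕ) : R :=
  ∑ l ∈ Ico (j + 1) (n + 1), dc n x l * u ^ (2 ^ n - 2 ^ l)

omit [Algebra (ZMod 2) R] in
lemma As_zero (n : ℕ) (x : Fin n → R) (u : R) : As n x u 0 = dc n x 0 := by
  simp [As]

lemma two_pow_sub (l j : ℕ) (h : l ≤ j) : 2 ^ (j + 1) - 2 ^ l = 2 ^ j + (2 ^ j - 2 ^ l) := by
  have : 2 ^ l ≤ 2 ^ j := Nat.pow_le_pow_right (by norm_num) h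
  rw [pow_succ]; omega

omit [Algebra (ZMod 2) R] in
lemma As_succ (n : ℕ) (x : Fin n → R) (u : R) (j : ℕ) :
    As n x u (j + 1) = dc n x (j + 1) + u ^ (2 ^ j) * As n x u j := by
  unfold As
  rw [Finset.sum_range_succ, Nat.sub_self, pow_zero, mul_one, add_comm, Finset.mul_sum]
  congr 1
  refine Finset.sum_congr rfl (fun l hl => ?_)
  rw [two_pow_sub l j (by simpa [Nat.lt_succ_iff] using hl), pow_add]
  ring

omit [Algebra (ZMod 2) R] in
lemma Bs_succ (n : ℕ) (x : Fin n → R) (u : R) (j : ℕ) (hj : j < n) :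
    Bs n x u j = dc n x (j + 1) * u ^ (2 ^ n - 2 ^ (j + 1)) + Bs n x u (j + 1) := by
  unfold Bs
  rw [Finset.sum_eq_sum_Ico_succ_bot (by omega)]

omit [Algebra (ZMod 2) R] in
lemma Fs_eq (n : ℕ) (x : Fin n → R) (u : R) (j : ℕ) (hj : j ≤ n) :
    Fs n x u = Bs n x u j + u ^ (2 ^ n - 2 ^ j) * As n x u j := by
  unfold Fs Bs As
  rw [← Finset.sum_range_add_sum_Ico _ (show j + 1 ≤ n + 1 by omega), add_comm, Finset.mul_sum]
  congr 1
  refine Finset.sum_congr rfl (fun l hl => ?_)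
  have h1 : 2 ^ l ≤ 2 ^ j :=
    Nat.pow_le_pow_right (by norm_num) (by simpa [Nat.lt_succ_iff] using hl)
  have h2 : 2 ^ j ≤ 2 ^ n := Nat.pow_le_pow_right (by norm_num) hj
  have h3 : 2 ^ n - 2 ^ l = (2 ^ n - 2 ^ j) + (2 ^ j - 2 ^ l) := by omega
  rw [h3, pow_add]
  ring

/-- The explicit formula for the Dickson elements of `x_i + u x_i ^ 2`. -/
theorem dc_tw (n : ℕ) (x : Fin n → R) (u : R) (j : ℕ) (hj : j ≤ n) :
    dc n (tw u x) j = u ^ (2 ^ n - 2 ^ j) * dc n x j ^ 2 + As n x u j * Bs n x u j := by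
  induction j with
  | zero =>
    have h := dc_tw_rec n x u 0 (Nat.zero_le _)
    rw [if_pos rfl, if_pos rfl, add_zero, add_zero, Fs_eq n x u 0 hj, As_zero] at h
    rw [h, As_zero]
    ring
  | succ j ih =>
    have h := dc_tw_rec n x u (j + 1) hj
    rw [if_neg (Nat.succ_ne_zero j), if_neg (Nat.succ_ne_zero j), Nat.add_sub_cancel,
      ih (by omega), Fs_eq n x u (j + 1) hj] at h
    have hA := As_succ n x u j
    have hB := Bs_succ n x u j (by omega)
    have h1 : 2 ^ j + (2 ^ n - 2 ^ j) = 2 ^ n := by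
      have : 2 ^ j ≤ 2 ^ n := Nat.pow_le_pow_right (by norm_num) (by omega)
      omega
    have h2 : u ^ (2 ^ n) = u ^ (2 ^ j) * u ^ (2 ^ n - 2 ^ j) := by
      rw [← pow_add, h1]
    rw [h2] at h
    rw [hB] at h
    rw [hA] at h ⊢
    set a := As n x u j
    set b := Bs n x u (j + 1)
    set y := u ^ (2 ^ n - 2 ^ (j + 1))
    set w := u ^ (2 ^ n - 2 ^ j)
    set t := u ^ (2 ^ j)
    set c := dc n x (j + 1)
    set d := dc n x j
    set p := dc n (tw u x) (j + 1)
    -- h : p + t * (w * d ^ 2 + a * (c * y + b)) = (b + y * (c + t * a)) * c + t * w * d ^ 2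
    have k2 := add_self' (t * a * b)
    linear_combination h + (-1 : R) * k2

end poly

end Vale.Agent.P263.EX.GE
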