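import Vale.Agent.P263.EX.GE1
import Vale.Agent.P263.EX.DSDefs

/-!
# Block GE, part 2: evaluation of the abstract Dickson algebra, and its total square

For elements `x_0, ..., x_{n-1}` of a commutative algebra `R` over the field with two elements,
`ev x : D n → R` sends `q_j` to the `j`-th Dickson element of `x`. The total square of block DS is
the total square of the polynomial ring: `ev (x + u x ^ 2) f` is the value of `P f` at `u`.
-/

namespace Vale.Agent.P263.EX.GE

open Finset Polynomial Vale.Agent.P263.LZ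

section

variable {R : Type*} [CommRing R] [Algebra (ZMod 2) R]

/-- The evaluation `D n → R` at `x_0, ..., x_{n-1}`. -/
noncomputable def ev {n : ℕ} (x : Fin n → R) : D n →ₐ[ZMod 2] R :=
  LZ.lift fun j : Fin n => dc n x j

lemma ev_q {n : ℕ} (x : Fin n → R) (j : ℕ) : ev x (q n j) = dc n x j := by
  rcases lt_trichotomy j n with h | h | h
  · rw [q_lt h, ev, lift_gen]
  · subst h; rw [q_self, map_one, dc_self]
  · rw [q_gt h, map_zero, dc_gt n x j h]

lemma algHom_ext_D {n : ℕ} {f g : D n →ₐ[ZMod 2] R} (h : ∀ j, j < n → f (q n j) = g (q n j)) :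
    f = g := by
  refine MvPolynomial.algHom_ext (R := ZMod 2) (σ := Fin n) (fun i => ?_)
  have := h i i.2
  rw [q_lt i.2] at this
  exact this

lemma ev_map {R' : Type*} [CommRing R'] [Algebra (ZMod 2) R'] (φ : R →ₐ[ZMod 2] R') {n : ℕ}
    (x : Fin n → R) (f : D n) : φ (ev x f) = ev (fun i => φ (x i)) f := by
  have : φ.comp (ev x) = ev (fun i => φ (x i)) := by
    refine algHom_ext_D (fun j _ => ?_)
    rw [AlgHom.comp_apply, ev_q, ev_q]
    exact dc_map (φ : R →+* R') n x j
  exact DFunLike.congr_fun this f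

lemma ev_A {n : ℕ} (x : Fin n → R) (u : R) (j : ℕ) :
    (DS.A n j).eval₂ (ev x : D n →+* R) u = As n x u j := by
  unfold DS.A As
  rw [Polynomial.eval₂_finsetSum]
  refine Finset.sum_congr rfl (fun l _ => ?_)
  rw [Polynomial.eval₂_mul, Polynomial.eval₂_C, Polynomial.eval₂_X_pow]
  congr 1
  exact ev_q x l

lemma ev_B {n : ℕ} (x : Fin n → R) (u : R) (j : ℕ) :
    (DS.B n j).eval₂ (ev x : D n →+* R) u = Bs n x u j := by
  unfold DS.B Bs
  rw [Polynomial.eval₂_finsetSum]
  have h : Finset.Ioc j n = Finset.Ico (j + 1) (n + 1) := by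
    ext i; simp only [Finset.mem_Ioc, Finset.mem_Ico]; omega
  rw [h]
  refine Finset.sum_congr rfl (fun l _ => ?_)
  rw [Polynomial.eval₂_mul, Polynomial.eval₂_C, Polynomial.eval₂_X_pow]
  congr 1
  exact ev_q x l

lemma ev_F {n : ℕ} (x : Fin n → R) (u : R) :
    (DS.F n).eval₂ (ev x : D n →+* R) u = Fs n x u := by
  unfold DS.F Fs
  rw [Polynomial.eval₂_finsetSum]
  refine Finset.sum_congr rfl (fun l _ => ?_)
  rw [Polynomial.eval₂_mul, Polynomial.eval₂_C, Polynomial.eval₂_X_pow]
  congr 1
  exact ev_q x l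

/-- The total square of `D n` is induced by `x ↦ x + u x ^ 2`. -/
theorem ev_tw {n : ℕ} (x : Fin n → R) (u : R) (f : D n) :
    ev (tw u x) f = (DS.P n f).eval₂ (ev x : D n →+* R) u := by
  let ψ : D n →ₐ[ZMod 2] R :=
    (Polynomial.eval₂AlgHom (ev x) u (fun _ => Commute.all _ _)).comp (DS.P n)
  have hψ : ev (tw u x) = ψ := by
    refine algHom_ext_D (fun j hj => ?_)
    rw [ev_q, dc_tw n x u j hj.le]
    show _ = (DS.P n (q n j)).eval₂ (ev x : D n →+* R) u
    rw [q_lt hj, DS.P, lift_gen]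
    rw [Polynomial.eval₂_add, Polynomial.eval₂_mul, Polynomial.eval₂_mul, Polynomial.eval₂_C,
      Polynomial.eval₂_X_pow, ev_A, ev_B, map_pow]
    have : (ev x : D n →+* R) (q n j) = dc n x j := ev_q x j
    rw [this]
    ring
  rw [hψ]
  rfl

end

/-! ### linear changes of the variables -/

section gl

variable {R : Type*} [CommRing R] [Algebra (ZMod 2) R]

/-- The product of `X + v` over the span of `x`. -/
noncomputable def dpoly {n : ℕ} (x : Fin n → R) : R[X] :=
  ∏ v : Fin n → ZMod 2, (X + C (lf v x))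

lemma lf_C {n : ℕ} (v : Fin n → ZMod 2) (x : Fin n → R) :
    lf v (fun i => (C (x i) : R[X])) = C (lf v x) :=
  (lf_map (Polynomial.CAlgHom (R := ZMod 2) (A := R)) v x).symm

lemma dpoly_eq {n : ℕ} (x : Fin n → R) :
    dpoly x = ∑ j ∈ range (n + 1), C (dc n x j) * X ^ (2 ^ j) := by
  rw [← dv_C n x X, dv_eq_prod, dpoly]
  exact Finset.prod_congr rfl (fun v _ => by rw [lf_C])

lemma dpoly_coeff {n : ℕ} (x : Fin n → R) (j : ℕ) (hj : j ≤ n) :
    (dpoly x).coeff (2 ^ j) = dc n x j := by
  rw [dpoly_eq, coeff_add_poly (n + 1) _ j (by omega)]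

/-- The transform of the family `x` by a matrix over the field with two elements. -/
def lin {n : ℕ} (M : Matrix (Fin n) (Fin n) (ZMod 2)) (x : Fin n → R) : Fin n → R :=
  fun i => lf (M i) x

lemma lf_lin {n : ℕ} (M : Matrix (Fin n) (Fin n) (ZMod 2)) (v : Fin n → ZMod 2) (x : Fin n → R) :
    lf v (lin M x) = lf (Matrix.vecMul v M) x := by
  unfold lin lf Matrix.vecMul dotProduct
  simp only [Finset.smul_sum, Finset.sum_smul]
  rw [Finset.sum_comm]
  refine Finset.sum_congr rfl (fun i _ => Finset.sum_congr rfl (fun j _ => ?_))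
  rw [smul_smul]

/-- The Dickson elements are invariant under invertible linear changes of the variables. -/
theorem dc_lin {n : ℕ} (M N : Matrix (Fin n) (Fin n) (ZMod 2)) (h : M * N = 1) (x : Fin n → R)
    (j : ℕ) : dc n (lin M x) j = dc n x j := by
  rcases Nat.lt_or_ge n j with hj | hj
  · rw [dc_gt n _ j hj, dc_gt n _ j hj]
  rw [← dpoly_coeff _ j hj, ← dpoly_coeff _ j hj]
  congr 1
  unfold dpoly
  have h' : N * M = 1 := mul_eq_one_comm.mp h
  let e : (Fin n → ZMod 2) ≃ (Fin n → ZMod 2) :=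
    { toFun := fun v => Matrix.vecMul v M
      invFun := fun v => Matrix.vecMul v N
      left_inv := fun v => by
        show Matrix.vecMul (Matrix.vecMul v M) N = v
        rw [Matrix.vecMul_vecMul, h, Matrix.vecMul_one]
      right_inv := fun v => by
        show Matrix.vecMul (Matrix.vecMul v N) M = v
        rw [Matrix.vecMul_vecMul, h', Matrix.vecMul_one] }
  exact (Finset.prod_congr rfl (fun v _ => by rw [lf_lin]; rfl)).trans
    (Equiv.prod_comp e (fun v => X + C (lf v x)))

theorem ev_lin {n : ℕ} (M N : Matrix (Fin n) (Fin n) (ZMod 2)) (h : M * N = 1) (x : Fin n → R)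
    (f : D n) : ev (lin M x) f = ev x f := by
  have : (ev (lin M x) : D n →ₐ[ZMod 2] R) = ev x := by
    refine algHom_ext_D (fun j _ => ?_)
    rw [ev_q, ev_q, dc_lin M N h]
  rw [this]

end gl

/-! ### the polynomial ring -/

section poly

/-- The cohomology ring of the elementary abelian group of rank `n`. -/
abbrev S (n : ℕ) : Type := MvPolynomial (Fin n) (ZMod 2)

/-- The embedding of `D n` in `S n`. -/
noncomputable def io (n : ℕ) : D n →ₐ[ZMod 2] S n := ev (fun i => MvPolynomial.X i)

/-- The total square `x_i ↦ x_i + x_i ^ 2 X`; the coefficient of `X ^ a` is `Sq^a`. -/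
noncomputable def PS (n : ℕ) : S n →ₐ[ZMod 2] (S n)[X] :=
  MvPolynomial.aeval fun i => C (MvPolynomial.X i) + C (MvPolynomial.X i ^ 2) * X

lemma PS_X {n : ℕ} (i : Fin n) :
    PS n (MvPolynomial.X i) = C (MvPolynomial.X i) + C (MvPolynomial.X i ^ 2) * X := by
  rw [PS, MvPolynomial.aeval_X]

/-- The total square of the abstract Dickson algebra is the restriction of that of `S n`. -/
theorem PS_io {n : ℕ} (f : D n) :
    PS n (io n f) = (DS.P n f).map (io n : D n →+* S n) := by
  have h1 : PS n (io n f) = ev (tw (X : (S n)[X]) (fun i => C (MvPolynomial.X i))) f := by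
    rw [io, ev_map]
    congr 2
    funext i
    rw [PS_X, tw, map_pow]
    ring
  have h2 : ((ev (fun i => (C (MvPolynomial.X i) : (S n)[X])) : D n →ₐ[ZMod 2] (S n)[X]) :
      D n →+* (S n)[X]) = (C : S n →+* (S n)[X]).comp (io n : D n →+* S n) := by
    refine RingHom.ext (fun g => ?_)
    exact (ev_map (Polynomial.CAlgHom (R := ZMod 2) (A := S n))
      (fun i : Fin n => (MvPolynomial.X i : S n)) g).symm
  rw [h1, ev_tw, h2]
  rfl

/-- Steenrod squares on `S n`. -/
noncomputable def Sq (n a : ℕ) : S n →ₗ[ZMod 2] S n where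
  toFun f := (PS n f).coeff a
  map_add' f g := by simp
  map_smul' c f := by simp

lemma Sq_apply (n a : ℕ) (f : S n) : Sq n a f = (PS n f).coeff a := rfl

/-- `Sq^a` on `D n` (block DS, level zero) is `Sq^a` on `S n`. -/
theorem Sq_io (n a : ℕ) (f : D n) : Sq n a (io n f) = io n (DS.s n 0 a f) := by
  rw [Sq_apply, PS_io, Polynomial.coeff_map, DS.s_apply, pow_zero, one_mul]
  rfl

lemma P_q_zero (n : ℕ) : DS.P n (q n 0) = C (q n 0) * DS.F n := by
  rcases Nat.eq_zero_or_pos n with h0 | h0
  · subst h0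
    rw [q_self, map_one, map_one, one_mul, DS.F]
    simp
  · rw [q_lt h0, DS.P, lift_gen, ← q_lt h0]
    have h1 : DS.A n 0 = C (q n 0) := by
      unfold DS.A; simp
    have h2 : DS.F n = DS.B n 0 + C (q n 0) * X ^ (2 ^ n - 1) := by
      unfold DS.F DS.B
      have h3 : Finset.Ioc 0 n = Finset.Ico 1 (n + 1) := by
        ext i; simp only [Finset.mem_Ioc, Finset.mem_Ico]; omega
      have h4 : ∀ f : ℕ → (D n)[X], ∑ i ∈ range n, f (1 + i) = ∑ i ∈ range n, f (i + 1) :=
        fun f => Finset.sum_congr rfl (fun i _ => by rw [add_comm 1 i])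
      rw [Finset.sum_range_succ', h3, Finset.sum_Ico_eq_sum_range, Nat.add_sub_cancel, pow_zero,
        h4 (fun l => C (q n l) * X ^ (2 ^ n - 2 ^ l))]
    have h5 : ∀ a b c : (D n)[X], a ^ 2 * b + a * c = a * (c + a * b) := by intros; ring
    rw [h1, h2, map_pow]
    exact h5 _ _ _

/-- Level `m`: multiplication by the `m`-th power of `q_0`. -/
theorem Sq_io_level (n m a : ℕ) (f : D n) :
    Sq n a (io n (q n 0 ^ m * f)) = io n (q n 0 ^ m * DS.s n m a f) := by
  rw [Sq_io]
  congr 1
  rw [DS.s_apply, DS.s_apply, pow_zero, one_mul, map_mul, map_pow]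
  rw [P_q_zero, mul_pow, mul_assoc, ← Polynomial.C_pow, Polynomial.coeff_C_mul]

end poly

end Vale.Agent.P263.EX.GE
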