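import Vale.Agent.P263.EX.GE3

/-!
# Block GE, part 5: Dickson's theorem

The invariants of the general linear group over the field with two elements on `S n` are exactly
the image of `D n`.
-/

namespace Vale.Agent.P263.EX.GE

open Finset Vale.Agent.P263.LZ

/-- The linear substitution `x_i ↦ sum_j M i j x_j`. -/
noncomputable def sub {n : ℕ} (M : Matrix (Fin n) (Fin n) (ZMod 2)) : S n →ₐ[ZMod 2] S n :=
  MvPolynomial.aeval (lin M (fun i => MvPolynomial.X i))

/-- Invariance under the general linear group. -/
def Inv {n : ℕ} (f : S n) : Prop :=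
  ∀ M N : Matrix (Fin n) (Fin n) (ZMod 2), M * N = 1 → sub M f = f

lemma sub_X {n : ℕ} (M : Matrix (Fin n) (Fin n) (ZMod 2)) (i : Fin n) :
    sub M (MvPolynomial.X i) = lf (M i) (fun i => (MvPolynomial.X i : S n)) := by
  rw [sub, MvPolynomial.aeval_X]; rfl

lemma sub_lf {n : ℕ} (M : Matrix (Fin n) (Fin n) (ZMod 2)) (v : Fin n → ZMod 2) :
    sub M (lf v (fun i => (MvPolynomial.X i : S n))) =
      lf (Matrix.vecMul v M) (fun i => (MvPolynomial.X i : S n)) := by
  rw [lf_map, ← lf_lin]
  congr 1
  funext i
  rw [sub, MvPolynomial.aeval_X]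

lemma Inv_io {n : ℕ} (g : D n) : Inv (io n g) := by
  intro M N h
  have h1 : (fun i => sub M (MvPolynomial.X i : S n)) = lin M (fun i => MvPolynomial.X i) := by
    funext i
    rw [sub, MvPolynomial.aeval_X]
  rw [io, ev_map, h1, ev_lin M N h]

lemma Inv.add {n : ℕ} {f g : S n} (hf : Inv f) (hg : Inv g) : Inv (f + g) := by
  intro M N h
  rw [map_add, hf M N h, hg M N h]

/-- The substitution preserves the degree. -/
lemma sub_homog {n : ℕ} (M : Matrix (Fin n) (Fin n) (ZMod 2)) {f : S n} {d : ℕ}
    (hf : f.IsHomogeneous d) : (sub M f).IsHomogeneous d := by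
  have := MvPolynomial.IsHomogeneous.aeval (n := 1) hf
    (lin M (fun i => (MvPolynomial.X i : S n))) (fun i => lf_X_homog (M i))
  rwa [one_mul] at this

/-! ### matrices -/

/-- the matrix with rows `(1, 0)` and `(a i, M i)` -/
def blk {n : ℕ} (a : Fin n → ZMod 2) (M : Matrix (Fin n) (Fin n) (ZMod 2)) :
    Matrix (Fin (n + 1)) (Fin (n + 1)) (ZMod 2) :=
  Fin.cons (Fin.cons 1 0) (fun i => Fin.cons (a i) (M i))

lemma blk_mul {n : ℕ} (a b : Fin n → ZMod 2) (M N : Matrix (Fin n) (Fin n) (ZMod 2))
    (h : M * N = 1) (hab : ∀ i, a i + ∑ j, M i j * b j = 0) : blk a M * blk b N = 1 := by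
  ext i j
  rw [Matrix.mul_apply, Fin.sum_univ_succ]
  refine Fin.cases ?_ (fun i => ?_) i
  · refine Fin.cases ?_ (fun j => ?_) j
    · simp [blk]
    · simp [blk, (Fin.succ_ne_zero j).symm]
  · refine Fin.cases ?_ (fun j => ?_) j
    · simpa [blk, Matrix.one_apply] using hab i
    · have h1 := congrFun (congrFun h i) j
      rw [Matrix.mul_apply] at h1
      simpa [blk, Matrix.one_apply] using h1

/-- the matrix whose row `j` is `v`, and whose other rows are those of the identity -/
def rowm {n : ℕ} (j : Fin n) (v : Fin n → ZMod 2) : Matrix (Fin n) (Fin n) (ZMod 2) :=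
  Matrix.updateRow 1 j v

lemma vecMul_rowm {n : ℕ} (j : Fin n) (v w : Fin n → ZMod 2) :
    Matrix.vecMul w (rowm j v) = fun i => w i + w j * (v i + if i = j then 1 else 0) := by
  funext i
  unfold Matrix.vecMul dotProduct rowm
  have h1 : ∀ k, w k * (Matrix.updateRow (1 : Matrix (Fin n) (Fin n) (ZMod 2)) j v) k i =
      w k * (if k = i then 1 else 0) + (if k = j then w j * (v i + if i = j then 1 else 0) else 0) := by
    intro k
    rw [Matrix.updateRow_apply]
    by_cases hk : k = j
    · subst hk
      rw [if_pos rfl, if_pos rfl]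
      have h2 : ∀ a b c : ZMod 2, a * b = a * c + a * (b + c) := by decide
      by_cases hki : k = i
      · rw [if_pos hki, if_pos hki.symm]; exact h2 _ _ _
      · rw [if_neg hki, if_neg (fun h => hki h.symm)]; exact h2 _ _ _
    · rw [if_neg hk, if_neg hk, add_zero, Matrix.one_apply]
  rw [Finset.sum_congr rfl (fun k _ => h1 k), Finset.sum_add_distrib, Finset.sum_ite_eq' univ j]
  simp

lemma rowm_mul {n : ℕ} (j : Fin n) (v : Fin n → ZMod 2) (hv : v j = 1) :
    rowm j v * rowm j v = 1 := by
  ext i k
  have h1 := congrFun (vecMul_rowm j v ((rowm j v) i)) k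
  have h2 : (rowm j v * rowm j v) i k = Matrix.vecMul ((rowm j v) i) (rowm j v) k := by
    rw [Matrix.mul_apply]; rfl
  rw [h2, h1]
  unfold rowm
  rw [Matrix.updateRow_apply, Matrix.updateRow_apply]
  by_cases hi : i = j
  · subst hi
    rw [if_pos rfl, if_pos rfl, hv, one_mul, Matrix.one_apply]
    have h3 : ∀ a b : ZMod 2, a + (a + b) = b := by decide
    rw [h3]
    by_cases hk : k = i
    · rw [if_pos hk, if_pos hk.symm]
    · rw [if_neg hk, if_neg (fun h => hk h.symm)]
  · rw [if_neg hi, if_neg hi, Matrix.one_apply_ne hi, zero_mul, add_zero]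

/-! ### restriction of an invariant -/

lemma algHom_ext_S {n : ℕ} {B : Type*} [CommRing B] [Algebra (ZMod 2) B]
    {f g : S n →ₐ[ZMod 2] B}
    (h : ∀ i, f (MvPolynomial.X i) = g (MvPolynomial.X i)) (x : S n) : f x = g x :=
  DFunLike.congr_fun (MvPolynomial.algHom_ext h) x

lemma res_lf {n : ℕ} (v : Fin (n + 1) → ZMod 2) :
    res n (lf v (fun i => MvPolynomial.X i)) = lf (fun i => v i.succ) (fun i => MvPolynomial.X i) := by
  rw [lf_map]
  unfold lf
  rw [Fin.sum_univ_succ]
  simp only [res_X_zero, res_X_succ, smul_zero, zero_add]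

/-- Restriction and block matrices. -/
lemma res_sub_blk {n : ℕ} (a : Fin n → ZMod 2) (M : Matrix (Fin n) (Fin n) (ZMod 2))
    (f : S (n + 1)) : res n (sub (blk a M) f) = sub M (res n f) := by
  have h := algHom_ext_S (f := (res n).comp (sub (blk a M))) (g := (sub M).comp (res n))
    (fun i => ?_) f
  · exact h
  · rw [AlgHom.comp_apply, AlgHom.comp_apply, sub_X, res_lf]
    refine Fin.cases ?_ (fun i => ?_) i
    · rw [res_X_zero, map_zero]
      simp [blk, lf]
    · rw [res_X_succ, sub_X]
      simp [blk]

lemma Inv.res {n : ℕ} {f : S (n + 1)} (hf : Inv f) : Inv (GE.res n f) := by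
  intro M N h
  rw [← res_sub_blk 0 M, hf (blk 0 M) (blk 0 N) (blk_mul 0 0 M N h (fun i => by simp))]

lemma sub_one {n : ℕ} (f : S n) : sub (1 : Matrix (Fin n) (Fin n) (ZMod 2)) f = f := by
  have h := algHom_ext_S (f := sub (1 : Matrix (Fin n) (Fin n) (ZMod 2)))
    (g := AlgHom.id (ZMod 2) (S n)) (fun i => ?_) f
  · exact h
  · rw [sub_X]
    unfold lf
    rw [Finset.sum_eq_single i]
    · simp
    · intro j _ hj
      rw [Matrix.one_apply_ne (Ne.symm hj), zero_smul]
    · intro h; exact absurd (Finset.mem_univ i) h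

/-- a chain rule -/
lemma pderiv_chain {n : ℕ} (i j : Fin n) (τ : S n →ₐ[ZMod 2] S n)
    (hX : ∀ k, MvPolynomial.pderiv i (τ (MvPolynomial.X k)) =
      τ (MvPolynomial.pderiv i (MvPolynomial.X k) + MvPolynomial.pderiv j (MvPolynomial.X k)))
    (f : S n) : MvPolynomial.pderiv i (τ f) =
      τ (MvPolynomial.pderiv i f + MvPolynomial.pderiv j f) := by
  induction f using MvPolynomial.induction_on with
  | C a =>
    have h1 : τ (MvPolynomial.C a : S n) = MvPolynomial.C a := AlgHom.commutes _ a
    rw [h1, MvPolynomial.pderiv_C, MvPolynomial.pderiv_C, add_zero, map_zero]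
  | add p q hp hq =>
    rw [map_add τ p q, map_add (MvPolynomial.pderiv i), hp, hq, map_add (MvPolynomial.pderiv i),
      map_add (MvPolynomial.pderiv j), ← map_add τ, add_add_add_comm]
  | mul_X p k hp =>
    have h5 : ∀ p x a b c d : S n, (p * a + x * b) + (p * c + x * d) =
        p * (a + c) + x * (b + d) := by
      intro p x a b c d
      ring
    rw [map_mul τ, Derivation.leibniz, hp, hX k, Derivation.leibniz, Derivation.leibniz]
    rw [smul_eq_mul, smul_eq_mul, smul_eq_mul, smul_eq_mul, smul_eq_mul, smul_eq_mul, h5]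
    exact ((map_add τ _ _).trans (congrArg₂ (· + ·) (map_mul τ _ _) (map_mul τ _ _))).symm

/-- the derivative of `sub (blk (single i) 1) f` in the first variable -/
lemma pderiv_sub {n : ℕ} (i : Fin n) (f : S (n + 1)) :
    MvPolynomial.pderiv 0 (sub (blk (Pi.single i 1) 1) f) =
      sub (blk (Pi.single i 1) 1) (MvPolynomial.pderiv 0 f + MvPolynomial.pderiv i.succ f) := by
  refine pderiv_chain 0 i.succ _ (fun k => ?_) f
  rw [sub_X]
  refine Fin.cases ?_ (fun j => ?_) k
  · have h3 : lf (blk (Pi.single i 1) 1 0) (fun i => (MvPolynomial.X i : S (n + 1))) =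
        MvPolynomial.X 0 := by
      unfold lf
      rw [Fin.sum_univ_succ]
      simp [blk]
    rw [h3, MvPolynomial.pderiv_X_self,
      MvPolynomial.pderiv_X_of_ne (Fin.succ_ne_zero i).symm, add_zero, map_one]
  · have h3 : lf (blk (Pi.single i 1) 1 j.succ) (fun i => (MvPolynomial.X i : S (n + 1))) =
        (if j = i then 1 else 0 : ZMod 2) • MvPolynomial.X 0 + MvPolynomial.X j.succ := by
      unfold lf
      rw [Fin.sum_univ_succ]
      congr 1
      · simp [blk, Pi.single_apply]
      · simp only [blk, Fin.cons_succ]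
        rw [Finset.sum_eq_single j]
        · simp
        · intro k _ hk
          rw [Matrix.one_apply_ne (Ne.symm hk), zero_smul]
        · intro h; exact absurd (Finset.mem_univ j) h
    rw [h3, map_add, Derivation.map_smul, MvPolynomial.pderiv_X_self,
      MvPolynomial.pderiv_X_of_ne (Fin.succ_ne_zero j), add_zero, zero_add]
    by_cases hji : j = i
    · subst hji
      rw [if_pos rfl, one_smul, MvPolynomial.pderiv_X_self, map_one]
    · rw [if_neg hji, zero_smul, MvPolynomial.pderiv_X_of_ne
        (fun h => hji (Fin.succ_injective _ h)), map_zero]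

lemma res_pderiv {n : ℕ} (i : Fin n) (f : S (n + 1)) :
    res n (MvPolynomial.pderiv i.succ f) = MvPolynomial.pderiv i (res n f) := by
  induction f using MvPolynomial.induction_on with
  | C a =>
    have h1 : res n (MvPolynomial.C a : S (n + 1)) = MvPolynomial.C a := AlgHom.commutes _ a
    rw [h1, MvPolynomial.pderiv_C, MvPolynomial.pderiv_C, map_zero]
  | add p q hp hq => rw [map_add, map_add, map_add, map_add, hp, hq]
  | mul_X p j hp =>
    have h2 : res n (MvPolynomial.pderiv i.succ (MvPolynomial.X j)) =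
        MvPolynomial.pderiv i (res n (MvPolynomial.X j)) := by
      refine Fin.cases ?_ (fun j => ?_) j
      · rw [MvPolynomial.pderiv_X_of_ne (Fin.succ_ne_zero i).symm, res_X_zero, map_zero, map_zero]
      · rw [res_X_succ]
        by_cases hji : j = i
        · subst hji
          rw [MvPolynomial.pderiv_X_self, MvPolynomial.pderiv_X_self, map_one]
        · rw [MvPolynomial.pderiv_X_of_ne (fun h => hji (Fin.succ_injective _ h)),
            MvPolynomial.pderiv_X_of_ne hji, map_zero]
    rw [map_mul (res n), Derivation.leibniz, Derivation.leibniz, map_add (res n)]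
    simp only [smul_eq_mul, map_mul]
    rw [hp, h2]

/-- All partial derivatives of the restriction of an invariant vanish. -/
lemma Inv.pderiv_res {n : ℕ} {f : S (n + 1)} (hf : Inv f) (i : Fin n) :
    MvPolynomial.pderiv i (GE.res n f) = 0 := by
  have h0 : sub (blk (Pi.single i 1) 1) f = f := by
    refine hf _ (blk (Pi.single i 1) 1) (blk_mul _ _ 1 1 (one_mul 1) (fun k => ?_))
    rw [Finset.sum_eq_single k]
    · rw [Matrix.one_apply_eq, one_mul]
      exact CharTwo.add_self_eq_zero _
    · intro j _ hj
      rw [Matrix.one_apply_ne (Ne.symm hj), zero_mul]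
    · intro h; exact absurd (Finset.mem_univ k) h
  have h1 := pderiv_sub i f
  rw [h0, map_add] at h1
  have h2 := congrArg (GE.res n) h1
  rw [map_add, res_sub_blk, res_sub_blk, sub_one, sub_one] at h2
  rw [← res_pderiv]
  have h3 : ∀ a b : S n, a = a + b → b = 0 := fun a b h => by
    have : a + b + (-a) = a + (-a) := by rw [← h]
    rw [add_neg_cancel, add_comm a b, add_assoc, add_neg_cancel, add_zero] at this
    exact this
  exact h3 _ _ h2

/-! ### squares -/

/-- half of an exponent vector -/
noncomputable def hlf {n : ℕ} (m : Fin n →₀ ℕ) : Fin n →₀ ℕ := m.mapRange (fun k => k / 2) (by norm_num)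

/-- A polynomial all of whose partial derivatives vanish is a square. -/
lemma exists_sqrt {n : ℕ} (a : S n) (ha : ∀ i, MvPolynomial.pderiv i a = 0) :
    ∃ b : S n, b ^ 2 = a ∧ ∀ d, a.IsHomogeneous d → b.IsHomogeneous (d / 2) ∧ (a ≠ 0 → d = d / 2 * 2) := by
  have hev : ∀ m ∈ a.support, (2 : ℕ) • hlf m = m := by
    intro m hm
    ext i
    simp only [hlf, Finsupp.smul_apply, Finsupp.mapRange_apply, smul_eq_mul]
    by_contra hodd
    have h1 : m i = 2 * (m i / 2) + 1 := by omega
    have h2 := congrArg (MvPolynomial.coeff (m - Finsupp.single i 1)) (ha i)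
    rw [MvPolynomial.coeff_pderiv, MvPolynomial.coeff_zero] at h2
    have h3 : m - Finsupp.single i 1 + Finsupp.single i 1 = m := by
      ext k
      simp only [Finsupp.add_apply, Finsupp.tsub_apply, Finsupp.single_apply]
      split_ifs with h
      · subst h; omega
      · omega
    have h4 : (((m - Finsupp.single i 1 : Fin n →₀ ℕ) i : ℕ) : ZMod 2) + 1 = 1 := by
      rw [Finsupp.tsub_apply, Finsupp.single_eq_same, h1, Nat.add_sub_cancel]
      push_cast
      have : (2 : ZMod 2) = 0 := by decide
      rw [this, zero_mul, zero_add]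
    rw [h3, h4, mul_one] at h2
    exact (MvPolynomial.mem_support_iff.mp hm) h2
  refine ⟨∑ m ∈ a.support, MvPolynomial.monomial (hlf m) 1, ?_, ?_⟩
  · rw [sum_sq']
    conv_rhs => rw [a.as_sum]
    refine Finset.sum_congr rfl (fun m hm => ?_)
    have h1 : MvPolynomial.coeff m a = 1 := by
      rcases zmod2 (MvPolynomial.coeff m a) with h | h
      · exact absurd h (MvPolynomial.mem_support_iff.mp hm)
      · exact h
    rw [MvPolynomial.monomial_pow, one_pow, hev m hm, h1]
  · intro d hd
    have hdeg : ∀ m ∈ a.support, (hlf m).degree * 2 = d := by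
      intro m hm
      have h1 : m.degree = d := by
        have h2 := hd (MvPolynomial.mem_support_iff.mp hm)
        rw [Finsupp.degree_eq_weight_one]
        exact h2
      have h3 := congrArg Finsupp.degree (hev m hm)
      rw [two_nsmul, map_add, h1] at h3
      omega
    refine ⟨?_, ?_⟩
    · refine MvPolynomial.IsHomogeneous.sum _ _ _ (fun m hm => ?_)
      refine MvPolynomial.isHomogeneous_monomial _ ?_
      have := hdeg m hm
      omega
    · intro ha0
      obtain ⟨m, hm⟩ := MvPolynomial.support_nonempty.mpr ha0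
      have := hdeg m hm
      omega

/-- squaring is injective -/
lemma sq_inj {n : ℕ} {a b : S n} (h : a ^ 2 = b ^ 2) : a = b := by
  have h1 : (a + b) ^ 2 = 0 := by
    rw [CharTwo.add_sq, h]; exact CharTwo.add_self_eq_zero _
  have h2 : a + b = 0 := pow_eq_zero_iff (two_ne_zero) |>.mp h1
  exact CharTwo.add_eq_zero.mp h2

lemma Inv.of_sq {n : ℕ} {b : S n} (h : Inv (b ^ 2)) : Inv b := by
  intro M N hMN
  have := h M N hMN
  rw [map_pow] at this
  exact sq_inj this

/-! ### divisibility by `q_0` -/

/-- elements with zero restriction are divisible by the first variable -/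
lemma X_zero_dvd {n : ℕ} (f : S (n + 1)) (hf : res n f = 0) : MvPolynomial.X 0 ∣ f := by
  have key : ∀ f : S (n + 1), ∃ g, f = MvPolynomial.rename Fin.succ (res n f) +
      MvPolynomial.X 0 * g := by
    intro f
    induction f using MvPolynomial.induction_on with
    | C a =>
      refine ⟨0, ?_⟩
      have h1 : res n (MvPolynomial.C a : S (n + 1)) = MvPolynomial.C a := AlgHom.commutes _ a
      rw [h1, MvPolynomial.rename_C, mul_zero, add_zero]
    | add p q hp hq =>
      obtain ⟨g, hg⟩ := hp
      obtain ⟨h, hh⟩ := hq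
      refine ⟨g + h, ?_⟩
      rw [map_add (res n), map_add (MvPolynomial.rename Fin.succ)]
      nth_rewrite 1 [hg]
      nth_rewrite 1 [hh]
      ring
    | mul_X p j hp =>
      obtain ⟨g, hg⟩ := hp
      refine Fin.cases ?_ (fun j => ?_) j
      · refine ⟨p, ?_⟩
        rw [map_mul (res n), res_X_zero, mul_zero, map_zero, zero_add, mul_comm]
      · refine ⟨g * MvPolynomial.X j.succ, ?_⟩
        rw [map_mul (res n), map_mul (MvPolynomial.rename Fin.succ), res_X_succ,
          MvPolynomial.rename_X]
        nth_rewrite 1 [hg]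
        ring
  obtain ⟨g, hg⟩ := key f
  rw [hf, map_zero, zero_add] at hg
  exact ⟨g, hg⟩

lemma dvd_of_inv {n : ℕ} {f : S n} (hf : Inv f) {u : Fin n → ZMod 2}
    (hu : lf u (fun i => (MvPolynomial.X i : S n)) ∣ f) (M N : Matrix (Fin n) (Fin n) (ZMod 2))
    (h : M * N = 1) : lf (Matrix.vecMul u M) (fun i => (MvPolynomial.X i : S n)) ∣ f := by
  rw [← sub_lf]
  have := map_dvd (sub M) hu
  rwa [hf M N h] at this

lemma dvd_of_rowm {n : ℕ} {f : S n} (hf : Inv f) {u : Fin n → ZMod 2}
    (hu : lf u (fun i => (MvPolynomial.X i : S n)) ∣ f) (j : Fin n) (v : Fin n → ZMod 2)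
    (hv : v j = 1) :
    lf (fun i => u i + u j * (v i + if i = j then 1 else 0))
      (fun i => (MvPolynomial.X i : S n)) ∣ f := by
  rw [← vecMul_rowm]
  exact dvd_of_inv hf hu _ _ (rowm_mul j v hv)

/-- An invariant divisible by the first variable is divisible by every nonzero linear form. -/
lemma lf_dvd {n : ℕ} {f : S (n + 1)} (hf : Inv f) (h0 : MvPolynomial.X 0 ∣ f)
    (v : Fin (n + 1) → ZMod 2) (hv : v ≠ 0) :
    lf v (fun i => (MvPolynomial.X i : S (n + 1))) ∣ f := by
  have e0 : lf (Pi.single 0 1 : Fin (n + 1) → ZMod 2) (fun i => (MvPolynomial.X i : S (n + 1))) =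
      MvPolynomial.X 0 := by
    unfold lf
    rw [Finset.sum_eq_single 0]
    · simp
    · intro j _ hj
      rw [Pi.single_eq_of_ne hj, zero_smul]
    · intro h; exact absurd (Finset.mem_univ _) h
  rw [← e0] at h0
  have hz : ∀ a b : ZMod 2, a + (b + a) = b := by decide
  obtain ⟨j, hj⟩ : ∃ j, v j ≠ 0 := by
    by_contra h
    push Not at h
    exact hv (funext h)
  have hj1 : v j = 1 := by
    rcases zmod2 (v j) with h | h
    · exact absurd h hj
    · exact h
  -- first reach `single j 1`
  have hs : lf (Pi.single j 1 : Fin (n + 1) → ZMod 2)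
      (fun i => (MvPolynomial.X i : S (n + 1))) ∣ f := by
    by_cases hj0 : j = 0
    · rw [hj0]; exact h0
    · have h1 := dvd_of_rowm hf h0 0 (fun i => if i = 0 ∨ i = j then 1 else 0) (by simp)
      have h2 := dvd_of_rowm hf h1 j (fun i => if i = 0 ∨ i = j then 1 else 0) (by simp)
      have h3 : (fun i => ((fun i => (Pi.single 0 1 : Fin (n + 1) → ZMod 2) i +
          (Pi.single 0 1 : Fin (n + 1) → ZMod 2) 0 *
          ((if i = 0 ∨ i = j then 1 else 0) + if i = 0 then 1 else 0)) i : ZMod 2) +
          ((fun i => (Pi.single 0 1 : Fin (n + 1) → ZMod 2) i +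
          (Pi.single 0 1 : Fin (n + 1) → ZMod 2) 0 *
          ((if i = 0 ∨ i = j then 1 else 0) + if i = 0 then 1 else 0)) j) *
          ((if i = 0 ∨ i = j then 1 else 0) + if i = j then 1 else 0)) =
          (Pi.single j 1 : Fin (n + 1) → ZMod 2) := by
        funext i
        by_cases hi0 : i = 0
        · subst hi0
          simp [hj0, Ne.symm hj0]
          try decide
        · by_cases hij : i = j
          · subst hij
            simp [hi0]
            try decide
          · simp [Pi.single_apply, hi0, hij]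
      rw [h3] at h2
      exact h2
  have h4 := dvd_of_rowm hf hs j v hj1
  have h5 : (fun i => (Pi.single j 1 : Fin (n + 1) → ZMod 2) i +
      (Pi.single j 1 : Fin (n + 1) → ZMod 2) j * (v i + if i = j then 1 else 0)) = v := by
    funext i
    rw [Pi.single_eq_same, one_mul, Pi.single_apply]
    exact hz _ _
  rwa [h5] at h4

lemma eq_C_one {n : ℕ} {k : S n} (h : k.totalDegree = 0) (h0 : k ≠ 0) : k = 1 := by
  have h1 := MvPolynomial.totalDegree_eq_zero_iff_eq_C.mp h
  rcases zmod2 (MvPolynomial.coeff 0 k) with h2 | h2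
  · rw [h2, MvPolynomial.C_0] at h1; exact absurd h1 h0
  · rw [h2, MvPolynomial.C_1] at h1; exact h1

lemma lf_totalDegree {n : ℕ} {v : Fin n → ZMod 2} (hv : v ≠ 0) :
    (lf v (fun i => (MvPolynomial.X i : S n))).totalDegree = 1 :=
  (lf_X_homog v).totalDegree (lf_X_ne_zero v hv)

lemma lf_inj {n : ℕ} {v w : Fin n → ZMod 2}
    (h : lf v (fun i => (MvPolynomial.X i : S n)) = lf w (fun i => (MvPolynomial.X i : S n))) :
    v = w := by
  by_contra hne
  have h1 : v + w ≠ 0 := by
    intro h2
    exact hne (by
      have : ∀ a b : ZMod 2, a + b = 0 → a = b := by decide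
      funext i
      exact this _ _ (congrFun h2 i))
  apply lf_X_ne_zero (v + w) h1
  have h3 : lf (v + w) (fun i => (MvPolynomial.X i : S n)) =
      lf v (fun i => (MvPolynomial.X i : S n)) + lf w (fun i => (MvPolynomial.X i : S n)) := by
    unfold lf
    rw [← Finset.sum_add_distrib]
    exact Finset.sum_congr rfl (fun i _ => add_smul _ _ _)
  rw [h3, h]
  exact CharTwo.add_self_eq_zero _

lemma lf_isRelPrime {n : ℕ} {v w : Fin n → ZMod 2} (hv : v ≠ 0) (hw : w ≠ 0) (hvw : v ≠ w) :
    IsRelPrime (lf v (fun i => (MvPolynomial.X i : S n)))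
      (lf w (fun i => (MvPolynomial.X i : S n))) := by
  have hv0 := lf_X_ne_zero v hv
  have hw0 := lf_X_ne_zero w hw
  intro d h1 h2
  obtain ⟨k, hk⟩ := h1
  obtain ⟨l, hl⟩ := h2
  have hd0 : d ≠ 0 := by rintro rfl; rw [zero_mul] at hk; exact hv0 hk
  have hk0 : k ≠ 0 := by rintro rfl; rw [mul_zero] at hk; exact hv0 hk
  have hl0 : l ≠ 0 := by rintro rfl; rw [mul_zero] at hl; exact hw0 hl
  have e1 := lf_totalDegree hv
  have e2 := lf_totalDegree hw
  rw [hk, MvPolynomial.totalDegree_mul_of_isDomain hd0 hk0] at e1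
  rw [hl, MvPolynomial.totalDegree_mul_of_isDomain hd0 hl0] at e2
  by_cases hd : d.totalDegree = 0
  · rw [eq_C_one hd hd0]; exact isUnit_one
  · exfalso
    have hk1 := eq_C_one (by omega) hk0
    have hl1 := eq_C_one (by omega) hl0
    rw [hk1, mul_one] at hk
    rw [hl1, mul_one] at hl
    exact hvw (lf_inj (hk.trans hl.symm))

/-- An invariant with zero restriction is divisible by `q_0`. -/
lemma q_zero_dvd_of_inv {n : ℕ} {f : S (n + 1)} (hf : Inv f) (h0 : res n f = 0) :
    io (n + 1) (q (n + 1) 0) ∣ f := by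
  rw [io_q, dc_zero_prod]
  refine Finset.prod_dvd_of_isRelPrime ?_ ?_
  · intro v hv w hw hvw
    exact lf_isRelPrime (Finset.ne_of_mem_erase (Finset.mem_coe.mp hv))
      (Finset.ne_of_mem_erase (Finset.mem_coe.mp hw)) hvw
  · intro v hv
    exact lf_dvd hf (X_zero_dvd f h0) v (Finset.ne_of_mem_erase hv)

/-! ### homogeneous quotients -/

lemma homogeneousComponent_mul' {n e : ℕ} {p : S n} (hp : p.IsHomogeneous e) (k : ℕ) (u : S n) :
    MvPolynomial.homogeneousComponent (e + k) (p * u) =
      p * MvPolynomial.homogeneousComponent k u := by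
  induction u using MvPolynomial.induction_on' with
  | monomial t a =>
    have h1 : (p * MvPolynomial.monomial t a).IsHomogeneous (e + t.degree) :=
      hp.mul (MvPolynomial.isHomogeneous_monomial a rfl)
    have h2 : (MvPolynomial.monomial t a : S n).IsHomogeneous t.degree :=
      MvPolynomial.isHomogeneous_monomial a rfl
    rw [MvPolynomial.homogeneousComponent_of_mem h1, MvPolynomial.homogeneousComponent_of_mem h2]
    by_cases h : k = t.degree
    · rw [if_pos (by omega), if_pos h]
    · rw [if_neg (by omega), if_neg h, mul_zero]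
  | add p' q' hp' hq' => rw [mul_add, map_add, hp', hq', map_add, mul_add]

lemma homog_quot {n e d : ℕ} {p u : S n} (hp : p.IsHomogeneous e) (hp0 : p ≠ 0)
    (hpu : (p * u).IsHomogeneous d) (hu0 : u ≠ 0) : e ≤ d ∧ u.IsHomogeneous (d - e) := by
  have h1 : ∀ k, e + k ≠ d → MvPolynomial.homogeneousComponent k u = 0 := by
    intro k hk
    have h2 := homogeneousComponent_mul' hp k u
    rw [MvPolynomial.homogeneousComponent_of_mem hpu, if_neg hk] at h2
    rcases mul_eq_zero.mp h2.symm with h | h
    · exact absurd h hp0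
    · exact h
  have h3 : e ≤ d := by
    by_contra h
    apply hu0
    rw [← MvPolynomial.sum_homogeneousComponent u]
    exact Finset.sum_eq_zero (fun k _ => h1 k (by omega))
  refine ⟨h3, ?_⟩
  have h4 : u = MvPolynomial.homogeneousComponent (d - e) u := by
    conv_lhs => rw [← MvPolynomial.sum_homogeneousComponent u]
    by_cases h5 : d - e ∈ range (u.totalDegree + 1)
    · rw [Finset.sum_eq_single_of_mem (d - e) h5]
      intro k _ hk
      exact h1 k (by omega)
    · rw [Finset.sum_eq_zero]
      · rw [MvPolynomial.homogeneousComponent_eq_zero]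
        rw [Finset.mem_range] at h5
        omega
      · intro k hk
        refine h1 k (fun h6 => h5 ?_)
        have : k = d - e := by omega
        rwa [this] at hk
  rw [h4]
  exact MvPolynomial.homogeneousComponent_isHomogeneous _ _

/-! ### Dickson's theorem -/

lemma hom_sh {n : ℕ} {k : ℤ} {g : D n} (hg : Hom n k g) : Hom (n + 1) (2 * k) (sh n g) := by
  refine hom_map (fun m x => Hom (n + 1) (2 * m) x) (fun m => Hom.zero _ _)
    (fun m x y hx hy => hx.add hy) ((Hom.one _).congr (by ring))
    (fun m m' x y hx hy => (hx.mul hy).congr (by ring)) (sh n : D n →+* D (n + 1)) ?_ g k hg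
  intro i
  have h1 : (sh n : D n →+* D (n + 1)) (gen i) = q (n + 1) (i + 1) := by
    rw [← q_lt i.2]; exact sh_q n i
  show Hom (n + 1) (2 * w n i) ((sh n : D n →+* D (n + 1)) (gen i))
  rw [h1]
  refine (Hom.q (n + 1) (i + 1)).congr ?_
  unfold w
  ring

theorem dickson_homog : ∀ (n d : ℕ) (f : S n), f.IsHomogeneous d → Inv f →
    ∃ g : D n, Hom n (d : ℤ) g ∧ io n g = f := by
  intro n
  induction n with
  | zero =>
    intro d f hf _
    have h1 : f = MvPolynomial.C (MvPolynomial.coeff 0 f) := MvPolynomial.eq_C_of_isEmpty _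
    rcases zmod2 (MvPolynomial.coeff 0 f) with h | h
    · rw [h, MvPolynomial.C_0] at h1
      exact ⟨0, Hom.zero _ _, by rw [map_zero, h1]⟩
    · rw [h, MvPolynomial.C_1] at h1
      have h2 : f ≠ 0 := by rw [h1]; exact one_ne_zero
      have h3 := hf.totalDegree h2
      rw [h1, MvPolynomial.totalDegree_one] at h3
      subst h3
      exact ⟨1, Hom.one _, by rw [map_one, h1]⟩
  | succ n ih =>
    intro d
    induction d using Nat.strong_induction_on with
    | _ d ihd =>
      intro f hf hinv
      -- the restriction is a square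
      obtain ⟨b, hb, hbd⟩ := exists_sqrt (res n f) (fun i => hinv.pderiv_res i)
      have hres : (res n f).IsHomogeneous d := by
        have := MvPolynomial.IsHomogeneous.aeval (n := 1) hf
          (Fin.cons 0 (fun i => MvPolynomial.X i) : Fin (n + 1) → S n) (fun i => by
            refine Fin.cases ?_ (fun i => ?_) i
            · rw [Fin.cons_zero]; exact MvPolynomial.isHomogeneous_zero _ _ _
            · rw [Fin.cons_succ]; exact MvPolynomial.isHomogeneous_X _ _)
        rwa [one_mul] at this
      obtain ⟨hb1, hb2⟩ := hbd d hres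
      have hbinv : Inv b := by
        apply Inv.of_sq
        rw [hb]
        exact hinv.res
      obtain ⟨g', hg', hg'b⟩ := ih (d / 2) b hb1 hbinv
      -- a lift of the restriction
      obtain ⟨g0, hg0, hg0r⟩ : ∃ g0 : D (n + 1), Hom (n + 1) (d : ℤ) g0 ∧
          res n (io (n + 1) g0) = res n f := by
        by_cases h0 : res n f = 0
        · exact ⟨0, Hom.zero _ _, by rw [map_zero, map_zero, h0]⟩
        · refine ⟨sh n g', (hom_sh hg').congr ?_, ?_⟩
          · have := hb2 h0
            omega
          · rw [res_io, rs_sh, hg'b, hb]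
      have hinv' : Inv (f + io (n + 1) g0) := hinv.add (Inv_io g0)
      have hr0 : res n (f + io (n + 1) g0) = 0 := by
        rw [map_add, hg0r]; exact CharTwo.add_self_eq_zero _
      have hhom' : (f + io (n + 1) g0).IsHomogeneous d := hf.add (io_homog d g0 hg0)
      obtain ⟨h', hh'⟩ := q_zero_dvd_of_inv hinv' hr0
      by_cases h0 : h' = 0
      · refine ⟨g0, hg0, ?_⟩
        rw [h0, mul_zero] at hh'
        exact (CharTwo.add_eq_zero.mp hh').symm
      · rw [hh'] at hhom'
        have hq : (io (n + 1) (q (n + 1) 0)).IsHomogeneous (2 ^ (n + 1) - 1) := by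
          have := io_q_homog (n := n + 1) (Nat.zero_le _)
          rwa [pow_zero] at this
        obtain ⟨hle, hh'd⟩ := homog_quot hq io_q_zero_ne hhom' h0
        have hpos : 1 < 2 ^ (n + 1) := Nat.one_lt_two_pow (Nat.succ_ne_zero n)
        have hinvh : Inv h' := by
          intro M N hMN
          have h1 := hinv' M N hMN
          rw [hh', map_mul, Inv_io (q (n + 1) 0) M N hMN] at h1
          exact mul_left_cancel₀ io_q_zero_ne h1
        obtain ⟨g'', hg'', hg''h⟩ := ihd (d - (2 ^ (n + 1) - 1)) (by omega) h' hh'd hinvh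
        refine ⟨g0 + q (n + 1) 0 * g'', ?_, ?_⟩
        · refine hg0.add (((Hom.q (n + 1) 0).mul hg'').congr ?_)
          rw [Nat.cast_sub hle, Nat.cast_sub hpos.le]
          push_cast
          ring
        · rw [map_add, map_mul, hg''h, ← hh', add_comm f, ← add_assoc,
            CharTwo.add_self_eq_zero, zero_add]

lemma comp_sub {n : ℕ} (M : Matrix (Fin n) (Fin n) (ZMod 2)) (d : ℕ) (f : S n) :
    MvPolynomial.homogeneousComponent d (sub M f) =
      sub M (MvPolynomial.homogeneousComponent d f) := by
  induction f using MvPolynomial.induction_on' with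
  | monomial t a =>
    have h2 : (MvPolynomial.monomial t a : S n).IsHomogeneous t.degree :=
      MvPolynomial.isHomogeneous_monomial a rfl
    rw [MvPolynomial.homogeneousComponent_of_mem (sub_homog M h2),
      MvPolynomial.homogeneousComponent_of_mem h2]
    by_cases h : d = t.degree
    · rw [if_pos h, if_pos h]
    · rw [if_neg h, if_neg h, map_zero]
  | add p' q' hp' hq' =>
    rw [map_add (sub M), map_add (MvPolynomial.homogeneousComponent d), hp', hq',
      map_add (MvPolynomial.homogeneousComponent d), map_add (sub M)]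

/-- Dickson's theorem: the invariants of the general linear group are the image of `D n`. -/
theorem dickson (n : ℕ) (f : S n) : Inv f ↔ ∃ g : D n, io n g = f := by
  constructor
  · intro hf
    have h1 : ∀ d, Inv (MvPolynomial.homogeneousComponent d f) := by
      intro d M N hMN
      rw [← comp_sub, hf M N hMN]
    choose g hg using fun d => dickson_homog n d _
      (MvPolynomial.homogeneousComponent_isHomogeneous d f) (h1 d)
    refine ⟨∑ d ∈ range (f.totalDegree + 1), g d, ?_⟩
    rw [map_sum]
    conv_rhs => rw [← MvPolynomial.sum_homogeneousComponent f]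
    exact Finset.sum_congr rfl (fun d _ => (hg d).2)
  · rintro ⟨g, rfl⟩
    exact Inv_io g

end Vale.Agent.P263.EX.GE
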