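import Vale.Agent.P263.EX.GE4
import Vale.Agent.P263.EX.GE5

/-!
# Block GE, part 6: dictionary with the definitions of the final statement
-/

namespace Vale.Agent.P263.EX.GE

open Finset Polynomial Vale.Agent.P263.LZ

theorem F_totalSq (n : ℕ) : F.totalSq n = PS n := rfl

theorem F_Sq (n a : ℕ) : F.Sq n a = Sq n a := rfl

theorem F_dicksonPoly (n : ℕ) : F.dicksonPoly n = dpoly (fun i => (MvPolynomial.X i : S n)) := rfl

theorem F_Q {n j : ℕ} (hj : j ≤ n) : F.Q n j = io n (q n j) := by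
  rw [io_q, ← dpoly_coeff _ j hj]
  rfl

theorem F_Dick (n : ℕ) : F.Dick n = (io n).range := by
  have h1 : (io n).range = Algebra.adjoin (ZMod 2) (Set.range fun j : Fin n => F.Q n j) := by
    have h2 : (fun j : Fin n => F.Q n j) = fun j : Fin n => dc n (fun i => (MvPolynomial.X i : S n)) j := by
      funext j
      rw [F_Q j.2.le, io_q]
    rw [h2]
    exact (Algebra.adjoin_range_eq_range_aeval (ZMod 2)
      (fun j : Fin n => dc n (fun i => (MvPolynomial.X i : S n)) j)).symm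
  rw [h1]
  unfold F.Dick
  congr 1
  ext y
  constructor
  · rintro ⟨j, hj, rfl⟩; exact ⟨⟨j, hj⟩, rfl⟩
  · rintro ⟨j, rfl⟩; exact ⟨j, j.2, rfl⟩

theorem mem_F_Dick {n : ℕ} {x : S n} : x ∈ F.Dick n ↔ ∃ f, io n f = x := by
  rw [F_Dick, AlgHom.mem_range]

theorem mem_F_M {n m : ℕ} {x : S n} : x ∈ F.M n m ↔ ∃ f : D n, x = io n (q n 0 ^ m * f) := by
  unfold F.M
  rw [Submodule.mem_map]
  constructor
  · rintro ⟨y, hy, rfl⟩
    have hy' : y ∈ F.Dick n := hy
    obtain ⟨f, rfl⟩ := mem_F_Dick.mp hy'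
    refine ⟨f, ?_⟩
    rw [LinearMap.mulLeft_apply, map_mul, map_pow, F_Q (Nat.zero_le _)]
  · rintro ⟨f, rfl⟩
    have hy' : io n f ∈ F.Dick n := mem_F_Dick.mpr ⟨f, rfl⟩
    refine ⟨io n f, hy', ?_⟩
    rw [LinearMap.mulLeft_apply, map_mul, map_pow, F_Q (Nat.zero_le _)]

/-! ### homogeneity of the decomposition -/

/-- the coefficients of `zx G` are homogeneous, with the degree doubled -/
def ZHom (n : ℕ) (k : ℤ) (p : (D n)[X]) : Prop :=
  ∀ a : ℕ, p.coeff a = 0 ∨ ∃ l : ℤ, 2 * l + a = k ∧ Hom n l (p.coeff a)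

lemma ZHom.zero (n : ℕ) (k : ℤ) : ZHom n k 0 := fun _ => Or.inl (Polynomial.coeff_zero _)

lemma ZHom.add {n : ℕ} {k : ℤ} {p r : (D n)[X]} (hp : ZHom n k p) (hr : ZHom n k r) :
    ZHom n k (p + r) := by
  intro a
  rw [Polynomial.coeff_add]
  rcases hp a with h | ⟨l, hl, h⟩
  · rw [h, zero_add]; exact hr a
  · rcases hr a with h' | ⟨l', hl', h'⟩
    · rw [h', add_zero]; exact Or.inr ⟨l, hl, h⟩
    · obtain rfl : l = l' := by omega
      exact Or.inr ⟨l, hl, h.add h'⟩

lemma ZHom.mul {n : ℕ} {k k' : ℤ} {p r : (D n)[X]} (hp : ZHom n k p) (hr : ZHom n k' r) :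
    ZHom n (k + k') (p * r) := by
  intro a
  rw [Polynomial.coeff_mul]
  by_cases hpar : ∃ l : ℤ, 2 * l + a = k + k'
  · obtain ⟨l, hl⟩ := hpar
    refine Or.inr ⟨l, hl, ?_⟩
    refine Hom.sum _ _ (fun x hx => ?_)
    have hx' : x.1 + x.2 = a := by simpa using hx
    rcases hp x.1 with h | ⟨l1, hl1, h1⟩
    · rw [h, zero_mul]; exact Hom.zero _ _
    · rcases hr x.2 with h' | ⟨l2, hl2, h2⟩
      · rw [h', mul_zero]; exact Hom.zero _ _
      · refine (h1.mul h2).congr ?_
        have : (x.1 : ℤ) + x.2 = a := by exact_mod_cast hx'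
        omega
  · refine Or.inl (Finset.sum_eq_zero (fun x hx => ?_))
    have hx' : x.1 + x.2 = a := by simpa using hx
    have hx'' : (x.1 : ℤ) + x.2 = a := by exact_mod_cast hx'
    rcases hp x.1 with h | ⟨l1, hl1, h1⟩
    · rw [h, zero_mul]
    · rcases hr x.2 with h' | ⟨l2, hl2, h2⟩
      · rw [h', mul_zero]
      · exact absurd ⟨l1 + l2, by omega⟩ hpar

lemma ZHom.C {n : ℕ} {l : ℤ} {f : D n} (hf : Hom n l f) : ZHom n (2 * l) (Polynomial.C f) := by
  intro a
  rw [Polynomial.coeff_C]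
  split_ifs with h
  · subst h; exact Or.inr ⟨l, by simp, hf⟩
  · exact Or.inl rfl

lemma ZHom.X_pow (n b : ℕ) : ZHom n b (Polynomial.X ^ b) := by
  intro a
  rw [Polynomial.coeff_X_pow]
  split_ifs with h
  · subst h; exact Or.inr ⟨0, by simp, Hom.one _⟩
  · exact Or.inl rfl

lemma ZHom.congr {n : ℕ} {k k' : ℤ} {p : (D n)[X]} (hp : ZHom n k p) (h : k = k') :
    ZHom n k' p := h ▸ hp

theorem ZHom.zx {n : ℕ} {k : ℤ} {G : D (n + 1)} (hG : Hom (n + 1) k G) : ZHom n k (GE.zx n G) := by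
  refine hom_map (fun m x => ZHom n m x) (fun m => ZHom.zero _ _)
    (fun m x y hx hy => hx.add hy) ?_ (fun m m' x y hx hy => hx.mul hy)
    (GE.zx n : D (n + 1) →+* (D n)[X]) ?_ G k hG
  · have := ZHom.C (n := n) (Hom.one n)
    rw [map_one] at this
    exact this.congr (by ring)
  · intro i
    have h1 : (GE.zx n : D (n + 1) →+* (D n)[X]) (gen i) =
        Polynomial.C (qm n i) + Polynomial.X ^ (2 ^ (i : ℕ)) * Polynomial.C (q n i) := by
      rw [← q_lt i.2]; exact zx_q n i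
    show ZHom n (w (n + 1) i) ((GE.zx n : D (n + 1) →+* (D n)[X]) (gen i))
    rw [h1]
    refine ZHom.add ?_ ?_
    · rcases i with ⟨i, hi⟩
      rcases i with _ | i
      · rw [qm_zero, map_zero]; exact ZHom.zero _ _
      · refine (ZHom.C (Hom.q n i)).congr ?_
        simp only [w]; ring
    · refine ((ZHom.X_pow n _).mul (ZHom.C (Hom.q n i))).congr ?_
      simp only [w]; push_cast; ring

/-! ### the decomposition at level `m` -/

lemma eval₂_Sta_C_X {n : ℕ} (m : ℕ) (p : (S n)[X]) :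
    (Polynomial.X ^ m * (C (io n (q n 0) ^ m) * p)).eval₂
      (Sta n : S n →+* S (n + 1)) (MvPolynomial.X 0) =
      io (n + 1) (q (n + 1) 0) ^ m *
        p.eval₂ (Sta n : S n →+* S (n + 1)) (MvPolynomial.X 0) := by
  have h0 : io (n + 1) (q (n + 1) 0) = MvPolynomial.X 0 * Sta n (io n (q n 0)) := by
    rw [io_succ, zx_q, qm_zero, map_zero, zero_add, pow_zero, pow_one, Polynomial.eval₂_mul,
      Polynomial.eval₂_X, Polynomial.eval₂_C]
    rfl
  rw [h0, Polynomial.eval₂_mul, Polynomial.eval₂_mul, Polynomial.eval₂_X_pow, Polynomial.eval₂_C,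
    map_pow, mul_pow, mul_assoc]
  rfl

/-- the converse of `io_homog` -/
theorem hom_of_io {n k : ℕ} {f : D n} (h : (io n f).IsHomogeneous k) : Hom n (k : ℤ) f := by
  obtain ⟨g, hg, hgf⟩ := dickson_homog n k _ h (Inv_io f)
  rw [← io_injective n hgf]
  exact hg

lemma hom_quot {n m N : ℕ} {f : D n} (h : (io n (q n 0 ^ m * f)).IsHomogeneous N) :
    Hom n ((N : ℤ) - m * (2 ^ n - 1)) f := by
  by_cases hf : io n f = 0
  · have : f = 0 := io_injective n (by rw [hf, map_zero])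
    rw [this]; exact Hom.zero _ _
  · rw [map_mul, map_pow] at h
    have hq : (io n (q n 0)).IsHomogeneous (2 ^ n - 1) := by
      have := io_q_homog (n := n) (Nat.zero_le _)
      rwa [pow_zero] at this
    have hq' := hq.pow m
    obtain ⟨hle, h1⟩ := homog_quot hq' (pow_ne_zero m io_q_zero_ne) h hf
    refine (hom_of_io h1).congr ?_
    have hpos : 1 ≤ 2 ^ n := Nat.one_le_two_pow
    rw [Nat.cast_sub hle, Nat.cast_mul, Nat.cast_sub hpos]
    push_cast
    ring

lemma coeff_aux {A : Type*} [CommRing A] (m N : ℕ) (c : A) (p : A[X]) :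
    (Polynomial.X ^ m * (Polynomial.C c * p)).coeff N =
      if m ≤ N then c * p.coeff (N - m) else 0 := by
  rw [Polynomial.coeff_X_pow_mul', Polynomial.coeff_C_mul]

/-- The decomposition of an element of `M (n + 1) m`: if `W = sum_d x_0 ^ (D - 2 d) St(Z_d)`, with
`Z_d` homogeneous of degree `d`, then `W = Q_0 ^ m G`, `Z_d = Q_0 ^ m g_d` and `sum_d g_d = z(G)`. -/
theorem decomposition {n m N : ℕ} {W : S (n + 1)} (hW : W ∈ F.M (n + 1) m) (Z : ℕ → S n)
    (hZ : ∀ d, (Z d).IsHomogeneous d) (hhom : W.IsHomogeneous N)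
    (hWZ : W = ∑ d ∈ range (N / 2 + 1), MvPolynomial.X 0 ^ (N - 2 * d) * F.St n d (Z d)) :
    ∃ (G : D (n + 1)) (g : ℕ → D n), W = io (n + 1) (q (n + 1) 0 ^ m * G) ∧
      Hom (n + 1) ((N : ℤ) - m * (2 ^ (n + 1) - 1)) G ∧
      (∀ d ∈ range (N / 2 + 1), Z d = io n (q n 0 ^ m * g d)) ∧
      (∀ d : ℕ, Hom n ((d : ℤ) - m * (2 ^ n - 1)) (g d)) ∧
      DS.z n G = ∑ d ∈ range (N / 2 + 1), g d := by
  obtain ⟨G, hG⟩ := mem_F_M.mp hW
  have hGhom : Hom (n + 1) ((N : ℤ) - m * (2 ^ (n + 1) - 1)) G := by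
    apply hom_quot
    rw [← hG]; exact hhom
  -- the polynomial identity
  have hpoly : ∑ d ∈ range (N / 2 + 1), Polynomial.X ^ (N - 2 * d) * Polynomial.C (Z d) =
      Polynomial.X ^ m * (Polynomial.C (io n (q n 0) ^ m) *
        (zx n G).map (io n : D n →+* S n)) := by
    apply eval₂_Sta_injective n
    rw [eval₂_Sta_C_X, Polynomial.eval₂_map, Polynomial.eval₂_finsetSum]
    have h1 : io (n + 1) (q (n + 1) 0) ^ m * (zx n G).eval₂
        (((Sta n : S n →+* S (n + 1))).comp (io n : D n →+* S n)) (MvPolynomial.X 0) = W := by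
      rw [hG, map_mul, map_pow, io_succ G]
      rfl
    rw [h1, hWZ]
    refine Finset.sum_congr rfl (fun d _ => ?_)
    rw [St_eq (hZ d), Polynomial.eval₂_mul, Polynomial.eval₂_X_pow, Polynomial.eval₂_C]
    rfl
  let g : ℕ → D n := fun d => if m + 2 * d ≤ N then (zx n G).coeff (N - 2 * d - m) else 0
  have hg : ∀ d ∈ range (N / 2 + 1), Z d = io n (q n 0 ^ m * g d) := by
    intro d hd
    have hd' : d ≤ N / 2 := by simpa [Nat.lt_succ_iff] using hd
    have h1 := congrArg (fun p => Polynomial.coeff p (N - 2 * d)) hpoly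
    simp only [Polynomial.finsetSum_coeff] at h1
    rw [Finset.sum_eq_single_of_mem d hd] at h1
    · rw [mul_comm, Polynomial.coeff_C_mul, Polynomial.coeff_X_pow, if_pos rfl, mul_one,
        coeff_aux] at h1
      rw [h1, map_mul, map_pow, Polynomial.coeff_map]
      by_cases hc : m ≤ N - 2 * d
      · have hgd : g d = (zx n G).coeff (N - 2 * d - m) := if_pos (by omega)
        rw [if_pos hc, hgd]
        rfl
      · have hgd : g d = 0 := if_neg (by omega)
        rw [if_neg hc, hgd, map_zero, mul_zero]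
    · intro e he hne
      have he' : e ≤ N / 2 := by simpa [Nat.lt_succ_iff] using he
      rw [mul_comm, Polynomial.coeff_C_mul, Polynomial.coeff_X_pow, if_neg (by omega), mul_zero]
  refine ⟨G, g, hG, hGhom, hg, ?_, ?_⟩
  · intro d
    by_cases hc : m + 2 * d ≤ N
    · have hgd : g d = (zx n G).coeff (N - 2 * d - m) := if_pos hc
      rw [hgd]
      rcases ZHom.zx hGhom (N - 2 * d - m) with h | ⟨l, hl, h⟩
      · rw [h]; exact Hom.zero _ _
      · refine h.congr ?_
        have h2 : ((N - 2 * d - m : ℕ) : ℤ) = N - 2 * d - m := by omega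
        rw [h2, pow_succ] at hl
        have h3 : 2 * l = 2 * ((d : ℤ) - m * (2 ^ n - 1)) := by linear_combination hl
        omega
    · have hgd : g d = 0 := if_neg hc
      rw [hgd]; exact Hom.zero _ _
  · have h1 := congrArg (fun p => Polynomial.eval 1 p) hpoly
    simp only [Polynomial.eval_finsetSum, Polynomial.eval_mul, Polynomial.eval_pow,
      Polynomial.eval_X, one_pow, one_mul, Polynomial.eval_C] at h1
    have h2 : ((zx n G).map (io n : D n →+* S n)).eval 1 = io n (DS.z n G) := by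
      rw [z_eq, Polynomial.eval_map, Polynomial.eval₂_at_one]
      rfl
    rw [h2, Finset.sum_congr rfl hg, ← map_sum, ← Finset.mul_sum, map_mul, map_pow] at h1
    exact (io_injective n (mul_left_cancel₀ (pow_ne_zero m io_q_zero_ne) h1)).symm

end Vale.Agent.P263.EX.GE
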