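import Vale.Agent.P263.EX.T1Inst

/-!
P263: a cocycle (`Coc n m N`) from an honest extension of modules over the Steenrod algebra.

`E` is a vector space over `F_2` with operations `Sq a` which satisfy the Bullett-Macdonald
relations, with a grading, with a class `io` of degree `N` killed by all `Sq a`, `a ≥ 1`, and with a
linear map `L : D n → E` which is compatible with the operations of level `m` modulo `io`.
-/

namespace Vale.Agent.P263.EX

open Polynomial Vale.Agent.P263.LZ Vale.Agent.P263.EX.DS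

/-- An honest extension of `q_0^m D n` by a class of degree `N`. -/
structure ExtData (n m N : ℕ) (E : Type*) [AddCommGroup E] [Module (ZMod 2) E] where
  /-- the squares -/
  Sq : ℕ → Module.End (ZMod 2) E
  sq_zero : Sq 0 = 1
  rel : BM.Rel Sq
  /-- homogeneous elements -/
  deg : ℤ → Submodule (ZMod 2) E
  deg_disj : ∀ (k l : ℤ) (x : E), k ≠ l → x ∈ deg k → x ∈ deg l → x = 0
  sq_deg : ∀ (a : ℕ) (k : ℤ) (x : E), x ∈ deg k → Sq a x ∈ deg (k + a)
  /-- the bottom class of the extension -/
  io : E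
  io_ne : io ≠ 0
  io_deg : io ∈ deg N
  sq_io : ∀ a, 1 ≤ a → Sq a io = 0
  /-- the lifts -/
  L : D n →ₗ[ZMod 2] E
  L_deg : ∀ (k : ℤ) (x : D n), Hom n k x → L x ∈ deg (k + m * (2 ^ n - 1))
  L_sq : ∀ (a : ℕ) (x : D n), ∃ r : ZMod 2, Sq a (L x) = L (s n m a x) + r • io

namespace ExtData

variable {n m N : ℕ} {E : Type*} [AddCommGroup E] [Module (ZMod 2) E] (e : ExtData n m N E)

lemma smul_io_inj {r r' : ZMod 2} (h : r • e.io = r' • e.io) : r = r' := by
  rcases zmod2 r with h1 | h1 <;> rcases zmod2 r' with h2 | h2 <;> subst h1 <;> subst h2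
  · rfl
  · rw [zero_smul, one_smul] at h; exact absurd h.symm e.io_ne
  · rw [zero_smul, one_smul] at h; exact absurd h e.io_ne
  · rfl

/-- the value of the cocycle -/
noncomputable def val (a : ℕ) (x : D n) : ZMod 2 := (e.L_sq a x).choose

lemma val_spec (a : ℕ) (x : D n) : e.Sq a (e.L x) = e.L (s n m a x) + e.val a x • e.io :=
  (e.L_sq a x).choose_spec

lemma val_eq {a : ℕ} {x : D n} {r : ZMod 2}
    (h : e.Sq a (e.L x) = e.L (s n m a x) + r • e.io) : e.val a x = r := by
  have h1 := e.val_spec a x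
  rw [h] at h1
  exact (e.smul_io_inj (add_left_cancel h1)).symm

/-- the linear functional `th a` -/
noncomputable def thL (a : ℕ) : D n →ₗ[ZMod 2] ZMod 2 where
  toFun x := e.val a x
  map_add' x y := by
    apply e.val_eq
    rw [map_add, map_add, e.val_spec, e.val_spec, map_add, map_add, add_smul]
    abel
  map_smul' r x := by
    apply e.val_eq
    rw [map_smul, map_smul, e.val_spec, map_smul, map_smul, smul_add, smul_smul, RingHom.id_apply,
      smul_eq_mul]

lemma thL_spec (a : ℕ) (x : D n) : e.Sq a (e.L x) = e.L (s n m a x) + e.thL a x • e.io :=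
  e.val_spec a x

/-- The cocycle of an honest extension. -/
noncomputable def coc : Coc n m N where
  th := e.thL
  th_zero := by
    refine LinearMap.ext fun x => ?_
    apply e.val_eq
    rw [e.sq_zero, s_zero, LinearMap.zero_apply, zero_smul, add_zero]; rfl
  supp a k x hx h := by
    have h1 := e.thL_spec a x
    have h2 : e.thL a x • e.io = e.Sq a (e.L x) - e.L (s n m a x) := by rw [h1]; abel
    have h3 : e.thL a x • e.io ∈ e.deg (k + m * (2 ^ n - 1) + a) := by
      rw [h2]
      refine Submodule.sub_mem _ (e.sq_deg a _ _ (e.L_deg k x hx)) ?_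
      have h4 := e.L_deg (k + a) _ (s_hom hx m a)
      rwa [show k + a + m * (2 ^ n - 1) = k + m * (2 ^ n - 1) + (a : ℤ) by ring] at h4
    have h5 : e.thL a x • e.io = 0 :=
      e.deg_disj _ _ _ h h3 (Submodule.smul_mem _ _ e.io_deg)
    exact e.smul_io_inj (by rw [h5, zero_smul])
  bm M x := by
    refine Polynomial.ext fun j => ?_
    have hE := e.rel
    have key : ∀ a, ((if 2 * (M - a) ≤ j then a.choose (j - 2 * (M - a)) else 0 : ℕ) : ZMod 2) +
        (BM.cc a j : ZMod 2) = ((if 2 * (M - a) ≤ j then a.choose (j - 2 * (M - a)) else 0) +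
          BM.cc a j : ℕ) := fun a => by push_cast; rfl
    set W : ℕ → ℕ := fun a =>
      (if 2 * (M - a) ≤ j then a.choose (j - 2 * (M - a)) else 0) + BM.cc a j with hW
    -- the relation in `E`
    have h1 : ∑ a ∈ Finset.range (M + 1), W a • e.Sq a (e.Sq (M - a) (e.L x)) = 0 := by
      have h2 := congrArg (fun p : (Module.End (ZMod 2) E)[X] => p.coeff j) (hE M)
      simp only [finsetSum_coeff, coeff_zero, BM.coeff_wt] at h2
      have h3 := congrArg (fun g : Module.End (ZMod 2) E => g (e.L x)) h2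
      simp only [LinearMap.sum_apply, LinearMap.zero_apply] at h3
      rw [← h3]
      refine Finset.sum_congr rfl (fun a _ => ?_)
      rw [hW]
      simp only [LinearMap.add_apply, Module.End.mul_apply, Module.End.natCast_apply, map_nsmul,
        add_smul]
    -- the relation in `D n`
    have h4 : ∑ a ∈ Finset.range (M + 1), W a • s n m a (s n m (M - a) x) = 0 := by
      have h2 := congrArg (fun p : (D n)[X] => p.coeff j) (bm_s (n := n) (m := m) x M)
      simp only [finsetSum_coeff, coeff_zero, BM.coeff_wt] at h2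
      rw [← h2]
      refine Finset.sum_congr rfl (fun a _ => ?_)
      rw [hW]
      simp only [add_smul, nsmul_eq_mul']
    -- expand
    have h5 : ∀ a, e.Sq a (e.Sq (M - a) (e.L x)) = e.L (s n m a (s n m (M - a) x)) +
        (e.thL a (s n m (M - a) x) + (if a = 0 then e.thL M x else 0)) • e.io := by
      intro a
      rw [e.thL_spec, map_add, e.thL_spec, map_smul]
      split_ifs with h0
      · subst h0
        rw [e.sq_zero, Module.End.one_apply, Nat.sub_zero, add_smul]; abel
      · rw [e.sq_io a (by omega), smul_zero, add_zero, add_zero]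
    simp only [h5, smul_add, Finset.sum_add_distrib] at h1
    have h6 : ∑ a ∈ Finset.range (M + 1), W a • e.L (s n m a (s n m (M - a) x)) = 0 := by
      rw [← map_zero e.L, ← h4, map_sum]
      exact Finset.sum_congr rfl (fun a _ => (map_nsmul _ _ _).symm)
    rw [h6, zero_add] at h1
    have h7 : ∑ a ∈ Finset.range (M + 1), W a •
        (e.thL a (s n m (M - a) x) + (if a = 0 then e.thL M x else 0)) = 0 := by
      refine e.smul_io_inj ?_
      rw [Finset.sum_smul, zero_smul, ← h1]
      exact Finset.sum_congr rfl (fun a _ => smul_assoc _ _ _)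
    simp only [smul_add, Finset.sum_add_distrib] at h7
    have h8 : ∑ a ∈ Finset.range (M + 1), W a • (if a = 0 then e.thL M x else 0) =
        W 0 • e.thL M x := by
      rw [Finset.sum_eq_single 0]
      · rw [if_pos rfl]
      · intro a _ ha; rw [if_neg ha, smul_zero]
      · intro h; exact absurd (Finset.mem_range.mpr (Nat.succ_pos M)) h
    rw [h8] at h7
    simp only [coeff_add, finsetSum_coeff, coeff_zero, BM.coeff_wt]
    rw [← h7, hW]
    simp only [nsmul_eq_mul', Nat.cast_add, mul_add, Nat.sub_zero]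

lemma coc_th (a : ℕ) (x : D n) : e.coc.th a x = e.thL a x := rfl

/-- `Sq a (L x) = th a x • io` above the degree of `x`. -/
lemma sq_of_gt {a : ℕ} {k : ℤ} {x : D n} (hx : Hom n k x) (h : k + m * (2 ^ n - 1) < a) :
    e.Sq a (e.L x) = e.coc.th a x • e.io := by
  rw [coc_th, e.thL_spec, s_eq_zero hx h, map_zero, zero_add]

end ExtData

namespace Coc

variable {n m N : ℕ} (c : Coc n m N)

/-- `TH` of a sum of homogeneous elements -/
lemma TH_sum {ι : Type*} (J : Finset ι) (x : ι → D n) (k : ι → ℤ) (a : ι → ℕ)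
    (hx : ∀ j ∈ J, Hom n (k j) (x j))
    (ha : ∀ j ∈ J, x j ≠ 0 → k j + m * (2 ^ n - 1) + a j = N) :
    c.TH (∑ j ∈ J, x j) = ∑ j ∈ J, c.th (a j) (x j) := by
  rw [map_sum]
  refine Finset.sum_congr rfl (fun j hj => ?_)
  by_cases h0 : x j = 0
  · rw [h0, map_zero, map_zero]
  have h1 := ha j hj h0
  have hk : 0 ≤ k j := by
    by_contra hc
    exact h0 ((hx j hj).eq_zero_of_neg (by omega))
  have h2 := level_nonneg m n
  have h3 : (a j : ℤ) ≤ N := by linarith
  exact c.TH_hom (hx j hj) h1 (by exact_mod_cast h3)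

end Coc

/-- **T1 for honest extensions.** If `z G = Σ_j x_j` with `x_j` homogeneous and
`|x_j|_m + a_j = N`, then `Σ_j Sq^{a_j} (L x_j) = 0`. -/
theorem ExtData.T1 {n m N : ℕ} {E : Type*} [AddCommGroup E] [Module (ZMod 2) E]
    (e : ExtData n m N E) (hn : 1 ≤ n) (hm : 1 ≤ m) (k : ℤ) (G : D (n + 1))
    (hG : Hom (n + 1) k G) (hN : (N : ℤ) = 1 + k + m * (2 ^ (n + 1) - 1)) {ι : Type*}
    (J : Finset ι) (x : ι → D n) (kk : ι → ℤ) (a : ι → ℕ) (hz : z n G = ∑ j ∈ J, x j)
    (hx : ∀ j ∈ J, Hom n (kk j) (x j))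
    (ha : ∀ j ∈ J, x j ≠ 0 → kk j + m * (2 ^ n - 1) + a j = N) :
    ∑ j ∈ J, e.coc.th (a j) (x j) = 0 := by
  rw [← Coc.TH_sum e.coc J x kk a hx ha, ← hz]
  exact T1_final hn e.coc hm k G hG hN

end Vale.Agent.P263.EX
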