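import Vale.Agent.P263.EX.OfExt

/-!
P263: a cocycle (`Coc n m N`) from an extension, without the hypothesis `Sq 0 = 1`.

`ExtData'` is `ExtData` where `Sq 0 = 1` is replaced by `Sq 0 io = io` (the congruence
`Sq 0 (L x) = L x + r • io` is the case `a = 0` of `L_sq`). The functional `th 0` of the cocycle is
put equal to `0`; the Bullett-Macdonald relations hold because of
`Sq M * Sq 0 = Sq 0 * Sq M` (`M ≥ 1`), the constant coefficient of `BM.Rel`.
-/

namespace Vale.Agent.P263.EX

open Polynomial Vale.Agent.P263.LZ Vale.Agent.P263.EX.DS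

/-- The constant coefficient of the Bullett-Macdonald relations. -/
theorem BM.comm_zero {R : Type*} [Ring R] [CharP R 2] {s : ℕ → R} (h : BM.Rel s) {M : ℕ}
    (hM : 1 ≤ M) : s M * s 0 = s 0 * s M := by
  have h1 := congrArg (fun p : R[X] => p.coeff 0) (h M)
  simp only [finsetSum_coeff, coeff_zero, BM.coeff_wt] at h1
  have h2 : ∀ a ∈ Finset.range (M + 1),
      s a * s (M - a) * ((if 2 * (M - a) ≤ 0 then a.choose (0 - 2 * (M - a)) else 0 : ℕ) : R) +
        s a * s (M - a) * (BM.cc a 0 : R) =
      (if a = M then s M * s 0 else 0) + (if a = 0 then s 0 * s M else 0) := by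
    intro a ha
    have ha' : a ≤ M := Nat.lt_succ_iff.mp (Finset.mem_range.mp ha)
    congr 1
    · by_cases h : a = M
      · subst h; simp
      · rw [if_neg (by omega), if_neg h, Nat.cast_zero, mul_zero]
    · by_cases h : a = 0
      · subst h; simp [BM.cc_self]
      · rw [BM.cc_lt (by omega), if_neg h, Nat.cast_zero, mul_zero]
  rw [Finset.sum_congr rfl h2, Finset.sum_add_distrib, Finset.sum_ite_eq' , Finset.sum_ite_eq',
    if_pos (Finset.mem_range.mpr (by omega)), if_pos (Finset.mem_range.mpr (by omega))] at h1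
  have h3 := eq_neg_of_add_eq_zero_left h1
  rwa [CharTwo.neg_eq] at h3

/-- An extension of `q_0^m D n` by a class of degree `N`, without the hypothesis `Sq 0 = 1`. -/
structure ExtData' (n m N : ℕ) (E : Type*) [AddCommGroup E] [Module (ZMod 2) E] where
  /-- the squares -/
  Sq : ℕ → Module.End (ZMod 2) E
  rel : BM.Rel Sq
  /-- homogeneous elements -/
  deg : ℤ → Submodule (ZMod 2) E
  deg_disj : ∀ (k l : ℤ) (x : E), k ≠ l → x ∈ deg k → x ∈ deg l → x = 0
  sq_deg : ∀ (a : ℕ) (k : ℤ) (x : E), x ∈ deg k → Sq a x ∈ deg (k + a)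
  /-- the bottom class of the extension -/
  io : E
  io_ne : io ≠ 0
  io_deg : io ∈ deg N
  sq_zero_io : Sq 0 io = io
  sq_io : ∀ a, 1 ≤ a → Sq a io = 0
  /-- the lifts -/
  L : D n →ₗ[ZMod 2] E
  L_deg : ∀ (k : ℤ) (x : D n), Hom n k x → L x ∈ deg (k + m * (2 ^ n - 1))
  L_sq : ∀ (a : ℕ) (x : D n), ∃ r : ZMod 2, Sq a (L x) = L (s n m a x) + r • io

namespace ExtData'

variable {n m N : ℕ} {E : Type*} [AddCommGroup E] [Module (ZMod 2) E] (e : ExtData' n m N E)

include e in
lemma smul_io_inj {r r' : ZMod 2} (h : r • e.io = r' • e.io) : r = r' := by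
  rcases zmod2 r with h1 | h1 <;> rcases zmod2 r' with h2 | h2 <;> subst h1 <;> subst h2
  · rfl
  · rw [zero_smul, one_smul] at h; exact absurd h.symm e.io_ne
  · rw [zero_smul, one_smul] at h; exact absurd h e.io_ne
  · rfl

/-- the value of the cocycle -/
noncomputable def val (a : ℕ) (x : D n) : ZMod 2 := (e.L_sq a x).choose

lemma val_spec (a : ℕ) (x : D n) : e.Sq a (e.L x) = e.L (s n m a x) + e.val a x • e.io :=
  (e.L_sq a x).choose_spec

lemma val_eq {a : ℕ} {x : D n} {r : ZMod 2}
    (h : e.Sq a (e.L x) = e.L (s n m a x) + r • e.io) : e.val a x = r := by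
  have h1 := e.val_spec a x
  rw [h] at h1
  exact (e.smul_io_inj (add_left_cancel h1)).symm

/-- the linear functional `val a` -/
noncomputable def vL (a : ℕ) : D n →ₗ[ZMod 2] ZMod 2 where
  toFun x := e.val a x
  map_add' x y := by
    apply e.val_eq
    rw [map_add, map_add, e.val_spec, e.val_spec, map_add, map_add, add_smul]
    abel
  map_smul' r x := by
    apply e.val_eq
    rw [map_smul, map_smul, e.val_spec, map_smul, map_smul, smul_add, smul_smul, RingHom.id_apply,
      smul_eq_mul]

lemma vL_spec (a : ℕ) (x : D n) : e.Sq a (e.L x) = e.L (s n m a x) + e.vL a x • e.io :=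
  e.val_spec a x

lemma vL_zero_s {M : ℕ} (hM : 1 ≤ M) (x : D n) : e.vL 0 (s n m M x) = 0 := by
  have h2 : (2 : Module.End (ZMod 2) E) = 0 := by
    refine LinearMap.ext fun y => ?_
    rw [show (2 : Module.End (ZMod 2) E) = 1 + 1 from one_add_one_eq_two.symm, LinearMap.add_apply,
      Module.End.one_apply, LinearMap.zero_apply, ← two_smul (ZMod 2) y,
      show (2 : ZMod 2) = 0 from rfl, zero_smul]
  have : CharP (Module.End (ZMod 2) E) 2 := by
    have : Nontrivial E := ⟨⟨e.io, 0, e.io_ne⟩⟩
    exact CharTwo.of_one_ne_zero_of_two_eq_zero one_ne_zero h2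
  have h := congrArg (fun g : Module.End (ZMod 2) E => g (e.L x)) (BM.comm_zero e.rel hM)
  simp only [Module.End.mul_apply] at h
  rw [e.vL_spec 0 x, e.vL_spec M x, map_add, map_add, map_smul, map_smul, e.vL_spec M, e.vL_spec 0,
    e.sq_io M hM, e.sq_zero_io, smul_zero, add_zero, s_zero, s_zero, add_assoc,
    add_right_inj] at h
  have h3 : e.vL 0 (s n m M x) • e.io = 0 := by
    have h4 := add_eq_right.mp h.symm
    exact h4
  exact e.smul_io_inj (by rw [h3, zero_smul])

/-- The functionals of the cocycle. -/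
noncomputable def thL : ℕ → (D n →ₗ[ZMod 2] ZMod 2)
  | 0 => 0
  | (a + 1) => e.vL (a + 1)

lemma thL_zero : e.thL 0 = 0 := rfl

lemma thL_pos {a : ℕ} (ha : 1 ≤ a) : e.thL a = e.vL a := by
  obtain ⟨b, rfl⟩ := Nat.exists_eq_succ_of_ne_zero (Nat.one_le_iff_ne_zero.mp ha)
  rfl

lemma thL_s {M : ℕ} (hM : 1 ≤ M) (a : ℕ) (x : D n) :
    e.thL a (s n m (M - a) x) = e.vL a (s n m (M - a) x) := by
  rcases Nat.eq_zero_or_pos a with h | h
  · subst h
    rw [thL_zero, LinearMap.zero_apply, Nat.sub_zero, e.vL_zero_s hM]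
  · rw [e.thL_pos h]

/-- The cocycle of an extension. -/
noncomputable def coc : Coc n m N where
  th := e.thL
  th_zero := rfl
  supp a k x hx h := by
    rcases Nat.eq_zero_or_pos a with h0 | h0
    · subst h0; rfl
    rw [e.thL_pos h0]
    have h1 := e.vL_spec a x
    have h2 : e.vL a x • e.io = e.Sq a (e.L x) - e.L (s n m a x) := by rw [h1]; abel
    have h3 : e.vL a x • e.io ∈ e.deg (k + m * (2 ^ n - 1) + a) := by
      rw [h2]
      refine Submodule.sub_mem _ (e.sq_deg a _ _ (e.L_deg k x hx)) ?_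
      have h4 := e.L_deg (k + a) _ (s_hom hx m a)
      rwa [show k + a + m * (2 ^ n - 1) = k + m * (2 ^ n - 1) + (a : ℤ) by ring] at h4
    have h5 : e.vL a x • e.io = 0 :=
      e.deg_disj _ _ _ h h3 (Submodule.smul_mem _ _ e.io_deg)
    exact e.smul_io_inj (by rw [h5, zero_smul])
  bm M x := by
    rcases Nat.eq_zero_or_pos M with hM0 | hM
    · subst hM0
      simp [thL_zero]
    refine Polynomial.ext fun j => ?_
    have hE := e.rel
    set W : ℕ → ℕ := fun a =>
      (if 2 * (M - a) ≤ j then a.choose (j - 2 * (M - a)) else 0) + BM.cc a j with hW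
    -- the relation in `E`
    have h1 : ∑ a ∈ Finset.range (M + 1), W a • e.Sq a (e.Sq (M - a) (e.L x)) = 0 := by
      have h2 := congrArg (fun p : (Module.End (ZMod 2) E)[X] => p.coeff j) (hE M)
      simp only [finsetSum_coeff, coeff_zero, BM.coeff_wt] at h2
      have h3 := congrArg (fun g : Module.End (ZMod 2) E => g (e.L x)) h2
      simp only [LinearMap.sum_apply, LinearMap.zero_apply] at h3
      rw [← h3]
      refine Finset.sum_congr rfl (fun a _ => ?_)
      rw [hW]
      simp only [LinearMap.add_apply, Module.End.mul_apply, Module.End.natCast_apply, map_nsmul,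
        add_smul]
    -- the relation in `D n`
    have h4 : ∑ a ∈ Finset.range (M + 1), W a • s n m a (s n m (M - a) x) = 0 := by
      have h2 := congrArg (fun p : (D n)[X] => p.coeff j) (bm_s (n := n) (m := m) x M)
      simp only [finsetSum_coeff, coeff_zero, BM.coeff_wt] at h2
      rw [← h2]
      refine Finset.sum_congr rfl (fun a _ => ?_)
      rw [hW]
      simp only [add_smul, nsmul_eq_mul']
    -- expand
    have h5 : ∀ a, e.Sq a (e.Sq (M - a) (e.L x)) = e.L (s n m a (s n m (M - a) x)) +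
        (e.thL a (s n m (M - a) x) + (if a = 0 then e.thL M x else 0)) • e.io := by
      intro a
      rw [e.thL_s hM, e.vL_spec, map_add, e.vL_spec, map_smul]
      split_ifs with h0
      · subst h0
        rw [e.sq_zero_io, Nat.sub_zero, add_smul, e.thL_pos hM]; abel
      · rw [e.sq_io a (by omega), smul_zero, add_zero, add_zero]
    simp only [h5, smul_add, Finset.sum_add_distrib] at h1
    have h6 : ∑ a ∈ Finset.range (M + 1), W a • e.L (s n m a (s n m (M - a) x)) = 0 := by
      rw [← map_zero e.L, ← h4, map_sum]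
      exact Finset.sum_congr rfl (fun a _ => (map_nsmul _ _ _).symm)
    rw [h6, zero_add] at h1
    have h7 : ∑ a ∈ Finset.range (M + 1), W a •
        (e.thL a (s n m (M - a) x) + (if a = 0 then e.thL M x else 0)) = 0 := by
      refine e.smul_io_inj ?_
      rw [Finset.sum_smul, zero_smul, ← h1]
      exact Finset.sum_congr rfl (fun a _ => smul_assoc _ _ _)
    simp only [smul_add, Finset.sum_add_distrib] at h7
    have h8 : ∑ a ∈ Finset.range (M + 1), W a • (if a = 0 then e.thL M x else 0) =
        W 0 • e.thL M x := by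
      rw [Finset.sum_eq_single 0]
      · rw [if_pos rfl]
      · intro a _ ha; rw [if_neg ha, smul_zero]
      · intro h; exact absurd (Finset.mem_range.mpr (Nat.succ_pos M)) h
    rw [h8] at h7
    simp only [coeff_add, finsetSum_coeff, coeff_zero, BM.coeff_wt]
    rw [← h7, hW]
    simp only [nsmul_eq_mul', Nat.cast_add, mul_add, Nat.sub_zero]

lemma coc_th {a : ℕ} (ha : 1 ≤ a) (x : D n) : e.coc.th a x = e.vL a x := by
  show e.thL a x = _
  rw [e.thL_pos ha]

/-- `Sq a (L x) = L (s a x) + th a x • io` for `a ≥ 1`. -/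
lemma sq_L {a : ℕ} (ha : 1 ≤ a) (x : D n) :
    e.Sq a (e.L x) = e.L (s n m a x) + e.coc.th a x • e.io := by
  rw [e.coc_th ha, e.vL_spec]

/-- `Sq a (L x) = th a x • io` above the degree of `x`. -/
lemma sq_of_gt {a : ℕ} {k : ℤ} {x : D n} (ha : 1 ≤ a) (hx : Hom n k x)
    (h : k + m * (2 ^ n - 1) < a) : e.Sq a (e.L x) = e.coc.th a x • e.io := by
  rw [e.sq_L ha, s_eq_zero hx h, map_zero, zero_add]

end ExtData'

end Vale.Agent.P263.EX
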