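import Vale.Agent.P263.EX.OfExt

/-!
# `Sq^0 = 1` is not needed on the extension

If `s` satisfies the Bullett-Macdonald relations (with an arbitrary `s 0`), then
`s 0 * s n = s n * s 0` for all `n`; if moreover `s n * s 0 = s n` for `n ≥ 1`, then the family in
which `s 0` is replaced by `1` satisfies the relations too.  Hence in `ExtData` the field
`sq_zero : Sq 0 = 1` may be replaced by `Sq n (Sq 0 x) = Sq n x` for `n ≥ 1`, which holds as soon as
`Sq 0 x - x` lies in a subspace which is killed by all `Sq n`, `n ≥ 1` (the indeterminacy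
`F_2 ι + F_2 ∂(1)` of the extension).
-/

namespace Vale.Agent.P263.EX

open Polynomial Finset

namespace BM

variable {R : Type*} [Ring R] [Algebra (ZMod 2) R]

/-- `s 0` commutes with all `s n`. -/
theorem Rel.comm_zero {s : ℕ → R} (hs : Rel s) (n : ℕ) : s 0 * s n = s n * s 0 := by
  rcases Nat.eq_zero_or_pos n with rfl | hn
  · rfl
  have h := hs.coeff n 0
  have e : ∀ a ∈ range (n + 1), s a * s (n - a) *
      (((if 2 * (n - a) ≤ 0 then a.choose (0 - 2 * (n - a)) else 0 : ℕ) : R) + (cc a 0 : R)) =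
      (if a = n then s n * s 0 else 0) + (if a = 0 then s 0 * s n else 0) := by
    intro a ha
    have ha' : a ≤ n := by have := mem_range.mp ha; omega
    rcases Nat.eq_zero_or_pos a with rfl | h0
    · rw [if_neg (by omega), if_neg (by omega), if_pos rfl]
      simp [cc]
    · have hc : cc a 0 = 0 := cc_lt h0
      rw [hc, if_neg (show ¬ a = 0 by omega)]
      by_cases h1 : a = n
      · subst h1
        rw [if_pos rfl, if_pos (by omega)]
        simp
      · rw [if_neg h1, if_neg (by omega)]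
        simp
  rw [sum_congr rfl e, sum_add_distrib, sum_ite_eq' (range (n + 1)) n,
    sum_ite_eq' (range (n + 1)) 0, if_pos (mem_range.mpr (by omega)),
    if_pos (mem_range.mpr (by omega))] at h
  exact (eq_of_add_zero h).symm

/-- `s 0` may be replaced by `1`. -/
theorem Rel.fix {s : ℕ → R} (hs : Rel s) (h : ∀ n, 1 ≤ n → s n * s 0 = s n) :
    Rel (fun a => if a = 0 then 1 else s a) := by
  intro N
  rcases Nat.eq_zero_or_pos N with rfl | hN
  · have h2 : wt R 0 0 = 0 := by
      unfold wt
      simpa using add_self_zero (1 : R[X])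
    simp [h2]
  · rw [← hs N]
    refine sum_congr rfl fun a ha => ?_
    have ha' : a ≤ N := by have := mem_range.mp ha; omega
    congr 2
    beta_reduce
    rcases Nat.eq_zero_or_pos a with rfl | h0
    · rw [if_pos rfl, Nat.sub_zero, if_neg (by omega), one_mul, hs.comm_zero, h N hN]
    · rw [if_neg (show ¬ a = 0 by omega)]
      by_cases h1 : a = N
      · subst h1
        rw [Nat.sub_self, if_pos rfl, mul_one, h a h0]
      · rw [if_neg (show ¬ N - a = 0 by omega)]

end BM

open DS Vale.Agent.P263.LZ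

/-- Constructor of `ExtData` without `Sq^0 = 1`: it is enough that `Sq^n Sq^0 = Sq^n` for
`n ≥ 1`. -/
noncomputable def ExtData.mk' {n m N : ℕ} {E : Type*} [AddCommGroup E] [Module (ZMod 2) E]
    (Sq : ℕ → Module.End (ZMod 2) E) (sq_zero : ∀ a, 1 ≤ a → ∀ x, Sq a (Sq 0 x) = Sq a x)
    (rel : BM.Rel Sq) (deg : ℤ → Submodule (ZMod 2) E)
    (deg_disj : ∀ (k l : ℤ) (x : E), k ≠ l → x ∈ deg k → x ∈ deg l → x = 0)
    (sq_deg : ∀ (a : ℕ), 1 ≤ a → ∀ (k : ℤ) (x : E), x ∈ deg k → Sq a x ∈ deg (k + a))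
    (io : E) (io_ne : io ≠ 0) (io_deg : io ∈ deg N) (sq_io : ∀ a, 1 ≤ a → Sq a io = 0)
    (L : D n →ₗ[ZMod 2] E)
    (L_deg : ∀ (k : ℤ) (x : D n), Hom n k x → L x ∈ deg (k + m * (2 ^ n - 1)))
    (L_sq : ∀ (a : ℕ), 1 ≤ a → ∀ (x : D n), ∃ r : ZMod 2,
      Sq a (L x) = L (s n m a x) + r • io) : ExtData n m N E where
  Sq a := if a = 0 then 1 else Sq a
  sq_zero := if_pos rfl
  rel := rel.fix fun a ha => LinearMap.ext fun x => sq_zero a ha x
  deg := deg
  deg_disj := deg_disj
  sq_deg a k x hx := by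
    rcases Nat.eq_zero_or_pos a with rfl | h0
    · simpa using hx
    · rw [if_neg (show ¬ a = 0 by omega)]
      exact sq_deg a h0 k x hx
  io := io
  io_ne := io_ne
  io_deg := io_deg
  sq_io a ha := by
    rw [if_neg (show ¬ a = 0 by omega)]
    exact sq_io a ha
  L := L
  L_deg := L_deg
  L_sq a x := by
    rcases Nat.eq_zero_or_pos a with rfl | h0
    · refine ⟨0, ?_⟩
      rw [if_pos rfl, Module.End.one_apply, zero_smul, add_zero, s_zero]
    · rw [if_neg (show ¬ a = 0 by omega)]
      exact L_sq a h0 x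

end Vale.Agent.P263.EX
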