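import Vale.Agent.P263.EX.T1C

/-!
P263, block T1: for every cocycle of level `m ≥ 1`, `TH (z G) = 0`.
-/

namespace Vale.Agent.P263.EX

open Polynomial Vale.Agent.P263.LZ Vale.Agent.P263.EX.DS

lemma wtm_even {n : ℕ} (e : Fin (n + 1) →₀ ℕ) (h0 : e 0 = 0) : Even (wtm e) := by
  obtain ⟨k, hk⟩ := wtm_parity e (Nat.succ_pos n)
  have : e ⟨0, Nat.succ_pos n⟩ = 0 := h0
  rw [this] at hk
  exact ⟨k, by rw [hk]; push_cast; ring⟩

/-- `|G| = 2 mod 4` if `e_0 = 0` and `e_1` is odd. -/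
lemma wtm_mod_four {n : ℕ} (hn : 1 ≤ n) (e : Fin (n + 1) →₀ ℕ) (h0 : e 0 = 0)
    (h1 : Odd (e ⟨1, by omega⟩)) : ∃ k : ℤ, wtm e = 4 * k + 2 := by
  obtain ⟨p, rfl⟩ : ∃ p, n = p + 1 := ⟨n - 1, by omega⟩
  unfold wtm
  rw [Fin.sum_univ_succ, Fin.sum_univ_succ, h0]
  have h : ∀ i : Fin p, ((e i.succ.succ : ℕ) : ℤ) * w (p+1+1) i.succ.succ =
      4 * ((e i.succ.succ : ℤ) * (2 ^ p - 2 ^ (i : ℕ))) := by
    intro i
    simp only [w, Fin.val_succ, pow_succ]; ring
  rw [Finset.sum_congr rfl (fun i _ => h i), ← Finset.mul_sum]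
  obtain ⟨b, hb⟩ := h1
  have hb' : e (Fin.succ 0) = 2 * b + 1 := hb
  refine ⟨(2 * b + 1) * 2 ^ p - b - 1 +
    ∑ i : Fin p, (e i.succ.succ : ℤ) * (2 ^ p - 2 ^ (i : ℕ)), ?_⟩
  rw [hb']
  simp only [w, Fin.val_succ, Fin.val_zero, pow_succ, pow_zero]
  push_cast
  ring

lemma wtm_half {n : ℕ} (e : Fin (n + 1) →₀ ℕ) (h0 : e 0 = 0) (hodd : ∀ i, i ≠ 0 → Odd (e i)) :
    wtm e = 2 * wtm (halfE e) + n * 2 ^ (n + 1) - 2 * (2 ^ n - 1) := by
  unfold wtm
  rw [Fin.sum_univ_succ, Fin.sum_univ_succ, halfE_apply, h0]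
  have h : ∀ i : Fin n, ((e i.succ : ℕ) : ℤ) * w (n+1) i.succ =
      2 * ((halfE e i.succ : ℤ) * w (n+1) i.succ) + (2 ^ (n+1) - 2 * 2 ^ (i : ℕ)) := by
    intro i
    rw [halfE_apply]
    obtain ⟨b, hb⟩ := hodd i.succ (Fin.succ_ne_zero i)
    rw [hb, show (2 * b + 1) / 2 = b by omega]
    simp only [w, Fin.val_succ, pow_succ]; push_cast; ring
  rw [Finset.sum_congr rfl (fun i _ => h i), Finset.sum_add_distrib, ← Finset.mul_sum,
    Finset.sum_sub_distrib, ← Finset.mul_sum, Finset.sum_const, Finset.card_univ,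
    Fintype.card_fin, nsmul_eq_mul]
  have : ∑ i : Fin n, (2 : ℤ) ^ (i : ℕ) = 2 ^ n - 1 := by
    rw [← Finset.sum_range (fun i => (2:ℤ) ^ i)]
    have := Commute.geom_sum₂_mul (Commute.all (2:ℤ) 1) n
    simp at this
    linarith
  rw [this]
  push_cast
  ring

theorem T1_aux (n : ℕ) (hn : 1 ≤ n) (F : T1Facts n) : ∀ (K m N : ℕ) (c : Coc n m N)
    (e : Fin (n + 1) →₀ ℕ), 1 ≤ m → ∑ i, e i = K →
    (N : ℤ) = 1 + wtm e + m * (2 ^ (n + 1) - 1) → c.TH (z n (mo e)) = 0 := by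
  intro K
  induction K using Nat.strong_induction_on with
  | _ K ih =>
  intro m N c e hm hK hN
  rcases Nat.eq_zero_or_pos (e 0) with h0 | h0
  · have heven := wtm_even e h0
    have hlead := (lead_z n e h0).dle
    obtain ⟨hA, hB⟩ := TH_oddPart hn hm F c (wtm e) heven hN (z n (mo e)) hlead
    rcases Nat.mod_two_eq_zero_or_one (m + n) with hmn | hmn
    · exact hB hmn
    by_cases hodd : ∀ i, i ≠ 0 → Odd (e i)
    · have hne1 : (⟨1, by omega⟩ : Fin (n+1)) ≠ 0 := fun h => by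
        have := congrArg Fin.val h; simp at this
      obtain ⟨r, hr⟩ := wtm_mod_four (by omega : 1 ≤ n) e h0 (hodd _ hne1)
      have hmod : (N + m) % 4 = 3 := by
        obtain ⟨p, rfl⟩ : ∃ p, n = p + 1 := ⟨n - 1, by omega⟩
        have h1 : ((N + m : ℕ) : ℤ) = 4 * (r + m * 2 ^ p) + 3 := by
          push_cast; rw [hN, hr, pow_succ, pow_succ]; ring
        omega
      obtain ⟨c', l, hl, hka⟩ := F.LL m N c hmn hmod
      rw [← TH_cob F c c' l hl (wtm e) hN (z n (mo e)) hlead]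
      obtain ⟨hA', -⟩ := TH_oddPart hn hm F c' (wtm e) heven hN (z n (mo e)) hlead
      rw [hA' hmn, oddPart_z_full n e h0 hodd]
      have hpar : (N + m) % 2 = 1 := by omega
      obtain ⟨h5, h6⟩ := th_oddPart hn F c' hpar hka
      obtain ⟨mu, hmu⟩ : ∃ mu, m + n = 2 * mu + 1 := ⟨(m + n) / 2, by omega⟩
      have hp : (1:ℤ) ≤ 2 ^ (n + 1) := one_le_pow₀ (by norm_num)
      obtain ⟨N', hN'⟩ := Int.eq_ofNat_of_zero_le
        (show (0:ℤ) ≤ 1 + wtm (halfE e) + mu * (2 ^ (n + 1) - 1) by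
          have h2 := wtm_nonneg (halfE e)
          have h3 : (0:ℤ) ≤ mu * (2 ^ (n+1) - 1) := mul_nonneg (Int.natCast_nonneg _) (by linarith)
          linarith)
      have hNN : N = 2 * N' + n := by
        have h7 := wtm_half e h0 hodd
        have h8 : (m : ℤ) = 2 * mu + 1 - n := by
          have : ((m + n : ℕ) : ℤ) = 2 * mu + 1 := by rw [hmu]; push_cast; ring
          push_cast at this; linarith
        have h9 : (N : ℤ) = 2 * N' + n := by
          rw [hN, h7, h8, ← hN', pow_succ]; ring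
        exact_mod_cast h9
      rw [← c'.double_TH F mu N' hmu hNN h5 h6]
      refine ih (∑ i, halfE e i) ?_ mu N' _ (halfE e) (by omega) rfl hN'.symm
      rw [← hK]
      refine Finset.sum_lt_sum (fun i _ => Nat.div_le_self _ _) ⟨⟨1, by omega⟩, Finset.mem_univ _, ?_⟩
      have := (hodd _ hne1).pos
      rw [halfE_apply]
      omega
    · rw [hA hmn, oddPart_z_ne n e h0 hodd, map_zero]
  · set p := e 0 with hp
    have hsplit : e = Finsupp.single 0 p + e.erase 0 := (Finsupp.single_add_erase 0 e).symm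
    have hz : z n (mo e) = q n 0 ^ p * z n (mo (e.erase 0)) := by
      conv_lhs => rw [hsplit, ← mo_mul, map_mul]
      congr 1
      have : mo (Finsupp.single (0 : Fin (n+1)) p) = gen 0 ^ p := by
        rw [gen_eq_mo, mo_pow, Finsupp.smul_single, smul_eq_mul, mul_one]
      rw [this, map_pow, ← zmap_eq_z, zmap_gen]
      simp
    rw [hz, ← c.shift_TH p]
    refine ih (∑ i, (e.erase 0) i) ?_ (m + p) N _ _ (by omega) rfl ?_
    · rw [← hK]
      have : ∑ i, e i = p + ∑ i, (e.erase 0) i := by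
        conv_lhs => rw [hsplit]
        simp only [Finsupp.add_apply, Finset.sum_add_distrib, Finsupp.single_apply]
        simp
      omega
    · have h7 := congrArg wtm hsplit
      rw [wtm_add, wtm_single] at h7
      rw [hN, h7]
      simp only [w, Fin.val_zero, pow_zero]
      push_cast
      ring

/-- **T1.** For every cocycle `c` of level `m ≥ 1` and every monomial `G` of `D (n+1)`
(`q_0^m G` being of degree `N - 1`), `Σ_a th_a (z G) = 0`. -/
theorem T1_mo (n : ℕ) (hn : 1 ≤ n) (F : T1Facts n) (m N : ℕ) (c : Coc n m N) (hm : 1 ≤ m)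
    (e : Fin (n + 1) →₀ ℕ) (hN : (N : ℤ) = 1 + wtm e + m * (2 ^ (n + 1) - 1)) :
    c.TH (z n (mo e)) = 0 :=
  T1_aux n hn F _ m N c e hm rfl hN

/-- **T1** for homogeneous elements. -/
theorem T1 (n : ℕ) (hn : 1 ≤ n) (F : T1Facts n) (m N : ℕ) (c : Coc n m N) (hm : 1 ≤ m) (k : ℤ)
    (G : D (n + 1)) (hG : Hom (n + 1) k G) (hN : (N : ℤ) = 1 + k + m * (2 ^ (n + 1) - 1)) :
    c.TH (z n G) = 0 := by
  have hsum := eq_sum_mo G
  rw [hsum, map_sum, map_sum]
  refine Finset.sum_eq_zero (fun e he => ?_)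
  refine T1_mo n hn F m N c hm e ?_
  rw [hom_wtm hG he]; exact hN

end Vale.Agent.P263.EX
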