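import Vale.Agent.P263.EX.CODefs
import Vale.Agent.P263.EX.Mono

/-!
P263, block T1, part A: degrees of monomials, expansion of `z(G)`.
-/

namespace Vale.Agent.P263.EX

open Vale.Agent.P263.LZ Vale.Agent.P263.EX.DS

lemma zmap_eq_z (n : ℕ) : zmap n = z n := rfl

/-- degree of a monomial -/
def wtm {n : ℕ} (e : Fin n →₀ ℕ) : ℤ := ∑ i, (e i : ℤ) * w n i

lemma wtm_zero (n : ℕ) : wtm (0 : Fin n →₀ ℕ) = 0 := by simp [wtm]

lemma wtm_add {n : ℕ} (e f : Fin n →₀ ℕ) : wtm (e + f) = wtm e + wtm f := by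
  simp only [wtm, Finsupp.add_apply, Nat.cast_add, add_mul, Finset.sum_add_distrib]

lemma wtm_nonneg {n : ℕ} (e : Fin n →₀ ℕ) : 0 ≤ wtm e :=
  Finset.sum_nonneg (fun i _ => mul_nonneg (Int.natCast_nonneg _) (w_pos i).le)

lemma wtm_single {n : ℕ} (i : Fin n) (k : ℕ) : wtm (Finsupp.single i k) = k * w n i := by
  unfold wtm
  rw [Finset.sum_eq_single i]
  · simp
  · intro b _ hb; rw [Finsupp.single_apply, if_neg (Ne.symm hb)]; simp
  · intro h; exact absurd (Finset.mem_univ _) h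

lemma hom_mo {n : ℕ} (e : Fin n →₀ ℕ) : Hom n (wtm e) (mo e) := by
  have h := MvPolynomial.isWeightedHomogeneous_monomial (R := ZMod 2) (w n) e (1 : ZMod 2)
    (m := wtm e) ?_
  · exact h
  · rw [Finsupp.weight_apply, Finsupp.sum_fintype _ _ (fun i => by simp)]
    simp [wtm]

lemma hom_wtm {n : ℕ} {k : ℤ} {F : D n} (h : Hom n k F) {e : Fin n →₀ ℕ} (he : e ∈ supp F) :
    wtm e = k := h.weight he

lemma supp_mo {n : ℕ} (e : Fin n →₀ ℕ) : supp (mo e) = {e} := by
  unfold supp mo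
  rw [MvPolynomial.support_monomial, if_neg one_ne_zero]

lemma supp_add {n : ℕ} (F G : D n) : supp (F + G) ⊆ supp F ∪ supp G := by
  classical
  exact MvPolynomial.support_add

lemma supp_zero (n : ℕ) : supp (0 : D n) = ∅ := MvPolynomial.support_zero

lemma supp_mul {n : ℕ} (F G : D n) {e : Fin n →₀ ℕ} (he : e ∈ supp (F * G)) :
    ∃ f ∈ supp F, ∃ g ∈ supp G, e = f + g := by
  classical
  have h := MvPolynomial.support_mul (R := ZMod 2) (σ := Fin n) F G he
  rw [Finset.mem_add] at h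
  obtain ⟨f, hf, g, hg, h⟩ := h
  exact ⟨f, hf, g, hg, h.symm⟩

/-- all monomials `Z` of `F` satisfy `2|Z| ≤ d` -/
def DLe {n : ℕ} (d : ℤ) (F : D n) : Prop := ∀ e ∈ supp F, 2 * wtm e ≤ d

/-- all monomials `Z` of `F` satisfy `2|Z| < d` -/
def DLt {n : ℕ} (d : ℤ) (F : D n) : Prop := ∀ e ∈ supp F, 2 * wtm e < d

lemma DLt.le {n : ℕ} {d : ℤ} {F : D n} (h : DLt d F) : DLe d F := fun e he => (h e he).le

lemma DLt.zero {n : ℕ} (d : ℤ) : DLt d (0 : D n) := fun e he => by
  rw [supp_zero] at he; simp at he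

lemma DLt.add {n : ℕ} {d : ℤ} {F G : D n} (hF : DLt d F) (hG : DLt d G) : DLt d (F + G) := by
  classical
  intro e he
  rcases Finset.mem_union.mp (supp_add F G he) with h | h
  · exact hF e h
  · exact hG e h

lemma DLe.add {n : ℕ} {d : ℤ} {F G : D n} (hF : DLe d F) (hG : DLe d G) : DLe d (F + G) := by
  classical
  intro e he
  rcases Finset.mem_union.mp (supp_add F G he) with h | h
  · exact hF e h
  · exact hG e h

lemma DLe.mul {n : ℕ} {d d' : ℤ} {F G : D n} (hF : DLe d F) (hG : DLe d' G) :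
    DLe (d + d') (F * G) := by
  intro e he
  obtain ⟨f, hf, g, hg, rfl⟩ := supp_mul F G he
  have h1 := hF f hf
  have h2 := hG g hg
  rw [wtm_add]; linarith

lemma DLt.mul_le {n : ℕ} {d d' : ℤ} {F G : D n} (hF : DLt d F) (hG : DLe d' G) :
    DLt (d + d') (F * G) := by
  intro e he
  obtain ⟨f, hf, g, hg, rfl⟩ := supp_mul F G he
  have h1 := hF f hf
  have h2 := hG g hg
  rw [wtm_add]; linarith

lemma DLe.mul_lt {n : ℕ} {d d' : ℤ} {F G : D n} (hF : DLe d F) (hG : DLt d' G) :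
    DLt (d + d') (F * G) := by
  intro e he
  obtain ⟨f, hf, g, hg, rfl⟩ := supp_mul F G he
  have h1 := hF f hf
  have h2 := hG g hg
  rw [wtm_add]; linarith

lemma DLe.one (n : ℕ) : DLe 0 (1 : D n) := by
  intro e he
  rw [← mo_zero, supp_mo, Finset.mem_singleton] at he
  rw [he, wtm_zero]; norm_num

lemma DLe.hom {n : ℕ} {k : ℤ} {F : D n} (h : Hom n k F) {d : ℤ} (hd : 2 * k ≤ d) : DLe d F :=
  fun e he => by rw [hom_wtm h he]; exact hd

lemma DLt.hom {n : ℕ} {k : ℤ} {F : D n} (h : Hom n k F) {d : ℤ} (hd : 2 * k < d) : DLt d F :=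
  fun e he => by rw [hom_wtm h he]; exact hd

/-- `F = L + R`, where `L` is homogeneous of degree `d/2` and `R` is of smaller degree -/
def Lead {n : ℕ} (d : ℤ) (L F : D n) : Prop := DLe d L ∧ DLt d (F + L)

lemma Lead.dle {n : ℕ} {d : ℤ} {L F : D n} (h : Lead d L F) : DLe d F := by
  have h1 := h.2.le.add h.1
  rwa [add_assoc, add_self, add_zero] at h1

lemma Lead.mul {n : ℕ} {d d' : ℤ} {L F L' F' : D n} (h : Lead d L F) (h' : Lead d' L' F') :
    Lead (d + d') (L * L') (F * F') := by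
  refine ⟨h.1.mul h'.1, ?_⟩
  have e : F * F' + L * L' = (F + L) * F' + L * (F' + L') := by
    have : (F + L) * F' + L * (F' + L') = F * F' + L * L' + (L * F' + L * F') := by ring
    rw [this, add_self, add_zero]
  rw [e]
  exact (h.2.mul_le h'.dle).add (h.1.mul_lt h'.2)

lemma Lead.one (n : ℕ) : Lead 0 (1 : D n) 1 := ⟨DLe.one n, by rw [add_self]; exact DLt.zero _⟩

lemma Lead.pow {n : ℕ} {d : ℤ} {L F : D n} (h : Lead d L F) (k : ℕ) :
    Lead (k * d) (L ^ k) (F ^ k) := by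
  induction k with
  | zero => simpa using Lead.one n
  | succ k ih =>
    rw [pow_succ, pow_succ]
    have := ih.mul h
    rwa [show (((k + 1 : ℕ) : ℤ)) * d = k * d + d by push_cast; ring]

lemma Lead.prod {n : ℕ} {ι : Type*} (s : Finset ι) (d : ι → ℤ) (L F : ι → D n)
    (h : ∀ i ∈ s, Lead (d i) (L i) (F i)) : Lead (∑ i ∈ s, d i) (∏ i ∈ s, L i) (∏ i ∈ s, F i) := by
  classical
  induction s using Finset.induction_on with
  | empty => simpa using Lead.one n
  | insert a t ha ih =>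
    rw [Finset.sum_insert ha, Finset.prod_insert ha, Finset.prod_insert ha]
    exact (h a (Finset.mem_insert_self _ _)).mul
      (ih (fun i hi => h i (Finset.mem_insert_of_mem hi)))

lemma lead_gen (n : ℕ) (i : ℕ) (h1 : 1 ≤ i) :
    Lead (2 ^ (n + 1) - 2 ^ i) (q n (i - 1)) (qm n i + q n i) := by
  obtain ⟨j, rfl⟩ : ∃ j, i = j + 1 := ⟨i - 1, by omega⟩
  rw [qm_succ, Nat.add_sub_cancel]
  refine ⟨DLe.hom (Hom.q n j) ?_, ?_⟩
  · rw [pow_succ, pow_succ]; linarith
  · rw [show q n j + q n (j + 1) + q n j = q n (j+1) + (q n j + q n j) by ring, add_self, add_zero]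
    refine DLt.hom (Hom.q n (j+1)) ?_
    rw [pow_succ, pow_succ]
    have : (0:ℤ) < 2 ^ j := by positivity
    linarith

/-- **Expansion.** If `q_0` does not divide the monomial `G = mo e` then
`z(G) = ∏_{i ≥ 1} q_{i-1}^{e_i} + (monomials Z with 2|Z| < |G|)`. -/
lemma lead_z (n : ℕ) (e : Fin (n + 1) →₀ ℕ) (h0 : e 0 = 0) :
    Lead (wtm e) (∏ i : Fin (n+1), q n ((i : ℕ) - 1) ^ e i) (z n (mo e)) := by
  rw [← zmap_eq_z, zmap_mo]
  unfold wtm
  refine Lead.prod _ _ _ _ (fun i _ => ?_)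
  rcases Nat.eq_zero_or_pos (i : ℕ) with hi | hi
  · have : i = 0 := Fin.ext hi
    subst this
    rw [h0]
    simpa using Lead.one n
  · have := (lead_gen n i hi).pow (e i)
    simpa [w] using this

/-! ### the all-odd part of `z(G)` -/

/-- half of the exponents -/
noncomputable def halfE {n : ℕ} (e : Fin n →₀ ℕ) : Fin n →₀ ℕ :=
  Finsupp.equivFunOnFinite.symm (fun i => e i / 2)

lemma halfE_apply {n : ℕ} (e : Fin n →₀ ℕ) (i : Fin n) : halfE e i = e i / 2 := rfl

/-- positions of the odd exponents -/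
def oddSet {n : ℕ} (e : Fin (n+1) →₀ ℕ) : Finset ℕ :=
  (Finset.range (n+1)).filter (fun i => ∃ h : i < n + 1, e ⟨i, h⟩ % 2 = 1)

lemma z_mo_split (n : ℕ) (e : Fin (n + 1) →₀ ℕ) (h0 : e 0 = 0) :
    z n (mo e) = (z n (mo (halfE e))) ^ 2 * ∏ i ∈ oddSet e, (q n (i-1) + q n i) := by
  classical
  rw [← zmap_eq_z, zmap_mo, zmap_mo, ← Finset.prod_pow]
  have h1 : ∏ i ∈ oddSet e, (q n (i-1) + q n i) =
      ∏ i : Fin (n+1), (qm n i + q n i) ^ (e i % 2) := by
    rw [oddSet, Finset.prod_filter, Finset.prod_range]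
    refine Finset.prod_congr rfl (fun i _ => ?_)
    by_cases hi : e i % 2 = 1
    · have hex : ∃ h : (i : ℕ) < n + 1, e ⟨i, h⟩ % 2 = 1 := ⟨i.2, by simpa using hi⟩
      rw [if_pos hex, hi, pow_one]
      have hi0 : (i : ℕ) ≠ 0 := by
        intro h
        have : i = 0 := Fin.ext h
        rw [this, h0] at hi; simp at hi
      obtain ⟨j, hj⟩ : ∃ j, (i : ℕ) = j + 1 := ⟨i - 1, by omega⟩
      rw [hj, qm_succ, Nat.add_sub_cancel]
    · have hex : ¬ ∃ h : (i : ℕ) < n + 1, e ⟨i, h⟩ % 2 = 1 := by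
        rintro ⟨h, h2⟩; exact hi (by simpa using h2)
      rw [if_neg hex, show e i % 2 = 0 by omega, pow_zero]
  rw [h1, ← Finset.prod_mul_distrib]
  refine Finset.prod_congr rfl (fun i _ => ?_)
  rw [halfE_apply, ← pow_mul, ← pow_add]
  congr 1
  omega

lemma oddSet_subset {n : ℕ} (e : Fin (n+1) →₀ ℕ) (h0 : e 0 = 0) :
    oddSet e ⊆ Finset.Icc 1 n := by
  intro i hi
  rw [oddSet, Finset.mem_filter, Finset.mem_range] at hi
  obtain ⟨hi, h, h2⟩ := hi
  rw [Finset.mem_Icc]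
  refine ⟨?_, by omega⟩
  by_contra hc
  have : i = 0 := by omega
  subst this
  have : e ⟨0, h⟩ = 0 := h0
  rw [this] at h2; simp at h2

/-- The all-odd part of `z(G)` vanishes unless all exponents `e_1, …, e_n` of `G` are odd. -/
lemma oddPart_z_ne (n : ℕ) (e : Fin (n + 1) →₀ ℕ) (h0 : e 0 = 0)
    (hne : ¬ ∀ i, i ≠ 0 → Odd (e i)) : oddPart (z n (mo e)) = 0 := by
  rw [z_mo_split n e h0, oddPart_sq_mul, oddPart_prod_ne n _ (oddSet_subset e h0), mul_zero]
  intro h
  apply hne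
  intro i hi
  have hi' : (i : ℕ) ≠ 0 := fun hh => hi (Fin.ext hh)
  have : (i : ℕ) ∈ oddSet e := by
    rw [h, Finset.mem_Icc]; have := i.2; omega
  rw [oddSet, Finset.mem_filter] at this
  obtain ⟨_, h1, h2⟩ := this
  rw [Nat.odd_iff]
  simpa using h2

/-- The all-odd part of `z(G)` is `π z(H)^2` if all exponents `e_1, …, e_n` of `G` are odd. -/
lemma oddPart_z_full (n : ℕ) (e : Fin (n + 1) →₀ ℕ) (h0 : e 0 = 0)
    (hodd : ∀ i, i ≠ 0 → Odd (e i)) : oddPart (z n (mo e)) = piD n * z n (mo (halfE e)) ^ 2 := by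
  have hfull : oddSet e = Finset.Icc 1 n := by
    refine Finset.Subset.antisymm (oddSet_subset e h0) (fun i hi => ?_)
    rw [Finset.mem_Icc] at hi
    rw [oddSet, Finset.mem_filter, Finset.mem_range]
    refine ⟨by omega, by omega, ?_⟩
    have := hodd ⟨i, by omega⟩ (fun h => by have := congrArg Fin.val h; simp at this; omega)
    exact Nat.odd_iff.mp this
  rw [z_mo_split n e h0, oddPart_sq_mul, hfull, oddPart_prod_full, mul_comm]

end Vale.Agent.P263.EX
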