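import Vale.Agent.P263.EX.T1A
import Vale.Agent.P263.EX.CO

/-!
P263, block T1, part B: Milnor primitives on monomials, vanishing, level shift, doubling.
-/

namespace Vale.Agent.P263.EX

open Polynomial Vale.Agent.P263.LZ Vale.Agent.P263.EX.DS

/-! ### Milnor primitives on monomials -/

lemma natCast_mo {n : ℕ} (k : ℕ) (x : D n) : (k : D n) * x = k • x := (nsmul_eq_mul k x).symm

lemma even_mul_D {n : ℕ} {k : ℕ} (h : Even k) (x : D n) : (k : D n) * x = 0 := by
  obtain ⟨j, rfl⟩ := h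
  rw [Nat.cast_add, add_mul, add_self]

lemma odd_mul_D {n : ℕ} {k : ℕ} (h : Odd k) (x : D n) : (k : D n) * x = x := by
  obtain ⟨j, rfl⟩ := h
  rw [show 2 * j + 1 = (j + j) + 1 by ring, Nat.cast_add (j + j) 1, add_mul, even_mul_D ⟨j, rfl⟩,
    Nat.cast_one, one_mul, zero_add]

lemma pd_mo (n : ℕ) (i : Fin n) (e : Fin n →₀ ℕ) :
    pd n i (mo e) = (e i : D n) * mo (e - Finsupp.single i 1) := by
  have h := MvPolynomial.pderiv_monomial (R := ZMod 2) (i := i) (s := e) (a := (1 : ZMod 2))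
  rw [one_mul] at h
  have h2 : (MvPolynomial.monomial (e - Finsupp.single i 1) ((e i : ℕ) : ZMod 2) :
      MvPolynomial (Fin n) (ZMod 2)) = (e i : MvPolynomial (Fin n) (ZMod 2)) *
        MvPolynomial.monomial (e - Finsupp.single i 1) 1 := by
    rw [show ((e i : ℕ) : MvPolynomial (Fin n) (ZMod 2)) = MvPolynomial.C ((e i : ℕ) : ZMod 2) by
      simp, MvPolynomial.C_mul_monomial, mul_one]
  rw [h2] at h
  exact h

lemma eul_mo (n : ℕ) (e : Fin n →₀ ℕ) : eul n (mo e) = ((∑ i, e i : ℕ) : D n) * mo e := by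
  have hs : ∀ t : Finset (Fin n), (∑ j ∈ t, gen j • pd n j : Derivation (ZMod 2) (D n) (D n)) (mo e) =
      ∑ j ∈ t, (gen j • pd n j) (mo e) := by
    intro t
    classical
    induction t using Finset.induction_on with
    | empty => simp
    | insert a t ha ih => rw [Finset.sum_insert ha, Finset.sum_insert ha, Derivation.add_apply, ih]
  unfold eul
  rw [hs, Nat.cast_sum, Finset.sum_mul]
  refine Finset.sum_congr rfl (fun i _ => ?_)
  rw [Derivation.smul_apply, pd_mo, smul_eq_mul]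
  rcases Nat.eq_zero_or_pos (e i) with h | h
  · rw [h]; simp
  · rw [mul_left_comm, gen_eq_mo, mo_mul]
    congr 2
    ext j
    rw [Finsupp.add_apply, Finsupp.tsub_apply, Finsupp.single_apply]
    split_ifs with hj
    · subst hj; omega
    · omega

lemma q_zero_eq {n : ℕ} (h : 0 < n) : q n 0 = mo (Finsupp.single ⟨0, h⟩ 1) := by
  rw [q_lt h]; rfl

lemma c_eq_zero {n i : ℕ} (h1 : 1 ≤ i) (h2 : i < n) : c n i = 0 := by
  unfold c
  rw [if_neg (by omega), if_neg (by omega), if_neg (by omega)]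

lemma del_lt {n m i : ℕ} (h1 : 1 ≤ i) (h2 : i < n) (x : D n) :
    del n m i x = q n 0 * pd n ⟨i, h2⟩ x := by
  rw [del_apply, c_eq_zero h1 h2, mul_zero, zero_mul, add_zero, d, if_neg (by omega), d0,
    if_neg (by omega), pdn, dif_pos h2, Derivation.smul_apply, smul_eq_mul]

lemma del_n {n m : ℕ} (h1 : 1 ≤ n) (x : D n) :
    del n m n x = q n 0 * (eul n x + (m : D n) * x) := by
  rw [del_apply, d, if_neg (by omega), d0, if_pos rfl, Derivation.smul_apply, smul_eq_mul, c,
    if_neg (by omega), if_pos rfl]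
  ring

/-- A monomial with `e_0 ≥ 1` and `e_i` even, `1 ≤ i < n`, is in the image of `del i`. -/
lemma mo_eq_del_lt {n : ℕ} (m : ℕ) (i : Fin n) (hi : 1 ≤ (i : ℕ)) (e : Fin n →₀ ℕ)
    (h0 : 1 ≤ e ⟨0, by omega⟩) (he : Even (e i)) :
    mo e = del n m i (mo (e - Finsupp.single ⟨0, by omega⟩ 1 + Finsupp.single i 1)) := by
  have hne : (⟨0, by omega⟩ : Fin n) ≠ i := fun h => by
    have := congrArg Fin.val h; simp at this; omega
  rw [del_lt hi i.2, pd_mo]
  have e1 : (e - Finsupp.single (⟨0, by omega⟩ : Fin n) 1 + Finsupp.single i 1 : Fin n →₀ ℕ)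
      ⟨(i:ℕ), i.2⟩ = e i + 1 := by
    simp only [Fin.eta, Finsupp.add_apply, Finsupp.tsub_apply, Finsupp.single_apply, if_true]
    rw [if_neg hne]; omega
  rw [e1, odd_mul_D (he.add_one), q_zero_eq (by omega), mo_mul]
  congr 1
  ext j
  simp only [Fin.eta, Finsupp.add_apply, Finsupp.tsub_apply, Finsupp.single_apply]
  by_cases hj : (⟨0, by omega⟩ : Fin n) = j
  · subst hj
    rw [if_pos rfl, if_neg (Ne.symm hne)]; omega
  · rw [if_neg hj]
    split_ifs <;> omega

/-- An all-odd monomial, `m + n` even, is in the image of `del n`. -/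
lemma mo_eq_del_n {n : ℕ} (m : ℕ) (hn : 1 ≤ n) (e : Fin n →₀ ℕ)
    (he : ∀ i, Odd (e i)) (hm : Even (m + n)) :
    mo e = del n m n (mo (e - Finsupp.single ⟨0, by omega⟩ 1)) := by
  have h0 : 1 ≤ e ⟨0, by omega⟩ := (he _).pos
  have hsplit : e = (e - Finsupp.single ⟨0, by omega⟩ 1) + Finsupp.single ⟨0, by omega⟩ 1 := by
    ext j
    simp only [Finsupp.add_apply, Finsupp.tsub_apply, Finsupp.single_apply]
    split_ifs with h
    · subst h; omega
    · omega
  set f := e - Finsupp.single ⟨0, by omega⟩ 1 with hf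
  have hsum : ∑ i, e i = (∑ i, f i) + 1 := by
    rw [hsplit]
    simp only [Finsupp.add_apply, Finset.sum_add_distrib, Finsupp.single_apply]
    simp
  have hpar : ∀ t : Finset (Fin n), (∑ i ∈ t, e i) % 2 = t.card % 2 := by
    intro t
    classical
    induction t using Finset.induction_on with
    | empty => simp
    | insert a t ha ih =>
      rw [Finset.sum_insert ha, Finset.card_insert_of_notMem ha]
      have := Nat.odd_iff.mp (he a)
      omega
  have h1 := hpar Finset.univ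
  rw [Finset.card_univ, Fintype.card_fin] at h1
  rw [del_n hn, eul_mo, ← add_mul, ← Nat.cast_add, odd_mul_D, q_zero_eq (by omega), mo_mul, add_comm,
    ← hsplit]
  rw [Nat.odd_iff]
  rw [Nat.even_iff] at hm
  omega

/-! ### parity of degrees -/

lemma wtm_parity {n : ℕ} (e : Fin n →₀ ℕ) (hn : 0 < n) :
    ∃ k : ℤ, wtm e = 2 * k + e ⟨0, hn⟩ := by
  unfold wtm
  obtain ⟨p, rfl⟩ : ∃ p, n = p + 1 := ⟨n - 1, by omega⟩
  rw [Fin.sum_univ_succ]
  have h : ∀ i : Fin p, ((e i.succ : ℕ) : ℤ) * w (p+1) i.succ =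
      2 * ((e i.succ : ℤ) * (2 ^ p - 2 ^ (i : ℕ))) := by
    intro i
    simp only [w, Fin.val_succ, pow_succ]; ring
  rw [Finset.sum_congr rfl (fun i _ => h i), ← Finset.mul_sum]
  refine ⟨(e 0 : ℤ) * (2 ^ p - 1) + ∑ i : Fin p, (e i.succ : ℤ) * (2 ^ p - 2 ^ (i : ℕ)), ?_⟩
  have h0 : e ⟨0, hn⟩ = e 0 := rfl
  rw [h0]
  simp only [w, Fin.val_zero, pow_succ, pow_zero]; ring

/-! ### the facts used from the other blocks -/

/-- The statements of blocks DS, CO, LL which are used here. -/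
structure T1Facts (n : ℕ) : Prop where
  s_zero : ∀ (m : ℕ) (x : D n), s n m 0 x = x
  s_hom : ∀ (m a : ℕ) (k : ℤ) (x : D n), Hom n k x → Hom n (k + a) (s n m a x)
  s_eq_zero : ∀ (m a : ℕ) (k : ℤ) (x : D n), Hom n k x → k + m * (2 ^ n - 1) < a → s n m a x = 0
  s_q0 : ∀ (m a : ℕ) (x : D n), s n m a (q n 0 * x) = q n 0 * s n (m + 1) a x
  O_even : ∀ (m mu a : ℕ) (x : D n), m + n = 2 * mu + 1 →
    oddPart (s n m (2 * a) (piD n * x ^ 2)) = piD n * (s n mu a x) ^ 2
  O_odd : ∀ (m mu a : ℕ) (x : D n), m + n = 2 * mu + 1 →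
    oddPart (s n m (2 * a + 1) (piD n * x ^ 2)) = 0
  K1 : ∀ (m N : ℕ) (c : Coc n m N) (a : ℕ) (x : D n), Odd a →
    c.th a x = c.ka 1 (s n m (a - 1) x)
  K2 : ∀ (m N : ℕ) (c : Coc n m N) (i a : ℕ) (x : D n), 1 ≤ i → i ≤ n → 1 ≤ a →
    c.th a (del n m i x) = c.ka i (s n m a x) +
      (if 2 ^ i ≤ a then c.ka (i + 1) (s n m (a - 2 ^ i) x) else 0)
  LL : ∀ (m N : ℕ) (c : Coc n m N), (m + n) % 2 = 1 → (N + m) % 4 = 3 →
    ∃ c' : Coc n m N, ∃ l : D n →ₗ[ZMod 2] ZMod 2,
    (∀ (a : ℕ) (x : D n), 1 ≤ a → c'.th a x = c.th a x + l (s n m a x)) ∧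
      ∀ i, 1 ≤ i → i ≤ n → c'.ka i = 0

/-! ### evaluation of `TH` -/

lemma hom_pi (n : ℕ) : Hom n (n * 2 ^ n - (2 ^ n - 1)) (piD n) := by
  rw [piD_eq_mo]
  refine (hom_mo _).congr ?_
  have h1 : ∀ i : Fin n, (∑ i : Fin n, Finsupp.single i 1) i = 1 := by
    intro i
    rw [Finsupp.finsetSum_apply, Finset.sum_eq_single i]
    · simp
    · intro b _ hb; rw [Finsupp.single_apply, if_neg hb]
    · intro h; exact absurd (Finset.mem_univ _) h
  unfold wtm
  rw [Finset.sum_congr rfl (fun i _ => by rw [h1 i])]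
  simp only [w, Nat.cast_one, one_mul, Finset.sum_sub_distrib, Finset.sum_const, Finset.card_univ,
    Fintype.card_fin, nsmul_eq_mul]
  have : ∑ i : Fin n, (2 : ℤ) ^ (i : ℕ) = 2 ^ n - 1 := by
    rw [← Finset.sum_range (fun i => (2:ℤ) ^ i)]
    have := Commute.geom_sum₂_mul (Commute.all (2:ℤ) 1) n
    simp at this
    linarith
  rw [this]

namespace Coc

variable {n m N : ℕ} (c : Coc n m N)

lemma th_big {a : ℕ} (ha : N < a) : c.th a = 0 := by
  refine LinearMap.toAddMonoidHom_injective ?_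
  refine addHom_ext (fun e => ?_)
  refine c.supp a _ _ (hom_mo e) ?_
  have h1 := wtm_nonneg e
  have h2 : (0:ℤ) ≤ m * (2 ^ n - 1) := by
    refine mul_nonneg (Int.natCast_nonneg _) ?_
    have : (1:ℤ) ≤ 2 ^ n := one_le_pow₀ (by norm_num)
    linarith
  intro h
  have : (N : ℤ) < a := by exact_mod_cast ha
  linarith

lemma TH_apply (x : D n) : c.TH x = ∑ a ∈ Finset.range (N + 1), c.th a x := by
  rw [TH, LinearMap.sum_apply]

lemma TH_range (x : D n) {B : ℕ} (hB : N ≤ B) : c.TH x = ∑ a ∈ Finset.range (B + 1), c.th a x := by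
  rw [TH_apply]
  refine Finset.sum_subset (Finset.range_mono (by omega)) (fun a _ ha => ?_)
  rw [Finset.mem_range] at ha
  rw [c.th_big (by omega : N < a), LinearMap.zero_apply]

lemma TH_hom {k : ℤ} {x : D n} (hx : Hom n k x) {a : ℕ} (ha : k + m * (2 ^ n - 1) + a = N)
    (ha' : a ≤ N) : c.TH x = c.th a x := by
  rw [TH_apply, Finset.sum_eq_single a]
  · intro b _ hb
    refine c.supp b k x hx (fun h => hb ?_)
    have : (b : ℤ) = a := by linarith
    exact_mod_cast this
  · intro h; exact absurd (Finset.mem_range.mpr (by omega)) h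

lemma TH_hom_neg {k : ℤ} {x : D n} (hx : Hom n k x) (h : (N : ℤ) < k + m * (2 ^ n - 1)) :
    c.TH x = 0 := by
  rw [TH_apply]
  refine Finset.sum_eq_zero (fun a _ => c.supp a k x hx ?_)
  have : (0:ℤ) ≤ a := Int.natCast_nonneg _
  intro h2; linarith

lemma level_nonneg (m n : ℕ) : (0:ℤ) ≤ m * (2 ^ n - 1) := by
  refine mul_nonneg (Int.natCast_nonneg _) ?_
  have : (1:ℤ) ≤ 2 ^ n := one_le_pow₀ (by norm_num)
  linarith

lemma shift_TH (p : ℕ) (x : D n) : (c.shift p).TH x = c.TH (q n 0 ^ p * x) := by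
  rw [TH_apply, TH_apply]; rfl

end Coc

/-- Vanishing of `th a Z` for monomials `Z` with `a ≥ |Z|_m + 2`, except for all-odd monomials when
`m + n` is odd. -/
lemma th_van {n m N : ℕ} (hn : 1 ≤ n) (F : T1Facts n) (c : Coc n m N) (hpar : (N + m) % 2 = 1)
    (e : Fin n →₀ ℕ) (a : ℕ) (ha : wtm e + m * (2 ^ n - 1) + a = N)
    (h2 : wtm e + m * (2 ^ n - 1) + 2 ≤ a) (hnot : ¬ ((m + n) % 2 = 1 ∧ ∀ i, Odd (e i))) :
    c.th a (mo e) = 0 := by
  have hdel : ∀ (i : ℕ) (k : ℤ) (y : D n), 1 ≤ i → i ≤ n → Hom n k y →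
      k + m * (2 ^ n - 1) + 2 ^ i < a → c.th a (del n m i y) = 0 := by
    intro i k y hi hi' hy hk
    have hp : (0:ℤ) < 2 ^ i := by positivity
    have hl := Coc.level_nonneg m n
    have ha1 : 1 ≤ a := by
      have h3 := wtm_nonneg e
      have : (1:ℤ) ≤ a := by linarith
      exact_mod_cast this
    rw [F.K2 m N c i a y hi hi' ha1, F.s_eq_zero m a k y hy (by linarith), map_zero, zero_add]
    split_ifs with h
    · rw [F.s_eq_zero m (a - 2 ^ i) k y hy ?_, map_zero]
      rw [Nat.cast_sub h]; push_cast; linarith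
    · rfl
  rcases Nat.even_or_odd a with hae | hao
  · -- e_0 is odd
    obtain ⟨k, hk⟩ := wtm_parity e (by omega : 0 < n)
    have he0 : Odd (e ⟨0, by omega⟩) := by
      rw [Nat.odd_iff]
      obtain ⟨b, hb⟩ := hae
      have hp2 : ∃ r : ℤ, (2:ℤ) ^ n = 2 * r := ⟨2 ^ (n-1), by
        rw [← pow_succ']; congr 1; omega⟩
      obtain ⟨r, hr⟩ := hp2
      rw [hk, hr, hb] at ha
      push_cast at ha
      have h3 : (N : ℤ) = 2 * (k + m * r + b) - m + (e ⟨0, by omega⟩ : ℤ) := by linarith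
      have h4 : ((N + m : ℕ) : ℤ) = 2 * (k + m * r + b) + (e ⟨0, by omega⟩ : ℤ) := by
        push_cast; linarith
      omega
    by_cases hex : ∃ i : Fin n, 1 ≤ (i : ℕ) ∧ Even (e i)
    · obtain ⟨i, hi, hei⟩ := hex
      rw [mo_eq_del_lt m i hi e he0.pos hei]
      refine hdel i _ _ hi i.2.le (hom_mo _) ?_
      have hw : wtm (e - Finsupp.single ⟨0, by omega⟩ 1 + Finsupp.single i 1) =
          wtm e - (2 ^ n - 1) + (2 ^ n - 2 ^ (i : ℕ)) := by
        have hsplit : e = (e - Finsupp.single ⟨0, by omega⟩ 1) + Finsupp.single ⟨0, by omega⟩ 1 := by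
          ext j
          simp only [Finsupp.add_apply, Finsupp.tsub_apply, Finsupp.single_apply]
          have := he0.pos
          split_ifs with h
          · subst h; omega
          · omega
        have h5 := congrArg wtm hsplit
        rw [wtm_add, wtm_single] at h5
        rw [wtm_add, wtm_single, h5]
        simp only [w, Nat.cast_one, one_mul, pow_zero]; ring
      rw [hw]; linarith
    · have hall : ∀ i, Odd (e i) := by
        intro i
        rcases Nat.eq_zero_or_pos (i : ℕ) with h | h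
        · have : i = ⟨0, by omega⟩ := Fin.ext h
          rw [this]; exact he0
        · by_contra hc
          exact hex ⟨i, h, Nat.not_odd_iff_even.mp hc⟩
      have hmn : Even (m + n) := by
        rw [Nat.even_iff]
        by_contra hc
        exact hnot ⟨by omega, hall⟩
      rw [mo_eq_del_n m (by omega) e hall hmn]
      refine hdel n _ _ (by omega) le_rfl (hom_mo _) ?_
      have hw : wtm (e - Finsupp.single ⟨0, by omega⟩ 1) = wtm e - (2 ^ n - 1) := by
        have hsplit : e = (e - Finsupp.single ⟨0, by omega⟩ 1) + Finsupp.single ⟨0, by omega⟩ 1 := by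
          ext j
          simp only [Finsupp.add_apply, Finsupp.tsub_apply, Finsupp.single_apply]
          have := he0.pos
          split_ifs with h
          · subst h; omega
          · omega
        have h5 := congrArg wtm hsplit
        rw [wtm_add, wtm_single] at h5
        rw [h5]
        simp only [w, Nat.cast_one, one_mul, pow_zero]; ring
      rw [hw]; linarith
  · rw [F.K1 m N c a _ hao, F.s_eq_zero m (a - 1) _ _ (hom_mo e) ?_, map_zero]
    have : 1 ≤ a := hao.pos
    rw [Nat.cast_sub this]; push_cast; linarith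

end Vale.Agent.P263.EX
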