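import Vale.Agent.P263.EX.T1B

/-!
P263, block T1, part C: doubling and the theorem T1.
-/

namespace Vale.Agent.P263.EX

open Polynomial Vale.Agent.P263.LZ Vale.Agent.P263.EX.DS

lemma zmod2_smul (r : ZMod 2) {n : ℕ} (x : D n) : r • x = 0 ∨ (r = 1 ∧ r • x = x) := by
  rcases zmod2 r with h | h
  · left; rw [h, zero_smul]
  · right; exact ⟨h, by rw [h, one_smul]⟩

/-- the additive map `x ↦ f (y * x^2)` is linear over `ZMod 2` -/
noncomputable def sqComp {n : ℕ} (f : D n →ₗ[ZMod 2] ZMod 2) (y : D n) : D n →ₗ[ZMod 2] ZMod 2 where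
  toFun x := f (y * x ^ 2)
  map_add' a b := by rw [add_sq', mul_add, map_add]
  map_smul' r x := by
    rcases zmod2 r with h | h
    · subst h; simp
    · subst h; simp

lemma sqComp_apply {n : ℕ} (f : D n →ₗ[ZMod 2] ZMod 2) (y x : D n) :
    sqComp f y x = f (y * x ^ 2) := rfl

lemma expand_wt (a b : ℕ) :
    Polynomial.expand (ZMod 2) 2 (BM.wt (ZMod 2) a b) = BM.wt (ZMod 2) (2 * a) (2 * b) := by
  unfold BM.wt
  have h1 : ((1 : (ZMod 2)[X]) + X ^ 2) = (1 + X) ^ 2 := by
    rw [CharTwo.add_sq, one_pow]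
  simp only [map_add, map_mul, map_pow, map_one, Polynomial.expand_X, h1]
  simp only [← pow_mul]

/-- a sum over `range (2M+1)` whose odd terms vanish -/
lemma sum_range_even {B : Type*} [AddCommMonoid B] (f : ℕ → B) (M : ℕ)
    (h : ∀ a, Odd a → f a = 0) :
    ∑ a ∈ Finset.range (2 * M + 1), f a = ∑ a ∈ Finset.range (M + 1), f (2 * a) := by
  induction M with
  | zero => simp
  | succ M ih =>
    rw [show 2 * (M + 1) + 1 = (2 * M + 1) + 1 + 1 by ring, Finset.sum_range_succ,
      Finset.sum_range_succ, ih, Finset.sum_range_succ _ (M + 1), h (2 * M + 1) ⟨M, rfl⟩, add_zero]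
    rfl

namespace Coc

variable {n m N : ℕ}

/-- **Doubling.** A cocycle of level `m`, `m + n = 2μ + 1`, which vanishes for odd `a` and sees only
all-odd monomials, gives a cocycle of level `μ`. -/
noncomputable def double (F : T1Facts n) (c : Coc n m N) (mu N' : ℕ) (hmu : m + n = 2 * mu + 1)
    (hN : N = 2 * N' + n) (hodd : ∀ a, Odd a → c.th a = 0)
    (hO : ∀ a x, c.th a x = c.th a (oddPart x)) : Coc n mu N' where
  th a := sqComp (c.th (2 * a)) (piD n)
  th_zero := by
    ext x
    rw [sqComp_apply, mul_zero, c.th_zero]; rfl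
  supp a k x hx h := by
    rw [sqComp_apply]
    refine c.supp (2 * a) _ _ ((hom_pi n).mul (hx.pow 2)) ?_
    intro h2
    apply h
    have h3 : (m : ℤ) = 2 * mu + 1 - n := by
      have : ((m + n : ℕ) : ℤ) = 2 * mu + 1 := by rw [hmu]; push_cast; ring
      push_cast at this; linarith
    rw [h3, hN] at h2
    push_cast at h2
    have h4 : (2:ℤ) * (k + mu * (2 ^ n - 1) + a) = 2 * N' := by linarith
    linarith
  bm M x := by
    have h := c.bm (2 * M) (piD n * x ^ 2)
    rw [sum_range_even] at h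
    · have hinj : Function.Injective (Polynomial.expand (ZMod 2) 2) :=
        Polynomial.expand_injective (by norm_num)
      apply hinj
      rw [map_zero, ← h, map_add, map_sum]
      congr 1
      · refine Finset.sum_congr rfl (fun a ha => ?_)
        rw [map_mul, expand_wt, Polynomial.expand_C, ← Nat.mul_sub]
        congr 2
        rw [sqComp_apply, hO _ (s n m (2 * (M - a)) (piD n * x ^ 2)), F.O_even m mu (M - a) x hmu]
      · rw [map_mul, expand_wt, Polynomial.expand_C, sqComp_apply, mul_zero]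
    · intro a ha
      rw [hodd a ha, LinearMap.zero_apply, map_zero, zero_mul]

lemma double_TH (F : T1Facts n) (c : Coc n m N) (mu N' : ℕ) (hmu : m + n = 2 * mu + 1)
    (hN : N = 2 * N' + n) (hodd : ∀ a, Odd a → c.th a = 0)
    (hO : ∀ a x, c.th a x = c.th a (oddPart x)) (x : D n) :
    (c.double F mu N' hmu hN hodd hO).TH x = c.TH (piD n * x ^ 2) := by
  rw [c.TH_range _ (show N ≤ 2 * N by omega), sum_range_even,
    (c.double F mu N' hmu hN hodd hO).TH_range _ (show N' ≤ N by omega)]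
  · rfl
  · intro a ha
    rw [hodd a ha, LinearMap.zero_apply]

end Coc

/-- If all `ka i`, `1 ≤ i ≤ n`, vanish (and `N + m` is odd), then `th` sees only all-odd
monomials. -/
lemma th_oddPart {n m N : ℕ} (hn : 1 ≤ n) (F : T1Facts n) (c : Coc n m N) (hpar : (N + m) % 2 = 1)
    (hka : ∀ i, 1 ≤ i → i ≤ n → c.ka i = 0) :
    (∀ a, Odd a → c.th a = 0) ∧ (∀ a x, c.th a x = c.th a (oddPart x)) := by
  have hodd : ∀ a, Odd a → c.th a = 0 := by
    intro a ha
    ext x
    rw [F.K1 m N c a x ha, hka 1 le_rfl (by omega)]; rfl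
  refine ⟨hodd, ?_⟩
  intro a x
  have hmo : ∀ e, c.th a (mo e) = c.th a (oddPart (mo e)) := by
    intro e
    by_cases hall : ∀ i, Odd (e i)
    · rw [oddPart_mo_of hall]
    rw [oddPart_mo_not hall, map_zero]
    rcases Nat.even_or_odd a with hae | hao
    · by_cases hdeg : wtm e + m * (2 ^ n - 1) + a = N
      · obtain ⟨k, hk⟩ := wtm_parity e (by omega : 0 < n)
        have he0 : Odd (e ⟨0, by omega⟩) := by
          rw [Nat.odd_iff]
          obtain ⟨b, hb⟩ := hae
          have hp2 : ∃ r : ℤ, (2:ℤ) ^ n = 2 * r := ⟨2 ^ (n-1), by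
            rw [← pow_succ']; congr 1; omega⟩
          obtain ⟨r, hr⟩ := hp2
          rw [hk, hr, hb] at hdeg
          push_cast at hdeg
          have h3 : (N : ℤ) = 2 * (k + m * r + b) - m + (e ⟨0, by omega⟩ : ℤ) := by linarith
          have h4 : ((N + m : ℕ) : ℤ) = 2 * (k + m * r + b) + (e ⟨0, by omega⟩ : ℤ) := by
            push_cast; linarith
          omega
        have hex : ∃ i : Fin n, 1 ≤ (i : ℕ) ∧ Even (e i) := by
          by_contra hc
          apply hall
          intro i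
          rcases Nat.eq_zero_or_pos (i : ℕ) with h | h
          · have : i = ⟨0, by omega⟩ := Fin.ext h
            rw [this]; exact he0
          · by_contra hc2
            exact hc ⟨i, h, Nat.not_odd_iff_even.mp hc2⟩
        obtain ⟨i, hi, hei⟩ := hex
        rcases Nat.eq_zero_or_pos a with ha0 | ha0
        · rw [ha0, c.th_zero]; rfl
        rw [mo_eq_del_lt m i hi e he0.pos hei, F.K2 m N c i a _ hi i.2.le ha0,
          hka i hi i.2.le, LinearMap.zero_apply, zero_add]
        split_ifs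
        · rw [hka (i + 1) (by omega) (by have := i.2; omega)]; rfl
        · rfl
      · exact c.supp a _ _ (hom_mo e) hdeg
    · rw [hodd a hao]; rfl
  refine mo_induction (P := fun x => c.th a x = c.th a (oddPart x)) ?_ ?_ hmo x
  · simp
  · intro x y hx hy; rw [map_add, map_add, map_add, hx, hy]

/-- `TH` of a polynomial all of whose monomials `Z` satisfy `2|Z| ≤ d`, `N = 1 + d + m (2^(n+1)-1)`,
`m ≥ 1`: only the all-odd part matters, and only if `m + n` is odd. -/
lemma TH_oddPart {n m N : ℕ} (hn : 1 ≤ n) (hm : 1 ≤ m) (F : T1Facts n) (c : Coc n m N) (d : ℤ)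
    (hd : Even d) (hN : (N : ℤ) = 1 + d + m * (2 ^ (n + 1) - 1)) (x : D n) (hx : DLe d x) :
    ((m + n) % 2 = 1 → c.TH x = c.TH (oddPart x)) ∧ ((m + n) % 2 = 0 → c.TH x = 0) := by
  have hpar : (N + m) % 2 = 1 := by
    obtain ⟨b, hb⟩ := hd
    have h1 : ((N + m : ℕ) : ℤ) = 1 + 2 * (b + m * 2 ^ n) := by
      push_cast; rw [hN, hb, pow_succ]; ring
    omega
  have key : ∀ e : Fin n →₀ ℕ, 2 * wtm e ≤ d → ¬ ((m + n) % 2 = 1 ∧ ∀ i, Odd (e i)) →
      c.TH (mo e) = 0 := by
    intro e he hnot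
    have h1 : (0:ℤ) ≤ N - (wtm e + m * (2 ^ n - 1)) := by
      have h2 := wtm_nonneg e
      have h3 : (0:ℤ) ≤ m * 2 ^ n := by positivity
      rw [hN, pow_succ]
      nlinarith
    obtain ⟨a, ha⟩ := Int.eq_ofNat_of_zero_le h1
    have ha2 : wtm e + m * (2 ^ n - 1) + a = N := by linarith
    have ha3 : a ≤ N := by
      have h2 := wtm_nonneg e
      have h3 := Coc.level_nonneg m n
      have : (a : ℤ) ≤ N := by linarith
      exact_mod_cast this
    rw [c.TH_hom (hom_mo e) ha2 ha3]
    refine th_van hn F c hpar e a ha2 ?_ hnot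
    have h4 : (a : ℤ) = N - (wtm e + m * (2 ^ n - 1)) := by linarith
    rw [h4, hN, pow_succ]
    have hm' : (1:ℤ) ≤ m := by exact_mod_cast hm
    nlinarith
  have hsum := eq_sum_mo x
  constructor
  · intro hmn
    rw [hsum, map_sum, map_sum, map_sum]
    refine Finset.sum_congr rfl (fun e he => ?_)
    by_cases hall : ∀ i, Odd (e i)
    · rw [oddPart_mo_of hall]
    · rw [oddPart_mo_not hall, map_zero]
      exact key e (hx e he) (fun h => hall h.2)
  · intro hmn
    rw [hsum, map_sum]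
    refine Finset.sum_eq_zero (fun e he => ?_)
    exact key e (hx e he) (fun h => by omega)

/-- change by a coboundary does not change `TH` on polynomials all of whose monomials satisfy
`2|Z| ≤ d`, `N = 1 + d + m (2^(n+1)-1)`. -/
lemma TH_cob {n m N : ℕ} (F : T1Facts n) (c c' : Coc n m N) (l : D n →ₗ[ZMod 2] ZMod 2)
    (hl : ∀ (a : ℕ) (x : D n), 1 ≤ a → c'.th a x = c.th a x + l (s n m a x)) (d : ℤ)
    (hN : (N : ℤ) = 1 + d + m * (2 ^ (n + 1) - 1)) (x : D n) (hx : DLe d x) :
    c'.TH x = c.TH x := by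
  have hsum := eq_sum_mo x
  rw [hsum, map_sum, map_sum]
  refine Finset.sum_congr rfl (fun e he => ?_)
  have he := hx e he
  have h1 : (0:ℤ) ≤ N - (wtm e + m * (2 ^ n - 1)) := by
    have h2 := wtm_nonneg e
    have h3 : (0:ℤ) ≤ m * 2 ^ n := by positivity
    rw [hN, pow_succ]
    nlinarith
  obtain ⟨a, ha⟩ := Int.eq_ofNat_of_zero_le h1
  have ha2 : wtm e + m * (2 ^ n - 1) + a = N := by linarith
  have ha3 : a ≤ N := by
    have h2 := wtm_nonneg e
    have h3 := Coc.level_nonneg m n
    have : (a : ℤ) ≤ N := by linarith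
    exact_mod_cast this
  have hlt : wtm e + m * (2 ^ n - 1) < a := by
    have h4 : (a : ℤ) = N - (wtm e + m * (2 ^ n - 1)) := by linarith
    have hm' : (0:ℤ) ≤ m := by positivity
    rw [h4, hN, pow_succ]
    nlinarith
  have ha1 : 1 ≤ a := by
    have h2 := wtm_nonneg e
    have h3 := Coc.level_nonneg m n
    have : (1 : ℤ) ≤ a := by linarith
    exact_mod_cast this
  rw [c.TH_hom (hom_mo e) ha2 ha3, c'.TH_hom (hom_mo e) ha2 ha3, hl a _ ha1,
    F.s_eq_zero m a _ _ (hom_mo e) hlt, map_zero, add_zero]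

end Vale.Agent.P263.EX
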