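import Vale.Agent.P263.EX.DS1

/-!
P263, block T2 (helper564): the reduction modulo `q_0`, low squares and Adem relations.
-/

namespace Vale.Agent.P263.EX.T2

open Polynomial Vale.Agent.P263.LZ Vale.Agent.P263.EX.DS

/-- reduction modulo `q_0`: `q_0 ↦ 0`, `q_(i+1) ↦ q_i`. -/
noncomputable def r (p : ℕ) : D (p + 1) →ₐ[ZMod 2] D p :=
  lift fun i : Fin (p + 1) => qm p i

/-- the section `q_i ↦ q_(i+1)`. -/
noncomputable def j (p : ℕ) : D p →ₐ[ZMod 2] D (p + 1) :=
  lift fun i : Fin p => q (p + 1) (i + 1)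

theorem r_q (p i : ℕ) : r p (q (p + 1) i) = qm p i := by
  rcases lt_trichotomy i (p + 1) with h | h | h
  · rw [q_lt h, r, lift_gen]
  · subst h; rw [q_self, map_one, qm_succ, q_self]
  · rw [q_gt h, map_zero]
    obtain ⟨k, rfl⟩ : ∃ k, i = k + 1 := ⟨i - 1, by omega⟩
    rw [qm_succ, q_gt (by omega : p < k)]

theorem j_q (p i : ℕ) : j p (q p i) = q (p + 1) (i + 1) := by
  rcases lt_trichotomy i p with h | h | h
  · rw [q_lt h, j, lift_gen]
  · subst h; rw [q_self, map_one, q_self]
  · rw [q_gt h, map_zero, q_gt (by omega : p + 1 < i + 1)]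

theorem gen_eq {s : ℕ} (i : Fin s) : gen i = q s i := by rw [q_lt i.2]

theorem algHom_ext {s : ℕ} {B : Type*} [CommRing B] [Algebra (ZMod 2) B]
    {f g : D s →ₐ[ZMod 2] B} (h : ∀ i : Fin s, f (q s i) = g (q s i)) (x : D s) : f x = g x := by
  induction x using D_induction with
  | h0 => simp
  | h1 => simp
  | hadd x y hx hy => rw [map_add, map_add, hx, hy]
  | hmul x i hx => rw [map_mul, map_mul, hx, gen_eq, h]

theorem r_j (p : ℕ) (x : D p) : r p (j p x) = x := by
  have := algHom_ext (f := (r p).comp (j p)) (g := AlgHom.id (ZMod 2) (D p)) (fun i => by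
    show r p (j p (q p i)) = q p i
    rw [j_q, r_q, qm_succ]) x
  exact this

theorem exists_lift (p : ℕ) (x : D (p + 1)) :
    ∃ w, x = j p (r p x) + q (p + 1) 0 * w := by
  induction x using D_induction with
  | h0 => exact ⟨0, by simp⟩
  | h1 => exact ⟨0, by simp⟩
  | hadd x y hx hy =>
    obtain ⟨u, hu⟩ := hx
    obtain ⟨v, hv⟩ := hy
    refine ⟨u + v, ?_⟩
    rw [map_add, map_add]
    linear_combination hu + hv
  | hmul x i hx =>
    obtain ⟨u, hu⟩ := hx
    rw [gen_eq, map_mul, map_mul, r_q]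
    rcases Nat.eq_zero_or_pos (i : ℕ) with h | h
    · refine ⟨x, ?_⟩
      rw [h, qm_zero, map_zero, mul_zero, zero_add, mul_comm]
    · obtain ⟨k, hk⟩ : ∃ k, (i : ℕ) = k + 1 := ⟨i - 1, by omega⟩
      refine ⟨u * q (p + 1) i, ?_⟩
      rw [hk, qm_succ, j_q]
      linear_combination q (p + 1) (k + 1) * hu

theorem map_A (p i : ℕ) : (A (p + 1) (i + 1)).map (r p : D (p + 1) →+* D p) =
    expand (D p) 2 (A p i) := by
  unfold A
  rw [Polynomial.map_sum, map_sum, Finset.sum_range_succ']
  simp only [Polynomial.map_mul, Polynomial.map_C, Polynomial.map_pow, Polynomial.map_X,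
    map_mul, expand_C, map_pow, expand_X]
  have h0 : (r p : D (p + 1) →+* D p) (q (p + 1) 0) = 0 := by
    have := r_q p 0
    rw [qm_zero] at this
    exact this
  rw [h0, C_0, zero_mul, add_zero]
  refine Finset.sum_congr rfl (fun l hl => ?_)
  have h1 : (r p : D (p + 1) →+* D p) (q (p + 1) (l + 1)) = q p l := by
    have := r_q p (l + 1)
    rw [qm_succ] at this
    exact this
  rw [h1, ← pow_mul]
  congr 2
  have : 2 ^ l ≤ 2 ^ i := Nat.pow_le_pow_right (by norm_num) (by
    have := Finset.mem_range.mp hl; omega)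
  rw [pow_succ, pow_succ]; omega

theorem map_A0 (p : ℕ) : (A (p + 1) 0).map (r p : D (p + 1) →+* D p) = 0 := by
  unfold A
  have h0 : (r p : D (p + 1) →+* D p) (q (p + 1) 0) = 0 := by
    have := r_q p 0
    rw [qm_zero] at this
    exact this
  rw [Finset.sum_range_one, Polynomial.map_mul, Polynomial.map_C, h0, C_0, zero_mul]

theorem map_B (p i : ℕ) : (B (p + 1) (i + 1)).map (r p : D (p + 1) →+* D p) =
    expand (D p) 2 (B p i) := by
  unfold B
  rw [Polynomial.map_sum, map_sum]
  simp only [Polynomial.map_mul, Polynomial.map_C, Polynomial.map_pow, Polynomial.map_X,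
    map_mul, expand_C, map_pow, expand_X]
  have : Finset.Ioc (i + 1) (p + 1) = (Finset.Ioc i p).map ⟨Nat.succ, Nat.succ_injective⟩ := by
    ext t
    simp only [Finset.mem_Ioc, Finset.mem_map, Function.Embedding.coeFn_mk]
    constructor
    · intro h; exact ⟨t - 1, by omega, by simp; omega⟩
    · rintro ⟨t', h, rfl⟩; simp; omega
  rw [this, Finset.sum_map]
  refine Finset.sum_congr rfl (fun l hl => ?_)
  have h1 : (r p : D (p + 1) →+* D p) (q (p + 1) (l + 1)) = q p l := by
    have := r_q p (l + 1)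
    rw [qm_succ] at this
    exact this
  simp only [Function.Embedding.coeFn_mk, Nat.succ_eq_add_one]
  rw [h1, ← pow_mul]
  congr 2
  have : 2 ^ l ≤ 2 ^ p := Nat.pow_le_pow_right (by norm_num) (by
    have := Finset.mem_Ioc.mp hl; omega)
  rw [pow_succ, pow_succ]; omega

theorem map_P (p : ℕ) (x : D (p + 1)) : (P (p + 1) x).map (r p : D (p + 1) →+* D p) =
    expand (D p) 2 (P p (r p x)) := by
  have := algHom_ext (f := ((Polynomial.mapAlgHom (r p)).comp (P (p + 1))))
    (g := (((expand (D p) 2).restrictScalars (ZMod 2)).comp ((P p).comp (r p)))) (fun i => ?_) x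
  · exact this
  · show (P (p + 1) (q (p + 1) i)).map (r p : D (p + 1) →+* D p) =
      expand (D p) 2 (P p (r p (q (p + 1) i)))
    rw [P_q i.2.le, r_q]
    rcases Nat.eq_zero_or_pos (i : ℕ) with h | h
    · rw [h, qm_zero, map_zero, map_zero, Polynomial.map_add, Polynomial.map_mul,
        Polynomial.map_mul, map_A0, Polynomial.map_C]
      have h0 : (r p : D (p + 1) →+* D p) (q (p + 1) 0 ^ 2) = 0 := by
        have := r_q p 0
        rw [qm_zero] at this
        rw [map_pow]
        show (r p (q (p + 1) 0)) ^ 2 = 0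
        rw [this]; ring
      rw [h0, C_0]; ring
    · obtain ⟨k, hk⟩ : ∃ k, (i : ℕ) = k + 1 := ⟨i - 1, by omega⟩
      have hkp : k ≤ p := by have := i.2; omega
      rw [hk, qm_succ, P_q hkp, Polynomial.map_add, Polynomial.map_mul, Polynomial.map_mul,
        map_A, map_B, Polynomial.map_C, Polynomial.map_pow, Polynomial.map_X, map_add, map_mul,
        map_mul, expand_C, map_pow (expand (D p) 2), expand_X, ← pow_mul]
      have h1 : (r p : D (p + 1) →+* D p) (q (p + 1) (k + 1) ^ 2) = q p k ^ 2 := by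
        have := r_q p (k + 1)
        rw [qm_succ] at this
        rw [map_pow]
        show (r p (q (p + 1) (k + 1))) ^ 2 = _
        rw [this]
      rw [h1]
      congr 3
      have : 2 ^ k ≤ 2 ^ p := Nat.pow_le_pow_right (by norm_num) hkp
      rw [pow_succ, pow_succ]; omega

theorem s0_apply (n a : ℕ) (x : D n) : s n 0 a x = (P n x).coeff a := by
  rw [s_apply, pow_zero, one_mul]

theorem r_s_even (p b : ℕ) (x : D (p + 1)) : r p (s (p + 1) 0 (2 * b) x) = s p 0 b (r p x) := by
  rw [s0_apply, s0_apply]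
  have h := congrArg (fun Q => Q.coeff (2 * b)) (map_P p x)
  simp only [coeff_map] at h
  rw [mul_comm 2 b, coeff_expand_mul (by norm_num), mul_comm b 2] at h
  exact h

theorem r_s_odd (p b : ℕ) (x : D (p + 1)) : r p (s (p + 1) 0 (2 * b + 1) x) = 0 := by
  rw [s0_apply]
  have h := congrArg (fun Q => Q.coeff (2 * b + 1)) (map_P p x)
  simp only [coeff_map] at h
  rw [coeff_expand (by norm_num), if_neg (by omega)] at h
  exact h

end Vale.Agent.P263.EX.T2
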