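import Vale.Agent.P263.EX.T2a
import Vale.Agent.P263.EX.CO

/-!
P263, block T2 (helper564): low squares on generators, Cartan formulas, two Adem relations.
-/

namespace Vale.Agent.P263.EX.T2

open Polynomial Vale.Agent.P263.LZ Vale.Agent.P263.EX Vale.Agent.P263.EX.DS

theorem A_coeff (n i a : ℕ) : (A n i).coeff a =
    ∑ l ∈ Finset.range (i + 1), if a = 2 ^ i - 2 ^ l then q n l else 0 := by
  unfold A
  rw [finsetSum_coeff]
  refine Finset.sum_congr rfl (fun l _ => ?_)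
  rw [coeff_C_mul, coeff_X_pow, mul_ite, mul_one, mul_zero]

theorem B_coeff_zero {n i : ℕ} (h : i < n) : (B n i).coeff 0 = 1 := by
  unfold B
  rw [finsetSum_coeff, Finset.sum_eq_single n]
  · rw [q_self, Nat.sub_self, pow_zero, C_1, mul_one, coeff_one_zero]
  · intro t ht htn
    have h1 := Finset.mem_Ioc.mp ht
    have h2 : 2 ^ t < 2 ^ n := Nat.pow_lt_pow_right (by norm_num) (by omega)
    rw [coeff_C_mul, coeff_X_pow, if_neg (by omega), mul_zero]
  · intro hn; exact absurd (Finset.mem_Ioc.mpr ⟨h, le_rfl⟩) hn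

theorem B_coeff_small {n i v : ℕ} (h0 : 0 < v) (hv : v < 2 ^ (n - 1)) :
    (B n i).coeff v = 0 := by
  unfold B
  rw [finsetSum_coeff]
  refine Finset.sum_eq_zero (fun t ht => ?_)
  have h1 := Finset.mem_Ioc.mp ht
  rw [coeff_C_mul, coeff_X_pow, if_neg, mul_zero]
  intro h2
  rcases Nat.lt_or_ge t n with h3 | h3
  · have h4 : 2 ^ t ≤ 2 ^ (n - 1) := Nat.pow_le_pow_right (by norm_num) (by omega)
    have h5 : 2 ^ n = 2 * 2 ^ (n - 1) := by
      rw [← pow_succ']; congr 1; omega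
    omega
  · have : t = n := by omega
    subst this
    omega

theorem P_q_coeff {n i a : ℕ} (hi : i < n) (ha : a < 2 ^ (n - 1)) :
    s n 0 a (q n i) = (A n i).coeff a := by
  rw [s0_apply, P_q hi.le, coeff_add, coeff_C_mul, coeff_X_pow, if_neg, mul_zero, zero_add,
    coeff_mul, Finset.sum_eq_single (a, 0)]
  · rw [B_coeff_zero hi, mul_one]
  · rintro ⟨u, v⟩ huv hne
    have h1 : u + v = a := by simpa using huv
    have h2 : 0 < v := by
      rcases Nat.eq_zero_or_pos v with h | h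
      · exact absurd (by rw [h] at h1 ⊢; rw [← h1]; rfl) hne
      · exact h
    show _ * (B n i).coeff v = 0
    rw [B_coeff_small h2 (by omega), mul_zero]
  · intro h; exact absurd (by simp) h
  · have h4 : 2 ^ i ≤ 2 ^ (n - 1) := Nat.pow_le_pow_right (by norm_num) (by omega)
    have h5 : 2 ^ n = 2 * 2 ^ (n - 1) := by
      rw [← pow_succ']; congr 1; omega
    omega

theorem two_pow_sub_one {i l : ℕ} (h : 1 = 2 ^ i - 2 ^ l) : i = 1 ∧ l = 0 := by
  have hl : l < i := by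
    by_contra hc
    have : 2 ^ i ≤ 2 ^ l := Nat.pow_le_pow_right (by norm_num) (by omega)
    omega
  have h2 : 2 ^ i = 2 ^ l * 2 ^ (i - l) := by rw [← pow_add]; congr 1; omega
  have h3 : 2 ≤ 2 ^ (i - l) := by
    calc 2 = 2 ^ 1 := rfl
      _ ≤ 2 ^ (i - l) := Nat.pow_le_pow_right (by norm_num) (by omega)
  have h4 : 2 ^ l * 2 ≤ 2 ^ i := by rw [h2]; exact Nat.mul_le_mul_left _ h3
  have h5 : 0 < 2 ^ l := by positivity
  have h6 : 2 ^ l = 1 := by omega
  have h7 : l = 0 := by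
    rcases Nat.eq_zero_or_pos l with h | h
    · exact h
    · have : 2 ≤ 2 ^ l := by
        calc 2 = 2 ^ 1 := rfl
          _ ≤ 2 ^ l := Nat.pow_le_pow_right (by norm_num) (by omega)
      omega
  subst h7
  have h8 : 2 ^ i = 2 := by simp at h; omega
  refine ⟨?_, rfl⟩
  rcases Nat.lt_or_ge i 2 with h9 | h9
  · rcases i with _ | _ | i
    · norm_num at h8
    · rfl
    · omega
  · have : 4 ≤ 2 ^ i := by
      calc 4 = 2 ^ 2 := rfl
        _ ≤ 2 ^ i := Nat.pow_le_pow_right (by norm_num) h9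
    omega

theorem two_pow_sub_two {i l : ℕ} (h : 2 = 2 ^ i - 2 ^ l) : i = 2 ∧ l = 1 := by
  rcases i with _ | i
  · have : 0 < 2 ^ l := by positivity
    simp at h; omega
  rcases l with _ | l
  · have : 2 ^ (i + 1) = 2 * 2 ^ i := by ring
    simp at h; omega
  · have h1 : 1 = 2 ^ i - 2 ^ l := by
      have : 2 ^ (i + 1) = 2 * 2 ^ i := by ring
      have : 2 ^ (l + 1) = 2 * 2 ^ l := by ring
      omega
    have := two_pow_sub_one h1
    omega

theorem s1_q_one {n : ℕ} (hn : 2 ≤ n) : s n 0 1 (q n 1) = q n 0 := by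
  rw [P_q_coeff (by omega) (by
    calc 1 < 2 ^ 1 := by norm_num
      _ ≤ 2 ^ (n - 1) := Nat.pow_le_pow_right (by norm_num) (by omega)), A_coeff]
  simp [Finset.sum_range_succ]

theorem s1_q {n i : ℕ} (hn : 2 ≤ n) (hi : i < n) (h1 : i ≠ 1) : s n 0 1 (q n i) = 0 := by
  rw [P_q_coeff hi (by
    calc 1 < 2 ^ 1 := by norm_num
      _ ≤ 2 ^ (n - 1) := Nat.pow_le_pow_right (by norm_num) (by omega)), A_coeff]
  refine Finset.sum_eq_zero (fun l _ => ?_)
  rw [if_neg]
  intro h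
  exact h1 (two_pow_sub_one h).1

theorem s2_q_two {n : ℕ} (hn : 3 ≤ n) : s n 0 2 (q n 2) = q n 1 := by
  rw [P_q_coeff (by omega) (by
    calc 2 < 2 ^ 2 := by norm_num
      _ ≤ 2 ^ (n - 1) := Nat.pow_le_pow_right (by norm_num) (by omega)), A_coeff]
  simp [Finset.sum_range_succ]

theorem s2_q {n i : ℕ} (hn : 3 ≤ n) (hi : i < n) (h1 : i ≠ 2) : s n 0 2 (q n i) = 0 := by
  rw [P_q_coeff hi (by
    calc 2 < 2 ^ 2 := by norm_num
      _ ≤ 2 ^ (n - 1) := Nat.pow_le_pow_right (by norm_num) (by omega)), A_coeff]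
  refine Finset.sum_eq_zero (fun l _ => ?_)
  rw [if_neg]
  intro h
  exact h1 (two_pow_sub_two h).1

theorem s_zero' (n : ℕ) (x : D n) : s n 0 0 x = x := s_zero n 0 x

theorem cartan1 (n : ℕ) (x y : D n) : s n 0 1 (x * y) = s n 0 1 x * y + x * s n 0 1 y := by
  have hx := s_zero' n x
  have hy := s_zero' n y
  simp only [s0_apply] at *
  rw [map_mul, coeff_mul]
  simp [Finset.Nat.antidiagonal_succ, hx, hy]
  ring

theorem cartan2 (n : ℕ) (x y : D n) : s n 0 2 (x * y) =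
    s n 0 2 x * y + s n 0 1 x * s n 0 1 y + x * s n 0 2 y := by
  have hx := s_zero' n x
  have hy := s_zero' n y
  simp only [s0_apply] at *
  rw [map_mul, coeff_mul]
  simp [Finset.Nat.antidiagonal_succ, hx, hy]
  ring

theorem s_one (n a : ℕ) (ha : a ≠ 0) : s n 0 a 1 = 0 := by
  rw [s0_apply, map_one, coeff_one, if_neg ha]

theorem s_sq_even (n b : ℕ) (x : D n) : s n 0 (2 * b) (x ^ 2) = (s n 0 b x) ^ 2 := by
  have : Fact (Nat.Prime 2) := ⟨Nat.prime_two⟩
  rw [s0_apply, s0_apply, map_pow, ← map_frobenius_expand 2, coeff_map, mul_comm 2 b,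
    coeff_expand_mul (by norm_num)]
  rfl

theorem s_sq_odd (n b : ℕ) (x : D n) : s n 0 (2 * b + 1) (x ^ 2) = 0 := by
  have : Fact (Nat.Prime 2) := ⟨Nat.prime_two⟩
  rw [s0_apply, map_pow, ← map_frobenius_expand 2, coeff_map,
    coeff_expand (by norm_num), if_neg (by omega), map_zero]

theorem natCast_zmod (n k : ℕ) : ((k : D n)) = if Even k then 0 else 1 := by
  split_ifs with h
  · obtain ⟨l, rfl⟩ := h
    push_cast
    exact CharTwo.add_self_eq_zero _
  · obtain ⟨l, rfl⟩ := Nat.not_even_iff_odd.mp h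
    push_cast
    have : (2 : D n) = 0 := CharTwo.two_eq_zero
    rw [this]; ring

theorem BM' {n m : ℕ} (f : DSFacts n m) (N t : ℕ) (x : D n) : (∑ a ∈ Finset.range (N + 1),
    s n m a (s n m (N - a) x) *
      (((1 + X) ^ a * X ^ (2 * (N - a)) + X ^ a * (1 + X) ^ a : (D n)[X]).coeff t)) = 0 := by
  have h := congrArg (fun Q : (D n)[X] => Q.coeff t) (f.bm N x)
  simp only [coeff_zero] at h
  rw [finsetSum_coeff] at h
  simpa only [coeff_C_mul, BM.wt] using h

theorem coeff_w1 (R : Type*) [CommRing R] (a : ℕ) : ((1 + X : R[X]) ^ a).coeff 1 = (a : R) := by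
  rw [add_comm, coeff_X_add_one_pow, Nat.choose_one_right]

theorem coeff_w0 (R : Type*) [CommRing R] (a : ℕ) : ((1 + X : R[X]) ^ a).coeff 0 = 1 := by
  rw [add_comm, coeff_X_add_one_pow, Nat.choose_zero_right, Nat.cast_one]

theorem coeff_w2 (R : Type*) [CommRing R] (a : ℕ) :
    ((1 + X : R[X]) ^ a).coeff 2 = (a.choose 2 : R) := by
  rw [add_comm, coeff_X_add_one_pow]

/-- `Sq^1 Sq^b = (b + 1) Sq^(b+1)` -/
theorem adem1 {n m : ℕ} (f : DSFacts n m) (b : ℕ) (x : D n) :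
    s n m 1 (s n m b x) = ((b + 1 : ℕ) : D n) * s n m (b + 1) x := by
  rcases b with _ | b
  · rw [s_zero]; simp
  have h := BM' f (b + 2) 1 x
  rw [Finset.sum_range_succ, Finset.sum_range_succ', Finset.sum_range_succ'] at h
  have h0 : ∑ a ∈ Finset.range b, s n m (a + 1 + 1) (s n m (b + 2 - (a + 1 + 1)) x) *
      (((1 + X) ^ (a + 1 + 1) * X ^ (2 * (b + 2 - (a + 1 + 1))) +
        X ^ (a + 1 + 1) * (1 + X) ^ (a + 1 + 1) : (D n)[X]).coeff 1) = 0 := by
    refine Finset.sum_eq_zero (fun a ha => ?_)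
    have ha' := Finset.mem_range.mp ha
    rw [coeff_add, coeff_mul_X_pow', if_neg (by omega), mul_comm (X ^ (a + 1 + 1)),
      coeff_mul_X_pow', if_neg (by omega), add_zero, mul_zero]
  rw [h0, zero_add] at h
  have h1 : (((1 + X) ^ (0 + 1) * X ^ (2 * (b + 2 - (0 + 1))) +
        X ^ (0 + 1) * (1 + X) ^ (0 + 1) : (D n)[X]).coeff 1) = 1 := by
    rw [coeff_add, coeff_mul_X_pow', if_neg (by omega), mul_comm (X ^ (0 + 1)),
      coeff_mul_X_pow', if_pos (by omega), zero_add]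
    exact coeff_w0 _ _
  have h2 : (((1 + X) ^ 0 * X ^ (2 * (b + 2 - 0)) +
        X ^ 0 * (1 + X) ^ 0 : (D n)[X]).coeff 1) = 0 := by
    rw [coeff_add, coeff_mul_X_pow', if_neg (by omega), pow_zero, pow_zero, one_mul, zero_add,
      coeff_one, if_neg (by norm_num)]
  have h3 : (((1 + X) ^ (b + 2) * X ^ (2 * (b + 2 - (b + 2))) +
        X ^ (b + 2) * (1 + X) ^ (b + 2) : (D n)[X]).coeff 1) = ((b + 2 : ℕ) : D n) := by
    rw [coeff_add, Nat.sub_self, mul_zero, pow_zero, mul_one, mul_comm (X ^ (b + 2)),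
      coeff_mul_X_pow', if_neg (by omega), add_zero, coeff_w1]
  rw [h1, h2, h3, mul_one, mul_zero, add_zero, Nat.sub_self, s_zero] at h
  have h4 : b + 2 - (0 + 1) = b + 1 := by omega
  rw [h4, zero_add] at h
  rw [CharTwo.add_eq_zero.mp h, mul_comm]

/-- `Sq^2 Sq^(N-2) = C(N,2) Sq^N + Sq^(N-1) Sq^1 + Sq^1 Sq^(N-1)`, `N ≥ 4` -/
theorem adem2 {n m : ℕ} (f : DSFacts n m) (M : ℕ) (x : D n) :
    s n m 2 (s n m (M + 2) x) = (((M + 4).choose 2 : ℕ) : D n) * s n m (M + 4) x +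
      s n m (M + 3) (s n m 1 x) + s n m 1 (s n m (M + 3) x) := by
  have h := BM' f (M + 4) 2 x
  rw [Finset.sum_range_succ, Finset.sum_range_succ, Finset.sum_range_succ',
    Finset.sum_range_succ', Finset.sum_range_succ'] at h
  have h0 : ∑ a ∈ Finset.range M, s n m (a + 1 + 1 + 1) (s n m (M + 4 - (a + 1 + 1 + 1)) x) *
      (((1 + X) ^ (a + 1 + 1 + 1) * X ^ (2 * (M + 4 - (a + 1 + 1 + 1))) +
        X ^ (a + 1 + 1 + 1) * (1 + X) ^ (a + 1 + 1 + 1) : (D n)[X]).coeff 2) = 0 := by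
    refine Finset.sum_eq_zero (fun a ha => ?_)
    have ha' := Finset.mem_range.mp ha
    rw [coeff_add, coeff_mul_X_pow', if_neg (by omega), mul_comm (X ^ (a + 1 + 1 + 1)),
      coeff_mul_X_pow', if_neg (by omega), add_zero, mul_zero]
  rw [h0, zero_add] at h
  have h2 : (((1 + X) ^ (0 + 1 + 1) * X ^ (2 * (M + 4 - (0 + 1 + 1))) +
        X ^ (0 + 1 + 1) * (1 + X) ^ (0 + 1 + 1) : (D n)[X]).coeff 2) = 1 := by
    rw [coeff_add, coeff_mul_X_pow', if_neg (by omega), mul_comm (X ^ (0 + 1 + 1)),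
      coeff_mul_X_pow', if_pos (by omega), zero_add]
    exact coeff_w0 _ _
  have h1 : (((1 + X) ^ (0 + 1) * X ^ (2 * (M + 4 - (0 + 1))) +
        X ^ (0 + 1) * (1 + X) ^ (0 + 1) : (D n)[X]).coeff 2) = 1 := by
    rw [coeff_add, coeff_mul_X_pow', if_neg (by omega), mul_comm (X ^ (0 + 1)),
      coeff_mul_X_pow', if_pos (by omega), zero_add]
    have := coeff_w1 (D n) (0 + 1)
    simpa using this
  have h3 : (((1 + X) ^ 0 * X ^ (2 * (M + 4 - 0)) +
        X ^ 0 * (1 + X) ^ 0 : (D n)[X]).coeff 2) = 0 := by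
    rw [coeff_add, coeff_mul_X_pow', if_neg (by omega), pow_zero, pow_zero, one_mul, zero_add,
      coeff_one, if_neg (by norm_num)]
  have h4 : (((1 + X) ^ (M + 3) * X ^ (2 * (M + 4 - (M + 3))) +
        X ^ (M + 3) * (1 + X) ^ (M + 3) : (D n)[X]).coeff 2) = 1 := by
    rw [coeff_add, coeff_mul_X_pow', if_pos (by omega), mul_comm (X ^ (M + 3)),
      coeff_mul_X_pow', if_neg (by omega), add_zero]
    have : 2 - 2 * (M + 4 - (M + 3)) = 0 := by omega
    rw [this]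
    exact coeff_w0 _ _
  have h5 : (((1 + X) ^ (M + 4) * X ^ (2 * (M + 4 - (M + 4))) +
        X ^ (M + 4) * (1 + X) ^ (M + 4) : (D n)[X]).coeff 2) = (((M + 4).choose 2 : ℕ) : D n) := by
    rw [coeff_add, Nat.sub_self, mul_zero, pow_zero, mul_one, mul_comm (X ^ (M + 4)),
      coeff_mul_X_pow', if_neg (by omega), add_zero, coeff_w2]
  rw [h1, h2, h3, h4, h5, mul_one, mul_one, mul_one, mul_zero, add_zero, Nat.sub_self,
    s_zero] at h
  have e1 : M + 4 - (0 + 1 + 1) = M + 2 := by omega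
  have e2 : M + 4 - (0 + 1) = M + 3 := by omega
  have e3 : M + 4 - (M + 3) = 1 := by omega
  rw [e1, e2, e3, zero_add] at h
  have h6 : s n m 2 (s n m (M + 2) x) = s n m 2 (s n m (M + 2) x) +
    (s n m (0 + 1 + 1) (s n m (M + 2) x) + s n m 1 (s n m (M + 3) x) +
      s n m (M + 3) (s n m 1 x) + s n m (M + 4) x * (((M + 4).choose 2 : ℕ) : D n)) := by
    rw [h, add_zero]
  rw [h6]
  have h7 : s n m 2 (s n m (M + 2) x) + s n m 2 (s n m (M + 2) x) = 0 :=
    CharTwo.add_self_eq_zero _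
  show s n m 2 (s n m (M + 2) x) + (s n m 2 (s n m (M + 2) x) + s n m 1 (s n m (M + 3) x) +
      s n m (M + 3) (s n m 1 x) + s n m (M + 4) x * (((M + 4).choose 2 : ℕ) : D n)) = _
  linear_combination h7

end Vale.Agent.P263.EX.T2
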