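import Vale.Agent.P263.EX.T2b
import Vale.Agent.P263.EX.DS3

/-!
P263, block T2 (helper564): the core computation at level zero.
-/

namespace Vale.Agent.P263.EX.T2

open Polynomial Vale.Agent.P263.LZ Vale.Agent.P263.EX.DS

/-! ### the primitives at level zero -/

theorem del_zero_apply (n i : ℕ) (x : D n) : del n 0 i x = d n i x := by
  rw [del_apply]; simp

theorem del_mul (n i : ℕ) (x y : D n) : del n 0 i (x * y) = del n 0 i x * y + x * del n 0 i y := by
  rw [del_zero_apply, del_zero_apply, del_zero_apply, Derivation.leibniz, smul_eq_mul, smul_eq_mul]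
  ring

theorem del_sq' (n i : ℕ) (x : D n) : del n 0 i (x ^ 2) = 0 := by
  rw [sq, del_mul, mul_comm]
  exact CharTwo.add_self_eq_zero _

theorem del_sq_mul (n i : ℕ) (x y : D n) : del n 0 i (y * x ^ 2) = del n 0 i y * x ^ 2 := by
  rw [del_mul, del_sq', mul_zero, add_zero]

theorem pdn_q (n i l : ℕ) (hi : i < n) : pdn n i (q n l) = if l = i then 1 else 0 := by
  unfold pdn
  rw [dif_pos hi]
  rcases lt_trichotomy l n with h | h | h
  · rw [q_lt h]
    show (MvPolynomial.pderiv (⟨i, hi⟩ : Fin n)) (MvPolynomial.X (⟨l, h⟩ : Fin n)) = _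
    by_cases h1 : l = i
    · subst h1
      rw [if_pos rfl]
      exact MvPolynomial.pderiv_X_self _
    · rw [if_neg h1]
      exact MvPolynomial.pderiv_X_of_ne (fun h2 => h1 (by
        have := congrArg Fin.val h2
        simpa using this))
  · subst h
    rw [q_self, if_neg (by omega), Derivation.map_one_eq_zero]
  · rw [q_gt h, if_neg (by omega), map_zero]

theorem del_q (n i l : ℕ) (hi : i < n) :
    del n 0 i (q n l) = if l = i then q n 0 else 0 := by
  rw [del_zero_apply]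
  unfold d d0
  rw [if_neg (by omega), if_neg (by omega), Derivation.smul_apply, pdn_q n i l hi, smul_eq_mul]
  split_ifs <;> simp

theorem eul_q (n l : ℕ) (hl : l < n) : eul n (q n l) = q n l := by
  have hsum : ∀ (t : Finset (Fin n)) (x : D n), (∑ j ∈ t, gen j • pd n j) x =
      ∑ j ∈ t, gen j * pd n j x := by
    intro t x
    induction t using Finset.induction_on with
    | empty => simp
    | insert a t ha ih =>
      rw [Finset.sum_insert ha, Finset.sum_insert ha, Derivation.add_apply, ih,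
        Derivation.smul_apply, smul_eq_mul]
  unfold eul
  rw [hsum, Finset.sum_eq_single (⟨l, hl⟩ : Fin n)]
  · have := pdn_q n l l hl
    unfold pdn at this
    rw [dif_pos hl, if_pos rfl] at this
    rw [this, q_lt hl, mul_one]
  · intro b _ hb
    have := pdn_q n b l b.2
    unfold pdn at this
    rw [dif_pos b.2, if_neg (by
      intro h; exact hb (Fin.ext h.symm))] at this
    rw [this, mul_zero]
  · intro h; exact absurd (Finset.mem_univ _) h

theorem del_n_q (n l : ℕ) (hl : l < n) :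
    del n 0 n (q n l) = q n 0 * q n l := by
  rw [del_zero_apply]
  unfold d d0
  rw [if_neg (by omega), if_pos rfl, Derivation.smul_apply, eul_q n l hl, smul_eq_mul]

/-- `del 1 = Sq^1` at level zero -/
theorem del_one (n : ℕ) (hn : 2 ≤ n) (x : D n) : del n 0 1 x = s n 0 1 x := by
  induction x using D_induction with
  | h0 => simp
  | h1 => rw [s_one n 1 (by norm_num), del_zero_apply, Derivation.map_one_eq_zero]
  | hadd x y hx hy => rw [map_add, map_add, hx, hy]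
  | hmul x i hx =>
    rw [del_mul, cartan1, hx, gen_eq]
    congr 2
    rw [del_q n 1 i (by omega)]
    split_ifs with h
    · rw [h, s1_q_one hn]
    · rw [s1_q hn i.2 h]

theorem j_inj_sq (p : ℕ) (x : D p) : j p (x ^ 2) = (j p x) ^ 2 := map_pow _ _ _

/-- `del 1 (j x) = 0` if `x` has even degree. -/
theorem del1_j_even {p : ℕ} (hp : 1 ≤ p) {k : ℤ} {x : D p} (hx : Hom p k x) (hk : k % 2 = 0) :
    del (p + 1) 0 1 (j p x) = 0 := by
  rw [D_as_sum x, map_sum, map_sum]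
  refine Finset.sum_eq_zero (fun m hm => ?_)
  have hw := hx.weight hm
  obtain ⟨i0, hi0⟩ : ∃ i : Fin p, (i : ℕ) = 0 := ⟨⟨0, hp⟩, rfl⟩
  have hev : Even (m i0) := by
    have h1 : ∑ i, (m i : ℤ) * LZ.w p i = (m i0 : ℤ) * LZ.w p i0 +
        ∑ i ∈ Finset.univ.erase i0, (m i : ℤ) * LZ.w p i :=
      (Finset.add_sum_erase _ _ (Finset.mem_univ _)).symm
    have h2 : (2 : ℤ) ∣ ∑ i ∈ Finset.univ.erase i0, (m i : ℤ) * LZ.w p i := by
      refine Finset.dvd_sum (fun i hi => ?_)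
      have h3 : (i : ℕ) ≠ 0 := by
        intro h4
        exact (Finset.mem_erase.mp hi).1 (Fin.ext (by rw [h4, hi0]))
      obtain ⟨a, ha⟩ : ∃ a, (i : ℕ) = a + 1 := ⟨i - 1, by omega⟩
      obtain ⟨b, hb⟩ : ∃ b, p = b + 1 := ⟨p - 1, by omega⟩
      have : LZ.w p i = 2 * (2 ^ b - 2 ^ a) := by
        unfold LZ.w
        rw [ha, hb]; ring
      rw [this]
      exact ⟨(m i : ℤ) * (2 ^ b - 2 ^ a), by ring⟩
    rw [hw] at h1
    have h3 : LZ.w p i0 = 2 ^ p - 1 := by unfold LZ.w; rw [hi0]; simp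
    obtain ⟨b, hb⟩ : ∃ b, p = b + 1 := ⟨p - 1, by omega⟩
    have h4 : (2 : ℤ) ^ p = 2 * 2 ^ b := by rw [hb, pow_succ]; ring
    obtain ⟨u, hu⟩ := h2
    rw [hu, h3, h4] at h1
    have h5 : (m i0 : ℤ) % 2 = 0 := by
      have h6 : (m i0 : ℤ) = 2 * ((m i0 : ℤ) * 2 ^ b + u) - k := by
        rw [h1]; ring
      rw [h6]
      generalize (m i0 : ℤ) * 2 ^ b + u = v
      omega
    have h7 : m i0 % 2 = 0 := by omega
    exact Nat.even_iff.mpr h7
  rw [map_prod]
  simp only [map_pow]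
  rw [← Finset.mul_prod_erase _ _ (Finset.mem_univ i0)]
  obtain ⟨u, hu⟩ := hev
  rw [hu, ← two_mul, pow_mul', mul_comm, del_sq_mul]
  have h8 : del (p + 1) 0 1 (∏ i ∈ Finset.univ.erase i0, j p (gen i) ^ m i) = 0 := by
    have h9 : ∀ t : Finset (Fin p), (∀ i ∈ t, (i : ℕ) ≠ 0) →
        del (p + 1) 0 1 (∏ i ∈ t, j p (gen i) ^ m i) = 0 := by
      intro t
      induction t using Finset.induction_on with
      | empty => intro _; rw [Finset.prod_empty, del_zero_apply, Derivation.map_one_eq_zero]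
      | insert a t ha ih =>
        intro ht
        rw [Finset.prod_insert ha, del_mul, ih (fun i hi => ht i (Finset.mem_insert_of_mem hi)),
          mul_zero, add_zero]
        have h10 : ∀ k : ℕ, del (p + 1) 0 1 (j p (gen a) ^ k) = 0 := by
          intro k
          induction k with
          | zero => rw [pow_zero, del_zero_apply, Derivation.map_one_eq_zero]
          | succ k ihk =>
            rw [pow_succ, del_mul, ihk, gen_eq, j_q, del_q _ _ _ (by omega), if_neg, mul_zero,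
              zero_mul, add_zero]
            have := ht a (Finset.mem_insert_self _ _)
            omega
        rw [h10, zero_mul]
    refine h9 _ (fun i hi h4 => ?_)
    exact (Finset.mem_erase.mp hi).1 (Fin.ext (by rw [h4, hi0]))
  rw [h8, zero_mul]

/-! ### the core -/

section core

variable {n : ℕ} (θ κ : ℕ → D n →ₗ[ZMod 2] ZMod 2)

/-- (K1): `θ_a = κ_1 Sq^(a-1)` for `a` odd. -/
def K1a : Prop := ∀ a, Odd a → ∀ X, θ a X = κ 1 (s n 0 (a - 1) X)
/-- (K1'): `κ_1 Sq^b = 0` for `b` odd. -/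
def K1b : Prop := ∀ b, Odd b → ∀ X, κ 1 (s n 0 b X) = 0
/-- (K2). -/
def K2 : Prop := ∀ i, 1 ≤ i → i ≤ n → ∀ a, 1 ≤ a → ∀ X, θ a (del n 0 i X) =
  κ i (s n 0 a X) + (if 2 ^ i ≤ a then κ (i + 1) (s n 0 (a - 2 ^ i) X) else 0)
/-- normalisation: `κ_i` vanishes on `q_0 D_n` for `1 ≤ i ≤ n`. -/
def Nrm : Prop := ∀ i, 1 ≤ i → i ≤ n → ∀ X, κ i (q n 0 * X) = 0

variable {θ κ}

/-- `κ_(i+1)(Y²) = κ_i((Sq^(2^(i-1)) Y)²)` -/
theorem ksq (h2 : K2 θ κ) {i : ℕ} (h1 : 1 ≤ i) (hi : i ≤ n) (Y : D n) :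
    κ (i + 1) (Y ^ 2) = κ i ((s n 0 (2 ^ (i - 1)) Y) ^ 2) := by
  have h := h2 i h1 hi (2 ^ i) Nat.one_le_two_pow (Y ^ 2)
  rw [del_sq', map_zero, if_pos le_rfl, Nat.sub_self, s_zero] at h
  have h3 : 2 ^ i = 2 * 2 ^ (i - 1) := by rw [← pow_succ']; congr 1; omega
  have h4 : s n 0 (2 ^ i) (Y ^ 2) = (s n 0 (2 ^ (i - 1)) Y) ^ 2 := by
    rw [h3, s_sq_even]
  rw [h4] at h
  exact (CharTwo.add_eq_zero.mp h.symm).symm

/-- `κ_1((Sq^(2c) w)²) = 0`, `c ≥ 1` -/
theorem kev (f : DSFacts n 0) (h2 : K2 θ κ) (hn : 1 ≤ n) {c : ℕ} (hc : 1 ≤ c) (w : D n) :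
    κ 1 ((s n 0 (2 * c) w) ^ 2) = 0 := by
  have h := h2 1 le_rfl hn (2 * (2 * c)) (by omega) (w ^ 2)
  rw [del_sq', map_zero, if_pos (by omega), s_sq_even] at h
  have h3 : 2 * (2 * c) - 2 ^ 1 = 2 * (2 * c - 1) := by omega
  rw [h3, s_sq_even, ksq h2 le_rfl hn] at h
  have h4 : s n 0 (2 ^ (1 - 1)) (s n 0 (2 * c - 1) w) = 0 := by
    show s n 0 1 (s n 0 (2 * c - 1) w) = 0
    rw [adem1 f]
    have : ((2 * c - 1 + 1 : ℕ) : D n) = 0 := by
      have h5 : 2 * c - 1 + 1 = 2 * c := by omega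
      rw [h5]; push_cast
      have : (2 : D n) = 0 := CharTwo.two_eq_zero
      rw [this, zero_mul]
    rw [this, zero_mul]
  rw [h4] at h
  simpa using h.symm

/-- `κ_(i+1)(Y²) = κ_1((δ_i Y)²)` -/
theorem kdel (f : DSFacts n 0) (h2 : K2 θ κ) (hn : 2 ≤ n) (i : ℕ) (h1 : 1 ≤ i) (hi : i ≤ n) :
    ∀ Y : D n, κ (i + 1) (Y ^ 2) = κ 1 ((del n 0 i Y) ^ 2) := by
  induction i, h1 using Nat.le_induction with
  | base =>
    intro Y
    rw [ksq h2 le_rfl hi, del_one n hn]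
    rfl
  | succ i h1 ih =>
    intro Y
    rw [ksq h2 (by omega) hi, Nat.add_sub_cancel, ih (by omega)]
    have h3 := s_del (by omega : 1 ≤ n) (by omega : i ≤ n) 0 (2 ^ i) Y
    rw [if_pos le_rfl, Nat.sub_self, s_zero] at h3
    have h4 : del n 0 (i + 1) Y = s n 0 (2 ^ i) (del n 0 i Y) + del n 0 i (s n 0 (2 ^ i) Y) := by
      rw [h3]
      have := CharTwo.add_self_eq_zero (del n 0 i (s n 0 (2 ^ i) Y))
      linear_combination -this
    rw [h4, CharTwo.add_sq, map_add]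
    have h5 : 2 ^ i = 2 * 2 ^ (i - 1) := by rw [← pow_succ']; congr 1; omega
    have h6 := kev f h2 (by omega) (c := 2 ^ (i - 1)) Nat.one_le_two_pow (del n 0 i Y)
    rw [← h5] at h6
    rw [h6, zero_add]

/-- the top value for an image of `δ_i` of odd degree -/
theorem top_odd (f : DSFacts n 0) (h1' : K1b κ) (h2 : K2 θ κ) (hn : 2 ≤ n) {i : ℕ} (h1 : 1 ≤ i) (hi : i ≤ n)
    {Y : D n} {y ℓ : ℕ} (hY : Hom n y Y) (hℓ : Odd ℓ) (hy : ℓ + 1 = y + 2 ^ i)
    (hL : Hom n ℓ (del n 0 i Y)) :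
    θ (ℓ + 1) (del n 0 i Y) = 0 := by
  have hi2 : 2 ≤ 2 ^ i := by
    calc 2 = 2 ^ 1 := rfl
      _ ≤ 2 ^ i := Nat.pow_le_pow_right (by norm_num) h1
  rw [h2 i h1 hi (ℓ + 1) (by omega) Y, if_pos (by omega), s_eq_zero hY (by push_cast; omega),
    map_zero, zero_add]
  have h3 : ℓ + 1 - 2 ^ i = y := by omega
  rw [h3, s_top hY (by push_cast; ring), pow_zero, one_mul, kdel f h2 hn i h1 hi,
    ← one_mul ((del n 0 i Y) ^ 2), ← pow_zero (q n 0), ← s_top hL (m := 0) (a := ℓ)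
      (by push_cast; ring)]
  exact h1' ℓ hℓ _

/-- the top value in even degree -/
theorem top_even (h1 : K1a θ κ) {L : D n} {ℓ : ℕ} (hL : Hom n ℓ L) (hℓ : Even ℓ) :
    θ (ℓ + 1) L = κ 1 (L ^ 2) := by
  rw [h1 (ℓ + 1) hℓ.add_one, Nat.add_sub_cancel, s_top hL (by push_cast; ring), pow_zero, one_mul]

end core

section core2

variable {p : ℕ} {θ κ : ℕ → D (p + 1) →ₗ[ZMod 2] ZMod 2}

theorem nrm_eq (hN : Nrm κ) {i : ℕ} (h1 : 1 ≤ i) (hi : i ≤ p + 1) (x : D (p + 1)) :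
    κ i x = κ i (j p (r p x)) := by
  obtain ⟨w, hw⟩ := exists_lift p x
  conv_lhs => rw [hw]
  rw [map_add, hN i h1 hi, add_zero]

theorem nrm_s (hN : Nrm κ) {i : ℕ} (h1 : 1 ≤ i) (hi : i ≤ p + 1) (b : ℕ) (x : D p) :
    κ i (s (p + 1) 0 (2 * b) (j p x)) = κ i (j p (s p 0 b x)) := by
  rw [nrm_eq hN h1 hi, r_s_even, r_j]

theorem nrm_sq (hN : Nrm κ) (x : D (p + 1)) :
    κ 1 (x ^ 2) = κ 1 ((j p (r p x)) ^ 2) := by
  rw [nrm_eq hN le_rfl (by omega), map_pow, map_pow]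

/-- Case A -/
theorem caseA (f : DSFacts (p + 1) 0) (h2 : K2 θ κ) (hN : Nrm κ) (w : D p) : κ 1 ((j p (s p 0 1 w)) ^ 2) = 0 := by
  have h := kev f h2 (by omega) (c := 1) le_rfl (j p w)
  rw [nrm_sq hN, r_s_even, r_j] at h
  exact h

/-- Case B -/
theorem caseB (f : DSFacts p 0) (h2 : K2 θ κ) (hN : Nrm κ) (hp : 2 ≤ p) {c : ℕ} (hc : 0 < c) (hc4 : 4 ∣ c) {x : D p}
    (hx : Hom p c x) (h1 : s p 0 1 x = 0) : κ 1 ((j p x) ^ 2) = 0 := by
  obtain ⟨M, rfl⟩ : ∃ M, c = M + 4 := ⟨c - 4, by omega⟩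
  have h3 : κ 1 (j p (s p 0 (M + 4) x)) + κ 2 (j p (s p 0 (M + 3) x)) = 0 := by
    have h := h2 1 le_rfl (by omega) (2 * (M + 4)) (by omega) (j p x)
    rw [del1_j_even (by omega) hx (by push_cast; omega), map_zero, if_pos (by omega),
      nrm_s hN le_rfl (by omega)] at h
    have h4 : 2 * (M + 4) - 2 ^ 1 = 2 * (M + 3) := by omega
    rw [h4, nrm_s hN (by norm_num) (by omega)] at h
    exact h.symm
  have h5 : κ 1 (j p (s p 0 2 (s p 0 (M + 2) x))) + κ 2 (j p (s p 0 1 (s p 0 (M + 2) x))) = 0 := by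
    have h := h2 1 le_rfl (by omega) (2 * 2) (by omega) (j p (s p 0 (M + 2) x))
    rw [del1_j_even (by omega) (s_hom hx 0 (M + 2)) (by push_cast; omega), map_zero,
      if_pos (by norm_num), nrm_s hN le_rfl (by omega)] at h
    have h4 : 2 * 2 - 2 ^ 1 = 2 * 1 := by norm_num
    rw [h4, nrm_s hN (by norm_num) (by omega)] at h
    exact h.symm
  have h6 : s p 0 1 (s p 0 (M + 2) x) = s p 0 (M + 3) x := by
    rw [adem1 f, natCast_zmod, if_neg, one_mul]
    rw [Nat.not_even_iff_odd]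
    exact Nat.odd_iff.mpr (by omega)
  have h7 : s p 0 2 (s p 0 (M + 2) x) = 0 := by
    rw [adem2 f, h1, map_zero, add_zero, adem1 f, natCast_zmod, natCast_zmod, if_pos, if_pos]
    · simp
    · exact Nat.even_iff.mpr (by omega)
    · obtain ⟨u, hu⟩ := hc4
      rw [hu, Nat.choose_two_right]
      have : 4 * u * (4 * u - 1) = 2 * (2 * (u * (4 * u - 1))) := by ring
      rw [this, Nat.mul_div_cancel_left _ (by norm_num)]
      exact even_two_mul _
  rw [h6, h7, map_zero, map_zero, zero_add] at h5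
  rw [h5, add_zero] at h3
  rw [s_top hx (by push_cast; ring), pow_zero, one_mul, map_pow] at h3
  exact h3

/-- Case C -/
theorem caseC (h2 : K2 θ κ) (hN : Nrm κ) (hp : 3 ≤ p) {t : D p} (h1 : s p 0 1 t = 0) :
    κ 1 ((j p (q p 1 * t)) ^ 2) = 0 := by
  -- the element `R' = q_1 q_2 t^2`
  have hR : κ 1 (j p (s p 0 2 (q p 1 * q p 2 * t ^ 2))) +
      κ 2 (j p (s p 0 1 (q p 1 * q p 2 * t ^ 2))) = 0 := by
    have h := h2 1 le_rfl (by omega) (2 * 2) (by omega) (j p (q p 1 * q p 2 * t ^ 2))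
    have h3 : del (p + 1) 0 1 (j p (q p 1 * q p 2 * t ^ 2)) = 0 := by
      rw [map_mul, map_pow, del_sq_mul, map_mul, j_q, j_q, del_mul, del_q _ _ _ (by omega),
        del_q _ _ _ (by omega), if_neg (by norm_num), if_neg (by norm_num)]
      ring
    rw [h3, map_zero, if_pos (by norm_num), nrm_s hN le_rfl (by omega)] at h
    have h4 : 2 * 2 - 2 ^ 1 = 2 * 1 := by norm_num
    rw [h4, nrm_s hN (by norm_num) (by omega)] at h
    exact h.symm
  have hs1 : s p 0 1 (t ^ 2) = 0 := s_sq_odd p 0 t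
  have hs2 : s p 0 2 (t ^ 2) = 0 := by
    have h9 := s_sq_even p 1 t
    rw [h1] at h9
    show s p 0 (2 * 1) (t ^ 2) = 0
    rw [h9]; ring
  have e1 : s p 0 2 (q p 1 * q p 2 * t ^ 2) = (q p 1 * t) ^ 2 := by
    rw [cartan2, hs1, hs2, cartan2, s2_q hp (by omega) (by norm_num), s2_q_two hp,
      s1_q (i := 2) (by omega) (by omega) (by norm_num)]
    ring
  have e2 : s p 0 1 (q p 1 * q p 2 * t ^ 2) = q p 0 * q p 2 * t ^ 2 := by
    rw [cartan1, hs1, cartan1, s1_q_one (by omega),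
      s1_q (i := 2) (by omega) (by omega) (by norm_num)]
    ring
  rw [e1, e2, map_pow] at hR
  -- `κ_2 (Y) = 0`
  have hY : κ 2 (j p (q p 0 * q p 2 * t ^ 2)) = 0 := by
    have hY1 := h2 1 le_rfl (by omega) (2 * 1) (by omega) (j p (q p 0 * q p 2 * t ^ 2))
    rw [if_pos (by norm_num), nrm_s hN le_rfl (by omega)] at hY1
    have e3 : s p 0 1 (q p 0 * q p 2 * t ^ 2) = 0 := by
      rw [cartan1, hs1, cartan1, s1_q (by omega) (by omega) (by norm_num),
        s1_q (i := 2) (by omega) (by omega) (by norm_num)]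
      ring
    have e4 : 2 * 1 - 2 ^ 1 = 0 := by norm_num
    rw [e3, map_zero, map_zero, zero_add, e4, s_zero] at hY1
    have hZ := h2 (p + 1) (by omega) le_rfl (2 * 1) (by omega) (j p (q p 2 * t ^ 2))
    have e5 : ¬ (2 ^ (p + 1) ≤ 2 * 1) := by
      have : 2 ^ 4 ≤ 2 ^ (p + 1) := Nat.pow_le_pow_right (by norm_num) (by omega)
      omega
    have e6 : s p 0 1 (q p 2 * t ^ 2) = 0 := by
      rw [cartan1, hs1, s1_q (by omega) (by omega) (by norm_num)]
      ring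
    rw [if_neg e5, add_zero, nrm_s hN (by omega) le_rfl, e6, map_zero, map_zero] at hZ
    have e7 : del (p + 1) 0 1 (j p (q p 0 * q p 2 * t ^ 2)) =
        q (p + 1) 0 * (q (p + 1) 3 * (j p t) ^ 2) := by
      rw [map_mul, map_pow, del_sq_mul, map_mul, j_q, j_q, del_mul, del_q _ _ _ (by omega),
        del_q _ _ _ (by omega), if_pos rfl, if_neg (by norm_num)]
      ring
    have e8 : del (p + 1) 0 (p + 1) (j p (q p 2 * t ^ 2)) =
        q (p + 1) 0 * (q (p + 1) 3 * (j p t) ^ 2) := by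
      rw [map_mul, map_pow, del_sq_mul, j_q, del_n_q _ _ (by omega)]
      ring
    rw [e8] at hZ
    rw [e7, hZ] at hY1
    exact hY1.symm
  rw [hY, add_zero] at hR
  exact hR

end core2

end Vale.Agent.P263.EX.T2
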