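import Vale.Agent.P263.EX.T2c
import Vale.Agent.P263.EX.LL

/-!
P263, block T2 (helper564): the top value on monomials, level zero, rank at least four.
-/

namespace Vale.Agent.P263.EX.T2

open Polynomial Vale.Agent.P263.LZ Vale.Agent.P263.EX.DS Vale.Agent.P263.EX.LL

theorem natCast_zmod2 (k : ℕ) : ((k : ZMod 2)) = if Even k then 0 else 1 := by
  split_ifs with h
  · obtain ⟨l, rfl⟩ := h
    push_cast
    exact CharTwo.add_self_eq_zero _
  · obtain ⟨l, rfl⟩ := Nat.not_even_iff_odd.mp h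
    push_cast
    have : (2 : ZMod 2) = 0 := by decide
    rw [this]; ring

/-- a monomial with `e_0 ≥ 1` and `e_i` even is an image of `δ_i`. -/
theorem mon_eq_del {n : ℕ} (hn : 1 ≤ n) {e : Fin n →₀ ℕ} {i : ℕ} (h1 : 1 ≤ i) (hi : i < n)
    (h0 : 1 ≤ ex e 0) (he : Even (ex e i)) :
    mon e = del n 0 i (mon (e + sg n i - sg n 0)) := by
  rw [isDelta_del hn 0 i h1 hi.le]
  have hc : cc 0 (e + sg n i - sg n 0) i = 1 := by
    unfold cc
    rw [if_pos hi, ex_sub, ex_add, ex_sg i i hi, ex_sg 0 i (by omega), if_pos rfl, if_neg (by omega),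
      Nat.sub_zero, natCast_zmod2, if_neg]
    rw [Nat.not_even_iff_odd]
    exact he.add_one
  rw [hc, one_smul]
  congr 1
  apply ext_ex
  intro l hl
  rw [ex_add, ex_sub, ex_sub, ex_add, ex_sg i l hi, ex_sg 0 l (by omega)]
  by_cases hli : l = i
  · subst hli; rw [if_pos rfl, if_neg (by omega)]; omega
  · rw [if_neg hli]
    by_cases hl0 : l = 0
    · subst hl0; rw [if_pos rfl]; omega
    · rw [if_neg hl0]; omega

/-- a monomial with `e_0 ≥ 1` and odd `len e - 1` is an image of `δ_n`. -/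
theorem mon_eq_del_n {n : ℕ} (hn : 1 ≤ n) {e : Fin n →₀ ℕ}
    (h0 : 1 ≤ ex e 0) (he : Even (len e)) :
    mon e = del n 0 n (mon (e - sg n 0)) := by
  rw [isDelta_del hn 0 n hn le_rfl]
  have hc : cc 0 (e - sg n 0) n = 1 := by
    unfold cc
    rw [if_neg (by omega), natCast_zmod2, if_neg]
    rw [Nat.not_even_iff_odd]
    have := len_sub_sg e 0 (by omega) h0
    rw [add_zero]
    rw [← this] at he
    rcases Nat.even_or_odd (len (e - sg n 0)) with h | h
    · exact absurd he (Nat.not_even_iff_odd.mpr h.add_one)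
    · exact h
  rw [hc, one_smul]
  congr 1
  apply ext_ex
  intro l hl
  rw [ex_add, ex_sub, ex_sub, ex_sg_ge n l le_rfl, ex_sg 0 l (by omega)]
  by_cases hl0 : l = 0
  · subst hl0; rw [if_pos rfl]; omega
  · rw [if_neg hl0]; omega

theorem s1_mon_even {n : ℕ} (hn : 2 ≤ n) {e : Fin n →₀ ℕ} (he : Even (ex e 1)) :
    s n 0 1 (mon e) = 0 := by
  rw [← del_one n hn, isDelta_del (by omega) 0 1 le_rfl (by omega)]
  have hc : cc 0 e 1 = 0 := by
    unfold cc
    rw [if_pos (by omega), natCast_zmod2, if_pos he]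
  rw [hc, zero_smul]

theorem s1_mon_odd {n : ℕ} (hn : 2 ≤ n) {e : Fin n →₀ ℕ} (h0 : 1 ≤ ex e 0) (he : Even (ex e 1)) :
    mon e = s n 0 1 (mon (e + sg n 1 - sg n 0)) := by
  rw [← del_one n hn]
  exact mon_eq_del (by omega) le_rfl (by omega) h0 he

theorem wt_pos {n : ℕ} {e : Fin n →₀ ℕ} (he : e ≠ 0) : 0 < wt e := by
  obtain ⟨i, hi⟩ : ∃ i, e i ≠ 0 := by
    by_contra h
    push Not at h
    exact he (Finsupp.ext h)
  unfold wt
  have hnn : ∀ l : Fin n, 0 < (2 : ℤ) ^ n - 2 ^ (l : ℕ) := by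
    intro l
    have : (2 : ℤ) ^ (l : ℕ) < 2 ^ n := pow_lt_pow_right₀ (by norm_num) l.2
    omega
  refine Finset.sum_pos' (fun l _ => mul_nonneg (Int.natCast_nonneg _) (hnn l).le)
    ⟨i, Finset.mem_univ _, mul_pos (by exact_mod_cast Nat.pos_of_ne_zero hi) (hnn i)⟩

section core3

variable {p : ℕ} {θ κ : ℕ → D (p + 1) →ₗ[ZMod 2] ZMod 2}

/-- `κ_1` vanishes on squares of monomials without `q_0`, case `e_1` even. -/
theorem core_even (f : DSFacts (p + 1) 0) (g : DSFacts p 0) (hp : 2 ≤ p) (h2 : K2 θ κ) (hN : Nrm κ) {e : Fin p →₀ ℕ} (he : e ≠ 0)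
    (he1 : Even (ex e 1)) : κ 1 ((j p (mon e)) ^ 2) = 0 := by
  rcases Nat.eq_zero_or_pos (ex e 0) with h0 | h0
  · have hw := wt_mod4 hp e
    rw [h0] at hw
    obtain ⟨u, hu⟩ := he1
    have hpos := wt_pos he
    obtain ⟨c, hc⟩ : ∃ c : ℕ, (c : ℤ) = wt e := ⟨(wt e).toNat, Int.toNat_of_nonneg hpos.le⟩
    refine caseB g h2 hN hp (c := c) (by omega) (by omega) (by rw [hc]; exact hom_mon e)
      (s1_mon_even hp ⟨u, hu⟩)
  · rw [s1_mon_odd hp h0 he1]
    exact caseA f h2 hN _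

/-- `κ_1` vanishes on squares of monomials without `q_0`. -/
theorem core_mon (f : DSFacts (p + 1) 0) (g : DSFacts p 0) (hp : 3 ≤ p) (h2 : K2 θ κ) (hN : Nrm κ) {e : Fin p →₀ ℕ} (he : e ≠ 0) :
    κ 1 ((j p (mon e)) ^ 2) = 0 := by
  rcases Nat.even_or_odd (ex e 1) with he1 | he1
  · exact core_even f g (by omega) h2 hN he he1
  · have h3 : mon e = q p 1 * mon (e - sg p 1) := by
      rw [← mon_sg 1 (by omega), ← mon_add, add_comm, sub_sg_add e 1 (fun _ => by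
        obtain ⟨u, hu⟩ := he1; omega)]
    rw [h3]
    refine caseC h2 hN hp (s1_mon_even (by omega) ?_)
    rw [ex_sub, ex_sg 1 1 (by omega), if_pos rfl]
    obtain ⟨u, hu⟩ := he1
    rw [hu]; simp

/-- the shift `e_i ↦ f_(i+1)` -/
noncomputable def dn (f : Fin (p + 1) →₀ ℕ) : Fin p →₀ ℕ :=
  Finsupp.equivFunOnFinite.symm fun i => f i.succ

theorem mon_prod {n : ℕ} (e : Fin n →₀ ℕ) : mon e = ∏ i, gen i ^ e i := by
  have h2 := MvPolynomial.monomial_eq (σ := Fin n) (R := ZMod 2) (s := e) (a := 1)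
  rw [MvPolynomial.C_1, one_mul, Finsupp.prod_fintype _ _ (fun i => pow_zero _)] at h2
  exact h2

theorem mon_dn {f : Fin (p + 1) →₀ ℕ} (h : ex f 0 = 0) : mon f = j p (mon (dn f)) := by
  rw [mon_prod, mon_prod, map_prod, Fin.prod_univ_succ]
  have h0 : f 0 = 0 := by
    have h1 : ex f 0 = f 0 := by unfold ex; rw [dif_pos (by omega)]; rfl
    rw [← h1, h]
  rw [h0, pow_zero, one_mul]
  refine Finset.prod_congr rfl (fun i _ => ?_)
  rw [map_pow, gen_eq, gen_eq, j_q]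
  rfl

theorem dn_ne {f : Fin (p + 1) →₀ ℕ} (h : ex f 0 = 0) (hf : f ≠ 0) : dn f ≠ 0 := by
  intro h1
  apply hf
  apply Finsupp.ext
  intro i
  have h0 : f 0 = 0 := by
    have h1 : ex f 0 = f 0 := by unfold ex; rw [dif_pos (by omega)]; rfl
    rw [← h1, h]
  refine Fin.cases h0 (fun i => ?_) i
  have := DFunLike.congr_fun h1 i
  exact this

theorem len_parity {n : ℕ} (e : Fin n →₀ ℕ) (h : ∀ l, l < n → Odd (ex e l)) :
    (len e : ZMod 2) = n := by
  unfold len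
  push_cast
  rw [Finset.sum_congr rfl (g := fun _ => (1 : ZMod 2))]
  · simp
  · intro i _
    have := h i i.2
    unfold ex at this
    rw [dif_pos i.2] at this
    rw [natCast_zmod2, if_neg (Nat.not_even_iff_odd.mpr this)]

/-- The top value `θ_(|L|+1)(L)` for a monomial `L ≠ 1`, odd degree (`n` even or `L` not all odd). -/
theorem top_mon_odd {n : ℕ} {θ κ : ℕ → D n →ₗ[ZMod 2] ZMod 2} (F : DSFacts n 0) (hn : 2 ≤ n)
    (h1 : K1b κ) (h2 : K2 θ κ) {f : Fin n →₀ ℕ} {ℓ : ℕ} (hℓ : wt f = ℓ)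
    (h0 : Odd (ex f 0)) (hodd : Even n ∨ ∃ i, i < n ∧ Even (ex f i)) :
    θ (ℓ + 1) (mon f) = 0 := by
  have hL : Hom n ℓ (mon f) := by rw [← hℓ]; exact hom_mon f
  have hlo : Odd ℓ := by
    have := wt_mod2 (by omega) f
    obtain ⟨u, hu⟩ := h0
    rw [Nat.odd_iff]; omega
  have h0' : 1 ≤ ex f 0 := by obtain ⟨u, hu⟩ := h0; omega
  by_cases hall : ∃ i, 1 ≤ i ∧ i < n ∧ Even (ex f i)
  · obtain ⟨i, hi1, hi, he⟩ := hall
    have hm := mon_eq_del (by omega) hi1 hi h0' he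
    have hw : wt (f + sg n i - sg n 0) = ℓ - (2 ^ i - 1) := by
      have h3 : 1 ≤ ex (f + sg n i) 0 := by rw [ex_add]; omega
      rw [wt_sub_sg _ 0 (by omega) (fun _ => h3), wt_add, wt_sg i hi.le, hℓ]; ring
    have hpos : 0 ≤ wt (f + sg n i - sg n 0) := by
      by_cases hz : f + sg n i - sg n 0 = 0
      · rw [hz, wt_zero]
      · exact (wt_pos hz).le
    obtain ⟨y, hy⟩ : ∃ y : ℕ, (y : ℤ) = wt (f + sg n i - sg n 0) :=
      ⟨(wt (f + sg n i - sg n 0)).toNat, Int.toNat_of_nonneg hpos⟩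
    rw [hm] at hL ⊢
    refine top_odd F h1 h2 hn hi1 hi.le (Y := mon (f + sg n i - sg n 0)) (y := y)
      (by rw [hy]; exact hom_mon _) hlo ?_ hL
    have h3 : (1 : ℤ) ≤ 2 ^ i := one_le_pow₀ (by norm_num)
    have : ((ℓ + 1 : ℕ) : ℤ) = ((y + 2 ^ i : ℕ) : ℤ) := by push_cast; rw [hy, hw]; ring
    exact_mod_cast this
  · push Not at hall
    have hall' : ∀ l, l < n → Odd (ex f l) := by
      intro l hl
      rcases Nat.eq_zero_or_pos l with h | h
      · rw [h]; exact h0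
      · exact Nat.not_even_iff_odd.mp (hall l h hl)
    have hne : Even n := by
      rcases hodd with h | ⟨i, hi, he⟩
      · exact h
      · exact absurd he (Nat.not_even_iff_odd.mpr (hall' i hi))
    have hlen : Even (len f) := by
      have h3 := len_parity f hall'
      rw [natCast_zmod2, natCast_zmod2 n, if_pos hne] at h3
      by_contra hc
      rw [if_neg hc] at h3
      exact absurd h3 (by decide)
    have hm := mon_eq_del_n (by omega) h0' hlen
    have hw : wt (f - sg n 0) = ℓ - (2 ^ n - 1) := by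
      rw [wt_sub_sg _ 0 (by omega) (fun _ => h0'), hℓ]; ring
    have hpos : 0 ≤ wt (f - sg n 0) := by
      by_cases hz : f - sg n 0 = 0
      · rw [hz, wt_zero]
      · exact (wt_pos hz).le
    obtain ⟨y, hy⟩ : ∃ y : ℕ, (y : ℤ) = wt (f - sg n 0) :=
      ⟨(wt (f - sg n 0)).toNat, Int.toNat_of_nonneg hpos⟩
    rw [hm] at hL ⊢
    refine top_odd F h1 h2 hn (by omega) le_rfl (Y := mon (f - sg n 0)) (y := y)
      (by rw [hy]; exact hom_mon _) hlo ?_ hL
    have : ((ℓ + 1 : ℕ) : ℤ) = ((y + 2 ^ n : ℕ) : ℤ) := by push_cast; rw [hy, hw]; ring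
    exact_mod_cast this

/-- even degree, `q_0` divides -/
theorem top_mon_q0 {n : ℕ} {θ κ : ℕ → D n →ₗ[ZMod 2] ZMod 2} (hn : 1 ≤ n)
    (h1 : K1a θ κ) (hN : Nrm κ) {f : Fin n →₀ ℕ} {ℓ : ℕ} (hℓ : wt f = ℓ)
    (h0 : Even (ex f 0)) (hpos : 0 < ex f 0) :
    θ (ℓ + 1) (mon f) = 0 := by
  have hL : Hom n ℓ (mon f) := by rw [← hℓ]; exact hom_mon f
  have hle : Even ℓ := by
    have := wt_mod2 hn f
    obtain ⟨u, hu⟩ := h0
    rw [Nat.even_iff]; omega
  rw [top_even h1 hL hle]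
  have h3 : mon f = q n 0 * mon (f - sg n 0) := by
    rw [← mon_sg 0 (by omega), ← mon_add, add_comm, sub_sg_add f 0 (fun _ => hpos)]
  have h4 : (mon f) ^ 2 = q n 0 * (q n 0 * mon (f - sg n 0) ^ 2) := by rw [h3]; ring
  rw [h4]
  exact hN 1 le_rfl hn _

/-- **Top value**, rank `n = p + 1 ≥ 4`. -/
theorem top_mon (F : DSFacts (p + 1) 0) (G : DSFacts p 0) (hp : 3 ≤ p) (h1 : K1a θ κ) (h1' : K1b κ) (h2 : K2 θ κ) (hN : Nrm κ)
    {f : Fin (p + 1) →₀ ℕ} (hf : f ≠ 0) {ℓ : ℕ} (hℓ : wt f = ℓ)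
    (hodd : Even (p + 1) ∨ ∃ i, i < p + 1 ∧ Even (ex f i)) :
    θ (ℓ + 1) (mon f) = 0 := by
  rcases Nat.even_or_odd (ex f 0) with h0 | h0
  · rcases Nat.eq_zero_or_pos (ex f 0) with h3 | h3
    · have hL : Hom (p + 1) ℓ (mon f) := by rw [← hℓ]; exact hom_mon f
      have hle : Even ℓ := by
        have := wt_mod2 (by omega) f
        rw [h3] at this
        rw [Nat.even_iff]; omega
      rw [top_even h1 hL hle, mon_dn h3]
      exact core_mon F G hp h2 hN (dn_ne h3 hf)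
    · exact top_mon_q0 (by omega) h1 hN hℓ h0 h3
  · exact top_mon_odd F (by omega) h1' h2 hℓ h0 hodd

end core3

end Vale.Agent.P263.EX.T2
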