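import Vale.Agent.P263.EX.T2d
import Vale.Agent.P263.EX.T1

/-!
P263, block T2 (helper564): the theorem for cocycles of level zero.
-/

namespace Vale.Agent.P263.EX.T2

open Polynomial Vale.Agent.P263.LZ Vale.Agent.P263.EX Vale.Agent.P263.EX.DS

theorem mon_eq_mo {n : ℕ} (e : Fin n →₀ ℕ) : LL.mon e = mo e := rfl

theorem wt_eq_wtm {n : ℕ} (e : Fin n →₀ ℕ) : LL.wt e = wtm e := rfl

/-- Every cocycle can be normalised: `κ_i` vanishes on `q_0 D_n`. -/
theorem exists_nrm {n N : ℕ} (hn : 1 ≤ n) (f : DSFacts n 0) (c : Coc n 0 N) :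
    ∃ c' : Coc n 0 N, ∃ l : D n →ₗ[ZMod 2] ZMod 2,
      (∀ (a : ℕ) (x : D n), 1 ≤ a → c'.th a x = c.th a x + l (s n 0 a x)) ∧ Nrm c'.ka := by
  have hks : LL.KSupp 0 (N : ℤ) c.ka := LL.kSupp_of_hom (fun i h1 hi k X hX h =>
    c.ka_supp f h1 (by omega) k X hX h)
  have hl := LL.lam0_supp hn 0 (N : ℤ) c.ka hks
  refine ⟨c.cob f (LL.lam0 c.ka) (fun k x hx h => hl.hom k x hx h), LL.lam0 c.ka,
    fun a x ha => Coc.cob_th f ha x, ?_⟩
  intro i h1 hi X
  have key : ((c.cob f (LL.lam0 c.ka) (fun k x hx h => hl.hom k x hx h)).ka i).comp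
      (LinearMap.mulLeft (ZMod 2) (q n 0)) = 0 := by
    apply LL.ext_mon
    intro e
    rw [LinearMap.comp_apply, LinearMap.mulLeft_apply, LinearMap.zero_apply,
      ← LL.mon_sg 0 (by omega), ← LL.mon_add, Coc.cob_ka f h1 (by omega)]
    rw [← LL.step1 hn 0 (del n 0) (LL.isDelta_del hn 0) c.ka
      (fun i j hi1 hi hj1 hj X => c.K3 f hi1 (by omega) hj1 (by omega) hn X)
      (fun i hi1 hi X => c.K3_self f hi1 (by omega) hn X) i h1 hi]
    · exact CharTwo.add_self_eq_zero _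
    · rw [LL.ex_add, LL.ex_sg 0 0 (by omega), if_pos rfl]; omega
  exact LinearMap.congr_fun key X

/-- the exponents of the leading monomial -/
noncomputable def lexp {n : ℕ} (e : Fin (n + 1) →₀ ℕ) : Fin n →₀ ℕ :=
  Finsupp.equivFunOnFinite.symm fun i => e i.succ

theorem lead_eq {n : ℕ} (e : Fin (n + 1) →₀ ℕ) (h0 : e 0 = 0) :
    (∏ i : Fin (n + 1), q n ((i : ℕ) - 1) ^ e i) = mo (lexp e) := by
  rw [mo_eq_prod, Fin.prod_univ_succ, h0, pow_zero, one_mul]
  refine Finset.prod_congr rfl (fun i _ => ?_)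
  rw [gen_eq]
  rfl

theorem cf_oddPart {n : ℕ} (x : D n) (f : Fin n →₀ ℕ) (hf : ∀ i, Odd (f i)) :
    cf f (oddPart x) = cf f x := by
  refine mo_induction (P := fun x => cf f (oddPart x) = cf f x) ?_ ?_ ?_ x
  · rw [map_zero]
  · intro x y hx hy
    have hadd : ∀ u v : D n, cf f (u + v) = cf f u + cf f v := fun u v => MvPolynomial.coeff_add _ _ _
    rw [map_add, hadd, hadd, hx, hy]
  · intro e
    by_cases h : ∀ i, Odd (e i)
    · rw [oddPart_mo_of h]
    · rw [oddPart_mo_not h]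
      have h1 : cf f (mo e) = 0 := by
        unfold cf mo
        rw [MvPolynomial.coeff_monomial, if_neg]
        intro h2
        exact h (by rw [h2]; exact hf)
      rw [h1]
      exact MvPolynomial.coeff_zero _

theorem not_odd_of_mem {n : ℕ} {x : D n} (h : oddPart x = 0) {f : Fin n →₀ ℕ} (hf : f ∈ supp x) :
    ¬ ∀ i, Odd (f i) := by
  intro hall
  have h1 := cf_oddPart x f hall
  rw [h] at h1
  have h2 : cf f (0 : D n) = 0 := MvPolynomial.coeff_zero _
  rw [h2] at h1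
  exact (MvPolynomial.mem_support_iff.mp hf) h1.symm

theorem mem_supp_add {n : ℕ} {x : D n} {f g : Fin n →₀ ℕ} (hf : f ∈ supp x) (hg : f ≠ g) :
    f ∈ supp (x + mo g) := by
  refine MvPolynomial.mem_support_iff.mpr ?_
  have h1 : MvPolynomial.coeff f (x + mo g : MvPolynomial (Fin n) (ZMod 2)) =
      MvPolynomial.coeff f x + MvPolynomial.coeff f (mo g : MvPolynomial (Fin n) (ZMod 2)) :=
    MvPolynomial.coeff_add _ _ _
  have h2 : MvPolynomial.coeff f (mo g : MvPolynomial (Fin n) (ZMod 2)) = 0 := by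
    unfold mo
    rw [MvPolynomial.coeff_monomial, if_neg (Ne.symm hg)]
  rw [h2, add_zero] at h1
  intro h3
  have h4 := MvPolynomial.mem_support_iff.mp hf
  apply h4
  rw [← h1]
  exact h3

/-- All terms but the top one vanish, level zero. -/
theorem TH_eq_top {n N : ℕ} (hn : 2 ≤ n) (F : T1Facts n) (c : Coc n 0 N)
    (e : Fin (n + 1) →₀ ℕ) (h0 : e 0 = 0) (hN : (N : ℤ) = 1 + wtm e)
    (hnot : Even n ∨ ¬ ∀ i, i ≠ 0 → Odd (e i)) :
    c.TH (z n (mo e)) = 0 ∨ c.TH (z n (mo e)) = c.TH (mo (lexp e)) := by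
  have hlead := lead_z n e h0
  rw [lead_eq e h0] at hlead
  have heven := wtm_even e h0
  have hpar : (N + 0) % 2 = 1 := by
    obtain ⟨b, hb⟩ := heven
    omega
  have key : ∀ g ∈ supp (z n (mo e)), g ≠ lexp e → c.TH (mo g) = 0 := by
    intro g hg hne
    have h2 : 2 * wtm g < wtm e := hlead.2 g (mem_supp_add hg hne)
    have h3 := wtm_nonneg g
    obtain ⟨a, ha⟩ := Int.eq_ofNat_of_zero_le (show (0 : ℤ) ≤ N - wtm g by omega)
    have ha2 : wtm g + ((0 : ℕ) : ℤ) * (2 ^ n - 1) + a = N := by push_cast; linarith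
    have ha3 : a ≤ N := by
      have : (a : ℤ) ≤ N := by linarith
      exact_mod_cast this
    rw [c.TH_hom (hom_mo g) ha2 ha3]
    refine th_van (by omega) F c hpar g a ha2 (by push_cast; omega) ?_
    rintro ⟨hnn, hodd⟩
    rcases hnot with h | h
    · rw [Nat.even_iff] at h; omega
    · exact not_odd_of_mem (oddPart_z_ne n e h0 h) hg hodd
  have hsum := eq_sum_mo (z n (mo e))
  by_cases hmem : lexp e ∈ supp (z n (mo e))
  · right
    rw [hsum, map_sum, Finset.sum_eq_single (lexp e)]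
    · intro g hg hne
      exact key g hg hne
    · intro h; exact absurd hmem h
  · left
    rw [hsum, map_sum]
    refine Finset.sum_eq_zero (fun g hg => key g hg ?_)
    intro h; subst h; exact hmem hg

/-- `G` divisible by `q_0`: reduction to positive level. -/
theorem TH_pos {n N : ℕ} (hn : 2 ≤ n) (F : T1Facts n) (c : Coc n 0 N)
    (e : Fin (n + 1) →₀ ℕ) (h0 : 0 < e 0) (hN : (N : ℤ) = 1 + wtm e) :
    c.TH (z n (mo e)) = 0 := by
  set p := e 0 with hp
  have hsplit : e = Finsupp.single 0 p + e.erase 0 := (Finsupp.single_add_erase 0 e).symm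
  have hz : z n (mo e) = q n 0 ^ p * z n (mo (e.erase 0)) := by
    conv_lhs => rw [hsplit, ← mo_mul, map_mul]
    congr 1
    have : mo (Finsupp.single (0 : Fin (n+1)) p) = gen 0 ^ p := by
      rw [gen_eq_mo, mo_pow, Finsupp.smul_single, smul_eq_mul, mul_one]
    rw [this, map_pow, ← zmap_eq_z, zmap_gen]
    simp
  have h7 := congrArg wtm hsplit
  rw [wtm_add, wtm_single] at h7
  rw [hz, ← Coc.shift_TH c p]
  refine T1_mo n (by omega) F (0 + p) N _ (by omega) (e.erase 0) ?_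
  rw [hN, h7]
  simp only [LZ.w, Fin.val_zero, pow_zero]
  push_cast
  ring

/-- the all-odd case, `n` odd -/
theorem TH_odd {n N : ℕ} (hn : 3 ≤ n) (hno : Odd n) (F : T1Facts n) (c : Coc n 0 N)
    (e : Fin (n + 1) →₀ ℕ) (h0 : e 0 = 0) (hodd : ∀ i, i ≠ 0 → Odd (e i))
    (hN : (N : ℤ) = 1 + wtm e) : c.TH (z n (mo e)) = 0 := by
  have hlead := (lead_z n e h0).dle
  have hne1 : (⟨1, by omega⟩ : Fin (n+1)) ≠ 0 := fun h => by
    have := congrArg Fin.val h; simp at this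
  obtain ⟨r, hr⟩ := wtm_mod_four (by omega : 1 ≤ n) e h0 (hodd _ hne1)
  have hmod : (N + 0) % 4 = 3 := by omega
  obtain ⟨c', l, hl, hka⟩ := F.LL 0 N c (by have := Nat.odd_iff.mp hno; omega) hmod
  rw [← TH_cob F c c' l hl (wtm e) (by rw [hN]; push_cast; ring) (z n (mo e)) hlead]
  have hpar : (N + 0) % 2 = 1 := by omega
  obtain ⟨h5, h6⟩ := th_oddPart (by omega) F c' hpar hka
  have h8 : ∀ x, c'.TH x = c'.TH (oddPart x) := by
    intro x
    rw [c'.TH_apply, c'.TH_apply]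
    exact Finset.sum_congr rfl (fun a _ => h6 a x)
  rw [h8, oddPart_z_full n e h0 hodd]
  obtain ⟨mu, hmu⟩ := hno
  have hp : (1:ℤ) ≤ 2 ^ (n + 1) := one_le_pow₀ (by norm_num)
  obtain ⟨N', hN'⟩ := Int.eq_ofNat_of_zero_le
    (show (0:ℤ) ≤ 1 + wtm (halfE e) + mu * (2 ^ (n + 1) - 1) by
      have h2 := wtm_nonneg (halfE e)
      have h3 : (0:ℤ) ≤ mu * (2 ^ (n+1) - 1) := mul_nonneg (Int.natCast_nonneg _) (by linarith)
      linarith)
  have hNN : N = 2 * N' + n := by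
    have h7 := wtm_half e h0 hodd
    have h9 : (N : ℤ) = 2 * N' + n := by
      have h10 : (n : ℤ) = 2 * mu + 1 := by exact_mod_cast hmu
      rw [hN, h7, ← hN', h10, pow_succ]; ring
    exact_mod_cast h9
  rw [← c'.double_TH F mu N' (by omega) hNN h5 h6]
  exact T1_mo n (by omega) F mu N' _ (by omega) (halfE e) hN'.symm

/-- **T2**, monomials, rank `n = p + 1 ≥ 4`. -/
theorem T2_mo {p N : ℕ} (hp : 3 ≤ p) (F : T1Facts (p + 1)) (f : DSFacts (p + 1) 0)
    (g : DSFacts p 0) (c : Coc (p + 1) 0 N) (e : Fin (p + 1 + 1) →₀ ℕ) (he : e ≠ 0)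
    (hN : (N : ℤ) = 1 + wtm e) : c.TH (z (p + 1) (mo e)) = 0 := by
  rcases Nat.eq_zero_or_pos (e 0) with h0 | h0
  swap
  · exact TH_pos (by omega) F c e h0 hN
  by_cases hall : Odd (p + 1) ∧ ∀ i, i ≠ 0 → Odd (e i)
  · exact TH_odd (by omega) hall.1 F c e h0 hall.2 hN
  have hnot : Even (p + 1) ∨ ¬ ∀ i, i ≠ 0 → Odd (e i) := by
    rcases Nat.even_or_odd (p + 1) with h | h
    · exact Or.inl h
    · exact Or.inr (fun h2 => hall ⟨h, h2⟩)
  obtain ⟨c', l, hl, hnrm⟩ := exists_nrm (by omega) f c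
  have hlead := lead_z (p + 1) e h0
  rw [lead_eq e h0] at hlead
  rw [← TH_cob F c c' l hl (wtm e) (by rw [hN]; push_cast; ring) (z (p + 1) (mo e)) hlead.dle]
  rcases TH_eq_top (by omega) F c' e h0 hN hnot with h1 | h1
  · exact h1
  rw [h1]
  -- the degree of the leading monomial
  have hw : 2 * wtm (lexp e) = wtm e := by
    have h3 : wtm e = ∑ i : Fin (p + 1), ((e i.succ : ℕ) : ℤ) * LZ.w (p + 1 + 1) i.succ := by
      unfold wtm
      rw [Fin.sum_univ_succ, h0]; simp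
    rw [h3, wtm, Finset.mul_sum]
    refine Finset.sum_congr rfl (fun i _ => ?_)
    have h2 : lexp e i = e i.succ := rfl
    rw [h2]
    simp only [LZ.w, Fin.val_succ, pow_succ]
    ring
  have hne : lexp e ≠ 0 := by
    intro h
    apply he
    apply Finsupp.ext
    intro i
    refine Fin.cases h0 (fun i => ?_) i
    exact DFunLike.congr_fun h i
  obtain ⟨ℓ, hℓ⟩ := Int.eq_ofNat_of_zero_le (wtm_nonneg (lexp e))
  have ha : wtm (lexp e) + ((0 : ℕ) : ℤ) * (2 ^ (p + 1) - 1) + ((ℓ + 1 : ℕ) : ℤ) = N := by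
    push_cast; linarith
  have ha2 : ℓ + 1 ≤ N := by
    have : ((ℓ + 1 : ℕ) : ℤ) ≤ N := by
      have := wtm_nonneg (lexp e)
      push_cast at ha ⊢; linarith
    exact_mod_cast this
  rw [c'.TH_hom (hom_mo _) ha ha2, ← mon_eq_mo]
  refine top_mon f g hp (fun a ha X => c'.K1 f (by omega) ha X)
    (fun b hb X => c'.K1_odd f (by omega) hb X)
    (fun i h1 hi a ha X => c'.K2 f h1 hi ha X) hnrm hne (by rw [wt_eq_wtm]; exact hℓ) ?_
  rcases hnot with h | h
  · exact Or.inl h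
  · right
    push Not at h
    obtain ⟨i, hi0, hi⟩ := h
    obtain ⟨i', rfl⟩ := Fin.exists_succ_eq.mpr hi0
    refine ⟨i', i'.2, ?_⟩
    unfold LL.ex
    rw [dif_pos i'.2]
    exact Nat.not_odd_iff_even.mp hi

/-- **T2**: cocycles of level zero, rank `n = p + 1 ≥ 4`. -/
theorem T2_main {p N : ℕ} (hp : 3 ≤ p) (F : T1Facts (p + 1)) (f : DSFacts (p + 1) 0)
    (g : DSFacts p 0) (c : Coc (p + 1) 0 N) {k : ℤ} (hk : 0 < k) (G : D (p + 1 + 1))
    (hG : Hom (p + 1 + 1) k G) (hN : (N : ℤ) = 1 + k) : c.TH (z (p + 1) G) = 0 := by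
  have hsum := eq_sum_mo G
  rw [hsum, map_sum, map_sum]
  refine Finset.sum_eq_zero (fun e he => ?_)
  have hw := hom_wtm hG he
  refine T2_mo hp F f g c e ?_ (by rw [hw]; exact hN)
  intro h
  subst h
  rw [wtm_zero] at hw
  omega

end Vale.Agent.P263.EX.T2
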