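import Vale.Agent.P263.EX.T2e

/-!
P263, block T2 (helper564): hit elements, ranks two and three.
-/

namespace Vale.Agent.P263.EX.T2

open Polynomial Vale.Agent.P263.LZ Vale.Agent.P263.EX Vale.Agent.P263.EX.DS

theorem cartan (n a : ℕ) (x y : D n) : s n 0 a (x * y) =
    ∑ u ∈ Finset.range (a + 1), s n 0 u x * s n 0 (a - u) y := by
  simp only [s0_apply]
  rw [map_mul, coeff_mul, Finset.Nat.sum_antidiagonal_eq_sum_range_succ_mk]

/-- the span of the images of the squares of positive degree (level zero) -/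
noncomputable def HH (p : ℕ) : Submodule (ZMod 2) (D p) :=
  Submodule.span (ZMod 2) {x | ∃ a : ℕ, 1 ≤ a ∧ ∃ (k : ℤ) (y : D p), Hom p k y ∧ x = s p 0 a y}

theorem s_mem {p a : ℕ} (ha : 1 ≤ a) {k : ℤ} {y : D p} (hy : Hom p k y) : s p 0 a y ∈ HH p :=
  Submodule.subset_span ⟨a, ha, k, y, hy, rfl⟩

theorem sq_mem {p : ℕ} {k : ℤ} {y : D p} (hy : Hom p k y) (hk : 0 < k) : y ^ 2 ∈ HH p := by
  obtain ⟨a, ha⟩ := Int.eq_ofNat_of_zero_le hk.le
  have h1 : s p 0 a y = y ^ 2 := by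
    rw [s_top hy (by push_cast; rw [ha]; push_cast; ring), pow_zero, one_mul]
  rw [← h1]
  exact s_mem (by omega) hy

theorem kev_mem {p : ℕ} {θ κ : ℕ → D (p + 1) →ₗ[ZMod 2] ZMod 2} (f : DSFacts (p + 1) 0)
    (h2 : K2 θ κ) (hN : Nrm κ) {x : D p} (hx : x ∈ HH p) : κ 1 ((j p x) ^ 2) = 0 := by
  induction hx using Submodule.span_induction with
  | mem x hx =>
    obtain ⟨a, ha, k, y, hy, rfl⟩ := hx
    have h := kev f h2 (by omega) (c := a) ha (j p y)
    rw [nrm_sq hN, r_s_even, r_j] at h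
    exact h
  | zero => rw [map_zero]; simp
  | add x y _ _ hx hy => rw [map_add, CharTwo.add_sq, map_add, hx, hy, add_zero]
  | smul a x _ hx =>
    rcases zmod2 a with h | h
    · rw [h, zero_smul, map_zero]; simp
    · rw [h, one_smul]; exact hx

theorem Hom.nonneg_of_ne {p : ℕ} {k : ℤ} {y : D p} (hy : Hom p k y) (h : y ≠ 0) : 0 ≤ k := by
  by_contra hc
  exact h (hy.eq_zero_of_neg (by omega))

/-- `t (Sq^a y)^2 = Sq^(2a) (t y^2) + Sq^2 t (Sq^(a-1) y)^2` if `|t| ≤ 2` -/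
theorem s_t_sq {p : ℕ} {t : D p} {u : ℤ} (ht : Hom p u t) (hu : u ≤ 2) {a : ℕ} (ha : 1 ≤ a)
    (y : D p) : s p 0 (2 * a) (t * y ^ 2) =
      t * (s p 0 a y) ^ 2 + s p 0 2 t * (s p 0 (a - 1) y) ^ 2 := by
  obtain ⟨b, rfl⟩ : ∃ b, a = b + 1 := ⟨a - 1, by omega⟩
  rw [cartan, show 2 * (b + 1) + 1 = 2 * b + 1 + 1 + 1 by ring, Finset.sum_range_succ',
    Finset.sum_range_succ', Finset.sum_range_succ']
  have h0 : ∑ k ∈ Finset.range (2 * b), s p 0 (k + 1 + 1 + 1) t *
      s p 0 (2 * (b + 1) - (k + 1 + 1 + 1)) (y ^ 2) = 0 := by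
    refine Finset.sum_eq_zero (fun k _ => ?_)
    rw [s_eq_zero ht (by push_cast; omega), zero_mul]
  have h1 : 2 * (b + 1) - (0 + 1) = 2 * b + 1 := by omega
  have h2 : 2 * (b + 1) - (0 + 1 + 1) = 2 * b := by omega
  rw [h0, h1, h2, s_sq_odd, s_sq_even, mul_zero, add_zero, zero_add, Nat.sub_zero, s_sq_even,
    s_zero, Nat.add_sub_cancel, add_comm]

theorem mul_sq_mem {p : ℕ} {t : D p} {u : ℤ} (ht : Hom p u t) (hu : u ≤ 2) (hu0 : 0 < u)
    (h2 : s p 0 2 t = 0 ∨ s p 0 2 t = t ^ 2) {x : D p} (hx : x ∈ HH p) : t * x ^ 2 ∈ HH p := by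
  induction hx using Submodule.span_induction with
  | mem x hx =>
    obtain ⟨a, ha, k, y, hy, rfl⟩ := hx
    by_cases hy0 : y = 0
    · subst hy0; rw [map_zero]; simp
    have hk := Hom.nonneg_of_ne hy hy0
    have h := s_t_sq ht hu ha y
    have h3 : t * (s p 0 a y) ^ 2 = s p 0 (2 * a) (t * y ^ 2) +
        s p 0 2 t * (s p 0 (a - 1) y) ^ 2 := by
      rw [h, add_assoc, CharTwo.add_self_eq_zero, add_zero]
    rw [h3]
    refine Submodule.add_mem _ (s_mem (by omega) (ht.mul (hy.pow 2))) ?_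
    rcases h2 with h2 | h2
    · rw [h2, zero_mul]; exact Submodule.zero_mem _
    · rw [h2, ← mul_pow]
      refine sq_mem (ht.mul (s_hom hy 0 (a - 1))) ?_
      have : (0 : ℤ) ≤ ((a - 1 : ℕ) : ℤ) := Int.natCast_nonneg _
      omega
  | zero => simp
  | add x y _ _ hx hy => rw [CharTwo.add_sq, mul_add]; exact Submodule.add_mem _ hx hy
  | smul a x _ hx =>
    rcases zmod2 a with h | h
    · rw [h, zero_smul]; simp
    · rw [h, one_smul]; exact hx

/-! ### rank one -/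

theorem hom_q10 : Hom 1 1 (q 1 0) := (Hom.q 1 0).congr (by norm_num)

theorem mem_one : ∀ x : ℕ, (∀ r, x + 1 ≠ 2 ^ r) → q 1 0 ^ x ∈ HH 1 := by
  intro x
  induction x using Nat.strong_induction_on with
  | _ x ih =>
    intro hx
    rcases Nat.even_or_odd' x with ⟨y, hy | hy⟩
    · have hy0 : 0 < y := by
        rcases Nat.eq_zero_or_pos y with h | h
        · exact absurd (by rw [hy, h]; rfl) (hx 0)
        · exact h
      rw [hy, mul_comm 2 y, pow_mul]
      exact sq_mem (hom_q10.pow y) (by push_cast; omega)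
    · have h1 : q 1 0 ^ y ∈ HH 1 := by
        refine ih y (by omega) (fun r hr => hx (r + 1) ?_)
        rw [hy, pow_succ, ← hr]; ring
      have h2 := mul_sq_mem hom_q10 (by norm_num) (by norm_num)
        (Or.inl (s_eq_zero hom_q10 (by norm_num))) h1
      have h3 : q 1 0 ^ x = q 1 0 * (q 1 0 ^ y) ^ 2 := by rw [hy]; ring
      rw [h3]; exact h2

/-! ### rank two -/

theorem hom_q20 : Hom 2 3 (q 2 0) := (Hom.q 2 0).congr (by norm_num)
theorem hom_q21 : Hom 2 2 (q 2 1) := (Hom.q 2 1).congr (by norm_num)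

theorem s2_q21 : s 2 0 2 (q 2 1) = q 2 1 ^ 2 := by
  rw [s_top hom_q21 (by norm_num), pow_zero, one_mul]

theorem s1_q21 : s 2 0 1 (q 2 1) = q 2 0 := s1_q_one le_rfl
theorem s1_q20 : s 2 0 1 (q 2 0) = 0 := s1_q le_rfl (by norm_num) (by norm_num)

theorem s2_q20 : s 2 0 2 (q 2 0) = q 2 0 * q 2 1 := by
  rw [s0_apply, P_q0, coeff_C_mul]
  congr 1
  unfold F
  rw [Finset.sum_range_succ, Finset.sum_range_succ, Finset.sum_range_one, coeff_add, coeff_add,
    coeff_C_mul, coeff_C_mul, coeff_C_mul, coeff_X_pow, coeff_X_pow, coeff_X_pow]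
  norm_num

theorem s1_pow (n k : ℕ) (x : D n) : s n 0 1 (x ^ k) = (k : D n) * x ^ (k - 1) * s n 0 1 x := by
  induction k with
  | zero => rw [pow_zero, s_one n 1 (by norm_num)]; simp
  | succ k ih =>
    rw [pow_succ, cartan1, ih]
    rcases k with _ | k
    · simp
    · simp only [Nat.add_sub_cancel]
      push_cast
      ring

theorem hom_mon2 (a b : ℕ) : Hom 2 (3 * a + 2 * b) (q 2 0 ^ a * q 2 1 ^ b) :=
  ((hom_q20.pow a).mul (hom_q21.pow b)).congr (by ring)

theorem mem_two_even {a b : ℕ} (ha : 1 ≤ a) (hb : Even b) : q 2 0 ^ a * q 2 1 ^ b ∈ HH 2 := by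
  obtain ⟨c, rfl⟩ : ∃ c, a = c + 1 := ⟨a - 1, by omega⟩
  have h : s 2 0 1 (q 2 0 ^ c * q 2 1 ^ (b + 1)) = q 2 0 ^ (c + 1) * q 2 1 ^ b := by
    rw [cartan1, s1_pow, s1_pow, s1_q20, s1_q21, natCast_zmod 2 (b + 1), if_neg (by
      rw [Nat.not_even_iff_odd]; exact hb.add_one), Nat.add_sub_cancel]
    ring
  rw [← h]
  exact s_mem le_rfl (hom_mon2 c (b + 1))

theorem mem_two : ∀ K a b : ℕ, a + b = K → (a ≠ 0 ∨ ∀ r, b + 1 ≠ 2 ^ r) →
    q 2 0 ^ a * q 2 1 ^ b ∈ HH 2 := by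
  intro K
  induction K using Nat.strong_induction_on with
  | _ K ih =>
    intro a b hK hx
    rcases Nat.even_or_odd' b with ⟨y, hy | hy⟩
    · rcases Nat.eq_zero_or_pos a with ha | ha
      · have hb : ∀ r, b + 1 ≠ 2 ^ r := by
          rcases hx with h | h
          · exact absurd ha h
          · exact h
        have hy0 : 0 < y := by
          rcases Nat.eq_zero_or_pos y with h | h
          · exact absurd (by rw [hy, h]; rfl) (hb 0)
          · exact h
        rw [ha, hy, mul_comm 2 y, pow_mul, pow_zero, one_mul]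
        exact sq_mem (hom_q21.pow y) (by push_cast; omega)
      · exact mem_two_even ha ⟨y, by omega⟩
    · rcases Nat.even_or_odd' a with ⟨c, hc | hc⟩
      · have h1 : q 2 0 ^ c * q 2 1 ^ y ∈ HH 2 := by
          refine ih (c + y) (by omega) c y rfl ?_
          rcases hx with h | h
          · exact Or.inl (by omega)
          · right
            intro r hr
            refine h (r + 1) ?_
            rw [hy, pow_succ, ← hr]; ring
        have h2 := mul_sq_mem hom_q21 (by norm_num) (by norm_num) (Or.inr s2_q21) h1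
        have h3 : q 2 0 ^ a * q 2 1 ^ b = q 2 1 * (q 2 0 ^ c * q 2 1 ^ y) ^ 2 := by
          rw [hy, hc]; ring
        rw [h3]; exact h2
      · -- both odd
        have h1 : s 2 0 2 (q 2 0 * (q 2 0 ^ c * q 2 1 ^ y) ^ 2) =
            q 2 0 ^ a * q 2 1 ^ b + q 2 0 * (s 2 0 1 (q 2 0 ^ c * q 2 1 ^ y)) ^ 2 := by
          rw [cartan2, s2_q20, s1_q20]
          have h4 : s 2 0 2 ((q 2 0 ^ c * q 2 1 ^ y) ^ 2) =
              (s 2 0 1 (q 2 0 ^ c * q 2 1 ^ y)) ^ 2 := s_sq_even 2 1 _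
          rw [h4, hc, hy]; ring
        have h2 : q 2 0 ^ a * q 2 1 ^ b = s 2 0 2 (q 2 0 * (q 2 0 ^ c * q 2 1 ^ y) ^ 2) +
            q 2 0 * (s 2 0 1 (q 2 0 ^ c * q 2 1 ^ y)) ^ 2 := by
          rw [h1, add_assoc, CharTwo.add_self_eq_zero, add_zero]
        rw [h2]
        refine Submodule.add_mem _ (s_mem (by norm_num) (hom_q20.mul ((hom_mon2 c y).pow 2))) ?_
        rw [cartan1, s1_pow, s1_pow, s1_q20, s1_q21, mul_zero, zero_mul, zero_add,
          natCast_zmod 2 y]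
        split_ifs with h5
        · simp
        · have h6 : q 2 0 * (q 2 0 ^ c * (1 * q 2 1 ^ (y - 1) * q 2 0)) ^ 2 =
              q 2 0 ^ (2 * c + 3) * q 2 1 ^ (2 * (y - 1)) := by ring
          rw [h6]
          exact mem_two_even (by omega) (even_two_mul _)

end Vale.Agent.P263.EX.T2
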