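import Vale.Agent.P263.EX.T3

/-! P263: the unconditional form of `T3` (Case 2, all levels). -/

namespace Vale.Agent.P263.EX

open Polynomial Vale.Agent.P263.LZ Vale.Agent.P263.EX.DS

/-- **T3**, unconditional. -/
theorem T3' {n : ℕ} (hn : 2 ≤ n) {w j : ℕ} (c : Coc n (j + 1) (2 * w + j + 1))
    {y : D n →ₗ[ZMod 2] ZMod 2} (hy : Ann n j w y)
    (hc : ∀ x, y (q n 0 * x) = c.th (w + j + 1) x) (x : D n) : y (q n 0 * x) = 0 :=
  T3 n hn (t1Facts (by omega)) (dsFacts (by omega)) w j c y hy hc x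

end Vale.Agent.P263.EX
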